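import Mathlib

/-!
# Row 191 (no fixed price), module M0: the group

`Γ = ⟨t, x_a | t⁻¹ x_a t = w_a⟩`, ascending HNN extension of a free group `F` along the endomorphism
`φ = phi w` given by positive words `w a` with injective first letters and injective last letters.

* `blockWord`, `phi`, `toWord_phi`: `φ` has no cancellation on reduced words; `phi_injective`.
* `Gam`, `iota`, `tt`, `height`: the group, `F → Γ` (injective), `t`, the height homomorphism.
* `latin d`: the row-complete Latin square on `ZMod d`, `d` even (zig-zag sequencing).
-/

set_option autoImplicit false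

namespace Crest.Agent.NoFixedPrice

open FreeGroup

section Block

variable {α : Type*}

/-- A positive word as a list of letters with signs. -/
def pos (u : List α) : List (α × Bool) := u.map (fun a => (a, true))

/-- The formal inverse of a positive word. -/
def neg (u : List α) : List (α × Bool) := u.reverse.map (fun a => (a, false))

/-- The block `w_a^{±1}` of a signed letter. -/
def block (w : α → List α) (l : α × Bool) : List (α × Bool) :=
  if l.2 then pos (w l.1) else neg (w l.1)

/-- Replace each signed letter by its block. -/
def blockWord (w : α → List α) : List (α × Bool) → List (α × Bool)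
  | [] => []
  | l :: L => block w l ++ blockWord w L

@[simp] theorem blockWord_nil (w : α → List α) : blockWord w [] = [] := rfl

@[simp] theorem blockWord_cons (w : α → List α) (l : α × Bool) (L : List (α × Bool)) :
    blockWord w (l :: L) = block w l ++ blockWord w L := rfl

theorem blockWord_append (w : α → List α) (L₁ L₂ : List (α × Bool)) :
    blockWord w (L₁ ++ L₂) = blockWord w L₁ ++ blockWord w L₂ := by
  induction L₁ with
  | nil => simp
  | cons l L ih => simp [ih, List.append_assoc]

theorem invRev_pos (u : List α) : invRev (pos u) = neg u := by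
  simp only [invRev, pos, neg, List.map_reverse, List.map_map]
  rfl

theorem invRev_neg (u : List α) : invRev (neg u) = pos u := by
  simp only [invRev, pos, neg, List.map_reverse, List.map_map, List.reverse_reverse]
  rfl

theorem invRev_block (w : α → List α) (l : α × Bool) :
    invRev (block w l) = block w (l.1, !l.2) := by
  rcases l with ⟨a, b⟩
  cases b <;> simp [block, invRev_pos, invRev_neg]

theorem blockWord_invRev (w : α → List α) (L : List (α × Bool)) :
    blockWord w (invRev L) = invRev (blockWord w L) := by
  induction L with
  | nil => simp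
  | cons l L ih =>
    have h1 : invRev (l :: L) = invRev L ++ [(l.1, !l.2)] := by simp [invRev]
    rw [h1, blockWord_append, blockWord_cons, blockWord_nil, List.append_nil, ih, ← invRev_block,
      blockWord_cons, invRev_append]

theorem length_pos' (u : List α) : (pos u).length = u.length := by simp [pos]

theorem length_neg' (u : List α) : (neg u).length = u.length := by simp [neg]

theorem length_block (w : α → List α) (l : α × Bool) : (block w l).length = (w l.1).length := by
  rcases l with ⟨a, b⟩
  cases b <;> simp [block, length_pos', length_neg']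

theorem length_blockWord (w : α → List α) {n : ℕ} (hn : ∀ a, (w a).length = n)
    (L : List (α × Bool)) : (blockWord w L).length = n * L.length := by
  induction L with
  | nil => simp
  | cons l L ih =>
    rw [blockWord_cons, List.length_append, ih, length_block, hn, List.length_cons]
    ring

/-- Words that do not cancel: nonempty, with injective first letters and injective last letters. -/
structure Good (w : α → List α) : Prop where
  ne_nil : ∀ a, w a ≠ []
  head_inj : ∀ a b, (w a).head? = (w b).head? → a = b
  last_inj : ∀ a b, (w a).getLast? = (w b).getLast? → a = b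

theorem isReduced_pos (u : List α) : IsReduced (pos u) := by
  induction u with
  | nil => exact IsReduced.nil
  | cons a u ih =>
    cases u with
    | nil => exact IsReduced.singleton
    | cons b u =>
      simp only [pos, List.map_cons] at ih ⊢
      exact isReduced_cons_cons.2 ⟨fun _ => rfl, ih⟩

theorem isReduced_neg (u : List α) : IsReduced (neg u) := by
  have h : ∀ v : List α, IsReduced (v.map (fun a => ((a, false) : α × Bool))) := by
    intro v
    induction v with
    | nil => exact IsReduced.nil
    | cons a v ih =>
      cases v with
      | nil => exact IsReduced.singleton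
      | cons b v =>
        simp only [List.map_cons] at ih ⊢
        exact isReduced_cons_cons.2 ⟨fun _ => rfl, ih⟩
  exact h _

theorem isReduced_block (w : α → List α) (l : α × Bool) : IsReduced (block w l) := by
  rcases l with ⟨a, b⟩
  cases b
  · simpa [block] using isReduced_neg (w a)
  · simpa [block] using isReduced_pos (w a)

theorem block_ne_nil {w : α → List α} (hw : Good w) (l : α × Bool) : block w l ≠ [] := by
  intro h
  have := length_block w l
  rw [h] at this
  exact hw.ne_nil l.1 (List.length_eq_zero_iff.1 this.symm)

theorem head?_blockWord {w : α → List α} (hw : Good w) (l : α × Bool) (L : List (α × Bool)) :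
    (blockWord w (l :: L)).head? = (block w l).head? := by
  rw [blockWord_cons, List.head?_append_of_ne_nil _ (block_ne_nil hw l)]

theorem junction {w : α → List α} (hw : Good w) {l m : α × Bool} (h : l.1 = m.1 → l.2 = m.2)
    {x y : α × Bool} (hx : x ∈ (block w l).getLast?) (hy : y ∈ (block w m).head?) :
    x.1 = y.1 → x.2 = y.2 := by
  rcases l with ⟨a, b⟩
  rcases m with ⟨c, e⟩
  obtain ⟨u, hu⟩ : ∃ u, w a = u := ⟨_, rfl⟩
  obtain ⟨v, hv⟩ : ∃ v, w c = v := ⟨_, rfl⟩
  have hu0 : u ≠ [] := hu ▸ hw.ne_nil a
  have hv0 : v ≠ [] := hv ▸ hw.ne_nil c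
  cases b <;> cases e
  · -- both negative
    simp only [block, neg, Bool.false_eq_true, if_false] at hx hy
    simp only [List.getLast?_map, List.head?_map, Option.mem_def, Option.map_eq_some_iff] at hx hy
    obtain ⟨_, _, rfl⟩ := hx
    obtain ⟨_, _, rfl⟩ := hy
    simp
  · -- negative then positive: first letters differ
    simp only [block, neg, pos, Bool.false_eq_true, if_false, if_true, List.getLast?_map,
      List.head?_map, Option.mem_def, Option.map_eq_some_iff, List.getLast?_reverse] at hx hy
    obtain ⟨p, hp, rfl⟩ := hx
    obtain ⟨q, hq, rfl⟩ := hy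
    intro hpq
    simp only at hpq
    subst hpq
    have : a = c := hw.head_inj a c (by rw [hp, hq])
    have := h this
    simp at this
  · -- positive then negative: last letters differ
    simp only [block, neg, pos, Bool.false_eq_true, if_false, if_true, List.getLast?_map,
      List.head?_map, Option.mem_def, Option.map_eq_some_iff, List.head?_reverse] at hx hy
    obtain ⟨p, hp, rfl⟩ := hx
    obtain ⟨q, hq, rfl⟩ := hy
    intro hpq
    simp only at hpq
    subst hpq
    have : a = c := hw.last_inj a c (by rw [hp, hq])
    have := h this
    simp at this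
  · -- both positive
    simp only [block, pos, if_true, List.getLast?_map, List.head?_map, Option.mem_def,
      Option.map_eq_some_iff] at hx hy
    obtain ⟨_, _, rfl⟩ := hx
    obtain ⟨_, _, rfl⟩ := hy
    simp

theorem isReduced_blockWord {w : α → List α} (hw : Good w) {L : List (α × Bool)}
    (hL : IsReduced L) : IsReduced (blockWord w L) := by
  induction L with
  | nil => exact IsReduced.nil
  | cons l L ih =>
    cases L with
    | nil => simpa using isReduced_block w l
    | cons m L =>
      have h := isReduced_cons_cons.1 hL
      have ih' := ih h.2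
      rw [blockWord_cons]
      refine List.isChain_append.2 ⟨isReduced_block w l, ih', ?_⟩
      intro x hx y hy
      rw [head?_blockWord hw] at hy
      exact junction hw h.1 hx hy

section Phi

variable [DecidableEq α]

/-- The endomorphism `x_a ↦ w_a`. -/
def phi (w : α → List α) : FreeGroup α →* FreeGroup α :=
  FreeGroup.lift (fun a => mk (pos (w a)))

omit [DecidableEq α] in
theorem phi_mk (w : α → List α) (L : List (α × Bool)) : phi w (mk L) = mk (blockWord w L) := by
  induction L with
  | nil => rw [blockWord_nil, ← FreeGroup.one_eq_mk, _root_.map_one]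
  | cons l L ih =>
    have h : (mk (l :: L) : FreeGroup α) = mk [l] * mk L := by simp [mul_mk]
    rw [h, _root_.map_mul, ih, blockWord_cons, ← mul_mk]
    congr 1
    rcases l with ⟨a, b⟩
    cases b
    · have h1 : (mk [(a, false)] : FreeGroup α) = (FreeGroup.of a)⁻¹ := by
        simp [FreeGroup.of, inv_mk, invRev]
      rw [h1, _root_.map_inv]
      simp [phi, block, inv_mk, invRev_pos]
    · have h1 : (mk [(a, true)] : FreeGroup α) = FreeGroup.of a := rfl
      rw [h1]
      simp [phi, block]

omit [DecidableEq α] in
theorem phi_of (w : α → List α) (a : α) : phi w (FreeGroup.of a) = mk (pos (w a)) := by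
  simp [phi]

theorem toWord_phi {w : α → List α} (hw : Good w) (g : FreeGroup α) :
    (phi w g).toWord = blockWord w g.toWord := by
  conv_lhs => rw [← mk_toWord (x := g)]
  rw [phi_mk, toWord_mk]
  exact (isReduced_blockWord hw isReduced_toWord).reduce_eq

theorem phi_injective {w : α → List α} (hw : Good w) : Function.Injective (phi w) := by
  rw [injective_iff_map_eq_one]
  intro g hg
  have h := toWord_phi hw g
  rw [hg, toWord_one] at h
  rw [← toWord_eq_nil_iff]
  cases hL : g.toWord with
  | nil => rfl
  | cons l L =>
    rw [hL, blockWord_cons] at h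
    have := List.append_eq_nil_iff.1 h.symm
    exact absurd this.1 (block_ne_nil hw l)

end Phi

end Block

section Gamma

variable {α : Type} [DecidableEq α] {w : α → List α}

/-- `F ≃ φ(F)`. -/
noncomputable def phiEquiv (hw : Good w) :
    (⊤ : Subgroup (FreeGroup α)) ≃* (phi w).range :=
  Subgroup.topEquiv.trans (MonoidHom.ofInjective (phi_injective hw))

theorem phiEquiv_apply (hw : Good w) (a : (⊤ : Subgroup (FreeGroup α))) :
    ((phiEquiv hw a : (phi w).range) : FreeGroup α) = phi w a := rfl

/-- The ascending HNN extension `Γ = ⟨t, x_a | t⁻¹ x_a t = w_a⟩`. -/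
abbrev Gam (hw : Good w) : Type :=
  HNNExtension (FreeGroup α) ⊤ (phi w).range (phiEquiv hw)

/-- The inclusion of the free group. -/
noncomputable def iota (hw : Good w) : FreeGroup α →* Gam hw := HNNExtension.of

theorem iota_injective (hw : Good w) : Function.Injective (iota hw) :=
  HNNExtension.of_injective _

/-- The stable letter, with the convention `t⁻¹ x t = φ x`. -/
noncomputable def tt (hw : Good w) : Gam hw := (HNNExtension.t)⁻¹

theorem tt_conj (hw : Good w) (x : FreeGroup α) :
    (tt hw)⁻¹ * iota hw x * tt hw = iota hw (phi w x) := by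
  have h := HNNExtension.equiv_eq_conj (φ := phiEquiv hw) (⟨x, Subgroup.mem_top x⟩)
  simp only [tt, inv_inv, iota]
  rw [phiEquiv_apply] at h
  exact h.symm

theorem iota_mul_tt (hw : Good w) (x : FreeGroup α) :
    iota hw x * tt hw = tt hw * iota hw (phi w x) := by
  rw [← tt_conj]; group

/-- The height homomorphism, `t ↦ 1`, `F ↦ 0`. -/
noncomputable def height (hw : Good w) : Gam hw →* Multiplicative ℤ :=
  HNNExtension.lift (1 : FreeGroup α →* Multiplicative ℤ) (Multiplicative.ofAdd (-1))
    (fun a => by simp)

@[simp] theorem height_iota (hw : Good w) (x : FreeGroup α) : height hw (iota hw x) = 1 := by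
  simp [height, iota]

@[simp] theorem height_tt (hw : Good w) : height hw (tt hw) = Multiplicative.ofAdd 1 := by
  simp [height, tt]

/-- Induction on `Γ`: generated by the letters and `t`. -/
theorem gam_induction (hw : Good w) {motive : Gam hw → Prop} (x : Gam hw)
    (one : motive 1)
    (of : ∀ a, motive (iota hw (FreeGroup.of a)))
    (t : motive (tt hw))
    (mul : ∀ x y, motive x → motive y → motive (x * y))
    (inv : ∀ x, motive x → motive x⁻¹) : motive x := by
  refine HNNExtension.induction_on x ?_ ?_ mul inv
  · intro g
    show motive (iota hw g)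
    induction g using FreeGroup.induction_on with
    | C1 => simpa using one
    | of a => exact of a
    | inv_of a ih => simpa using inv _ ih
    | mul x y hx hy => simpa using mul _ _ hx hy
  · have := inv _ t
    simpa [tt] using this

theorem gam_closure (hw : Good w) :
    Subgroup.closure (Set.range (fun a : α => iota hw (FreeGroup.of a)) ∪ {tt hw}) = ⊤ := by
  rw [eq_top_iff]
  intro x _
  refine gam_induction hw x (Subgroup.one_mem _) ?_ ?_ (fun _ _ => Subgroup.mul_mem _)
    (fun _ => Subgroup.inv_mem _)
  · intro a
    exact Subgroup.subset_closure (Or.inl ⟨a, rfl⟩)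
  · exact Subgroup.subset_closure (Or.inr rfl)

theorem gam_fg [Finite α] (hw : Good w) : Group.FG (Gam hw) := by
  rw [Group.fg_iff]
  refine ⟨_, gam_closure hw, ?_⟩
  exact (Set.finite_range _).union (Set.finite_singleton _)

theorem countable_freeGroup (β : Type) [Countable β] : Countable (FreeGroup β) := by
  classical
  have h : Function.Surjective (FreeGroup.mk : List (β × Bool) → FreeGroup β) :=
    fun x => ⟨x.toWord, FreeGroup.mk_toWord⟩
  exact h.countable

instance gam_countable [Countable α] (hw : Good w) : Countable (Gam hw) := by
  have := countable_freeGroup (Option α)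
  let f : FreeGroup (Option α) →* Gam hw :=
    FreeGroup.lift (fun o => o.elim (tt hw) (fun a => iota hw (FreeGroup.of a)))
  have hf : Function.Surjective f := by
    intro x
    refine gam_induction hw (motive := fun y => ∃ z, f z = y) x ⟨1, _root_.map_one f⟩ ?_ ?_ ?_ ?_
    · intro a
      exact ⟨FreeGroup.of (some a), by simp [f]⟩
    · exact ⟨FreeGroup.of none, by simp [f]⟩
    · rintro _ _ ⟨a, rfl⟩ ⟨b, rfl⟩
      exact ⟨a * b, _root_.map_mul f a b⟩
    · rintro _ ⟨a, rfl⟩
      exact ⟨a⁻¹, _root_.map_inv f a⟩
  exact hf.countable

theorem gam_closure' (hw : Good w) :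
    Subgroup.closure ({tt hw} ∪ Set.range (iota hw)) = ⊤ := by
  rw [eq_top_iff, ← gam_closure hw]
  apply Subgroup.closure_mono
  rintro x (⟨a, rfl⟩ | hx)
  · exact Or.inr ⟨_, rfl⟩
  · exact Or.inl hx

instance gam_infinite (hw : Good w) : Infinite (Gam hw) := by
  have h : Function.Injective (fun n : ℤ => (tt hw) ^ n) := by
    intro m n hmn
    have h2 := congrArg (height hw) hmn
    simp only [map_zpow, height_tt] at h2
    simpa [← ofAdd_zsmul] using h2
  exact Infinite.of_injective _ h

end Gamma

section Latin

/-- The zig-zag sequencing `0, 1, -1, 2, -2, ...`. -/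
def zig (k : ℕ) : ℤ := if k % 2 = 0 then -((k : ℤ) / 2) else ((k : ℤ) + 1) / 2

/-- The difference sequence of `zig`. -/
theorem zig_succ_sub (k : ℕ) :
    zig (k + 1) - zig k = if k % 2 = 0 then (k : ℤ) + 1 else -((k : ℤ) + 1) := by
  unfold zig
  push_cast
  split_ifs <;> omega

variable {d : ℕ}

theorem zig_cast_inj {k l : ℕ} (hk : k < d) (hl : l < d)
    (h : ((zig k : ℤ) : ZMod d) = ((zig l : ℤ) : ZMod d)) : k = l := by
  have h1 : (d : ℤ) ∣ zig l - zig k := by
    rw [ZMod.intCast_eq_intCast_iff] at h
    exact h.dvd
  have h2 : |zig l - zig k| < (d : ℤ) := by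
    rw [abs_lt]
    unfold zig
    split_ifs <;> constructor <;> omega
  have h3 := Int.eq_zero_of_abs_lt_dvd h1 h2
  unfold zig at h3
  split_ifs at h3 <;> omega

theorem zig_succ_sub_cast_inj (hd : 2 ∣ d) {k l : ℕ} (hk : k + 1 < d) (hl : l + 1 < d)
    (h : ((zig (k + 1) - zig k : ℤ) : ZMod d) = ((zig (l + 1) - zig l : ℤ) : ZMod d)) : k = l := by
  have h1 : (d : ℤ) ∣ (zig (l + 1) - zig l) - (zig (k + 1) - zig k) := by
    rw [ZMod.intCast_eq_intCast_iff] at h
    exact h.dvd
  have h2 : (2 : ℤ) ∣ (d : ℤ) := by exact_mod_cast hd
  have h3 := dvd_trans h2 h1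
  rw [zig_succ_sub, zig_succ_sub] at h1 h3
  -- `same parity`, so the difference is small
  by_cases hpk : k % 2 = 0 <;> by_cases hpl : l % 2 = 0
  · simp only [hpk, hpl, if_true] at h1
    have h4 : |((l : ℤ) + 1) - ((k : ℤ) + 1)| < (d : ℤ) := by
      rw [abs_lt]; constructor <;> omega
    have := Int.eq_zero_of_abs_lt_dvd h1 h4
    omega
  · simp only [hpk, hpl, if_true, if_false] at h3
    omega
  · simp only [hpk, hpl, if_true, if_false] at h3
    omega
  · simp only [hpk, hpl, if_false] at h1
    have h4 : |(-((l : ℤ) + 1)) - (-((k : ℤ) + 1))| < (d : ℤ) := by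
      rw [abs_lt]; constructor <;> omega
    have := Int.eq_zero_of_abs_lt_dvd h1 h4
    omega

/-- The `p`-th letter of the `i`-th row. -/
def latinLetter (i : ZMod d) (p : ℕ) : ZMod d := i + ((zig p : ℤ) : ZMod d)

/-- The `i`-th row of the row-complete Latin square. -/
def latin (d : ℕ) (i : ZMod d) : List (ZMod d) := (List.range d).map (latinLetter i)

@[simp] theorem length_latin (i : ZMod d) : (latin d i).length = d := by simp [latin]

theorem latin_getElem? (i : ZMod d) (p : ℕ) :
    (latin d i)[p]? = if p < d then some (latinLetter i p) else none := by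
  simp only [latin, List.getElem?_map]
  split_ifs with h
  · simp [h]
  · simp [h]

theorem latinLetter_inj (i : ZMod d) {p q : ℕ} (hp : p < d) (hq : q < d)
    (h : latinLetter i p = latinLetter i q) : p = q :=
  zig_cast_inj hp hq (add_left_cancel h)

theorem latin_nodup (i : ZMod d) : (latin d i).Nodup := by
  refine List.Nodup.map_on ?_ List.nodup_range
  intro p hp q hq h
  exact latinLetter_inj i (List.mem_range.1 hp) (List.mem_range.1 hq) h

/-- Ordered pairs of consecutive letters determine row and position. -/
theorem latin_pair_unique (hd : 2 ∣ d) {i j : ZMod d} {p q : ℕ} (hp : p + 1 < d) (hq : q + 1 < d)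
    (h0 : latinLetter i p = latinLetter j q)
    (h1 : latinLetter i (p + 1) = latinLetter j (q + 1)) : i = j ∧ p = q := by
  have hpq : p = q := by
    apply zig_succ_sub_cast_inj hd hp hq
    have h2 : latinLetter i (p + 1) - latinLetter i p = latinLetter j (q + 1) - latinLetter j q := by
      rw [h0, h1]
    simp only [latinLetter] at h2
    push_cast
    linear_combination h2
  subst hpq
  refine ⟨?_, rfl⟩
  simpa [latinLetter] using h0

/-- The same, for lookups in the lists. -/
theorem latin_pair_unique' (hd : 2 ∣ d) {i j : ZMod d} {p q : ℕ} {a b : ZMod d}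
    (h1 : (latin d i)[p]? = some a) (h2 : (latin d i)[p + 1]? = some b)
    (h3 : (latin d j)[q]? = some a) (h4 : (latin d j)[q + 1]? = some b) : i = j ∧ p = q := by
  rw [latin_getElem?] at h1 h2 h3 h4
  split_ifs at h1 h2 h3 h4 with hp hp' hq hq'
  all_goals simp_all
  exact latin_pair_unique hd hp' ‹_› (by simp_all) (by simp_all)

theorem latin_head? [NeZero d] (i : ZMod d) : (latin d i).head? = some i := by
  have h0 : 0 < d := NeZero.pos d
  rw [List.head?_eq_getElem?, latin_getElem?, if_pos h0]
  simp [latinLetter, zig]

theorem latin_getLast? [NeZero d] (i : ZMod d) :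
    (latin d i).getLast? = some (latinLetter i (d - 1)) := by
  have h0 : 0 < d := NeZero.pos d
  rw [List.getLast?_eq_getElem?, length_latin, latin_getElem?, if_pos (by omega)]

/-- The Latin square words do not cancel. -/
theorem latin_good (d : ℕ) [NeZero d] : Good (latin d) where
  ne_nil a := by
    intro h
    have := length_latin a
    rw [h] at this
    exact (NeZero.ne d) this.symm
  head_inj a b h := by
    rw [latin_head?, latin_head?] at h
    exact Option.some.inj h
  last_inj a b h := by
    rw [latin_getLast?, latin_getLast?] at h
    simpa [latinLetter] using Option.some.inj h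

end Latin

end Crest.Agent.NoFixedPrice
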