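import Crest.Agent.Lib.NoFixedPrice.ArcLemma
import Crest.Agent.Lib.NoFixedPrice.Group

/-!
# Row 191, module M4: the arc lemma for the concrete group of `Group.lean` (helper25)
-/

set_option autoImplicit false

namespace Crest.Agent.Lib.NoFixedPrice.Arc

open FreeGroup List
open Crest.Agent.NoFixedPrice

variable {α : Type*}

/-- Ordered pairs of consecutive letters determine the word and the position. -/
def PairUnique (w : α → List α) : Prop :=
  ∀ a b p c d q p' q', w a = p ++ c :: d :: q → w b = p' ++ c :: d :: q' →
    a = b ∧ p = p' ∧ q = q'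

theorem mem_block_sign (w : α → List α) (y : α × Bool) (x : α × Bool) (h : x ∈ block w y) :
    x.2 = y.2 := by
  obtain ⟨a, b⟩ := y
  cases b
  · simp only [block, Bool.false_eq_true, if_false, neg, List.mem_map] at h
    obtain ⟨c, _, rfl⟩ := h
    rfl
  · simp only [block, if_true, pos, List.mem_map] at h
    obtain ⟨c, _, rfl⟩ := h
    rfl

theorem map_split {β γ : Type*} (f : β → γ) {u : List β} {p q : List γ} {x1 x2 : γ}
    (h : u.map f = p ++ x1 :: x2 :: q) :
    ∃ P c d Q, u = P ++ c :: d :: Q ∧ p = P.map f ∧ x1 = f c ∧ x2 = f d ∧ q = Q.map f := by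
  rw [List.map_eq_append_iff] at h
  obtain ⟨P, R, rfl, h1, h2⟩ := h
  rw [List.map_eq_cons_iff] at h2
  obtain ⟨c, R1, rfl, h3, h4⟩ := h2
  rw [List.map_eq_cons_iff] at h4
  obtain ⟨d, Q, rfl, h5, h6⟩ := h4
  exact ⟨P, c, d, Q, rfl, h1.symm, h3.symm, h5.symm, h6.symm⟩

/-- Signed uniqueness of pairs. -/
theorem block_pair {w : α → List α} (hp : PairUnique w) {y y' : α × Bool}
    {p q p' q' : List (α × Bool)} {x1 x2 : α × Bool} (h : block w y = p ++ x1 :: x2 :: q)
    (h' : block w y' = p' ++ x1 :: x2 :: q') : y = y' ∧ p = p' ∧ q = q' := by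
  have hs : x1.2 = y.2 := mem_block_sign w y x1 (by rw [h]; simp)
  have hs' : x1.2 = y'.2 := mem_block_sign w y' x1 (by rw [h']; simp)
  obtain ⟨a, b⟩ := y
  obtain ⟨a', b'⟩ := y'
  simp only at hs hs'
  have hb : b = b' := hs.symm.trans hs'
  subst hb
  cases b with
  | true =>
    simp only [block, if_true, pos] at h h'
    obtain ⟨P, c, d, Q, h1, rfl, rfl, rfl, rfl⟩ := map_split _ h
    obtain ⟨P', c', d', Q', h1', rfl, hc, hd, rfl⟩ := map_split _ h'
    obtain rfl : c = c' := congrArg Prod.fst hc
    obtain rfl : d = d' := congrArg Prod.fst hd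
    obtain ⟨rfl, rfl, rfl⟩ := hp a a' P c d Q P' Q' h1 h1'
    exact ⟨rfl, rfl, rfl⟩
  | false =>
    simp only [block, Bool.false_eq_true, if_false, neg] at h h'
    obtain ⟨P, c, d, Q, h1, rfl, rfl, rfl, rfl⟩ := map_split _ h
    obtain ⟨P', c', d', Q', h1', rfl, hc, hd, rfl⟩ := map_split _ h'
    obtain rfl : c = c' := congrArg Prod.fst hc
    obtain rfl : d = d' := congrArg Prod.fst hd
    have e1 : w a = Q.reverse ++ d :: c :: P.reverse := by
      have := congrArg List.reverse h1
      simpa using this
    have e2 : w a' = Q'.reverse ++ d :: c :: P'.reverse := by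
      have := congrArg List.reverse h1'
      simpa using this
    obtain ⟨rfl, h5, h6⟩ := hp a a' _ d c _ _ _ e1 e2
    obtain rfl : Q = Q' := List.reverse_injective h5
    obtain rfl : P = P' := List.reverse_injective h6
    exact ⟨rfl, rfl, rfl⟩

theorem fst_pos (u : List α) : (pos u).map Prod.fst = u := by
  simp only [pos, List.map_map]
  exact List.map_id u
theorem fst_neg (u : List α) : (neg u).map Prod.fst = u.reverse := by
  simp only [neg, List.map_map]
  exact List.map_id _

theorem block_nc {w : α → List α} (hw : Good w) (y y' : α × Bool) (hr : IsReduced [y, y']) :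
    Nc (block w) y y' := by
  intro p x q h h'
  have hs : x.2 = y.2 := mem_block_sign w y x (by rw [h]; simp)
  have hs' : (!x.2) = y'.2 := mem_block_sign w y' (x.1, !x.2) (by rw [h']; simp)
  have hyy : y.1 ≠ y'.1 := by
    intro he
    have h2 := (isReduced_cons_cons.1 hr).1 he
    rw [← hs, ← hs'] at h2
    cases hx : x.2 <;> simp [hx] at h2
  obtain ⟨a, b⟩ := y
  obtain ⟨a', b'⟩ := y'
  simp only at hs hs' hyy
  cases b with
  | true =>
    have hb' : b' = false := by rw [← hs', hs]; rfl
    subst hb'
    simp only [block, if_true] at h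
    simp only [block, Bool.false_eq_true, if_false] at h'
    have e1 : w a = p.map Prod.fst ++ [x.1] := by
      have := congrArg (List.map Prod.fst) h
      simpa [fst_pos] using this
    have e2 : (w a').reverse = x.1 :: q.map Prod.fst := by
      have := congrArg (List.map Prod.fst) h'
      simpa [fst_neg] using this
    have e3 : w a' = (q.map Prod.fst).reverse ++ [x.1] := by
      have := congrArg List.reverse e2
      simpa using this
    apply hyy
    apply hw.last_inj
    rw [e1, e3]
    simp
  | false =>
    have hb' : b' = true := by rw [← hs', hs]; rfl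
    subst hb'
    simp only [block, Bool.false_eq_true, if_false] at h
    simp only [block, if_true] at h'
    have e1 : (w a).reverse = p.map Prod.fst ++ [x.1] := by
      have := congrArg (List.map Prod.fst) h
      simpa [fst_neg] using this
    have e2 : w a' = x.1 :: q.map Prod.fst := by
      have := congrArg (List.map Prod.fst) h'
      simpa [fst_pos] using this
    have e3 : w a = x.1 :: (p.map Prod.fst).reverse := by
      have := congrArg List.reverse e1
      simpa using this
    apply hyy
    apply hw.head_inj
    rw [e3, e2]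
    simp

theorem block_mk (w : α → List α) (y : α × Bool) : phi w (mk [y]) = mk (block w y) := by
  rw [phi_mk]
  simp

/-- The block data for words with unique pairs. -/
theorem blkData {w : α → List α} (hw : Good w) (hp : PairUnique w) {L : ℕ}
    (hlen : ∀ a, (w a).length = L) (hL : 3 ≤ L) : BlkData (block w) L (phi w) where
  hlen y := by rw [length_block, hlen]
  hL := hL
  hredb := isReduced_block w
  hOV := by
    intro y y' p x1 x2 q p' q' h h'
    have h2 : block w (y'.1, !y'.2) = invRev q' ++ x1 :: x2 :: invRev p' := by
      rw [← invRev_block, h']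
      simp [invRev, List.map_append, List.reverse_append]
    obtain ⟨_, _, h5⟩ := block_pair hp h h2
    rw [h5, invRev_invRev]
  hinv y := (invRev_block w y).symm
  hNc := block_nc hw
  hφ := block_mk w

/-- **Arc lemma for `Gam hw`.**  A reduced word `π` in the letters and `t` evaluating to a letter or
to `1` in the group is this letter (resp. empty) or contains a long piece of a relator. -/
theorem arc_lemma {β : Type} [DecidableEq β] {w : β → List β} (hw : Good w) (hp : PairUnique w)
    {L : ℕ} (hlen : ∀ a, (w a).length = L) (hL : 3 ≤ L) {π : List (HLet β)} (hπ : IsReduced π)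
    {τ : List (β × Bool)} (hτ : IsReduced τ) (hτl : τ.length ≤ 1)
    (hev : evalW (iota hw) (tt hw) π = iota hw (mk τ)) :
    π = embW τ ∨ HasArc (block w) L π :=
  arc_core (blkData hw hp hlen hL) (iota_injective hw) (tt_conj hw) (height hw) (height_tt hw)
    (height_iota hw) hπ hτ hτl hev

/-- The Latin words of `Group.lean` have unique pairs. -/
theorem latin_pairUnique {d : ℕ} (hd : 2 ∣ d) : PairUnique (latin d) := by
  intro a b p c e q p' q' h h'
  have h1 : (latin d a)[p.length]? = some c := by rw [h]; simp
  have h2 : (latin d a)[p.length + 1]? = some e := by rw [h]; simp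
  have h3 : (latin d b)[p'.length]? = some c := by rw [h']; simp
  have h4 : (latin d b)[p'.length + 1]? = some e := by rw [h']; simp
  obtain ⟨rfl, hl⟩ := latin_pair_unique' hd h1 h2 h3 h4
  have e0 : p ++ c :: e :: q = p' ++ c :: e :: q' := h.symm.trans h'
  obtain ⟨rfl, h5⟩ := List.append_inj e0 hl
  simpa using h5

end Crest.Agent.Lib.NoFixedPrice.Arc
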