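import Mathlib

/-!
# Arc lemma for the ascending HNN extension (row 191, module M4; helper25)

`F` free on `α`, `blk y` the `φ`-image (a reduced word of length `L`) of a letter `y` of `F`.
A word over `Option α × Bool` (`none` = the stable letter) that is reduced and evaluates to a
letter or to `1` in the HNN extension either *is* this letter (resp. empty) or has an infix which
is a long contiguous piece of a relator.  One left to right scan replaces diagrams.
-/

set_option autoImplicit false

namespace Crest.Agent.Lib.NoFixedPrice.Arc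

open FreeGroup List

variable {α : Type*}

/-! ### Cancellation of two reduced words -/

theorem isReduced_append_of_ne {A B : List (α × Bool)} {a b : α × Bool}
    (hA : IsReduced (A ++ [a])) (hB : IsReduced (b :: B)) (hab : a.1 = b.1 → a.2 = b.2) :
    IsReduced ((A ++ [a]) ++ b :: B) := by
  have h2 : IsReduced ([a] ++ b :: B) := by
    simpa using (isReduced_cons_cons.2 ⟨hab, hB⟩)
  have := IsReduced.append_overlap hA h2 (by simp)
  simpa using this

/-- Two reduced words: the maximal cancellation at their junction. -/
theorem exists_cancel : ∀ (B A : List (α × Bool)), IsReduced A → IsReduced B →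
    ∃ C A₀ B₀, A = A₀ ++ C ∧ B = invRev C ++ B₀ ∧ IsReduced (A₀ ++ B₀) := by
  intro B
  induction B with
  | nil =>
    intro A hA _
    exact ⟨[], A, [], by simp, by simp, by simpa using hA⟩
  | cons b B ih =>
    intro A hA hB
    rcases List.eq_nil_or_concat A with rfl | ⟨A', a, rfl⟩
    · exact ⟨[], [], b :: B, by simp, by simp, by simpa using hB⟩
    · by_cases hab : a.1 = b.1 → a.2 = b.2
      · refine ⟨[], A' ++ [a], b :: B, by simp, by simp, ?_⟩
        exact isReduced_append_of_ne (by simpa using hA) hB hab
      · have hB' : IsReduced B := hB.infix ⟨[b], [], by simp⟩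
        have hA' : IsReduced A' := hA.infix ⟨[], [a], by simp⟩
        obtain ⟨C, A₀, B₀, h1, h2, h3⟩ := ih A' hA' hB'
        refine ⟨C ++ [a], A₀, B₀, by simp [h1], ?_, h3⟩
        have hb : b = (a.1, !a.2) := by
          push Not at hab
          obtain ⟨h1, h2⟩ := hab
          ext
          · exact h1.symm
          · cases ha2 : a.2 <;> cases hb2 : b.2 <;> simp_all
        simp only [invRev_append, List.append_assoc]
        rw [h2] at *
        simp [invRev, hb]

theorem mk_cancel {A B A₀ B₀ C : List (α × Bool)} (h1 : A = A₀ ++ C) (h2 : B = invRev C ++ B₀) :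
    mk A * mk B = mk (A₀ ++ B₀) := by
  subst h1 h2
  rw [← mul_mk, ← mul_mk, ← mul_mk, ← inv_mk]
  group

/-! ### The scan -/

abbrev Item (α : Type*) := List (α × Bool) × (α × Bool)

section scan

variable (blk : α × Bool → List (α × Bool)) (L : ℕ)

def flat : List (Item α) → List (α × Bool) → List (α × Bool)
  | [], E => E
  | (U, y) :: rest, E => U ++ blk y ++ flat rest E

def nextB : List (Item α) → List (α × Bool) → List (α × Bool)
  | [], E => E
  | (U, _) :: _, _ => U

def triples : List (Item α) → List (α × Bool) →
    List (List (α × Bool) × (α × Bool) × List (α × Bool))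
  | [], _ => []
  | (U, y) :: rest, E => (U, y, nextB rest E) :: triples rest E

/-- no cancellation between consecutive blocks -/
def Nc (y y' : α × Bool) : Prop :=
  ∀ p x q, blk y = p ++ [x] → blk y' = (x.1, !x.2) :: q → False

def ChainOK : α × Bool → List (Item α) → Prop
  | _, [] => True
  | y, (U, y') :: rest => (U = [] → Nc blk y y') ∧ ChainOK y' rest

def GoodT (U : List (α × Bool)) (y : α × Bool) (U' : List (α × Bool)) : Prop :=
  ∃ l r, L ≤ l + r + 2 ∧ l + r ≤ L ∧ invRev ((blk y).take l) <:+ U ∧
    invRev ((blk y).drop (L - r)) <+: U'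

variable {blk L}

theorem not_reduced_invRev_append {C : List (α × Bool)} (h : IsReduced (invRev C ++ C)) :
    C = [] := by
  cases C with
  | nil => rfl
  | cons z C =>
    exfalso
    have hi : [(z.1, !z.2), z] <:+: invRev (z :: C) ++ z :: C := by
      refine ⟨invRev C, C, ?_⟩
      simp [invRev]
    have := h.infix hi
    rw [isReduced_cons_cons] at this
    have h2 := this.1 rfl
    cases hz : z.2 <;> simp [hz] at h2

theorem scan_aux (hlen : ∀ y, (blk y).length = L) (hredb : ∀ y, IsReduced (blk y))
    (hOV : ∀ y y' p x1 x2 q p' q', blk y = p ++ x1 :: x2 :: q →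
      blk y' = p' ++ (x2.1, !x2.2) :: (x1.1, !x1.2) :: q' → p' = invRev q) :
    ∀ (items : List (Item α)) (y : α × Bool) (Up R₀ : List (α × Bool)) (c l : ℕ)
      (E : List (α × Bool)), (∀ it ∈ items, IsReduced it.1) → IsReduced E → ChainOK blk y items →
      IsReduced (R₀ ++ (blk y).drop c) → c ≤ L → l ≤ c → c ≤ l + 1 →
      invRev ((blk y).take l) <:+ Up →
      (∃ t ∈ triples ((Up, y) :: items) E, GoodT blk L t.1 t.2.1 t.2.2) ∨
      (∃ R, IsReduced R ∧ 2 ≤ R.length ∧ mk R = mk (R₀ ++ (blk y).drop c ++ flat blk items E)) := by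
  intro items
  induction items with
  | nil =>
    intro y Up R₀ c l E _ hE _ hR hcL hlc hcl hUp
    obtain ⟨C, A₀, B₀, hA, hU, hred⟩ := exists_cancel E (R₀ ++ (blk y).drop c) hR hE
    set g := (blk y).drop c with hg
    have hglen : g.length = L - c := by simp [hg, hlen]
    by_cases hbig : C.length + 2 ≤ g.length
    · right
      obtain ⟨g', hg', hAe⟩ : ∃ g', g = g' ++ C ∧ A₀ = R₀ ++ g' := by
        rcases List.append_eq_append_iff.1 hA with ⟨a', h1, h2⟩ | ⟨c', h1, h2⟩
        · exact ⟨a', h2, h1⟩
        · exfalso
          have := congrArg List.length h2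
          simp at this
          omega
      refine ⟨A₀ ++ B₀, hred, ?_, ?_⟩
      · have h1 : g'.length + C.length = g.length := by rw [hg']; simp
        simp [hAe]
        omega
      · have := mk_cancel hA hU
        simp only [flat]
        rw [← this, mul_mk]
    · left
      push Not at hbig
      refine ⟨_, List.mem_cons_self, ?_⟩
      -- r = |g| - 1
      refine ⟨l, g.length - 1, ?_, ?_, hUp, ?_⟩
      · omega
      · omega
      · have hsuff : (blk y).drop (L - (g.length - 1)) <:+ R₀ ++ g := by
          have : (blk y).drop (L - (g.length - 1)) = g.drop (g.length - (g.length - 1)) := by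
            rw [hg, List.drop_drop]
            congr 1
            simp [hlen]
            omega
          rw [this]
          exact (List.drop_suffix _ _).trans (List.suffix_append _ _)
        have hsuff2 : C <:+ R₀ ++ g := by rw [hA]; exact List.suffix_append _ _
        have hl : ((blk y).drop (L - (g.length - 1))).length ≤ C.length := by
          simp [hlen]
          omega
        obtain ⟨C₁, hC₁⟩ := List.suffix_of_suffix_length_le hsuff hsuff2 hl
        refine ⟨invRev C₁ ++ B₀, ?_⟩
        simp only [nextB]
        rw [hU, ← hC₁, invRev_append, List.append_assoc]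
  | cons it rest ih =>
    obtain ⟨U₁, y'⟩ := it
    intro y Up R₀ c l E hitems hE hchain hR hcL hlc hcl hUp
    have hU₁red : IsReduced U₁ := hitems (U₁, y') List.mem_cons_self
    obtain ⟨C, A₀, B₀, hA, hU, hred⟩ := exists_cancel U₁ (R₀ ++ (blk y).drop c) hR hU₁red
    set g := (blk y).drop c with hg
    have hglen : g.length = L - c := by simp [hg, hlen]
    by_cases hbig : C.length + 2 ≤ g.length
    · obtain ⟨g', hg', hAe⟩ : ∃ g', g = g' ++ C ∧ A₀ = R₀ ++ g' := by
        rcases List.append_eq_append_iff.1 hA with ⟨a', h1, h2⟩ | ⟨c', h1, h2⟩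
        · exact ⟨a', h2, h1⟩
        · exfalso
          have := congrArg List.length h2
          simp at this
          omega
      have hg'2 : 2 ≤ g'.length := by
        have h1 : g'.length + C.length = g.length := by rw [hg']; simp
        omega
      obtain ⟨C', A₁, B₁, hA', hb', hred'⟩ := exists_cancel (blk y') (A₀ ++ B₀) hred (hredb y')
      have hc'len : C'.length ≤ L := by
        have := congrArg List.length hb'
        simp [hlen] at this
        omega
      have hdrop : (blk y').drop C'.length = B₁ := by
        rw [hb']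
        simp [List.drop_left', invRev_length]
      have htake : ∀ k ≤ C'.length, (blk y').take k = (invRev C').take k := by
        intro k hk
        rw [hb', List.take_append_of_le_length (by simpa [invRev_length] using hk)]
      have hrest : ∀ it ∈ rest, IsReduced it.1 := fun it hit => hitems it (List.mem_cons_of_mem _ hit)
      obtain ⟨hNc, hchain'⟩ := hchain
      -- the common conclusion of the recursion
      have key : ∀ l', l' ≤ C'.length → C'.length ≤ l' + 1 →
          invRev ((blk y').take l') <:+ U₁ →
          (∃ t ∈ triples ((Up, y) :: (U₁, y') :: rest) E, GoodT blk L t.1 t.2.1 t.2.2) ∨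
          (∃ R, IsReduced R ∧ 2 ≤ R.length ∧
            mk R = mk (R₀ ++ (blk y).drop c ++ flat blk ((U₁, y') :: rest) E)) := by
        intro l' hl1 hl2 hl3
        have := ih y' U₁ A₁ C'.length l' E hrest hE hchain'
          (by rw [hdrop]; exact hred') hc'len hl1 hl2 hl3
        rcases this with ⟨t, ht, hgood⟩ | ⟨R, hR1, hR2, hR3⟩
        · left
          exact ⟨t, List.mem_cons_of_mem _ ht, hgood⟩
        · right
          refine ⟨R, hR1, hR2, ?_⟩
          rw [hR3, hdrop]
          have e1 := mk_cancel hA hU
          have e2 := mk_cancel hA' hb'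
          simp only [flat]
          have e3 : mk (A₁ ++ B₁ ++ flat blk rest E) = mk (A₁ ++ B₁) * mk (flat blk rest E) :=
            mul_mk.symm
          have e4 : mk (R₀ ++ g ++ (U₁ ++ blk y' ++ flat blk rest E)) =
              mk (R₀ ++ g) * (mk U₁ * (mk (blk y') * mk (flat blk rest E))) := by
            simp only [mul_mk, List.append_assoc]
          rw [e3, e4, ← e2, ← e1]
          group
      by_cases hcase : C'.length ≤ B₀.length
      · -- C' is a suffix of B₀
        obtain ⟨B₂, hB₂⟩ : ∃ B₂, B₀ = B₂ ++ C' := by
          have h1 : C' <:+ A₀ ++ B₀ := by rw [hA']; exact List.suffix_append _ _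
          have h2 : B₀ <:+ A₀ ++ B₀ := List.suffix_append _ _
          obtain ⟨B₂, h⟩ := List.suffix_of_suffix_length_le h1 h2 hcase
          exact ⟨B₂, h.symm⟩
        apply key C'.length le_rfl (by omega)
        rw [htake _ le_rfl, List.take_of_length_le (by simp [invRev_length]), invRev_invRev, hU,
          hB₂]
        exact ⟨invRev C ++ B₂, by simp⟩
      · -- B₀ is a suffix of C'
        push Not at hcase
        obtain ⟨C₂, hC₂⟩ : ∃ C₂, C' = C₂ ++ B₀ := by
          have h1 : C' <:+ A₀ ++ B₀ := by rw [hA']; exact List.suffix_append _ _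
          have h2 : B₀ <:+ A₀ ++ B₀ := List.suffix_append _ _
          obtain ⟨C₂, h⟩ := List.suffix_of_suffix_length_le h2 h1 hcase.le
          exact ⟨C₂, h.symm⟩
        have hA₀ : A₀ = A₁ ++ C₂ := by
          rw [hC₂, ← List.append_assoc] at hA'
          exact (List.append_cancel_right hA')
        have hC₂le : C₂.length ≤ 1 := by
          by_contra hC₂big
          push Not at hC₂big
          -- two letters of g' are cancelled
          obtain ⟨C₃, x2, rfl⟩ : ∃ C₃ x2, C₂ = C₃ ++ [x2] := by
            rcases List.eq_nil_or_concat C₂ with rfl | ⟨C₃, x2, rfl⟩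
            · simp at hC₂big
            · exact ⟨C₃, x2, by simp⟩
          obtain ⟨C₄, x1, rfl⟩ : ∃ C₄ x1, C₃ = C₄ ++ [x1] := by
            rcases List.eq_nil_or_concat C₃ with rfl | ⟨C₃, x2, rfl⟩
            · simp at hC₂big
            · exact ⟨C₃, x2, by simp⟩
          obtain ⟨g₂, y1, y2, hg₂⟩ : ∃ g₂ y1 y2, g' = g₂ ++ [y1, y2] := by
            rcases List.eq_nil_or_concat g' with rfl | ⟨g₃, y2, rfl⟩
            · simp at hg'2
            · rcases List.eq_nil_or_concat g₃ with rfl | ⟨g₄, y1, rfl⟩
              · simp at hg'2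
              · exact ⟨g₄, y1, y2, by simp⟩
          have hxy : [y1, y2] = [x1, x2] := by
            have h0 : (R₀ ++ g₂) ++ [y1, y2] = (A₁ ++ C₄) ++ [x1, x2] := by
              have := hA₀
              rw [hAe, hg₂] at this
              simpa using this
            exact (List.append_inj' h0 (by simp)).2
          simp only [List.cons.injEq, and_true] at hxy
          obtain ⟨rfl, rfl⟩ := hxy
          -- apply the overlap property
          have hb : blk y = ((blk y).take c ++ g₂) ++ y1 :: y2 :: C := by
            calc blk y = (blk y).take c ++ g := (List.take_append_drop c (blk y)).symm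
              _ = _ := by rw [hg', hg₂]; simp
          have hb2 : blk y' = invRev B₀ ++ (y2.1, !y2.2) :: (y1.1, !y1.2) :: (invRev C₄ ++ B₁) := by
            rw [hb', hC₂]
            simp [invRev, List.map_append, List.reverse_append]
          have hOVe := hOV y y' _ y1 y2 C _ _ hb hb2
          have hBC : B₀ = C := invRev_injective hOVe
          have hUe : U₁ = invRev C ++ C := by rw [hU, hBC]
          have hCnil : C = [] := not_reduced_invRev_append (hUe ▸ hU₁red)
          subst hCnil
          have hB0 : B₀ = [] := hBC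
          have hU₁nil : U₁ = [] := by rw [hUe]; simp
          refine hNc hU₁nil ((blk y).take c ++ g₂ ++ [y1]) y2
            ((y1.1, !y1.2) :: (invRev C₄ ++ B₁)) ?_ ?_
          · exact hb.trans (by simp)
          · rw [hb2, hB0]
            simp
        apply key B₀.length (by omega) (by rw [hC₂]; simp; omega)
        rw [htake _ hcase.le]
        have : (invRev C').take B₀.length = invRev B₀ := by
          rw [hC₂, invRev_append, List.take_left' (by simp [invRev_length])]
        rw [this, invRev_invRev, hU]
        exact ⟨invRev C, rfl⟩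
    · left
      push Not at hbig
      refine ⟨_, List.mem_cons_self, ?_⟩
      refine ⟨l, g.length - 1, ?_, ?_, hUp, ?_⟩
      · omega
      · omega
      · have hsuff : (blk y).drop (L - (g.length - 1)) <:+ R₀ ++ g := by
          have : (blk y).drop (L - (g.length - 1)) = g.drop (g.length - (g.length - 1)) := by
            rw [hg, List.drop_drop]
            congr 1
            simp [hlen]
            omega
          rw [this]
          exact (List.drop_suffix _ _).trans (List.suffix_append _ _)
        have hsuff2 : C <:+ R₀ ++ g := by rw [hA]; exact List.suffix_append _ _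
        have hl : ((blk y).drop (L - (g.length - 1))).length ≤ C.length := by
          simp [hlen]
          omega
        obtain ⟨C₁, hC₁⟩ := List.suffix_of_suffix_length_le hsuff hsuff2 hl
        refine ⟨invRev C₁ ++ B₀, ?_⟩
        simp only [nextB]
        rw [hU, ← hC₁, invRev_append, List.append_assoc]

/-- The scan: either some block is almost covered by its two neighbouring bottom words, or the
product has a reduced form of length at least two. -/
theorem scan (hlen : ∀ y, (blk y).length = L) (hredb : ∀ y, IsReduced (blk y))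
    (hOV : ∀ y y' p x1 x2 q p' q', blk y = p ++ x1 :: x2 :: q →
      blk y' = p' ++ (x2.1, !x2.2) :: (x1.1, !x1.2) :: q' → p' = invRev q)
    (U : List (α × Bool)) (y : α × Bool) (rest : List (Item α)) (E : List (α × Bool))
    (hU : IsReduced U) (hrest : ∀ it ∈ rest, IsReduced it.1) (hE : IsReduced E)
    (hchain : ChainOK blk y rest) :
    (∃ t ∈ triples ((U, y) :: rest) E, GoodT blk L t.1 t.2.1 t.2.2) ∨
    (∃ R, IsReduced R ∧ 2 ≤ R.length ∧ mk R = mk (flat blk ((U, y) :: rest) E)) := by
  obtain ⟨C', A₁, B₁, hA', hb', hred'⟩ := exists_cancel (blk y) U hU (hredb y)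
  have hc'len : C'.length ≤ L := by
    have := congrArg List.length hb'
    simp [hlen] at this
    omega
  have hdrop : (blk y).drop C'.length = B₁ := by
    rw [hb']
    simp [List.drop_left', invRev_length]
  have htake : (blk y).take C'.length = invRev C' := by
    rw [hb']
    simp [List.take_left', invRev_length]
  have := scan_aux hlen hredb hOV rest y U A₁ C'.length C'.length E hrest hE hchain
    (by rw [hdrop]; exact hred') hc'len le_rfl (by omega)
    (by rw [htake, invRev_invRev, hA']; exact List.suffix_append _ _)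
  rcases this with h | ⟨R, hR1, hR2, hR3⟩
  · exact Or.inl h
  · right
    refine ⟨R, hR1, hR2, ?_⟩
    rw [hR3, hdrop]
    have e2 := mk_cancel hA' hb'
    simp only [flat]
    have e3 : mk (A₁ ++ B₁ ++ flat blk rest E) = mk (A₁ ++ B₁) * mk (flat blk rest E) :=
      mul_mk.symm
    have e4 : mk (U ++ blk y ++ flat blk rest E) = mk U * mk (blk y) * mk (flat blk rest E) := by
      simp only [mul_mk]
    rw [e3, e4, ← e2]

end scan

/-! ### Words of the HNN extension, balanced parsing -/

abbrev HLet (α : Type*) := Option α × Bool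

def emb (x : α × Bool) : HLet α := (some x.1, x.2)
abbrev embW (U : List (α × Bool)) : List (HLet α) := U.map emb
def tL : HLet α := (none, true)
def tI : HLet α := (none, false)

/-- balanced words with their value in `F` -/
inductive Bal (φ : FreeGroup α →* FreeGroup α) : List (HLet α) → FreeGroup α → Prop
  | nil : Bal φ [] 1
  | letter (x : α × Bool) {π : List (HLet α)} {v : FreeGroup α} :
      Bal φ π v → Bal φ (emb x :: π) (mk [x] * v)
  | exc {W π : List (HLet α)} {V v : FreeGroup α} :
      Bal φ W V → Bal φ π v → Bal φ (tI :: (W ++ tL :: π)) (φ V * v)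

abbrev Seg (α : Type*) := List (α × Bool) × List (HLet α) × FreeGroup α

def assemble : List (Seg α) → List (α × Bool) → List (HLet α)
  | [], E => embW E
  | (U, W, _) :: rest, E => embW U ++ tI :: (W ++ tL :: assemble rest E)

def segVal (φ : FreeGroup α →* FreeGroup α) : List (Seg α) → List (α × Bool) → FreeGroup α
  | [], E => mk E
  | (U, _, V) :: rest, E => mk U * (φ V * segVal φ rest E)

theorem mk_cons (x : α × Bool) (U : List (α × Bool)) : mk (x :: U) = mk [x] * mk U := by
  rw [mul_mk]; rfl

theorem Bal.decomp {φ : FreeGroup α →* FreeGroup α} {M : List (HLet α)} {v : FreeGroup α}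
    (h : Bal φ M v) : ∃ segs E, M = assemble segs E ∧ v = segVal φ segs E ∧
      ∀ s ∈ segs, Bal φ s.2.1 s.2.2 := by
  induction h with
  | nil => exact ⟨[], [], rfl, (one_eq_mk), by simp⟩
  | letter x hb ih =>
    obtain ⟨segs, E, h1, h2, h3⟩ := ih
    cases segs with
    | nil =>
      refine ⟨[], x :: E, ?_, ?_, by simp⟩
      · simp only [assemble] at h1 ⊢
        simp [h1]
      · simp only [segVal] at h2 ⊢
        rw [h2, ← mk_cons]
    | cons s rest =>
      obtain ⟨U, W, V⟩ := s
      refine ⟨(x :: U, W, V) :: rest, E, ?_, ?_, ?_⟩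
      · simp only [assemble] at h1 ⊢
        simp [h1]
      · simp only [segVal] at h2 ⊢
        rw [h2, mk_cons x U, mul_assoc]
      · intro s hs
        rcases List.mem_cons.1 hs with rfl | hs
        · exact h3 (U, W, V) List.mem_cons_self
        · exact h3 s (List.mem_cons_of_mem _ hs)
  | @exc W π V v h1 h2 _ ih2 =>
    obtain ⟨segs, E, h3, h4, h5⟩ := ih2
    refine ⟨([], W, V) :: segs, E, ?_, ?_, ?_⟩
    · simp [assemble, h3]
    · simp only [segVal]
      rw [h4, ← one_eq_mk, one_mul]
    · intro s hs
      rcases List.mem_cons.1 hs with rfl | hs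
      · exact h1
      · exact h5 s hs

/-! ### Items of a decomposition -/

def wordItems (τ : List (α × Bool)) : List (Item α) := τ.map (fun z => ([], z))

def itemsOfSeg (U : List (α × Bool)) : List (α × Bool) → List (Item α)
  | [] => []
  | y :: τ => (U, y) :: wordItems τ

def items [DecidableEq α] : List (Seg α) → List (α × Bool) → List (α × Bool) → List (Item α)
  | [], E, z => itemsOfSeg E z
  | (U, _, V) :: rest, E, z => itemsOfSeg U V.toWord ++ items rest E z

def uend (E z : List (α × Bool)) : List (α × Bool) :=
  match z with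
  | [] => E
  | _ :: _ => []

def firstB : List (Seg α) → List (α × Bool) → List (α × Bool)
  | [], E => E
  | (U, _, _) :: _, _ => U

section items

variable {blk : α × Bool → List (α × Bool)} {L : ℕ}

theorem flat_append (A B : List (Item α)) (X : List (α × Bool)) :
    flat blk (A ++ B) X = flat blk A (flat blk B X) := by
  induction A with
  | nil => rfl
  | cons a A ih =>
    obtain ⟨U, y⟩ := a
    simp [flat, ih]

variable {φ : FreeGroup α →* FreeGroup α}

theorem mk_flat_wordItems (hφ : ∀ y, φ (mk [y]) = mk (blk y)) (τ X : List (α × Bool)) :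
    mk (flat blk (wordItems τ) X) = φ (mk τ) * mk X := by
  induction τ with
  | nil => simp [wordItems, flat, ← one_eq_mk]
  | cons y τ ih =>
    have : wordItems (y :: τ) = ([], y) :: wordItems τ := rfl
    rw [this]
    simp only [flat, List.nil_append]
    rw [← mul_mk, ih, mk_cons y τ, _root_.map_mul, hφ, mul_assoc]

theorem mk_flat_items [DecidableEq α] (hφ : ∀ y, φ (mk [y]) = mk (blk y)) :
    ∀ (segs : List (Seg α)) (E z : List (α × Bool)), (∀ s ∈ segs, s.2.2 ≠ 1) →
    mk (flat blk (items segs E z) (uend E z)) = segVal φ segs E * φ (mk z) := by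
  intro segs
  induction segs with
  | nil =>
    intro E z _
    cases z with
    | nil => simp [items, itemsOfSeg, uend, flat, segVal, ← one_eq_mk]
    | cons y z =>
      simp only [items, itemsOfSeg, uend, flat, segVal]
      rw [← mul_mk, ← mul_mk, mk_flat_wordItems hφ, mk_cons y z, _root_.map_mul, hφ, ← one_eq_mk]
      simp only [mul_one, mul_assoc]
  | cons s rest ih =>
    intro E z hne
    obtain ⟨U, W, V⟩ := s
    have hV : V ≠ 1 := hne (U, W, V) List.mem_cons_self
    have hrest : ∀ s ∈ rest, s.2.2 ≠ 1 := fun s hs => hne s (List.mem_cons_of_mem _ hs)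
    have hw : V.toWord ≠ [] := by
      intro h
      apply hV
      rw [← mk_toWord (x := V), h, ← one_eq_mk]
    obtain ⟨y, τ, hτ⟩ := List.exists_cons_of_ne_nil hw
    simp only [items, segVal]
    rw [flat_append, hτ]
    simp only [itemsOfSeg, flat]
    rw [← mul_mk, ← mul_mk, mk_flat_wordItems hφ, ih E z hrest]
    have hV' : V = mk [y] * mk τ := by
      rw [← mk_cons, ← hτ, mk_toWord]
    rw [hV', _root_.map_mul, hφ]
    simp only [mul_assoc]

theorem triples_append (A B : List (Item α)) (X : List (α × Bool)) :
    triples (A ++ B) X = triples A (nextB B X) ++ triples B X := by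
  induction A with
  | nil => rfl
  | cons a A ih =>
    obtain ⟨U, y⟩ := a
    cases A with
    | nil => simp [triples, nextB]
    | cons a' A =>
      obtain ⟨U', y'⟩ := a'
      simpa [triples, nextB] using ih

theorem nextB_items [DecidableEq α] :
    ∀ (segs : List (Seg α)) (E z : List (α × Bool)), (∀ s ∈ segs, s.2.2 ≠ 1) →
      nextB (items segs E z) (uend E z) = firstB segs E := by
  intro segs E z hne
  cases segs with
  | nil =>
    cases z with
    | nil => rfl
    | cons y z => rfl
  | cons s rest =>
    obtain ⟨U, W, V⟩ := s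
    have hV : V ≠ 1 := hne (U, W, V) List.mem_cons_self
    have hw : V.toWord ≠ [] := by
      intro h
      apply hV
      rw [← mk_toWord (x := V), h, ← one_eq_mk]
    obtain ⟨y, τ, hτ⟩ := List.exists_cons_of_ne_nil hw
    simp only [items, hτ, itemsOfSeg, firstB]
    rfl

theorem word_triples (τ X : List (α × Bool)) :
    ∀ t ∈ triples (wordItems τ) X, t.1 = [] ∧ (t.2.2 = [] ∨ t.2.2 = X) := by
  induction τ with
  | nil => simp [wordItems, triples]
  | cons y τ ih =>
    intro t ht
    have : wordItems (y :: τ) = ([], y) :: wordItems τ := rfl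
    rw [this] at ht
    simp only [triples, List.mem_cons] at ht
    rcases ht with rfl | ht
    · refine ⟨rfl, ?_⟩
      cases τ with
      | nil => right; rfl
      | cons z τ => left; rfl
    · exact ih t ht

theorem firstB_prefix (segs : List (Seg α)) (E : List (α × Bool)) :
    embW (firstB segs E) <+: assemble segs E := by
  cases segs with
  | nil => exact List.prefix_rfl
  | cons s rest =>
    obtain ⟨U, W, V⟩ := s
    exact List.prefix_append _ _

theorem triple_cases [DecidableEq α] (E z : List (α × Bool)) :
    ∀ (segs : List (Seg α)), (∀ s ∈ segs, s.2.2 ≠ 1) →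
    ∀ t ∈ triples (items segs E z) (uend E z),
      (t.1 = [] ∧ embW t.2.2 <:+: assemble segs E) ∨
      (t.2.2 = [] ∧ embW t.1 <:+: assemble segs E) ∨
      (∃ s ∈ segs, s.2.2.toWord = [t.2.1] ∧
        embW t.1 ++ tI :: (s.2.1 ++ tL :: embW t.2.2) <:+: assemble segs E) := by
  intro segs
  induction segs with
  | nil =>
    intro _ t ht
    cases z with
    | nil => simp [items, itemsOfSeg, uend, triples] at ht
    | cons y z =>
      simp only [items, itemsOfSeg, uend, triples, List.mem_cons] at ht
      rcases ht with rfl | ht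
      · right; left
        refine ⟨?_, List.infix_rfl⟩
        cases z with
        | nil => rfl
        | cons w z => rfl
      · obtain ⟨h1, h2⟩ := word_triples z [] t ht
        left
        refine ⟨h1, ?_⟩
        rcases h2 with h2 | h2 <;> · rw [h2]; exact List.nil_infix
  | cons s rest ih =>
    intro hne t ht
    obtain ⟨U, W, V⟩ := s
    have hV : V ≠ 1 := hne (U, W, V) List.mem_cons_self
    have hrest : ∀ s ∈ rest, s.2.2 ≠ 1 := fun s hs => hne s (List.mem_cons_of_mem _ hs)
    have hw : V.toWord ≠ [] := by
      intro h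
      apply hV
      rw [← mk_toWord (x := V), h, ← one_eq_mk]
    obtain ⟨y, τ, hτ⟩ := List.exists_cons_of_ne_nil hw
    have hM : assemble ((U, W, V) :: rest) E = embW U ++ tI :: (W ++ tL :: assemble rest E) := rfl
    have hsuf : assemble rest E <:+: assemble ((U, W, V) :: rest) E := by
      rw [hM]
      exact ⟨embW U ++ tI :: (W ++ [tL]), [], by simp⟩
    simp only [items] at ht
    rw [triples_append, List.mem_append, nextB_items rest E z hrest, hτ] at ht
    rcases ht with ht | ht
    · simp only [itemsOfSeg, triples, List.mem_cons] at ht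
      rcases ht with rfl | ht
      · cases τ with
        | nil =>
          right; right
          refine ⟨(U, W, V), List.mem_cons_self, hτ, ?_⟩
          obtain ⟨P, hP⟩ := firstB_prefix rest E
          refine ⟨[], P, ?_⟩
          rw [hM, ← hP]
          simp [nextB, wordItems]
        | cons w τ =>
          right; left
          refine ⟨rfl, ?_⟩
          rw [hM]
          exact (List.prefix_append _ _).isInfix
      · obtain ⟨h1, h2⟩ := word_triples τ _ t ht
        left
        refine ⟨h1, ?_⟩
        rcases h2 with h2 | h2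
        · rw [h2]; exact List.nil_infix
        · rw [h2]
          exact (firstB_prefix rest E).isInfix.trans hsuf
    · rcases ih hrest t ht with ⟨h1, h2⟩ | ⟨h1, h2⟩ | ⟨s, hs, h1, h2⟩
      · exact Or.inl ⟨h1, h2.trans hsuf⟩
      · exact Or.inr (Or.inl ⟨h1, h2.trans hsuf⟩)
      · exact Or.inr (Or.inr ⟨s, List.mem_cons_of_mem _ hs, h1, h2.trans hsuf⟩)

theorem chain_word (hNc : ∀ y y', IsReduced [y, y'] → Nc blk y y') (X : List (Item α))
    (hX : ∀ y, ChainOK blk y X) : ∀ (τ : List (α × Bool)) (y : α × Bool), IsReduced (y :: τ) →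
    ChainOK blk y (wordItems τ ++ X) := by
  intro τ
  induction τ with
  | nil => intro y _; exact hX y
  | cons w τ ih =>
    intro y hy
    have hy' := isReduced_cons_cons.1 hy
    have : wordItems (w :: τ) ++ X = ([], w) :: (wordItems τ ++ X) := rfl
    rw [this]
    refine ⟨fun _ => hNc y w ?_, ih w hy'.2⟩
    rw [isReduced_cons_cons]
    exact ⟨hy'.1, IsReduced.singleton⟩

theorem tL_tI_not_reduced (X : List (HLet α)) : ¬ IsReduced (tL :: tI :: X) := by
  intro h
  rw [isReduced_cons_cons] at h
  simpa [tL, tI] using h.1 rfl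

theorem tI_tL_not_reduced (X : List (HLet α)) : ¬ IsReduced (tI :: tL :: X) := by
  intro h
  rw [isReduced_cons_cons] at h
  simpa [tL, tI] using h.1 rfl

theorem chain_items [DecidableEq α] (hNc : ∀ y y', IsReduced [y, y'] → Nc blk y y')
    (E z : List (α × Bool)) (hz : IsReduced z) (hE : z ≠ [] → E ≠ []) :
    ∀ (segs : List (Seg α)), (∀ s ∈ segs, s.2.2 ≠ 1) → IsReduced (tL :: assemble segs E) →
    ∀ y, ChainOK blk y (items segs E z) := by
  intro segs
  induction segs with
  | nil =>
    intro _ _ y₀
    cases z with
    | nil => trivial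
    | cons y z =>
      simp only [items, itemsOfSeg]
      refine ⟨fun h => (hE (by simp) h).elim, ?_⟩
      have := chain_word (blk := blk) hNc [] (fun _ => trivial) z y hz
      simpa using this
  | cons s rest ih =>
    intro hne hred y₀
    obtain ⟨U, W, V⟩ := s
    have hV : V ≠ 1 := hne (U, W, V) List.mem_cons_self
    have hrest : ∀ s ∈ rest, s.2.2 ≠ 1 := fun s hs => hne s (List.mem_cons_of_mem _ hs)
    have hw : V.toWord ≠ [] := by
      intro h
      apply hV
      rw [← mk_toWord (x := V), h, ← one_eq_mk]
    obtain ⟨y, τ, hτ⟩ := List.exists_cons_of_ne_nil hw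
    have hM : assemble ((U, W, V) :: rest) E = embW U ++ tI :: (W ++ tL :: assemble rest E) := rfl
    have hred' : IsReduced (tL :: assemble rest E) := by
      apply hred.infix
      rw [hM]
      exact ⟨tL :: embW U ++ tI :: W, [], by simp⟩
    have hτr : IsReduced (y :: τ) := by
      rw [← hτ]
      exact isReduced_toWord
    simp only [items, hτ, itemsOfSeg, List.cons_append]
    refine ⟨?_, chain_word hNc _ (ih hrest hred') τ y hτr⟩
    rintro rfl
    exfalso
    rw [hM] at hred
    exact tL_tI_not_reduced _ (by simpa using hred)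

/-! ### Arcs -/

variable (blk L) in
/-- `M` contains a long contiguous piece of a relator: a piece of length `≥ L - 2` of a block, or
`(inverse of a prefix of b) t⁻¹ y t (inverse of a suffix of b)`, `b = blk y`, missing at most two
letters of `b`. -/
def HasArc (M : List (HLet α)) : Prop :=
  (∃ y u, u <:+: blk y ∧ L ≤ u.length + 2 ∧ embW u <:+: M) ∨
  (∃ y l r, L ≤ l + r + 2 ∧ l + r ≤ L ∧
    embW (invRev ((blk y).take l)) ++ tI :: emb y :: tL :: embW (invRev ((blk y).drop (L - r)))
      <:+: M)

theorem HasArc.mono {M M' : List (HLet α)} (h : HasArc blk L M) (hM : M <:+: M') :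
    HasArc blk L M' := by
  rcases h with ⟨y, u, h1, h2, h3⟩ | ⟨y, l, r, h1, h2, h3⟩
  · exact Or.inl ⟨y, u, h1, h2, h3.trans hM⟩
  · exact Or.inr ⟨y, l, r, h1, h2, h3.trans hM⟩

theorem arc_of_good_left (hlen : ∀ y, (blk y).length = L) (hL : 3 ≤ L)
    (hinv : ∀ y : α × Bool, blk (y.1, !y.2) = invRev (blk y)) {M : List (HLet α)}
    {y : α × Bool} {U' : List (α × Bool)} (hg : GoodT blk L [] y U') (hM : embW U' <:+: M) :
    HasArc blk L M := by
  obtain ⟨l, r, h1, h2, h3, h4⟩ := hg
  have hl : l = 0 := by
    have h5 := congrArg List.length (List.suffix_nil.1 h3)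
    simp [invRev_length, hlen] at h5
    omega
  subst hl
  left
  refine ⟨(y.1, !y.2), invRev ((blk y).drop (L - r)), ?_, ?_, ?_⟩
  · rw [hinv]
    refine ⟨[], invRev ((blk y).take (L - r)), ?_⟩
    rw [List.nil_append, ← invRev_append, List.take_append_drop]
  · simp [invRev_length, hlen]
    omega
  · exact (h4.map emb).isInfix.trans hM

theorem arc_of_good_right (hlen : ∀ y, (blk y).length = L) (hL : 3 ≤ L)
    (hinv : ∀ y : α × Bool, blk (y.1, !y.2) = invRev (blk y)) {M : List (HLet α)}
    {y : α × Bool} {U : List (α × Bool)} (hg : GoodT blk L U y []) (hM : embW U <:+: M) :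
    HasArc blk L M := by
  obtain ⟨l, r, h1, h2, h3, h4⟩ := hg
  have hr : r = 0 := by
    have h5 := congrArg List.length (List.prefix_nil.1 h4)
    simp [invRev_length, hlen] at h5
    omega
  subst hr
  left
  refine ⟨(y.1, !y.2), invRev ((blk y).take l), ?_, ?_, ?_⟩
  · rw [hinv]
    refine ⟨invRev ((blk y).drop l), [], ?_⟩
    rw [List.append_nil, ← invRev_append, List.take_append_drop]
  · simp [invRev_length, hlen]
    omega
  · exact (h3.map emb).isInfix.trans hM

theorem arc_of_good_cross {M : List (HLet α)} {y : α × Bool} {U U' : List (α × Bool)}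
    (hg : GoodT blk L U y U') (hM : embW U ++ tI :: ([emb y] ++ tL :: embW U') <:+: M) :
    HasArc blk L M := by
  obtain ⟨l, r, h1, h2, ⟨U₀, hU₀⟩, ⟨U₁, hU₁⟩⟩ := hg
  right
  refine ⟨y, l, r, h1, h2, List.IsInfix.trans ⟨embW U₀, embW U₁, ?_⟩ hM⟩
  rw [← hU₀, ← hU₁]
  simp

theorem isReduced_of_embW {U : List (α × Bool)} (h : IsReduced (embW U)) : IsReduced U := by
  induction U with
  | nil => exact IsReduced.nil
  | cons a U ih =>
    cases U with
    | nil => exact IsReduced.singleton
    | cons b U =>
      have h' : IsReduced (emb a :: emb b :: embW U) := h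
      rw [isReduced_cons_cons] at h' ⊢
      refine ⟨fun hab => h'.1 (by simp [emb, hab]), ih h'.2⟩

theorem mem_items_bottom [DecidableEq α] (E z : List (α × Bool)) (segs : List (Seg α)) :
    ∀ it ∈ items segs E z, it.1 = [] ∨ it.1 = E ∨ ∃ s ∈ segs, it.1 = s.1 := by
  have hw : ∀ (τ : List (α × Bool)), ∀ it ∈ wordItems τ, it.1 = ([] : List (α × Bool)) := by
    intro τ it hit
    simp only [wordItems, List.mem_map] at hit
    obtain ⟨a, _, rfl⟩ := hit
    rfl
  induction segs with
  | nil =>
    intro it hit
    cases z with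
    | nil => simp [items, itemsOfSeg] at hit
    | cons y z =>
      simp only [items, itemsOfSeg, List.mem_cons] at hit
      rcases hit with rfl | hit
      · exact Or.inr (Or.inl rfl)
      · exact Or.inl (hw z it hit)
  | cons s rest ih =>
    intro it hit
    obtain ⟨U, W, V⟩ := s
    simp only [items, List.mem_append] at hit
    rcases hit with hit | hit
    · cases hV : V.toWord with
      | nil => simp [hV, itemsOfSeg] at hit
      | cons y τ =>
        simp only [hV, itemsOfSeg, List.mem_cons] at hit
        rcases hit with rfl | hit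
        · exact Or.inr (Or.inr ⟨_, List.mem_cons_self, rfl⟩)
        · exact Or.inl (hw τ it hit)
    · rcases ih it hit with h | h | ⟨s, hs, h⟩
      · exact Or.inl h
      · exact Or.inr (Or.inl h)
      · exact Or.inr (Or.inr ⟨s, List.mem_cons_of_mem _ hs, h⟩)

theorem seg_infix (E : List (α × Bool)) : ∀ (segs : List (Seg α)), ∀ s ∈ segs,
    embW s.1 ++ tI :: (s.2.1 ++ [tL]) <:+: assemble segs E := by
  intro segs
  induction segs with
  | nil => simp
  | cons s rest ih =>
    intro t ht
    obtain ⟨U, W, V⟩ := s
    have hM : assemble ((U, W, V) :: rest) E = embW U ++ tI :: (W ++ tL :: assemble rest E) := rfl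
    rcases List.mem_cons.1 ht with rfl | ht
    · exact ⟨[], assemble rest E, by simp [hM]⟩
    · refine (ih t ht).trans ?_
      rw [hM]
      exact ⟨embW U ++ tI :: (W ++ [tL]), [], by simp⟩

theorem last_infix (E : List (α × Bool)) : ∀ (segs : List (Seg α)),
    embW E <:+: assemble segs E := by
  intro segs
  induction segs with
  | nil => exact List.infix_rfl
  | cons s rest ih =>
    obtain ⟨U, W, V⟩ := s
    refine ih.trans ?_
    exact ⟨embW U ++ tI :: (W ++ [tL]), [], by simp [assemble]⟩

/-- The main step: given a decomposition without trivial excursion, with a product (including the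
extra blocks of `z`) of reduced length at most one, there is an arc, or a non-literal excursion
with a single block. -/
theorem core_step [DecidableEq α] (hlen : ∀ y, (blk y).length = L) (hL : 3 ≤ L)
    (hredb : ∀ y, IsReduced (blk y))
    (hOV : ∀ y y' p x1 x2 q p' q', blk y = p ++ x1 :: x2 :: q →
      blk y' = p' ++ (x2.1, !x2.2) :: (x1.1, !x1.2) :: q' → p' = invRev q)
    (hinv : ∀ y : α × Bool, blk (y.1, !y.2) = invRev (blk y))
    (hNc : ∀ y y', IsReduced [y, y'] → Nc blk y y')
    (hφ : ∀ y, φ (mk [y]) = mk (blk y))
    (segs : List (Seg α)) (E z : List (α × Bool)) (hz : IsReduced z)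
    (hred : IsReduced (assemble segs E)) (hne : ∀ s ∈ segs, s.2.2 ≠ 1)
    (hE : z ≠ [] → segs ≠ [] → E ≠ []) (hnon : segs ≠ [] ∨ z ≠ [])
    (τ₀ : List (α × Bool)) (hτ₀ : IsReduced τ₀) (hτ₀l : τ₀.length ≤ 1)
    (hval : segVal φ segs E * φ (mk z) = mk τ₀) :
    HasArc blk L (assemble segs E) ∨
      ∃ s ∈ segs, ∃ y, s.2.2.toWord = [y] ∧ s.2.1 ≠ [emb y] := by
  -- the form of the item list
  have hform : ∃ U y rest, items segs E z = (U, y) :: rest ∧ ChainOK blk y rest := by
    cases segs with
    | nil =>
      cases z with
      | nil => simp at hnon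
      | cons y z =>
        refine ⟨E, y, wordItems z, rfl, ?_⟩
        have := chain_word (blk := blk) hNc [] (fun _ => trivial) z y hz
        simpa using this
    | cons s rest =>
      obtain ⟨U, W, V⟩ := s
      have hV : V ≠ 1 := hne (U, W, V) List.mem_cons_self
      have hrest : ∀ s ∈ rest, s.2.2 ≠ 1 := fun s hs => hne s (List.mem_cons_of_mem _ hs)
      have hw : V.toWord ≠ [] := by
        intro h
        apply hV
        rw [← mk_toWord (x := V), h, ← one_eq_mk]
      obtain ⟨y, τ, hτ⟩ := List.exists_cons_of_ne_nil hw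
      have hτr : IsReduced (y :: τ) := by
        rw [← hτ]
        exact isReduced_toWord
      have hM : assemble ((U, W, V) :: rest) E = embW U ++ tI :: (W ++ tL :: assemble rest E) := rfl
      have hred' : IsReduced (tL :: assemble rest E) := by
        apply hred.infix
        rw [hM]
        exact ⟨embW U ++ tI :: W, [], by simp⟩
      refine ⟨U, y, wordItems τ ++ items rest E z, ?_, ?_⟩
      · simp [items, hτ, itemsOfSeg]
      · exact chain_word hNc _ (chain_items hNc E z hz (fun h => hE h (by simp)) rest hrest hred') τ y hτr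
  obtain ⟨U, y, rest, hitems, hchain⟩ := hform
  have hbot : ∀ it ∈ items segs E z, IsReduced it.1 := by
    intro it hit
    rcases mem_items_bottom E z segs it hit with h | h | ⟨s, hs, h⟩
    · rw [h]; exact IsReduced.nil
    · rw [h]
      exact isReduced_of_embW (hred.infix (last_infix E segs))
    · rw [h]
      apply isReduced_of_embW
      apply hred.infix
      exact List.IsInfix.trans ⟨[], tI :: (s.2.1 ++ [tL]), by simp⟩ (seg_infix E segs s hs)
  have hEred : IsReduced (uend E z) := by
    cases z with
    | nil => exact isReduced_of_embW (hred.infix (last_infix E segs))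
    | cons _ _ => exact IsReduced.nil
  have hUred : IsReduced U := by
    have := hbot (U, y) (by rw [hitems]; exact List.mem_cons_self)
    exact this
  have hrest : ∀ it ∈ rest, IsReduced it.1 := fun it hit =>
    hbot it (by rw [hitems]; exact List.mem_cons_of_mem _ hit)
  rcases scan hlen hredb hOV U y rest (uend E z) hUred hrest hEred hchain with
    ⟨t, ht, hgood⟩ | ⟨R, hR1, hR2, hR3⟩
  · rw [← hitems] at ht
    rcases triple_cases E z segs hne t ht with ⟨h1, h2⟩ | ⟨h1, h2⟩ | ⟨s, hs, h1, h2⟩
    · left
      rw [h1] at hgood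
      exact arc_of_good_left hlen hL hinv hgood h2
    · left
      rw [h1] at hgood
      exact arc_of_good_right hlen hL hinv hgood h2
    · by_cases hW : s.2.1 = [emb t.2.1]
      · left
        rw [hW] at h2
        exact arc_of_good_cross hgood h2
      · right
        exact ⟨s, hs, t.2.1, h1, hW⟩
  · exfalso
    rw [← hitems, mk_flat_items hφ segs E z hne, hval] at hR3
    have h1 : R = τ₀ := by
      have h2 := congrArg toWord hR3
      rwa [toWord_mk, toWord_mk, hR1.reduce_eq, hτ₀.reduce_eq] at h2
    rw [h1] at hR2
    omega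

/-- The hypotheses on the blocks. -/
structure BlkData (blk : α × Bool → List (α × Bool)) (L : ℕ) (φ : FreeGroup α →* FreeGroup α) :
    Prop where
  hlen : ∀ y, (blk y).length = L
  hL : 3 ≤ L
  hredb : ∀ y, IsReduced (blk y)
  hOV : ∀ y y' p x1 x2 q p' q', blk y = p ++ x1 :: x2 :: q →
      blk y' = p' ++ (x2.1, !x2.2) :: (x1.1, !x1.2) :: q' → p' = invRev q
  hinv : ∀ y : α × Bool, blk (y.1, !y.2) = invRev (blk y)
  hNc : ∀ y y', IsReduced [y, y'] → Nc blk y y'
  hφ : ∀ y, φ (mk [y]) = mk (blk y)

theorem eq_of_mk_eq_of_reduced [DecidableEq α] {A B : List (α × Bool)} (hA : IsReduced A)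
    (hB : IsReduced B) (h : mk A = mk B) : A = B := by
  have h2 := congrArg toWord h
  rwa [toWord_mk, toWord_mk, hA.reduce_eq, hB.reduce_eq] at h2

theorem seg_W_infix (E : List (α × Bool)) (segs : List (Seg α)) (s : Seg α) (hs : s ∈ segs) :
    s.2.1 <:+: assemble segs E :=
  List.IsInfix.trans ⟨embW s.1 ++ [tI], [tL], by simp⟩ (seg_infix E segs s hs)

theorem seg_W_length (E : List (α × Bool)) (segs : List (Seg α)) (s : Seg α) (hs : s ∈ segs) :
    s.2.1.length < (assemble segs E).length := by
  have := (seg_infix E segs s hs).length_le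
  simp at this
  omega

theorem seg_W_ne_nil (E : List (α × Bool)) (segs : List (Seg α)) (s : Seg α) (hs : s ∈ segs)
    (hred : IsReduced (assemble segs E)) : s.2.1 ≠ [] := by
  intro h
  have h1 := seg_infix E segs s hs
  rw [h] at h1
  have h2 : tI :: tL :: ([] : List (HLet α)) <:+: assemble segs E :=
    List.IsInfix.trans ⟨embW s.1, [], by simp⟩ h1
  exact tI_tL_not_reduced _ (hred.infix h2)

theorem core1 [DecidableEq α] (hD : BlkData blk L φ) : ∀ (n : ℕ) (M : List (HLet α))
    (v : FreeGroup α) (τ : List (α × Bool)), M.length < n → IsReduced M → Bal φ M v →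
    IsReduced τ → τ.length ≤ 1 → v = mk τ → M = embW τ ∨ HasArc blk L M := by
  intro n
  induction n with
  | zero => intro M v τ h; omega
  | succ n ih =>
    intro M v τ hl hM hB hτ hτl hv
    obtain ⟨segs, E, rfl, hv', hbal⟩ := hB.decomp
    by_cases hone : ∃ s ∈ segs, s.2.2 = 1
    · obtain ⟨s, hs, h1⟩ := hone
      right
      have hlen' := seg_W_length E segs s hs
      rcases ih s.2.1 s.2.2 [] (by omega) (hM.infix (seg_W_infix E segs s hs)) (hbal s hs)
        IsReduced.nil (by simp) (by rw [h1, one_eq_mk]) with h | h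
      · exact absurd (by simpa using h) (seg_W_ne_nil E segs s hs hM)
      · exact h.mono (seg_W_infix E segs s hs)
    · push Not at hone
      by_cases hsegs : segs = []
      · subst hsegs
        left
        have hE : IsReduced E := isReduced_of_embW hM
        have : E = τ := eq_of_mk_eq_of_reduced hE hτ (by rw [← hv, hv']; rfl)
        rw [this]
        rfl
      · rcases core_step hD.hlen hD.hL hD.hredb hD.hOV hD.hinv hD.hNc hD.hφ segs E [] IsReduced.nil
          hM hone (by simp) (Or.inl hsegs) τ hτ hτl
          (by rw [← hv, hv', ← one_eq_mk, _root_.map_one, mul_one]) with h | ⟨s, hs, y, hy, hne⟩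
        · exact Or.inr h
        · right
          have hlen' := seg_W_length E segs s hs
          have hmk : s.2.2 = mk [y] := by
            rw [← hy, mk_toWord]
          rcases ih s.2.1 s.2.2 [y] (by omega) (hM.infix (seg_W_infix E segs s hs)) (hbal s hs)
            IsReduced.singleton (by simp) hmk with h | h
          · exact absurd h hne
          · exact h.mono (seg_W_infix E segs s hs)

theorem assemble_ends : ∀ (segs : List (Seg α)), segs ≠ [] →
    ∃ M', assemble segs [] = M' ++ [tL] := by
  intro segs
  induction segs with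
  | nil => intro h; exact absurd rfl h
  | cons s rest ih =>
    intro _
    obtain ⟨U, W, V⟩ := s
    by_cases hr : rest = []
    · subst hr
      exact ⟨embW U ++ tI :: W, by simp [assemble]⟩
    · obtain ⟨M', hM'⟩ := ih hr
      refine ⟨embW U ++ tI :: (W ++ tL :: M'), ?_⟩
      simp [assemble, hM']

theorem core2 [DecidableEq α] (hD : BlkData blk L φ) {M : List (HLet α)} {v u : FreeGroup α}
    (hM : IsReduced M) (hB : Bal φ M v) (hv : v = φ u) (hne : M ≠ [])
    (hend : ∀ M', M ≠ M' ++ [tL]) : HasArc blk L M := by
  obtain ⟨segs, E, rfl, hv', hbal⟩ := hB.decomp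
  have hEne : segs ≠ [] → E ≠ [] := by
    intro hs hE
    subst hE
    obtain ⟨M', hM'⟩ := assemble_ends segs hs
    exact hend M' hM'
  by_cases hone : ∃ s ∈ segs, s.2.2 = 1
  · obtain ⟨s, hs, h1⟩ := hone
    rcases core1 hD _ s.2.1 s.2.2 [] (Nat.lt_succ_self _) (hM.infix (seg_W_infix E segs s hs))
      (hbal s hs) IsReduced.nil (by simp) (by rw [h1, one_eq_mk]) with h | h
    · exact absurd (by simpa using h) (seg_W_ne_nil E segs s hs hM)
    · exact h.mono (seg_W_infix E segs s hs)
  · push Not at hone
    have hz : IsReduced (u⁻¹).toWord := isReduced_toWord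
    have hmkz : mk (u⁻¹).toWord = u⁻¹ := mk_toWord
    have hnon : segs ≠ [] ∨ (u⁻¹).toWord ≠ [] := by
      by_contra hcon
      push Not at hcon
      obtain ⟨h1, h2⟩ := hcon
      subst h1
      have hE : IsReduced E := isReduced_of_embW hM
      have hu : u⁻¹ = 1 := by rw [← hmkz, h2, ← one_eq_mk]
      have hu1 : u = 1 := by simpa using hu
      have hE1 : mk E = mk ([] : List (α × Bool)) := by
        rw [← one_eq_mk]
        have : mk E = v := hv'.symm
        rw [this, hv, hu1, _root_.map_one]
      have : E = [] := eq_of_mk_eq_of_reduced hE IsReduced.nil hE1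
      subst this
      exact hne rfl
    rcases core_step hD.hlen hD.hL hD.hredb hD.hOV hD.hinv hD.hNc hD.hφ segs E (u⁻¹).toWord hz
        hM hone (fun _ hs => hEne hs) hnon [] IsReduced.nil (by simp)
        (by rw [← hv', hv, hmkz, ← _root_.map_mul, mul_inv_cancel, _root_.map_one, one_eq_mk])
        with h | ⟨s, hs, y, hy, hne⟩
    · exact h
    · have hmk : s.2.2 = mk [y] := by
        rw [← hy, mk_toWord]
      rcases core1 hD _ s.2.1 s.2.2 [y] (Nat.lt_succ_self _) (hM.infix (seg_W_infix E segs s hs))
        (hbal s hs) IsReduced.singleton (by simp) hmk with h | h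
      · exact absurd h hne
      · exact h.mono (seg_W_infix E segs s hs)

end items

/-! ### Heights -/

section heights

def hgt : HLet α → ℤ
  | (none, true) => -1
  | (none, false) => 1
  | (some _, _) => 0

def H : List (HLet α) → ℤ
  | [] => 0
  | a :: π => hgt a + H π

@[simp] theorem H_nil : H ([] : List (HLet α)) = 0 := rfl
@[simp] theorem H_cons (a : HLet α) (π : List (HLet α)) : H (a :: π) = hgt a + H π := rfl

theorem H_append (A B : List (HLet α)) : H (A ++ B) = H A + H B := by
  induction A with
  | nil => simp
  | cons a A ih => simp [ih, add_assoc]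

@[simp] theorem hgt_emb (x : α × Bool) : hgt (emb x) = 0 := rfl
@[simp] theorem hgt_tL : hgt (tL : HLet α) = -1 := rfl
@[simp] theorem hgt_tI : hgt (tI : HLet α) = 1 := rfl

@[simp] theorem H_embW (U : List (α × Bool)) : H (embW U) = 0 := by
  induction U with
  | nil => rfl
  | cons a U ih => simpa using ih

def NNk : ℤ → List (HLet α) → Prop
  | k, [] => 0 ≤ k
  | k, a :: π => 0 ≤ k ∧ NNk (k + hgt a) π

theorem NNk.nonneg {k : ℤ} {π : List (HLet α)} (h : NNk k π) : 0 ≤ k := by
  cases π with
  | nil => exact h
  | cons a π => exact h.1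

theorem NNk.final {k : ℤ} {π : List (HLet α)} (h : NNk k π) : 0 ≤ k + H π := by
  induction π generalizing k with
  | nil => simpa using h.nonneg
  | cons a π ih =>
    have := ih h.2
    simp only [H_cons]
    linarith

theorem NNk_append {k : ℤ} (A B : List (HLet α)) :
    NNk k (A ++ B) ↔ NNk k A ∧ NNk (k + H A) B := by
  induction A generalizing k with
  | nil =>
    simp only [List.nil_append, H_nil, add_zero]
    exact ⟨fun h => ⟨h.nonneg, h⟩, fun h => h.2⟩
  | cons a A ih =>
    simp only [List.cons_append, NNk, ih, H_cons, and_assoc, add_assoc]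

theorem NNk_embW {k : ℤ} (hk : 0 ≤ k) (U : List (α × Bool)) : NNk k (embW U) := by
  induction U with
  | nil => exact hk
  | cons a U ih => exact ⟨hk, by simpa using ih⟩

theorem hgt_ge (a : HLet α) : -1 ≤ hgt a := by
  obtain ⟨o, b⟩ := a
  cases o with
  | some x => simp [hgt]
  | none => cases b <;> simp [hgt]

theorem NNk_large : ∀ (π : List (HLet α)) (k : ℤ), 0 ≤ k → (π.length : ℤ) ≤ k → NNk k π := by
  intro π
  induction π with
  | nil => intro k hk _; exact hk
  | cons a π ih =>
    intro k hk hl
    have := hgt_ge a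
    simp only [List.length_cons] at hl
    push_cast at hl
    have h0 : (0 : ℤ) ≤ π.length := by positivity
    exact ⟨hk, ih _ (by linarith) (by linarith)⟩

theorem first_hit : ∀ (ρ : List (HLet α)) (k : ℤ), 0 ≤ k → ¬ NNk k ρ →
    ∃ W ρ', ρ = W ++ tL :: ρ' ∧ NNk k W ∧ k + H W = 0 := by
  intro ρ
  induction ρ with
  | nil => intro k hk h; exact absurd hk h
  | cons a ρ ih =>
    intro k hk h
    have h' : ¬ NNk (k + hgt a) ρ := fun h2 => h ⟨hk, h2⟩
    obtain ⟨o, b⟩ := a
    cases o with
    | some x =>
      obtain ⟨W, ρ', rfl, h1, h2⟩ := ih k hk (by simpa [hgt] using h')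
      refine ⟨(some x, b) :: W, ρ', rfl, ⟨hk, by simpa [hgt] using h1⟩, by simpa [hgt] using h2⟩
    | none =>
      cases b with
      | false =>
        obtain ⟨W, ρ', rfl, h1, h2⟩ := ih (k + 1) (by linarith) (by simpa [hgt] using h')
        refine ⟨(none, false) :: W, ρ', rfl, ⟨hk, by simpa [hgt] using h1⟩, ?_⟩
        simp only [H_cons, hgt]
        linarith
      | true =>
        by_cases hk0 : k = 0
        · subst hk0
          exact ⟨[], ρ, rfl, le_rfl, by simp⟩
        · have hk1 : 0 ≤ k + -1 := by omega
          obtain ⟨W, ρ', rfl, h1, h2⟩ := ih (k + -1) hk1 (by simpa [hgt] using h')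
          refine ⟨(none, true) :: W, ρ', rfl, ⟨hk, by simpa [hgt] using h1⟩, ?_⟩
          simp only [H_cons, hgt]
          linarith

theorem exists_bal (φ : FreeGroup α →* FreeGroup α) : ∀ (n : ℕ) (π : List (HLet α)),
    π.length < n → NNk 0 π → H π = 0 → ∃ v, Bal φ π v := by
  intro n
  induction n with
  | zero => intro π h; omega
  | succ n ih =>
    intro π hl hN hH
    cases π with
    | nil => exact ⟨1, Bal.nil⟩
    | cons a π =>
      obtain ⟨o, b⟩ := a
      cases o with
      | some x =>
        have h1 : NNk 0 π := by simpa [hgt] using hN.2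
        obtain ⟨v, hv⟩ := ih π (by simpa using hl) h1 (by simpa [hgt] using hH)
        exact ⟨_, Bal.letter (x, b) hv⟩
      | none =>
        cases b with
        | true =>
          exfalso
          have := hN.2.nonneg
          simp [hgt] at this
        | false =>
          have h1 : NNk 1 π := by simpa [hgt] using hN.2
          have hHπ : H π = -1 := by
            simp only [H_cons, hgt] at hH
            linarith
          have hnot : ¬ NNk 0 π := fun h => by
            have := h.final
            omega
          obtain ⟨W, ρ, rfl, hW, hHW⟩ := first_hit π 0 le_rfl hnot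
          have hHW' : H W = 0 := by simpa using hHW
          have h2 := ((NNk_append W (tL :: ρ)).1 h1).2
          have h3 : NNk 0 ρ := by
            have := h2.2
            simpa [hHW'] using this
          have hHρ : H ρ = 0 := by
            rw [H_append] at hHπ
            simp only [H_cons, hgt_tL] at hHπ
            linarith
          simp only [List.length_cons, List.length_append] at hl
          obtain ⟨V, hV⟩ := ih W (by omega) hW hHW'
          obtain ⟨v, hv⟩ := ih ρ (by omega) h3 hHρ
          exact ⟨φ V * v, Bal.exc hV hv⟩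

/-- last exit from level `0` -/
theorem last_exit : ∀ (ρ : List (HLet α)) (j : ℤ), 0 ≤ j → NNk 0 ρ → H ρ = j + 1 →
    ∃ M Q, ρ = M ++ tI :: Q ∧ NNk 0 M ∧ H M = 0 ∧ NNk 0 Q ∧ H Q = j := by
  intro ρ
  induction ρ using List.reverseRecOn with
  | nil => intro j hj _ h; simp at h; omega
  | append_singleton ρ a ih =>
    intro j hj hN hH
    obtain ⟨h1, h2⟩ := (NNk_append ρ [a]).1 hN
    rw [H_append] at hH
    simp only [H_cons, H_nil, add_zero] at hH h2
    have h1' := h1.final
    simp only [zero_add] at h1' h2
    have h3 : 0 ≤ H ρ + hgt a := h2.2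
    by_cases hcase : H ρ = 0 ∧ a = tI
    · obtain ⟨h4, rfl⟩ := hcase
      have : j = 0 := by
        simp only [hgt_tI] at hH
        omega
      exact ⟨ρ, [], by simp, h1, h4, le_rfl, by simp [this]⟩
    · have hpos : 1 ≤ H ρ := by
        by_contra hlt
        have h0 : H ρ = 0 := by omega
        have h5 : hgt a = j + 1 := by omega
        have h6 : a = tI := by
          obtain ⟨o, b⟩ := a
          cases o with
          | some x => simp [hgt] at h5; omega
          | none =>
            cases b with
            | true => simp [hgt] at h5; omega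
            | false => rfl
        exact hcase ⟨h0, h6⟩
      obtain ⟨M, Q, rfl, hM, hHM, hQ, hHQ⟩ := ih (H ρ - 1) (by omega) h1 (by omega)
      refine ⟨M, Q ++ [a], by simp, hM, hHM, ?_, ?_⟩
      · refine (NNk_append Q [a]).2 ⟨hQ, ?_⟩
        have hj' : 0 + H Q + hgt a = j := by
          rw [hHQ]
          omega
        refine ⟨by rw [hHQ]; omega, ?_⟩
        show 0 ≤ 0 + H Q + hgt a
        omega
      · rw [H_append, hHQ]
        simp only [H_cons, H_nil, add_zero]
        omega

theorem dip (π : List (HLet α)) (hH : H π = 0) (h0 : ¬ NNk 0 π) :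
    ∃ (k : ℤ) (P M Q : List (HLet α)), 0 ≤ k ∧ π = P ++ tL :: (M ++ tI :: Q) ∧
      NNk k P ∧ k + H P = 0 ∧ NNk 0 M ∧ H M = 0 ∧ NNk 0 Q ∧ H Q = k := by
  classical
  have hex : ∃ n : ℕ, NNk (n : ℤ) π :=
    ⟨π.length, NNk_large π _ (by positivity) le_rfl⟩
  have hspec := Nat.find_spec hex
  have hn : Nat.find hex ≠ 0 := by
    intro h
    rw [h] at hspec
    exact h0 (by simpa using hspec)
  obtain ⟨k, hk⟩ := Nat.exists_eq_succ_of_ne_zero hn
  have hmin : ¬ NNk (k : ℤ) π := Nat.find_min hex (by omega)
  rw [hk] at hspec
  obtain ⟨P, ρ, rfl, hP, hHP⟩ := first_hit π k (by positivity) hmin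
  have h1 := ((NNk_append P (tL :: ρ)).1 hspec).2
  have h2 : NNk 0 ρ := by
    have := h1.2
    have e : ((k.succ : ℕ) : ℤ) + H P + hgt (tL : HLet α) = 0 := by
      push_cast
      simp only [hgt_tL]
      omega
    rwa [e] at this
  have hHρ : H ρ = (k : ℤ) + 1 := by
    rw [H_append] at hH
    simp only [H_cons, hgt_tL] at hH
    omega
  obtain ⟨M, Q, rfl, hM, hHM, hQ, hHQ⟩ := last_exit ρ k (by positivity) h2 hHρ
  exact ⟨k, P, M, Q, by positivity, rfl, hP, hHP, hM, hHM, hQ, hHQ⟩

end heights

/-! ### Evaluation in a group -/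

section eval

variable {G : Type*} [Group G] (ι : FreeGroup α →* G) (t : G)

def letVal : HLet α → G
  | (none, true) => t
  | (none, false) => t⁻¹
  | (some a, true) => ι (of a)
  | (some a, false) => (ι (of a))⁻¹

def evalW (π : List (HLet α)) : G := (π.map (letVal ι t)).prod

@[simp] theorem evalW_nil : evalW ι t [] = 1 := rfl
@[simp] theorem evalW_cons (a : HLet α) (π : List (HLet α)) :
    evalW ι t (a :: π) = letVal ι t a * evalW ι t π := by
  simp [evalW]

theorem evalW_append (A B : List (HLet α)) :
    evalW ι t (A ++ B) = evalW ι t A * evalW ι t B := by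
  simp [evalW]

theorem letVal_emb (x : α × Bool) : letVal ι t (emb x) = ι (mk [x]) := by
  obtain ⟨a, b⟩ := x
  cases b with
  | true => rfl
  | false =>
    have : (mk [(a, false)] : FreeGroup α) = (of a)⁻¹ := by
      simp [of, inv_mk, invRev]
    rw [this, _root_.map_inv]
    rfl

theorem evalW_embW (U : List (α × Bool)) : evalW ι t (embW U) = ι (mk U) := by
  induction U with
  | nil => simp [← one_eq_mk]
  | cons a U ih =>
    show evalW ι t (emb a :: embW U) = _
    rw [evalW_cons, ih, letVal_emb, mk_cons a U, _root_.map_mul]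

variable {ι t} {φ : FreeGroup α →* FreeGroup α}

theorem Bal.eval (hrel : ∀ x, t⁻¹ * ι x * t = ι (φ x)) {π : List (HLet α)} {v : FreeGroup α}
    (h : Bal φ π v) : evalW ι t π = ι v := by
  induction h with
  | nil => simp
  | letter x _ ih =>
    rw [evalW_cons, ih, letVal_emb, _root_.map_mul]
  | @exc W π V v _ _ ih1 ih2 =>
    rw [evalW_cons, evalW_append, evalW_cons, ih1, ih2, _root_.map_mul, ← hrel]
    show t⁻¹ * (ι V * (t * ι v)) = t⁻¹ * ι V * t * ι v
    group

theorem deg_evalW (e : G →* Multiplicative ℤ) (he : e t = Multiplicative.ofAdd 1)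
    (heι : ∀ x, e (ι x) = 1) (π : List (HLet α)) :
    Multiplicative.toAdd (e (evalW ι t π)) = - H π := by
  induction π with
  | nil => simp
  | cons a π ih =>
    rw [evalW_cons, _root_.map_mul, toAdd_mul, ih, H_cons]
    obtain ⟨o, b⟩ := a
    cases o with
    | some x =>
      cases b with
      | true => simp [letVal, hgt, heι]
      | false => simp [letVal, hgt, heι]
    | none =>
      cases b with
      | true => simp [letVal, hgt, he]; ring
      | false => simp [letVal, hgt, he]; ring

/-- **Arc lemma.** -/
theorem arc_core {blk : α × Bool → List (α × Bool)} {L : ℕ} (hD : BlkData blk L φ)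
    (hι : Function.Injective ι) (hrel : ∀ x, t⁻¹ * ι x * t = ι (φ x))
    (e : G →* Multiplicative ℤ) (he : e t = Multiplicative.ofAdd 1) (heι : ∀ x, e (ι x) = 1)
    {π : List (HLet α)} (hπ : IsReduced π) {τ : List (α × Bool)} (hτ : IsReduced τ)
    (hτl : τ.length ≤ 1) (hev : evalW ι t π = ι (mk τ)) :
    π = embW τ ∨ HasArc blk L π := by
  classical
  have hH : H π = 0 := by
    have := deg_evalW e he heι π
    rw [hev, heι] at this
    simpa using this.symm
  by_cases h0 : NNk 0 π
  · obtain ⟨v, hv⟩ := exists_bal φ _ π (Nat.lt_succ_self _) h0 hH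
    have hvτ : v = mk τ := hι ((hv.eval hrel).symm.trans hev)
    exact core1 hD _ π v τ (Nat.lt_succ_self _) hπ hv hτ hτl hvτ
  · right
    obtain ⟨k, P, M, Q, hk, rfl, hP, hHP, hM, hHM, hQ, hHQ⟩ := dip π hH h0
    -- the outer word
    set W := Q ++ (embW (invRev τ) ++ P) with hW
    have hWN : NNk 0 W := by
      refine (NNk_append _ _).2 ⟨hQ, (NNk_append _ _).2 ⟨NNk_embW (by rw [hHQ]; simpa using hk) _, ?_⟩⟩
      simpa [hHQ] using hP
    have hWH : H W = 0 := by
      rw [hW, H_append, H_append, H_embW, hHQ]
      omega
    obtain ⟨V, hV⟩ := exists_bal φ _ W (Nat.lt_succ_self _) hWN hWH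
    obtain ⟨v, hv⟩ := exists_bal φ _ M (Nat.lt_succ_self _) hM hHM
    have hVe := hV.eval hrel
    have hve := hv.eval hrel
    have hr : ι (mk (invRev τ)) = (ι (mk τ))⁻¹ := by
      rw [← inv_mk, _root_.map_inv]
    -- the conjugation
    have hmain : v * φ V = 1 := by
      apply hι
      rw [_root_.map_mul, _root_.map_one, ← hrel, ← hVe, ← hve, hW]
      have e1 : evalW ι t P * (t * (evalW ι t M * (t⁻¹ * evalW ι t Q))) = ι (mk τ) := by
        rw [← hev, evalW_append, evalW_cons, evalW_append, evalW_cons]
        rfl
      rw [evalW_append, evalW_append, evalW_embW, hr, ← e1]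
      group
    have hvu : v = φ V⁻¹ := by
      rw [_root_.map_inv]
      exact eq_inv_of_mul_eq_one_left hmain
    have hMinf : M <:+: P ++ tL :: (M ++ tI :: Q) :=
      ⟨P ++ [tL], tI :: Q, by simp⟩
    have hMne : M ≠ [] := by
      intro hM0
      subst hM0
      have hi : tL :: tI :: Q <:+: P ++ tL :: ([] ++ tI :: Q) := ⟨P, [], by simp⟩
      exact tL_tI_not_reduced _ (hπ.infix hi)
    have hMend : ∀ M', M ≠ M' ++ [tL] := by
      intro M' hM'
      subst hM'
      have hi : tL :: tI :: Q <:+: P ++ tL :: ((M' ++ [tL]) ++ tI :: Q) :=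
        ⟨P ++ tL :: M', [], by simp⟩
      exact tL_tI_not_reduced _ (hπ.infix hi)
    exact (core2 hD (hπ.infix hMinf) hv hvu hMne hMend).mono hMinf

end eval

end Crest.Agent.Lib.NoFixedPrice.Arc
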