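import Mathlib

/-!
# The Bernoulli shift of a countable group (row 191, S0291).

`X = Γ → Bool`, fair product measure, action `(g • x) h = x (g⁻¹ * h)`.
Measure preserving, essentially free for infinite `Γ`, Walsh functions orthonormal with dense span.
-/

set_option autoImplicit false
set_option linter.unusedSectionVars false

namespace Crest.Agent.NoFixedPrice

open MeasureTheory Measure Finset
open scoped Pointwise

/-- The fair coin. -/
noncomputable def fairCoin : Measure Bool := (2 : ENNReal)⁻¹ • (dirac true + dirac false)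

lemma fairCoin_apply_singleton (b : Bool) : fairCoin {b} = (2 : ENNReal)⁻¹ := by
  cases b <;> simp [fairCoin]

instance : IsProbabilityMeasure fairCoin := ⟨by
  simp only [fairCoin, Measure.smul_apply, smul_eq_mul, Measure.add_apply, measure_univ]
  rw [one_add_one_eq_two]
  exact ENNReal.inv_mul_cancel (by norm_num) (by norm_num)⟩

lemma fairCoin_map_not : fairCoin.map not = fairCoin := by
  have h : Measurable not := measurable_of_countable _ 
  ext s hs
  rw [map_apply h hs]
  simp only [fairCoin, Measure.smul_apply, smul_eq_mul, Measure.add_apply, dirac_apply' _ (h hs),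
    dirac_apply' _ hs]
  have e1 : Set.indicator (not ⁻¹' s) (1 : Bool → ENNReal) true = Set.indicator s 1 false := by
    by_cases hb : false ∈ s <;> simp [Set.indicator, hb]
  have e2 : Set.indicator (not ⁻¹' s) (1 : Bool → ENNReal) false = Set.indicator s 1 true := by
    by_cases hb : true ∈ s <;> simp [Set.indicator, hb]
  rw [e1, e2, add_comm]

variable {Γ : Type*}

/-- The fair product measure. -/
noncomputable def bernMu (Γ : Type*) : Measure (Γ → Bool) := infinitePi (fun _ : Γ => fairCoin)

instance : IsProbabilityMeasure (bernMu Γ) := by unfold bernMu; infer_instance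

section action

variable [Group Γ]

/-- The Bernoulli shift: `(g • x) h = x (g⁻¹ * h)`. -/
instance bernAction : MulAction Γ (Γ → Bool) where
  smul g x := fun h => x (g⁻¹ * h)
  one_smul x := by
    funext h
    show x (1⁻¹ * h) = x h
    simp
  mul_smul g g' x := by
    funext h
    show x ((g * g')⁻¹ * h) = x (g'⁻¹ * (g⁻¹ * h))
    simp [mul_assoc]

lemma bern_smul_apply (g : Γ) (x : Γ → Bool) (h : Γ) : (g • x) h = x (g⁻¹ * h) := rfl

lemma measurable_bern_smul (g : Γ) : Measurable (fun x : Γ → Bool => g • x) :=
  measurable_pi_lambda _ (fun h => measurable_pi_apply (g⁻¹ * h))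

/-- The shift preserves the product measure. -/
theorem measurePreserving_bern_smul (g : Γ) :
    MeasurePreserving (fun x : Γ → Bool => g • x) (bernMu Γ) (bernMu Γ) := by
  refine ⟨measurable_bern_smul g, ?_⟩
  classical
  refine eq_infinitePi _ fun s t ht => ?_
  have hm : MeasurableSet ((s : Set Γ).pi t) := .pi s.countable_toSet fun _ _ => ht _
  rw [map_apply (measurable_bern_smul g) hm]
  have hpre : (fun x : Γ → Bool => g • x) ⁻¹' ((s : Set Γ).pi t) =
      ((s.image (fun h => g⁻¹ * h) : Finset Γ) : Set Γ).pi (fun k => t (g * k)) := by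
    ext x
    simp only [Set.mem_preimage, Set.mem_pi, mem_coe, mem_image, bern_smul_apply]
    constructor
    · rintro hx k ⟨h, hh, rfl⟩
      have := hx h hh
      simpa using this
    · intro hx h hh
      have := hx (g⁻¹ * h) ⟨h, hh, rfl⟩
      simpa using this
  rw [hpre, bernMu, infinitePi_pi _ (fun k _ => ht _)]
  rw [prod_image]
  · refine prod_congr rfl fun h _ => ?_
    simp
  · intro a _ b _ hab
    exact mul_left_cancel hab

end action

section walsh

/-- Sign of a bit. -/
def sgnB (b : Bool) : ℝ := if b then 1 else -1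

lemma sgnB_sq (b : Bool) : sgnB b * sgnB b = 1 := by cases b <;> simp [sgnB]
lemma sgnB_not (b : Bool) : sgnB (!b) = - sgnB b := by cases b <;> simp [sgnB]
lemma abs_sgnB (b : Bool) : |sgnB b| = 1 := by cases b <;> simp [sgnB]

/-- The Walsh function of a finite set. -/
def chi (S : Finset Γ) (x : Γ → Bool) : ℝ := ∏ h ∈ S, sgnB (x h)

lemma chi_empty (x : Γ → Bool) : chi (∅ : Finset Γ) x = 1 := by simp [chi]

lemma measurable_chi (S : Finset Γ) : Measurable (chi S) := by
  unfold chi
  refine Finset.measurable_prod _ fun h _ => ?_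
  exact (measurable_of_countable sgnB).comp (measurable_pi_apply h)

lemma abs_chi (S : Finset Γ) (x : Γ → Bool) : |chi S x| = 1 := by
  unfold chi
  rw [Finset.abs_prod]
  simp [abs_sgnB]

lemma chi_mul_self (S : Finset Γ) (x : Γ → Bool) : chi S x * chi S x = 1 := by
  have := abs_chi S x
  have h2 : chi S x * chi S x = |chi S x| * |chi S x| := (abs_mul_abs_self _).symm
  rw [h2, this]; norm_num

/-- Products of Walsh functions are Walsh functions. -/
lemma chi_mul_exists [DecidableEq Γ] (S T : Finset Γ) :
    ∃ U : Finset Γ, ∀ x, chi S x * chi T x = chi U x := by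
  induction T using Finset.induction_on with
  | empty => exact ⟨S, fun x => by simp [chi_empty]⟩
  | insert a T ha ih =>
    obtain ⟨U, hU⟩ := ih
    by_cases haU : a ∈ U
    · refine ⟨U.erase a, fun x => ?_⟩
      have h1 : chi (insert a T) x = sgnB (x a) * chi T x := by simp [chi, prod_insert ha]
      have h2 : chi U x = sgnB (x a) * chi (U.erase a) x := by
        simp [chi, ← mul_prod_erase U _ haU]
      calc chi S x * chi (insert a T) x = sgnB (x a) * (chi S x * chi T x) := by rw [h1]; ring
        _ = sgnB (x a) * (sgnB (x a) * chi (U.erase a) x) := by rw [hU, h2]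
        _ = chi (U.erase a) x := by rw [← mul_assoc, sgnB_sq, one_mul]
    · refine ⟨insert a U, fun x => ?_⟩
      have h1 : chi (insert a T) x = sgnB (x a) * chi T x := by simp [chi, prod_insert ha]
      have h2 : chi (insert a U) x = sgnB (x a) * chi U x := by simp [chi, prod_insert haU]
      rw [h1, h2, ← hU]; ring

/-- Equivariance. -/
lemma chi_smul [Group Γ] [DecidableEq Γ] (g : Γ) (S : Finset Γ) (x : Γ → Bool) :
    chi S (g • x) = chi (S.image (fun h => g⁻¹ * h)) x := by
  unfold chi
  rw [prod_image]
  · rfl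
  · intro a _ b _ hab
    exact mul_left_cancel hab

/-- Flip of one coordinate. -/
def flipAt [DecidableEq Γ] (a : Γ) (x : Γ → Bool) : Γ → Bool := fun h => if h = a then !x h else x h

lemma measurePreserving_flipAt [DecidableEq Γ] (a : Γ) :
    MeasurePreserving (flipAt a) (bernMu Γ) (bernMu Γ) := by
  have hf : ∀ i : Γ, Measurable (fun b : Bool => if i = a then !b else b) :=
    fun i => measurable_of_countable _
  have hmeas : Measurable (flipAt a) := by
    refine measurable_pi_lambda _ fun h => ?_
    exact (hf h).comp (measurable_pi_apply h)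
  refine ⟨hmeas, ?_⟩
  have := infinitePi_map_pi (μ := fun _ : Γ => fairCoin) (f := fun i b => if i = a then !b else b) hf
  have h2 : (fun i : Γ => fairCoin.map (fun b : Bool => if i = a then !b else b)) =
      fun _ => fairCoin := by
    funext i
    by_cases hi : i = a
    · simp only [hi, if_true]
      exact fairCoin_map_not
    · simp [hi]
  rw [h2] at this
  exact this

lemma chi_flipAt [DecidableEq Γ] (a : Γ) (S : Finset Γ) (x : Γ → Bool) :
    chi S (flipAt a x) = (if a ∈ S then -1 else 1) * chi S x := by
  unfold chi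
  by_cases ha : a ∈ S
  · rw [if_pos ha, ← mul_prod_erase S _ ha, ← mul_prod_erase S _ ha]
    have h1 : sgnB (flipAt a x a) = - sgnB (x a) := by simp [flipAt, sgnB_not]
    have h2 : ∏ h ∈ S.erase a, sgnB (flipAt a x h) = ∏ h ∈ S.erase a, sgnB (x h) := by
      refine prod_congr rfl fun h hh => ?_
      have : h ≠ a := (mem_erase.mp hh).1
      simp [flipAt, this]
    rw [h1, h2]; ring
  · rw [if_neg ha, one_mul]
    refine prod_congr rfl fun h hh => ?_
    have : h ≠ a := fun e => ha (e ▸ hh)
    simp [flipAt, this]

lemma integrable_chi_mul (S T : Finset Γ) :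
    Integrable (fun x => chi S x * chi T x) (bernMu Γ) := by
  refine Integrable.of_bound ((measurable_chi S).mul (measurable_chi T)).aestronglyMeasurable 1 ?_
  refine Filter.Eventually.of_forall fun x => ?_
  rw [Real.norm_eq_abs, abs_mul, abs_chi, abs_chi]; norm_num

/-- Orthonormality of Walsh functions, function form. -/
theorem integral_chi_mul [DecidableEq Γ] (S T : Finset Γ) :
    ∫ x, chi S x * chi T x ∂(bernMu Γ) = if S = T then 1 else 0 := by
  by_cases hST : S = T
  · subst hST
    simp [chi_mul_self]
  · rw [if_neg hST]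
    -- pick a coordinate in exactly one of them
    obtain ⟨a, ha⟩ : ∃ a, ¬ (a ∈ S ↔ a ∈ T) := by
      by_contra hcon
      push Not at hcon
      exact hST (Finset.ext hcon)
    have hmp := measurePreserving_flipAt (Γ := Γ) a
    have h1 : ∫ x, chi S x * chi T x ∂(bernMu Γ) =
        ∫ x, chi S (flipAt a x) * chi T (flipAt a x) ∂(bernMu Γ) := by
      have hae : AEStronglyMeasurable (fun x => chi S x * chi T x)
          ((bernMu Γ).map (flipAt a)) := by
        rw [hmp.map_eq]
        exact ((measurable_chi S).mul (measurable_chi T)).aestronglyMeasurable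
      have := integral_map hmp.measurable.aemeasurable hae
      rw [hmp.map_eq] at this
      exact this
    have h2 : ∀ x, chi S (flipAt a x) * chi T (flipAt a x) = - (chi S x * chi T x) := by
      intro x
      rw [chi_flipAt, chi_flipAt]
      by_cases hS : a ∈ S
      · have hT : a ∉ T := fun h => ha ⟨fun _ => h, fun _ => hS⟩
        simp [hS, hT]
      · have hT : a ∈ T := by
          by_contra hT
          exact ha ⟨fun h => absurd h hS, fun h => absurd h hT⟩
        simp [hS, hT]
    simp only [h2, integral_neg] at h1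
    linarith

theorem integral_chi [DecidableEq Γ] (S : Finset Γ) :
    ∫ x, chi S x ∂(bernMu Γ) = if S = ∅ then 1 else 0 := by
  have := integral_chi_mul S (∅ : Finset Γ)
  simpa [chi_empty] using this

end walsh

section free

variable [Group Γ]

lemma measurable_level [DecidableEq Γ] (S : Finset Γ) : MeasurableSet {x : Γ → Bool | chi S x = 1} :=
  measurableSet_eq_fun (measurable_chi S) measurable_const

/-- Second moment of a sum of distinct Walsh functions. -/
lemma integral_sum_chi_sq [DecidableEq Γ] (Q : Finset (Finset Γ)) :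
    ∫ x, (∑ U ∈ Q, chi U x) ^ 2 ∂(bernMu Γ) = Q.card := by
  have h : ∀ x, (∑ U ∈ Q, chi U x) ^ 2 = ∑ U ∈ Q, ∑ V ∈ Q, chi U x * chi V x := by
    intro x
    rw [sq, sum_mul_sum]
  simp only [h]
  rw [integral_finsetSum _ (fun U _ => integrable_finsetSum _ fun V _ => integrable_chi_mul U V)]
  have : ∀ U ∈ Q, ∫ x, ∑ V ∈ Q, chi U x * chi V x ∂(bernMu Γ) = 1 := by
    intro U hU
    rw [integral_finsetSum _ (fun V _ => integrable_chi_mul U V)]
    simp only [integral_chi_mul]
    rw [sum_ite_eq]
    simp [hU]
  rw [sum_congr rfl this]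
  simp

/-- If all of `Q` equal one on `F`, then `F` has measure at most `1 / |Q|`. -/
lemma measure_le_of_chi_eq_one [DecidableEq Γ] (Q : Finset (Finset Γ)) (hQ : 0 < Q.card)
    (F : Set (Γ → Bool)) (hF : ∀ x ∈ F, ∀ U ∈ Q, chi U x = 1) :
    bernMu Γ F ≤ ENNReal.ofReal (1 / Q.card) := by
  set G : Set (Γ → Bool) := ⋂ U ∈ Q, {x | chi U x = 1} with hG
  have hGm : MeasurableSet G :=
    Finset.measurableSet_biInter _ (fun U _ => measurable_level U)
  have hFG : F ⊆ G := by
    intro x hx
    simp only [hG, Set.mem_iInter]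
    exact fun U hU => hF x hx U hU
  refine (measure_mono hFG).trans ?_
  have hn : (0 : ℝ) < Q.card := by exact_mod_cast hQ
  have hint : Integrable (fun x => (∑ U ∈ Q, chi U x) ^ 2) (bernMu Γ) := by
    have h : (fun x => (∑ U ∈ Q, chi U x) ^ 2) = fun x => ∑ U ∈ Q, ∑ V ∈ Q, chi U x * chi V x := by
      funext x
      rw [sq, sum_mul_sum]
    rw [h]
    exact integrable_finsetSum _ fun U _ => integrable_finsetSum _ fun V _ => integrable_chi_mul U V
  have hle : ∫ x, G.indicator (fun _ => ((Q.card : ℝ)) ^ 2) x ∂(bernMu Γ) ≤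
      ∫ x, (∑ U ∈ Q, chi U x) ^ 2 ∂(bernMu Γ) := by
    refine integral_mono ?_ hint ?_
    · exact (integrable_const _).indicator hGm
    · intro x
      by_cases hx : x ∈ G
      · have : ∀ U ∈ Q, chi U x = 1 := by
          simpa [hG] using hx
        simp only [Set.indicator_of_mem hx, sum_congr rfl this]
        simp
      · simp only [Set.indicator_of_notMem hx]
        positivity
  rw [integral_indicator hGm, integral_const, integral_sum_chi_sq] at hle
  simp only [smul_eq_mul] at hle
  have hreal : (bernMu Γ).real (Set.univ ∩ G) = (bernMu Γ).real G := by simp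
  rw [measureReal_restrict_apply_univ] at hle
  rw [← ofReal_measureReal]
  refine ENNReal.ofReal_le_ofReal ?_
  rw [le_div_iff₀ hn]
  have : (bernMu Γ).real G * (Q.card : ℝ) * Q.card ≤ 1 * Q.card := by nlinarith
  exact le_of_mul_le_mul_right this hn

/-- **Essential freeness** of the Bernoulli shift of an infinite group. -/
theorem bern_essentially_free [Infinite Γ] (g : Γ) (hg : g ≠ 1) :
    bernMu Γ {x : Γ → Bool | g • x = x} = 0 := by
  classical
  set F : Set (Γ → Bool) := {x | g • x = x} with hF
  let pairS : Γ → Finset Γ := fun h => {h, g⁻¹ * h}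
  have hne : ∀ h : Γ, h ≠ g⁻¹ * h := by
    intro h hh
    apply hg
    have : g⁻¹ = 1 := by
      have h2 : g⁻¹ * h = 1 * h := by rw [one_mul]; exact hh.symm
      exact mul_right_cancel h2
    simpa using this
  have hinf : (Set.range pairS).Infinite := by
    intro hfin
    have huniv : (Set.univ : Set Γ).Finite := by
      refine Set.Finite.of_finite_fibers pairS (by simpa [Set.image_univ] using hfin) ?_
      rintro U ⟨h, _, rfl⟩
      refine Set.Finite.subset (Finset.finite_toSet (pairS h)) ?_
      rintro k ⟨-, hk⟩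
      have hk' : pairS k = pairS h := hk
      have : k ∈ pairS k := by simp [pairS]
      rw [hk'] at this
      exact this
    exact Set.infinite_univ huniv
  have key : ∀ n : ℕ, 0 < n → bernMu Γ F ≤ ENNReal.ofReal (1 / n) := by
    intro n hn
    obtain ⟨Q, hQsub, hQcard⟩ := hinf.exists_subset_card_eq n
    have := measure_le_of_chi_eq_one Q (by omega) F (by
      intro x hx U hU
      obtain ⟨h, rfl⟩ := hQsub hU
      have hx' : x (g⁻¹ * h) = x h := by
        have := congrFun (show g • x = x from hx) h
        simpa [bern_smul_apply] using this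
      simp only [chi, pairS]
      rw [prod_pair (hne h), hx', sgnB_sq])
    simpa [hQcard] using this
  by_contra hpos
  have hfin : bernMu Γ F ≠ ⊤ := measure_ne_top _ _
  have hr : 0 < (bernMu Γ F).toReal := ENNReal.toReal_pos hpos hfin
  obtain ⟨n, hn⟩ := exists_nat_one_div_lt hr
  have h1 := key (n + 1) (by omega)
  have h2 := ENNReal.toReal_mono ENNReal.ofReal_ne_top h1
  rw [ENNReal.toReal_ofReal (by positivity)] at h2
  push_cast at h2
  linarith

end free

section L2

variable [Group Γ] [DecidableEq Γ]

lemma memLp_chi (S : Finset Γ) : MemLp (chi S) 2 (bernMu Γ) := by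
  refine MemLp.of_bound (measurable_chi S).aestronglyMeasurable 1 ?_
  refine Filter.Eventually.of_forall fun x => ?_
  rw [Real.norm_eq_abs, abs_chi]

/-- The Hilbert space. -/
noncomputable abbrev BL2 (Γ : Type*) := Lp ℝ 2 (bernMu Γ)

/-- Walsh functions as elements of `L²`. -/
noncomputable def chiL (S : Finset Γ) : BL2 Γ := (memLp_chi S).toLp (chi S)

lemma chiL_ae (S : Finset Γ) : (chiL S : (Γ → Bool) → ℝ) =ᵐ[bernMu Γ] chi S :=
  MemLp.coeFn_toLp _

lemma inner_toLp {f h : (Γ → Bool) → ℝ} (hf : MemLp f 2 (bernMu Γ)) (hh : MemLp h 2 (bernMu Γ)) :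
    inner ℝ (hf.toLp f) (hh.toLp h) = ∫ x, f x * h x ∂(bernMu Γ) := by
  rw [L2.inner_def]
  refine integral_congr_ae ?_
  filter_upwards [MemLp.coeFn_toLp hf, MemLp.coeFn_toLp hh] with x h1 h2
  simp only [h1, h2, RCLike.inner_apply, conj_trivial]
  ring

theorem chiL_orthonormal : Orthonormal ℝ (chiL (Γ := Γ)) := by
  rw [orthonormal_iff_ite]
  intro S T
  rw [chiL, chiL, inner_toLp, integral_chi_mul]

/-- Walsh functions as continuous functions. -/
noncomputable def chiC (S : Finset Γ) : C(Γ → Bool, ℝ) where
  toFun := chi S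
  continuous_toFun := by
    unfold chi
    refine continuous_finsetProd _ fun h _ => ?_
    exact (continuous_of_discreteTopology (f := sgnB)).comp (continuous_apply h)

variable (Γ) in
/-- The span of Walsh functions is a subalgebra. -/
noncomputable def walshAlg : Subalgebra ℝ C(Γ → Bool, ℝ) :=
  (Submodule.span ℝ (Set.range (chiC (Γ := Γ)))).toSubalgebra
    (by
      refine Submodule.subset_span ⟨∅, ?_⟩
      ext x
      simp [chiC, chi_empty])
    (by
      intro x y hx hy
      have hsub : Set.range (chiC (Γ := Γ)) * Set.range (chiC (Γ := Γ)) ⊆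
          Set.range (chiC (Γ := Γ)) := by
        rintro _ ⟨_, ⟨S, rfl⟩, _, ⟨T, rfl⟩, rfl⟩
        obtain ⟨U, hU⟩ := chi_mul_exists S T
        exact ⟨U, by ext z; simp [chiC, hU]⟩
      have := Submodule.mul_mem_mul hx hy
      rw [Submodule.span_mul_span] at this
      exact Submodule.span_mono hsub this)

lemma walshAlg_separates : (walshAlg Γ).SeparatesPoints := by
  intro x y hxy
  obtain ⟨h, hh⟩ : ∃ h, x h ≠ y h := by
    by_contra hcon
    push Not at hcon
    exact hxy (funext hcon)
  refine ⟨_, ⟨chiC {h}, Submodule.subset_span ⟨{h}, rfl⟩, rfl⟩, ?_⟩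
  show chi {h} x ≠ chi {h} y
  simp only [chi, prod_singleton]
  cases hx : x h <;> cases hy : y h <;> simp_all [sgnB] <;> norm_num

variable [Countable Γ]

/-- The Walsh functions span a dense subspace of `L²`. -/
theorem chiL_dense : Dense ((Submodule.span ℝ (Set.range (chiL (Γ := Γ))) : Submodule ℝ (BL2 Γ)) :
    Set (BL2 Γ)) := by
  have hSW : (walshAlg Γ).topologicalClosure = ⊤ :=
    ContinuousMap.subalgebra_topologicalClosure_eq_top_of_separatesPoints _ walshAlg_separates
  have hdense : Dense ((walshAlg Γ : Set C(Γ → Bool, ℝ))) := by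
    have := congrArg (fun A : Subalgebra ℝ C(Γ → Bool, ℝ) => (A : Set C(Γ → Bool, ℝ))) hSW
    simp only [Subalgebra.topologicalClosure_coe, Algebra.coe_top] at this
    exact dense_iff_closure_eq.mpr this
  have hrange := ContinuousMap.toLp_denseRange ℝ (bernMu Γ) (p := 2) ℝ (by norm_num)
  have himg : Dense (ContinuousMap.toLp (E := ℝ) 2 (bernMu Γ) ℝ '' (walshAlg Γ : Set C(Γ → Bool, ℝ))) :=
    hrange.dense_image (ContinuousMap.toLp (E := ℝ) 2 (bernMu Γ) ℝ).continuous hdense
  have key : ∀ f ∈ Submodule.span ℝ (Set.range (chiC (Γ := Γ))),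
      ContinuousMap.toLp (E := ℝ) 2 (bernMu Γ) ℝ f ∈
        Submodule.span ℝ (Set.range (chiL (Γ := Γ))) := by
    intro f hf
    induction hf using Submodule.span_induction with
    | mem x hx =>
      obtain ⟨S, rfl⟩ := hx
      refine Submodule.subset_span ⟨S, ?_⟩
      rw [chiL]
      apply Lp.ext
      refine (MemLp.coeFn_toLp _).trans ?_
      exact (ContinuousMap.coeFn_toLp (p := 2) (𝕜 := ℝ) (bernMu Γ) (chiC S)).symm
    | zero => simp
    | add x y _ _ hx hy =>
      rw [map_add]
      exact Submodule.add_mem _ hx hy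
    | smul a x _ hx =>
      rw [map_smul]
      exact Submodule.smul_mem _ a hx
  refine himg.mono ?_
  rintro _ ⟨f, hf, rfl⟩
  exact key f hf

end L2

end Crest.Agent.NoFixedPrice
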