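import Crest.Agent.Lib.NoFixedPrice.Cx

/-!
# Closed lifts of the relators on a measured graph (row 191, S0291)

`L = Option β`: `none` is `t`, `some b` a letter. `a i p` is the `p`-th letter of the bottom of the
`i`-th relator (first acting first), `Lb` the length of the bottom.

* `botW a i n`: the first `n` letters of the bottom.
* `rel a Lb i`: the relator read from the start of the bottom: bottom, right leg `t`, top `x_i⁻¹`,
  left leg `t⁻¹`.
* `K.closedSet a Lb i c`: the `u` such that the relator read from `(u, c)` closes.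
* `K.cellMass`: the total mass of closed lifts.
* half-edge lemmas: at a vertex of degree at most two every half-edge is one of two known ones.
-/

set_option autoImplicit false
set_option linter.unusedSectionVars false
set_option linter.deprecated false

namespace Crest.Agent.NoFixedPrice

open MeasureTheory Finset

variable {Γ β : Type*} [Group Γ]

/-- The first `n` letters of the bottom of the `i`-th relator. -/
def botW (a : β → ℕ → β) (i : β) (n : ℕ) : List (Option β × Bool) :=
  (List.range n).map fun p => (some (a i p), true)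

@[simp] lemma botW_zero (a : β → ℕ → β) (i : β) : botW a i 0 = [] := rfl

lemma botW_succ (a : β → ℕ → β) (i : β) (n : ℕ) :
    botW a i (n + 1) = botW a i n ++ [(some (a i n), true)] := by
  simp [botW, List.range_succ]

@[simp] lemma length_botW (a : β → ℕ → β) (i : β) (n : ℕ) : (botW a i n).length = n := by
  simp [botW]

/-- `botW a i (m + n)` splits. -/
lemma botW_add (a : β → ℕ → β) (i : β) (m n : ℕ) :
    botW a i (m + n) = botW a i m ++ (List.range n).map fun p => (some (a i (m + p)), true) := by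
  induction n with
  | zero => simp
  | succ n ih =>
    rw [← add_assoc, botW_succ, ih, List.range_succ]
    simp

/-- The relator, read from the start of the bottom. -/
def rel (a : β → ℕ → β) (Lb : ℕ) (i : β) : List (Option β × Bool) :=
  botW a i Lb ++ [(none, true), (some i, false), (none, false)]

namespace MGraph

variable {val : Option β → Γ} {P X : Type*} [MulAction Γ X] [MeasurableSpace X]
  (K : MGraph val P X) (a : β → ℕ → β) (Lb : ℕ)

/-- The lifts of the relator `i` starting on the sheet `c` that close up. -/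
def closedSet (i : β) (c : P) : Set X := K.pathSet c (rel a Lb i) c

lemma mem_closedSet_iff (hrel : ∀ i, wordAct val (rel a Lb i) = 1) {i : β} {c : P} {u : X} :
    u ∈ K.closedSet a Lb i c ↔ K.IsPath (u, c) (rel a Lb i) (u, c) := by
  unfold closedSet pathSet
  simp [hrel i]

lemma measurableSet_closedSet [Fintype P] [DecidableEq P]
    (hact : ∀ g : Γ, Measurable fun x : X => g • x) (i : β) (c : P) :
    MeasurableSet (K.closedSet a Lb i c) :=
  K.measurableSet_pathSet hact _ _ _

/-- The total mass of closed lifts. -/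
noncomputable def cellMass [Fintype β] [Fintype P] (μ : Measure X) : ℝ :=
  ∑ i, ∑ c, μ.real (K.closedSet a Lb i c)

lemma cellMass_nonneg [Fintype β] [Fintype P] (μ : Measure X) : 0 ≤ K.cellMass a Lb μ :=
  Finset.sum_nonneg fun _ _ => Finset.sum_nonneg fun _ _ => measureReal_nonneg

/-! ### Prefixes of a path -/

variable {K a Lb}

/-- A prefix of a path is a path. -/
lemma IsPath.exists_prefix {u w : List (Option β × Bool)} {v v' : X × P}
    (h : K.IsPath v (u ++ w) v') : ∃ m, K.IsPath v u m ∧ K.IsPath m w v' :=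
  (K.isPath_append u w v v').1 h

/-- The lift of a closed relator contains the whole bottom. -/
lemma exists_bot_of_closed (hrel : ∀ i, wordAct val (rel a Lb i) = 1) {i : β} {c : P} {u : X}
    (hu : u ∈ K.closedSet a Lb i c) {q : ℕ} (hq : q ≤ Lb) :
    ∃ v, K.IsPath (u, c) (botW a i q) v := by
  rw [K.mem_closedSet_iff a Lb hrel] at hu
  obtain ⟨n, rfl⟩ := Nat.exists_eq_add_of_le hq
  unfold rel at hu
  rw [botW_add, List.append_assoc] at hu
  obtain ⟨m, h1, _⟩ := IsPath.exists_prefix hu
  exact ⟨m, h1⟩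

/-- Decomposition of a closed lift: bottom end, top source, top target. -/
lemma closed_decomp (hrel : ∀ i, wordAct val (rel a Lb i) = 1) {i : β} {c : P} {u : X}
    (hu : u ∈ K.closedSet a Lb i c) :
    ∃ v₁ v₂ v₃, K.IsPath (u, c) (botW a i Lb) v₁ ∧ K.Adj (none, true) v₁ v₂ ∧
      K.Adj (some i, false) v₂ v₃ ∧ K.Adj (none, false) v₃ (u, c) := by
  rw [K.mem_closedSet_iff a Lb hrel] at hu
  unfold rel at hu
  obtain ⟨v₁, h1, h2⟩ := IsPath.exists_prefix hu
  obtain ⟨v₂, h3, v₃, h4, v₄, h5, h6⟩ := h2
  have : v₄ = (u, c) := h6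
  subst this
  exact ⟨v₁, v₂, v₃, h1, h3, h4, h5⟩

/-- A step of the bottom. -/
lemma botW_succ_path {i : β} {q : ℕ} {v v' : X × P} :
    K.IsPath v (botW a i (q + 1)) v' ↔
      ∃ m, K.IsPath v (botW a i q) m ∧ K.Adj (some (a i q), true) m v' := by
  rw [botW_succ, K.isPath_append]
  constructor
  · rintro ⟨m, h1, h2⟩
    obtain ⟨m', h3, h4⟩ := h2
    have : m' = v' := h4
    subst this
    exact ⟨m, h1, h3⟩
  · rintro ⟨m, h1, h2⟩
    exact ⟨m, h1, v', h2, rfl⟩

/-! ### Half-edges -/

variable [Fintype P] [DecidableEq P] [Fintype β] [DecidableEq β]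

/-- A step from `(x, p)` gives a half-edge. -/
lemma mem_half_of_adj {ℓ : Option β × Bool} {x : X} {p : P} {v' : X × P}
    (h : K.Adj ℓ (x, p) v') : x ∈ K.half ℓ p v'.2 := by
  have h1 := h.fst_eq
  have : v' = (sval val ℓ • x, v'.2) := Prod.ext h1 rfl
  rw [this] at h
  exact h

/-- At a vertex of degree at most two, any half-edge carries one of two distinct known signed
letters. -/
lemma deg_le_two_letter {x : X} {p : P} (hd : K.deg x p ≤ 2) {ℓ₁ ℓ₂ ℓ₃ : Option β × Bool}
    {q₁ q₂ q₃ : P} (h₁ : x ∈ K.half ℓ₁ p q₁) (h₂ : x ∈ K.half ℓ₂ p q₂) (h₃ : x ∈ K.half ℓ₃ p q₃)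
    (hne : ℓ₁ ≠ ℓ₂) : ℓ₃ = ℓ₁ ∨ ℓ₃ = ℓ₂ := by
  classical
  by_contra hcon
  push Not at hcon
  have hs : ({(ℓ₁, q₁), (ℓ₂, q₂), (ℓ₃, q₃)} : Finset ((Option β × Bool) × P)) ⊆
      Finset.univ.filter fun a : (Option β × Bool) × P => x ∈ K.half a.1 p a.2 := by
    intro y hy
    simp only [Finset.mem_insert, Finset.mem_singleton] at hy
    rcases hy with rfl | rfl | rfl <;> simp [h₁, h₂, h₃]
  have hc := Finset.card_le_card hs
  have h3 : ({(ℓ₁, q₁), (ℓ₂, q₂), (ℓ₃, q₃)} : Finset ((Option β × Bool) × P)).card = 3 := by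
    rw [Finset.card_eq_three]
    refine ⟨_, _, _, ?_, ?_, ?_, rfl⟩
    · simp [hne]
    · simp [Ne.symm hcon.1]
    · simp [Ne.symm hcon.2]
  unfold deg at hd
  rw [h3] at hc
  have : (Finset.univ.filter fun a : (Option β × Bool) × P => x ∈ K.half a.1 p a.2).card ≤ 2 := by
    convert hd
  omega

/-- Two distinct half-edges give degree at least two. -/
lemma two_le_deg {x : X} {p : P} {ℓ₁ ℓ₂ : Option β × Bool} {q₁ q₂ : P}
    (h₁ : x ∈ K.half ℓ₁ p q₁) (h₂ : x ∈ K.half ℓ₂ p q₂) (hne : ℓ₁ ≠ ℓ₂) : 2 ≤ K.deg x p := by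
  classical
  have hs : ({(ℓ₁, q₁), (ℓ₂, q₂)} : Finset ((Option β × Bool) × P)) ⊆
      Finset.univ.filter fun a : (Option β × Bool) × P => x ∈ K.half a.1 p a.2 := by
    intro y hy
    simp only [Finset.mem_insert, Finset.mem_singleton] at hy
    rcases hy with rfl | rfl <;> simp [h₁, h₂]
  have hc := Finset.card_le_card hs
  have h3 : ({(ℓ₁, q₁), (ℓ₂, q₂)} : Finset ((Option β × Bool) × P)).card = 2 := by
    rw [Finset.card_pair]
    simp [hne]
  unfold deg
  rw [h3] at hc
  convert hc

end MGraph

end Crest.Agent.NoFixedPrice
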