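-- Row 191 (S0291): the length account of the 2-complex design (helper85's owner lemma #2050(3) in
-- the stage-by-stage form with birth and age labels, #2068).  Abstract: no relator, no graph, only
-- a finite system of edge types and cell types over a measure preserving action.
import Mathlib

set_option autoImplicit false

open MeasureTheory Set

namespace Crest.Agent.NoFixedPrice.Owner

/-- A *cell system* over `X`: finitely many edge types `Eo` (an edge of type `e` over `x` exists iff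
`x ∈ eSet e`), finitely many cell types `Co` (a cell of type `c` based at `u` exists iff
`u ∈ cSet c`), positions `R` on a cell; position `r` of the cell `(c, u)` is an edge of type
`inc c r u` over the point `pos c r • u`. -/
structure CellSystem (Γ X Eo Co R : Type*) [SMul Γ X] where
  eSet : Eo → Set X
  cSet : Co → Set X
  pos : Co → R → Γ
  inc : Co → R → X → Eo

variable {Γ X Eo Co R : Type*} [Group Γ] [MulAction Γ X]

attribute [local instance] Classical.propDecidable

namespace CellSystem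

variable (S : CellSystem Γ X Eo Co R)

/-- Position `r` of the cell `(c,u)` *is owned*: the birth of its edge is at least the age of the
cell. -/
def Own (b : Eo → X → ℕ) (a : Co → X → ℕ) (c : Co) (r : R) : Set X :=
  {u | u ∈ S.cSet c ∧ a c u ≤ b (S.inc c r u) (S.pos c r • u)}

/-- The invariant of the account.  `b` is the birth of an edge and `a` the age of a cell.
(I1) every cell owns at most `g` positions; (I2) every edge with birth `≥ 1` lies on a cell of age
at most its birth. -/
structure Inv [Fintype R] (g : ℕ) (b : Eo → X → ℕ) (a : Co → X → ℕ) : Prop where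
  own_card : ∀ c u, u ∈ S.cSet c →
    (Finset.univ.filter fun r => (u ∈ S.Own b a c r : Prop)).card ≤ g
  new_edge : ∀ e x, x ∈ S.eSet e → 1 ≤ b e x →
    ∃ c r, (S.pos c r)⁻¹ • x ∈ S.cSet c ∧ S.inc c r ((S.pos c r)⁻¹ • x) = e ∧
      a c ((S.pos c r)⁻¹ • x) ≤ b e x

section Measure

variable [MeasurableSpace X] {μ : Measure X}

/-- Measurability of a cell system. -/
structure Meas : Prop where
  eSet : ∀ e, MeasurableSet (S.eSet e)
  cSet : ∀ c, MeasurableSet (S.cSet c)
  inc : ∀ c r e, MeasurableSet {u | S.inc c r u = e}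

variable {S}

theorem measurableSet_own [Countable Eo] (hS : S.Meas) {b : Eo → X → ℕ} {a : Co → X → ℕ}
    (hact : ∀ g : Γ, Measurable fun x : X => g • x)
    (hb : ∀ e, Measurable (b e)) (ha : ∀ c, Measurable (a c)) (c : Co) (r : R) :
    MeasurableSet (S.Own b a c r) := by
  have : S.Own b a c r = S.cSet c ∩ ⋃ e, ({u | S.inc c r u = e} ∩
      {u | a c u ≤ b e (S.pos c r • u)}) := by
    ext u
    simp only [Own, mem_setOf_eq, mem_inter_iff, mem_iUnion]
    constructor
    · rintro ⟨h1, h2⟩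
      exact ⟨h1, _, rfl, h2⟩
    · rintro ⟨h1, e, rfl, h2⟩
      exact ⟨h1, h2⟩
  rw [this]
  refine (hS.cSet c).inter (MeasurableSet.iUnion fun e => (hS.inc c r e).inter ?_)
  exact measurableSet_le (ha c) ((hb e).comp (hact _))

/-- The pointwise count behind the mass estimate. -/
theorem count_new_le [Fintype Eo] [Fintype Co] [Fintype R] {g : ℕ} {b : Eo → X → ℕ}
    {a : Co → X → ℕ} (h : S.Inv g b a) (x : X) :
    (Finset.univ.filter fun e => x ∈ S.eSet e ∧ 1 ≤ b e x).card ≤
      (Finset.univ.filter fun p : Co × R => (p.1 |> fun c => (S.pos c p.2)⁻¹ • x) ∈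
        S.Own b a p.1 p.2).card := by
  have hsub : (Finset.univ.filter fun e => x ∈ S.eSet e ∧ 1 ≤ b e x) ⊆
      (Finset.univ.filter fun p : Co × R => (p.1 |> fun c => (S.pos c p.2)⁻¹ • x) ∈
        S.Own b a p.1 p.2).image
        (fun p : Co × R => S.inc p.1 p.2 ((S.pos p.1 p.2)⁻¹ • x)) := by
    intro e he
    obtain ⟨hx, hb1⟩ := (Finset.mem_filter.mp he).2
    obtain ⟨c, r, h1, h2, h3⟩ := h.new_edge e x hx hb1
    refine Finset.mem_image.mpr ⟨(c, r), Finset.mem_filter.mpr ⟨Finset.mem_univ _, ?_⟩, h2⟩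
    refine ⟨h1, ?_⟩
    simp only [h2, smul_inv_smul]
    exact h3
  exact (Finset.card_le_card hsub).trans Finset.card_image_le

/-- **The account, new edges.** -/
theorem new_mass_le [Fintype Eo] [Fintype Co] [Fintype R] (hS : S.Meas) {g : ℕ} {b : Eo → X → ℕ}
    {a : Co → X → ℕ} (h : S.Inv g b a)
    (hmp : ∀ γ : Γ, MeasurePreserving (fun x : X => γ • x) μ μ)
    (hb : ∀ e, Measurable (b e)) (ha : ∀ c, Measurable (a c)) :
    ∑ e, μ {x | x ∈ S.eSet e ∧ 1 ≤ b e x} ≤ g * ∑ c, μ (S.cSet c) := by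
  have hact : ∀ γ : Γ, Measurable fun x : X => γ • x := fun γ => (hmp γ).measurable
  have hNe : ∀ e, MeasurableSet {x | x ∈ S.eSet e ∧ 1 ≤ b e x} := by
    intro e
    exact (hS.eSet e).inter (measurableSet_le measurable_const (hb e))
  have hOwn := fun c r => measurableSet_own hS hact hb ha c r
  have hT : ∀ c r, MeasurableSet ((fun x : X => (S.pos c r)⁻¹ • x) ⁻¹' S.Own b a c r) :=
    fun c r => hact _ (hOwn c r)
  -- left side as an integral of the count
  have h1 : ∑ e, μ {x | x ∈ S.eSet e ∧ 1 ≤ b e x} =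
      ∫⁻ x, ∑ e, ({x | x ∈ S.eSet e ∧ 1 ≤ b e x} : Set X).indicator 1 x ∂μ := by
    rw [lintegral_finset_sum _ fun e _ => measurable_one.indicator (hNe e)]
    refine Finset.sum_congr rfl fun e _ => ?_
    rw [lintegral_indicator_one (hNe e)]
  -- the transported right side
  have h2 : ∑ c, ∑ r, μ (S.Own b a c r) =
      ∫⁻ x, ∑ c, ∑ r, ((fun x : X => (S.pos c r)⁻¹ • x) ⁻¹' S.Own b a c r).indicator 1 x ∂μ := by
    rw [lintegral_finset_sum _ fun c _ =>
      Finset.measurable_sum _ fun r _ => measurable_one.indicator (hT c r)]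
    refine Finset.sum_congr rfl fun c _ => ?_
    rw [lintegral_finset_sum _ fun r _ => measurable_one.indicator (hT c r)]
    refine Finset.sum_congr rfl fun r _ => ?_
    rw [lintegral_indicator_one (hT c r), (hmp _).measure_preimage (hOwn c r).nullMeasurableSet]
  have h3 : ∑ e, μ {x | x ∈ S.eSet e ∧ 1 ≤ b e x} ≤ ∑ c, ∑ r, μ (S.Own b a c r) := by
    rw [h1, h2]
    refine lintegral_mono fun x => ?_
    have hcount := count_new_le h x
    have e1 : ∑ e, ({x | x ∈ S.eSet e ∧ 1 ≤ b e x} : Set X).indicator (1 : X → ENNReal) x =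
        ((Finset.univ.filter fun e => x ∈ S.eSet e ∧ 1 ≤ b e x).card : ENNReal) := by
      rw [Finset.card_filter]
      push_cast
      refine Finset.sum_congr rfl fun e _ => ?_
      by_cases hx : x ∈ S.eSet e ∧ 1 ≤ b e x
      · rw [indicator_of_mem (show x ∈ {x | x ∈ S.eSet e ∧ 1 ≤ b e x} from hx), if_pos hx]; rfl
      · rw [indicator_of_notMem (show x ∉ {x | x ∈ S.eSet e ∧ 1 ≤ b e x} from hx), if_neg hx]
    have e2 : ∑ c, ∑ r, ((fun x : X => (S.pos c r)⁻¹ • x) ⁻¹' S.Own b a c r).indicator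
        (1 : X → ENNReal) x =
        ((Finset.univ.filter fun p : Co × R => (p.1 |> fun c => (S.pos c p.2)⁻¹ • x) ∈
        S.Own b a p.1 p.2).card : ENNReal) := by
      rw [Finset.card_filter]
      push_cast
      rw [Fintype.sum_prod_type]
      refine Finset.sum_congr rfl fun c _ => Finset.sum_congr rfl fun r _ => ?_
      by_cases hx : (S.pos c r)⁻¹ • x ∈ S.Own b a c r
      · rw [indicator_of_mem (show x ∈ (fun x : X => (S.pos c r)⁻¹ • x) ⁻¹' S.Own b a c r from hx),
          if_pos hx]; rfl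
      · rw [indicator_of_notMem (show x ∉ (fun x : X => (S.pos c r)⁻¹ • x) ⁻¹' S.Own b a c r
          from hx), if_neg hx]
    rw [e1, e2]
    exact Nat.cast_le.mpr hcount
  refine h3.trans ?_
  -- count the owned positions base point by base point
  have h4 : ∀ c, ∑ r, μ (S.Own b a c r) ≤ g * μ (S.cSet c) := by
    intro c
    have h5 : ∑ r, μ (S.Own b a c r) = ∫⁻ u, ∑ r, (S.Own b a c r).indicator 1 u ∂μ := by
      rw [lintegral_finset_sum _ fun r _ => measurable_one.indicator (hOwn c r)]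
      refine Finset.sum_congr rfl fun r _ => ?_
      rw [lintegral_indicator_one (hOwn c r)]
    have h6 : (g : ENNReal) * μ (S.cSet c) = ∫⁻ u, g * (S.cSet c).indicator 1 u ∂μ := by
      rw [lintegral_const_mul _ (measurable_one.indicator (hS.cSet c)),
        lintegral_indicator_one (hS.cSet c)]
    rw [h5, h6]
    refine lintegral_mono fun u => ?_
    by_cases hu : u ∈ S.cSet c
    · rw [indicator_of_mem hu]
      have e3 : ∑ r, (S.Own b a c r).indicator (1 : X → ENNReal) u =
          ((Finset.univ.filter fun r => (u ∈ S.Own b a c r : Prop)).card : ENNReal) := by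
        rw [Finset.card_filter]
        push_cast
        refine Finset.sum_congr rfl fun r _ => ?_
        by_cases hr : u ∈ S.Own b a c r
        · rw [indicator_of_mem hr, if_pos hr]; rfl
        · rw [indicator_of_notMem hr, if_neg hr]
      rw [e3]
      simp only [Pi.one_apply, mul_one]
      exact Nat.cast_le.mpr (h.own_card c u hu)
    · have : ∑ r, (S.Own b a c r).indicator (1 : X → ENNReal) u = 0 := by
        refine Finset.sum_eq_zero fun r _ => indicator_of_notMem (fun hr => hu hr.1) _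
      rw [this]
      exact bot_le
  calc ∑ c, ∑ r, μ (S.Own b a c r) ≤ ∑ c, (g : ENNReal) * μ (S.cSet c) :=
        Finset.sum_le_sum fun c _ => h4 c
    _ = g * ∑ c, μ (S.cSet c) := by rw [Finset.mul_sum]

/-- **The account, total length.** -/
theorem length_le [Fintype Eo] [Fintype Co] [Fintype R] (hS : S.Meas) {g : ℕ} {b : Eo → X → ℕ}
    {a : Co → X → ℕ} (h : S.Inv g b a)
    (hmp : ∀ γ : Γ, MeasurePreserving (fun x : X => γ • x) μ μ)
    (hb : ∀ e, Measurable (b e)) (ha : ∀ c, Measurable (a c)) :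
    ∑ e, μ (S.eSet e) ≤ ∑ e, μ {x | x ∈ S.eSet e ∧ b e x = 0} + g * ∑ c, μ (S.cSet c) := by
  refine le_trans ?_ (add_le_add le_rfl (new_mass_le hS h hmp hb ha))
  rw [← Finset.sum_add_distrib]
  refine Finset.sum_le_sum fun e _ => ?_
  refine le_trans (measure_mono ?_) (measure_union_le _ _)
  intro x hx
  by_cases h0 : b e x = 0
  · exact Or.inl ⟨hx, h0⟩
  · exact Or.inr ⟨hx, Nat.one_le_iff_ne_zero.mpr h0⟩

end Measure

end CellSystem

/-! ### The fold step -/

section Fold

variable {Eo' Co' : Type*} (S : CellSystem Γ X Eo Co R) (S' : CellSystem Γ X Eo' Co' R)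

/-- A fibrewise surjective map of cell systems (a fold), base point by base point. -/
structure FoldMap (qE : Eo → X → Eo') (qC : Co → X → Co') : Prop where
  edge : ∀ e x, x ∈ S.eSet e → x ∈ S'.eSet (qE e x)
  edge_surj : ∀ e' x, x ∈ S'.eSet e' → ∃ e, x ∈ S.eSet e ∧ qE e x = e'
  cell : ∀ c u, u ∈ S.cSet c → u ∈ S'.cSet (qC c u)
  cell_surj : ∀ c' u, u ∈ S'.cSet c' → ∃ c, u ∈ S.cSet c ∧ qC c u = c'
  pos : ∀ c u r, u ∈ S.cSet c → S'.pos (qC c u) r = S.pos c r
  inc_mem : ∀ c u r, u ∈ S.cSet c → S.pos c r • u ∈ S.eSet (S.inc c r u)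
  inc : ∀ c u r, u ∈ S.cSet c →
    S'.inc (qC c u) r u = qE (S.inc c r u) (S.pos c r • u)

variable {S S'} {qE : Eo → X → Eo'} {qC : Co → X → Co'}

/-- Birth after the fold: the least birth of a member. -/
noncomputable def foldBirth (S : CellSystem Γ X Eo Co R) (qE : Eo → X → Eo') (b : Eo → X → ℕ)
    (e' : Eo') (x : X) : ℕ :=
  sInf {n | ∃ e, x ∈ S.eSet e ∧ qE e x = e' ∧ b e x = n}

/-- Age after the fold: the least age of a member. -/
noncomputable def foldAge (S : CellSystem Γ X Eo Co R) (qC : Co → X → Co') (a : Co → X → ℕ)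
    (c' : Co') (u : X) : ℕ :=
  sInf {n | ∃ c, u ∈ S.cSet c ∧ qC c u = c' ∧ a c u = n}

theorem foldBirth_le {b : Eo → X → ℕ} {e : Eo} {x : X} (hx : x ∈ S.eSet e) :
    foldBirth S qE b (qE e x) x ≤ b e x :=
  Nat.sInf_le ⟨e, hx, rfl, rfl⟩

theorem foldAge_le {a : Co → X → ℕ} {c : Co} {u : X} (hu : u ∈ S.cSet c) :
    foldAge S qC a (qC c u) u ≤ a c u :=
  Nat.sInf_le ⟨c, hu, rfl, rfl⟩

theorem exists_foldBirth (h : FoldMap S S' qE qC) (b : Eo → X → ℕ) {e' : Eo'} {x : X}
    (hx : x ∈ S'.eSet e') : ∃ e, x ∈ S.eSet e ∧ qE e x = e' ∧ b e x = foldBirth S qE b e' x := by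
  obtain ⟨e, he, rfl⟩ := h.edge_surj e' x hx
  exact Nat.sInf_mem (s := {n | ∃ e₁, x ∈ S.eSet e₁ ∧ qE e₁ x = qE e x ∧ b e₁ x = n})
    ⟨b e x, e, he, rfl, rfl⟩

theorem exists_foldAge (h : FoldMap S S' qE qC) (a : Co → X → ℕ) {c' : Co'} {u : X}
    (hu : u ∈ S'.cSet c') : ∃ c, u ∈ S.cSet c ∧ qC c u = c' ∧ a c u = foldAge S qC a c' u := by
  obtain ⟨c, hc, rfl⟩ := h.cell_surj c' u hu
  exact Nat.sInf_mem (s := {n | ∃ c₁, u ∈ S.cSet c₁ ∧ qC c₁ u = qC c u ∧ a c₁ u = n})
    ⟨a c u, c, hc, rfl, rfl⟩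

/-- **The invariant passes to the fold.** -/
theorem FoldMap.inv [Fintype R] {g : ℕ} {b : Eo → X → ℕ} {a : Co → X → ℕ} (h : FoldMap S S' qE qC)
    (hI : S.Inv g b a) : S'.Inv g (foldBirth S qE b) (foldAge S qC a) := by
  constructor
  · intro c' u hu
    obtain ⟨c, hc, rfl, hac⟩ := exists_foldAge h a hu
    refine le_trans (Finset.card_le_card ?_) (hI.own_card c u hc)
    intro r hr
    obtain ⟨-, hr1, hr2⟩ := Finset.mem_filter.mp hr
    refine Finset.mem_filter.mpr ⟨Finset.mem_univ _, hc, ?_⟩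
    rw [hac]
    refine hr2.trans ?_
    rw [h.inc c u r hc, h.pos c u r hc]
    exact foldBirth_le (S := S) (qE := qE) (h.inc_mem c u r hc)
  · intro e' x hx hb
    obtain ⟨e, he, rfl, hbe⟩ := exists_foldBirth h b hx
    have hb1 : 1 ≤ b e x := by rw [hbe]; exact hb
    obtain ⟨c, r, h1, h2, h3⟩ := hI.new_edge e x he hb1
    refine ⟨qC c ((S.pos c r)⁻¹ • x), r, ?_, ?_, ?_⟩
    · rw [h.pos c _ r h1]
      exact h.cell c _ h1
    · rw [h.pos c _ r h1, h.inc c _ r h1, smul_inv_smul, h2]
    · rw [h.pos c _ r h1, ← hbe]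
      exact (foldAge_le (S := S) (qC := qC) h1).trans h3

/-- Fibrewise image: the mass does not grow. -/
theorem sum_measure_le_of_image [MeasurableSpace X] {μ : Measure X} [Fintype Eo] [Fintype Eo']
    {A : Eo → Set X} {A' : Eo' → Set X} (hA : ∀ e, MeasurableSet (A e))
    (hA' : ∀ e', MeasurableSet (A' e')) (f : Eo → X → Eo')
    (hf : ∀ e' x, x ∈ A' e' → ∃ e, x ∈ A e ∧ f e x = e') :
    ∑ e', μ (A' e') ≤ ∑ e, μ (A e) := by
  have h1 : ∑ e, μ (A e) = ∫⁻ x, ∑ e, (A e).indicator 1 x ∂μ := by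
    rw [lintegral_finset_sum _ fun e _ => measurable_one.indicator (hA e)]
    refine Finset.sum_congr rfl fun e _ => ?_
    rw [lintegral_indicator_one (hA e)]
  have h2 : ∑ e', μ (A' e') = ∫⁻ x, ∑ e', (A' e').indicator 1 x ∂μ := by
    rw [lintegral_finset_sum _ fun e _ => measurable_one.indicator (hA' e)]
    refine Finset.sum_congr rfl fun e _ => ?_
    rw [lintegral_indicator_one (hA' e)]
  rw [h1, h2]
  refine lintegral_mono fun x => ?_
  have e1 : ∑ e, (A e).indicator (1 : X → ENNReal) x =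
      ((Finset.univ.filter fun e => x ∈ A e).card : ENNReal) := by
    rw [Finset.card_filter]
    push_cast
    refine Finset.sum_congr rfl fun e _ => ?_
    by_cases hx : x ∈ A e
    · rw [indicator_of_mem hx, if_pos hx]; rfl
    · rw [indicator_of_notMem hx, if_neg hx]
  have e2 : ∑ e', (A' e').indicator (1 : X → ENNReal) x =
      ((Finset.univ.filter fun e' => x ∈ A' e').card : ENNReal) := by
    rw [Finset.card_filter]
    push_cast
    refine Finset.sum_congr rfl fun e _ => ?_
    by_cases hx : x ∈ A' e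
    · rw [indicator_of_mem hx, if_pos hx]; rfl
    · rw [indicator_of_notMem hx, if_neg hx]
  rw [e1, e2]
  refine Nat.cast_le.mpr ?_
  have hsub : (Finset.univ.filter fun e' => x ∈ A' e') ⊆
      (Finset.univ.filter fun e => x ∈ A e).image (fun e => f e x) := by
    intro e' he'
    obtain ⟨e, he, rfl⟩ := hf e' x (Finset.mem_filter.mp he').2
    exact Finset.mem_image.mpr ⟨e, Finset.mem_filter.mpr ⟨Finset.mem_univ _, he⟩, rfl⟩
  exact (Finset.card_le_card hsub).trans Finset.card_image_le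

/-- Edges of birth `0` after the fold are images of edges of birth `0`: the mass does not grow. -/
theorem FoldMap.old_mass_le [MeasurableSpace X] {μ : Measure X} [Fintype Eo] [Fintype Eo']
    {b : Eo → X → ℕ} (h : FoldMap S S' qE qC)
    (hS : ∀ e, MeasurableSet (S.eSet e)) (hb : ∀ e, Measurable (b e))
    (hS' : ∀ e', MeasurableSet (S'.eSet e'))
    (hb' : ∀ e', Measurable (foldBirth S qE b e')) :
    ∑ e', μ {x | x ∈ S'.eSet e' ∧ foldBirth S qE b e' x = 0} ≤
      ∑ e, μ {x | x ∈ S.eSet e ∧ b e x = 0} := by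
  have hN : ∀ e, MeasurableSet {x | x ∈ S.eSet e ∧ b e x = 0} := fun e =>
    (hS e).inter (hb e (measurableSet_singleton 0))
  have hN' : ∀ e', MeasurableSet {x | x ∈ S'.eSet e' ∧ foldBirth S qE b e' x = 0} := fun e' =>
    (hS' e').inter (hb' e' (measurableSet_singleton 0))
  have h1 : ∑ e, μ {x | x ∈ S.eSet e ∧ b e x = 0} =
      ∫⁻ x, ∑ e, ({x | x ∈ S.eSet e ∧ b e x = 0} : Set X).indicator 1 x ∂μ := by
    rw [lintegral_finset_sum _ fun e _ => measurable_one.indicator (hN e)]
    refine Finset.sum_congr rfl fun e _ => ?_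
    rw [lintegral_indicator_one (hN e)]
  have h2 : ∑ e', μ {x | x ∈ S'.eSet e' ∧ foldBirth S qE b e' x = 0} =
      ∫⁻ x, ∑ e', ({x | x ∈ S'.eSet e' ∧ foldBirth S qE b e' x = 0} : Set X).indicator 1 x ∂μ := by
    rw [lintegral_finset_sum _ fun e _ => measurable_one.indicator (hN' e)]
    refine Finset.sum_congr rfl fun e _ => ?_
    rw [lintegral_indicator_one (hN' e)]
  rw [h1, h2]
  refine lintegral_mono fun x => ?_
  have e1 : ∑ e, ({x | x ∈ S.eSet e ∧ b e x = 0} : Set X).indicator (1 : X → ENNReal) x =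
      ((Finset.univ.filter fun e => x ∈ S.eSet e ∧ b e x = 0).card : ENNReal) := by
    rw [Finset.card_filter]
    push_cast
    refine Finset.sum_congr rfl fun e _ => ?_
    by_cases hx : x ∈ S.eSet e ∧ b e x = 0
    · rw [indicator_of_mem (show x ∈ {x | x ∈ S.eSet e ∧ b e x = 0} from hx), if_pos hx]; rfl
    · rw [indicator_of_notMem (show x ∉ {x | x ∈ S.eSet e ∧ b e x = 0} from hx), if_neg hx]
  have e2 : ∑ e', ({x | x ∈ S'.eSet e' ∧ foldBirth S qE b e' x = 0} : Set X).indicator
      (1 : X → ENNReal) x =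
      ((Finset.univ.filter fun e' => x ∈ S'.eSet e' ∧ foldBirth S qE b e' x = 0).card : ENNReal) := by
    rw [Finset.card_filter]
    push_cast
    refine Finset.sum_congr rfl fun e _ => ?_
    by_cases hx : x ∈ S'.eSet e ∧ foldBirth S qE b e x = 0
    · rw [indicator_of_mem (show x ∈ {x | x ∈ S'.eSet e ∧ foldBirth S qE b e x = 0} from hx),
        if_pos hx]; rfl
    · rw [indicator_of_notMem (show x ∉ {x | x ∈ S'.eSet e ∧ foldBirth S qE b e x = 0} from hx),
        if_neg hx]
  rw [e1, e2]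
  refine Nat.cast_le.mpr ?_
  have hsub : (Finset.univ.filter fun e' => x ∈ S'.eSet e' ∧ foldBirth S qE b e' x = 0) ⊆
      (Finset.univ.filter fun e => x ∈ S.eSet e ∧ b e x = 0).image (fun e => qE e x) := by
    intro e' he'
    obtain ⟨hx, hb0⟩ := (Finset.mem_filter.mp he').2
    obtain ⟨e, he, rfl, hbe⟩ := exists_foldBirth h b hx
    exact Finset.mem_image.mpr ⟨e, Finset.mem_filter.mpr ⟨Finset.mem_univ _, he, hbe.trans hb0⟩, rfl⟩
  exact (Finset.card_le_card hsub).trans Finset.card_image_le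

/-- Births stay bounded. -/
theorem FoldMap.birth_le {b : Eo → X → ℕ} {j : ℕ} (h : FoldMap S S' qE qC)
    (hb : ∀ e x, x ∈ S.eSet e → b e x ≤ j) {e' : Eo'} {x : X} (hx : x ∈ S'.eSet e') :
    foldBirth S qE b e' x ≤ j := by
  obtain ⟨e, he, -, hbe⟩ := exists_foldBirth h b hx
  rw [← hbe]
  exact hb e x he

/-- Measurability of a least member value, for finite types and measurable data. -/
theorem measurable_sInf_members [MeasurableSpace X] [Fintype Eo] {M : Eo → Set X} {b : Eo → X → ℕ}
    (hM : ∀ e, MeasurableSet (M e)) (hb : ∀ e, Measurable (b e)) :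
    Measurable (fun x => sInf {n | ∃ e, x ∈ M e ∧ b e x = n}) := by
  refine measurable_to_countable' fun n => ?_
  have hF : ∀ F : Finset Eo, MeasurableSet {x | ∀ e, e ∈ F ↔ x ∈ M e} := by
    intro F
    have : {x | ∀ e, e ∈ F ↔ x ∈ M e} = ⋂ e, {x | e ∈ F ↔ x ∈ M e} := by
      ext x; simp
    rw [this]
    refine MeasurableSet.iInter fun e => ?_
    by_cases he : e ∈ F
    · have h2 : {x | e ∈ F ↔ x ∈ M e} = M e := by
        ext x; simp [he]
      rw [h2]; exact hM e
    · have h2 : {x | e ∈ F ↔ x ∈ M e} = (M e)ᶜ := by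
        ext x; simp [he]
      rw [h2]; exact (hM e).compl
  have key : (fun x => sInf {n | ∃ e, x ∈ M e ∧ b e x = n}) ⁻¹' {n} =
      ⋃ F : Finset Eo, ({x | ∀ e, e ∈ F ↔ x ∈ M e} ∩
        {x | sInf ((fun e => b e x) '' (F : Set Eo)) = n}) := by
    ext x
    simp only [mem_preimage, mem_singleton_iff, mem_iUnion, mem_inter_iff, mem_setOf_eq]
    constructor
    · intro hx
      refine ⟨Finset.univ.filter fun e => x ∈ M e, fun e => by simp, ?_⟩
      rw [← hx]
      congr 1
      ext m
      simp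
    · rintro ⟨F, hF1, hF2⟩
      rw [← hF2]
      congr 1
      ext m
      simp only [mem_setOf_eq, mem_image, Finset.mem_coe, hF1]
  rw [key]
  refine MeasurableSet.iUnion fun F => (hF F).inter ?_
  -- a finite infimum of measurable functions
  have hm : Measurable fun x => sInf ((fun e => b e x) '' (F : Set Eo)) := by
    classical
    induction F using Finset.induction_on with
    | empty => simp
    | insert e F he ih =>
      have hsplit : (fun x => sInf ((fun e => b e x) '' ((insert e F : Finset Eo) : Set Eo))) =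
          fun x => if F = ∅ then b e x else min (b e x) (sInf ((fun e => b e x) '' (F : Set Eo))) := by
        funext x
        by_cases hFe : F = ∅
        · subst hFe
          simp
        · rw [if_neg hFe]
          obtain ⟨e₀, he₀⟩ := Finset.nonempty_iff_ne_empty.mpr hFe
          have hne : ((fun e => b e x) '' (F : Set Eo)).Nonempty := ⟨_, e₀, he₀, rfl⟩
          refine le_antisymm ?_ ?_
          · refine le_min (Nat.sInf_le ⟨e, by simp, rfl⟩) (Nat.sInf_le ?_)
            have := Nat.sInf_mem hne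
            obtain ⟨e₁, he₁, h1⟩ := this
            exact ⟨e₁, by simp [Finset.mem_coe.mp he₁], h1⟩
          · obtain ⟨e₁, he₁, h1⟩ := Nat.sInf_mem (s := (fun e => b e x) ''
              ((insert e F : Finset Eo) : Set Eo)) ⟨_, e, by simp, rfl⟩
            rw [← h1]
            simp only [Finset.coe_insert, mem_insert_iff] at he₁
            rcases he₁ with rfl | he₁
            · exact min_le_left _ _
            · exact (min_le_right _ _).trans (Nat.sInf_le ⟨e₁, he₁, rfl⟩)
      rw [hsplit]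
      by_cases hFe : F = ∅
      · simpa [hFe] using hb e
      · simpa [hFe] using (hb e).min ih
  exact hm (measurableSet_singleton n)

/-- Measurability of the new labels, for finite types and measurable data. -/
theorem measurable_foldBirth [MeasurableSpace X] [Fintype Eo] {b : Eo → X → ℕ}
    (hS : ∀ e, MeasurableSet (S.eSet e)) (hq : ∀ e e', MeasurableSet {x | qE e x = e'})
    (hb : ∀ e, Measurable (b e)) (e' : Eo') : Measurable (foldBirth S qE b e') := by
  have h := measurable_sInf_members (M := fun e => S.eSet e ∩ {x | qE e x = e'}) (b := b)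
    (fun e => (hS e).inter (hq e e')) hb
  convert h using 2 with x
  simp only [foldBirth, mem_inter_iff, mem_setOf_eq, and_assoc]

theorem measurable_foldAge [MeasurableSpace X] [Fintype Co] {a : Co → X → ℕ}
    (hS : ∀ c, MeasurableSet (S.cSet c)) (hq : ∀ c c', MeasurableSet {u | qC c u = c'})
    (ha : ∀ c, Measurable (a c)) (c' : Co') : Measurable (foldAge S qC a c') := by
  have h := measurable_sInf_members (M := fun c => S.cSet c ∩ {u | qC c u = c'}) (b := a)
    (fun c => (hS c).inter (hq c c')) ha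
  convert h using 2 with x
  simp only [foldAge, mem_inter_iff, mem_setOf_eq, and_assoc]

end Fold

/-! ### The stage step: a map of cell systems plus new edges and new cells -/

section Step

variable {Eo' Co' : Type*} (S : CellSystem Γ X Eo Co R) (S' : CellSystem Γ X Eo' Co' R)

/-- A stage: old edges and old cells map over; an edge of `S'` without a member lies on a cell of
`S'` (necessarily without a member); a cell without a member has at most `g` positions whose edge
has no member. -/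
structure StepMap [Fintype R] (g : ℕ) (qE : Eo → X → Eo') (qC : Co → X → Co') : Prop where
  edge : ∀ e x, x ∈ S.eSet e → x ∈ S'.eSet (qE e x)
  cell : ∀ c u, u ∈ S.cSet c → u ∈ S'.cSet (qC c u)
  pos : ∀ c u r, u ∈ S.cSet c → S'.pos (qC c u) r = S.pos c r
  inc_mem : ∀ c u r, u ∈ S.cSet c → S.pos c r • u ∈ S.eSet (S.inc c r u)
  inc : ∀ c u r, u ∈ S.cSet c →
    S'.inc (qC c u) r u = qE (S.inc c r u) (S.pos c r • u)
  new_edge : ∀ e' x, x ∈ S'.eSet e' → (¬ ∃ e, x ∈ S.eSet e ∧ qE e x = e') →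
    ∃ c' r, (S'.pos c' r)⁻¹ • x ∈ S'.cSet c' ∧ S'.inc c' r ((S'.pos c' r)⁻¹ • x) = e'
  new_cell : ∀ c' u, u ∈ S'.cSet c' → (¬ ∃ c, u ∈ S.cSet c ∧ qC c u = c') →
    (Finset.univ.filter fun r => ¬ ∃ e, S'.pos c' r • u ∈ S.eSet e ∧
      qE e (S'.pos c' r • u) = S'.inc c' r u).card ≤ g

variable {S S'} {qE : Eo → X → Eo'} {qC : Co → X → Co'}

/-- Birth after a stage: least birth of a member, `j + 1` if there is no member. -/
noncomputable def stepBirth (S : CellSystem Γ X Eo Co R) (qE : Eo → X → Eo') (b : Eo → X → ℕ)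
    (j : ℕ) (e' : Eo') (x : X) : ℕ :=
  if ∃ e, x ∈ S.eSet e ∧ qE e x = e' then foldBirth S qE b e' x else j + 1

/-- Age after a stage: least age of a member, `j + 1` if there is no member. -/
noncomputable def stepAge (S : CellSystem Γ X Eo Co R) (qC : Co → X → Co') (a : Co → X → ℕ)
    (j : ℕ) (c' : Co') (u : X) : ℕ :=
  if ∃ c, u ∈ S.cSet c ∧ qC c u = c' then foldAge S qC a c' u else j + 1

theorem stepBirth_le_of_member {b : Eo → X → ℕ} {j : ℕ} {e : Eo} {e' : Eo'} {x : X}
    (hx : x ∈ S.eSet e) (he : qE e x = e') : stepBirth S qE b j e' x ≤ b e x := by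
  subst he
  rw [stepBirth, if_pos ⟨e, hx, rfl⟩]
  exact foldBirth_le hx

theorem exists_stepBirth (b : Eo → X → ℕ) (j : ℕ) {e' : Eo'} {x : X}
    (h : ∃ e, x ∈ S.eSet e ∧ qE e x = e') :
    ∃ e, x ∈ S.eSet e ∧ qE e x = e' ∧ b e x = stepBirth S qE b j e' x := by
  rw [stepBirth, if_pos h]
  obtain ⟨e, he, rfl⟩ := h
  exact Nat.sInf_mem (s := {n | ∃ e₁, x ∈ S.eSet e₁ ∧ qE e₁ x = qE e x ∧ b e₁ x = n})
    ⟨b e x, e, he, rfl, rfl⟩

theorem exists_stepAge (a : Co → X → ℕ) (j : ℕ) {c' : Co'} {u : X}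
    (h : ∃ c, u ∈ S.cSet c ∧ qC c u = c') :
    ∃ c, u ∈ S.cSet c ∧ qC c u = c' ∧ a c u = stepAge S qC a j c' u := by
  rw [stepAge, if_pos h]
  obtain ⟨c, hc, rfl⟩ := h
  exact Nat.sInf_mem (s := {n | ∃ c₁, u ∈ S.cSet c₁ ∧ qC c₁ u = qC c u ∧ a c₁ u = n})
    ⟨a c u, c, hc, rfl, rfl⟩

theorem stepAge_le_of_member {a : Co → X → ℕ} {j : ℕ} {c : Co} {c' : Co'} {u : X}
    (hu : u ∈ S.cSet c) (hc : qC c u = c') : stepAge S qC a j c' u ≤ a c u := by
  subst hc
  rw [stepAge, if_pos ⟨c, hu, rfl⟩]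
  exact foldAge_le hu

/-- **The invariant passes through a stage.** -/
theorem StepMap.inv [Fintype R] {g j : ℕ} {b : Eo → X → ℕ} {a : Co → X → ℕ}
    (h : StepMap S S' g qE qC) (hI : S.Inv g b a) (hbj : ∀ e x, x ∈ S.eSet e → b e x ≤ j) :
    S'.Inv g (stepBirth S qE b j) (stepAge S qC a j) := by
  constructor
  · intro c' u hu
    by_cases hmem : ∃ c, u ∈ S.cSet c ∧ qC c u = c'
    · obtain ⟨c, hc, rfl, hac⟩ := exists_stepAge (j := j) a hmem
      refine le_trans (Finset.card_le_card ?_) (hI.own_card c u hc)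
      intro r hr
      obtain ⟨-, hr1, hr2⟩ := Finset.mem_filter.mp hr
      refine Finset.mem_filter.mpr ⟨Finset.mem_univ _, hc, ?_⟩
      rw [hac]
      refine hr2.trans ?_
      rw [h.inc c u r hc, h.pos c u r hc]
      exact stepBirth_le_of_member (h.inc_mem c u r hc) rfl
    · refine le_trans (Finset.card_le_card ?_) (h.new_cell c' u hu hmem)
      intro r hr
      obtain ⟨-, hr1, hr2⟩ := Finset.mem_filter.mp hr
      refine Finset.mem_filter.mpr ⟨Finset.mem_univ _, ?_⟩
      rintro ⟨e, he, hqe⟩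
      have h1 : stepBirth S qE b j (S'.inc c' r u) (S'.pos c' r • u) ≤ b e (S'.pos c' r • u) :=
        stepBirth_le_of_member he hqe
      have h2 := hbj e _ he
      have h3 : stepAge S qC a j c' u = j + 1 := by rw [stepAge, if_neg hmem]
      rw [h3] at hr2
      omega
  · intro e' x hx hb
    by_cases hmem : ∃ e, x ∈ S.eSet e ∧ qE e x = e'
    · obtain ⟨e, he, rfl, hbe⟩ := exists_stepBirth (j := j) b hmem
      have hb1 : 1 ≤ b e x := by rw [hbe]; exact hb
      obtain ⟨c, r, h1, h2, h3⟩ := hI.new_edge e x he hb1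
      refine ⟨qC c ((S.pos c r)⁻¹ • x), r, ?_, ?_, ?_⟩
      · rw [h.pos c _ r h1]
        exact h.cell c _ h1
      · rw [h.pos c _ r h1, h.inc c _ r h1, smul_inv_smul, h2]
      · rw [h.pos c _ r h1, ← hbe]
        exact (stepAge_le_of_member h1 rfl).trans h3
    · obtain ⟨c', r, h1, h2⟩ := h.new_edge e' x hx hmem
      refine ⟨c', r, h1, h2, ?_⟩
      have hnm : ¬ ∃ c, (S'.pos c' r)⁻¹ • x ∈ S.cSet c ∧ qC c ((S'.pos c' r)⁻¹ • x) = c' := by
        rintro ⟨c, hc, hqc⟩
        apply hmem
        have hp : S.pos c r = S'.pos c' r := by rw [← h.pos c _ r hc, hqc]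
        have hx' : S.pos c r • (S'.pos c' r)⁻¹ • x = x := by rw [hp, smul_inv_smul]
        refine ⟨S.inc c r ((S'.pos c' r)⁻¹ • x), ?_, ?_⟩
        · have := h.inc_mem c _ r hc
          rwa [hx'] at this
        · have := h.inc c _ r hc
          rw [hqc, hx', h2] at this
          exact this.symm
      rw [stepAge, if_neg hnm, stepBirth, if_neg hmem]

/-- Births stay bounded. -/
theorem stepBirth_le {b : Eo → X → ℕ} {j : ℕ} (hb : ∀ e x, x ∈ S.eSet e → b e x ≤ j) (e' : Eo')
    (x : X) : stepBirth S qE b j e' x ≤ j + 1 := by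
  by_cases hm : ∃ e, x ∈ S.eSet e ∧ qE e x = e'
  · obtain ⟨e, he, -, hbe⟩ := exists_stepBirth (j := j) b hm
    rw [← hbe]
    exact (hb e x he).trans (Nat.le_succ j)
  · rw [stepBirth, if_neg hm]

/-- Edges of birth `0` after a stage are images of edges of birth `0`. -/
theorem step_old_mass_le [MeasurableSpace X] {μ : Measure X} [Fintype Eo] [Fintype Eo']
    {b : Eo → X → ℕ} {j : ℕ}
    (hS : ∀ e, MeasurableSet (S.eSet e)) (hb : ∀ e, Measurable (b e))
    (hS' : ∀ e', MeasurableSet (S'.eSet e'))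
    (hb' : ∀ e', Measurable (stepBirth S qE b j e')) :
    ∑ e', μ {x | x ∈ S'.eSet e' ∧ stepBirth S qE b j e' x = 0} ≤
      ∑ e, μ {x | x ∈ S.eSet e ∧ b e x = 0} := by
  refine sum_measure_le_of_image (fun e => (hS e).inter (hb e (measurableSet_singleton 0)))
    (fun e' => (hS' e').inter (hb' e' (measurableSet_singleton 0))) qE ?_
  rintro e' x ⟨-, h0⟩
  have hm : ∃ e, x ∈ S.eSet e ∧ qE e x = e' := by
    by_contra hn
    rw [stepBirth, if_neg hn] at h0
    omega
  obtain ⟨e, he, hq, hbe⟩ := exists_stepBirth (j := j) b hm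
  exact ⟨e, ⟨he, hbe.trans h0⟩, hq⟩

theorem measurable_stepBirth [MeasurableSpace X] [Fintype Eo] {b : Eo → X → ℕ} {j : ℕ}
    (hS : ∀ e, MeasurableSet (S.eSet e)) (hq : ∀ e e', MeasurableSet {x | qE e x = e'})
    (hb : ∀ e, Measurable (b e)) (e' : Eo') : Measurable (stepBirth S qE b j e') := by
  have hM : MeasurableSet {x | ∃ e, x ∈ S.eSet e ∧ qE e x = e'} := by
    have : {x | ∃ e, x ∈ S.eSet e ∧ qE e x = e'} = ⋃ e, (S.eSet e ∩ {x | qE e x = e'}) := by
      ext x; simp
    rw [this]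
    exact MeasurableSet.iUnion fun e => (hS e).inter (hq e e')
  exact Measurable.ite hM (measurable_foldBirth hS hq hb e') measurable_const

theorem measurable_stepAge [MeasurableSpace X] [Fintype Co] {a : Co → X → ℕ} {j : ℕ}
    (hS : ∀ c, MeasurableSet (S.cSet c)) (hq : ∀ c c', MeasurableSet {u | qC c u = c'})
    (ha : ∀ c, Measurable (a c)) (c' : Co') : Measurable (stepAge S qC a j c') := by
  have hM : MeasurableSet {u | ∃ c, u ∈ S.cSet c ∧ qC c u = c'} := by
    have : {u | ∃ c, u ∈ S.cSet c ∧ qC c u = c'} = ⋃ c, (S.cSet c ∩ {u | qC c u = c'}) := by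
      ext x; simp
    rw [this]
    exact MeasurableSet.iUnion fun c => (hS c).inter (hq c c')
  exact Measurable.ite hM (measurable_foldAge hS hq ha c') measurable_const

end Step

end Crest.Agent.NoFixedPrice.Owner
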