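-- Row 191 (S0291): the length account on measured graphs.  Adapter of `Owner.lean` to `MGraph`.
import Crest.Agent.Lib.NoFixedPrice.Cells
import Crest.Agent.Lib.NoFixedPrice.Owner

set_option autoImplicit false
set_option linter.unusedSectionVars false

namespace Crest.Agent.NoFixedPrice

open MeasureTheory Set

namespace MGraph

variable {Γ L : Type*} [Group Γ] {val : L → Γ} {P P' X I : Type*} [MulAction Γ X]
  [MeasurableSpace X]

attribute [local instance] Classical.propDecidable

/-- The closed lifts: `u ∈ closedW K r i v` iff the relator `r i` read from `(u, v)` returns to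
`(u, v)`. -/
def closedW (K : MGraph val P X) (r : I → List (L × Bool)) (i : I) (v : P) : Set X :=
  {u | K.IsPath (u, v) (r i) (u, v)}

theorem closedW_eq_pathSet [Fintype P] [DecidableEq P] (K : MGraph val P X)
    {r : I → List (L × Bool)} (hr : ∀ i, wordAct val (r i) = 1) (i : I) (v : P) :
    K.closedW r i v = K.pathSet v (r i) v := by
  ext u
  simp [closedW, pathSet, hr i]

theorem measurableSet_closedW [Fintype P] [DecidableEq P] (K : MGraph val P X)
    {r : I → List (L × Bool)} (hr : ∀ i, wordAct val (r i) = 1)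
    (hact : ∀ g : Γ, Measurable fun x : X => g • x) (i : I) (v : P) :
    MeasurableSet (K.closedW r i v) := by
  rw [closedW_eq_pathSet K hr]
  exact K.measurableSet_pathSet hact _ _ _

/-- The sheet reached from `(u, v)` by reading `w` (junk `v` if the word does not lift). -/
noncomputable def sheetAt [Fintype P] [DecidableEq P] (K : MGraph val P X) (v : P)
    (w : List (L × Bool)) (u : X) : P :=
  if h : ∃ q, u ∈ K.pathSet v w q then h.choose else v

theorem sheetAt_eq [Fintype P] [DecidableEq P] {K : MGraph val P X} (hK : K.Folded) {v q : P}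
    {w : List (L × Bool)} {u : X} (h : u ∈ K.pathSet v w q) : K.sheetAt v w u = q := by
  have hex : ∃ q, u ∈ K.pathSet v w q := ⟨q, h⟩
  rw [sheetAt, dif_pos hex]
  have h2 := hex.choose_spec
  have := hK.path_unique h h2
  exact (congrArg Prod.snd this).symm

theorem measurableSet_sheetAt [Fintype P] [DecidableEq P] {K : MGraph val P X} (hK : K.Folded)
    (hact : ∀ g : Γ, Measurable fun x : X => g • x) (v : P) (w : List (L × Bool)) (q : P) :
    MeasurableSet {u | K.sheetAt v w u = q} := by
  have hm := fun q => K.measurableSet_pathSet hact v w q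
  have hU : MeasurableSet (⋃ q, K.pathSet v w q) := MeasurableSet.iUnion hm
  have key : {u | K.sheetAt v w u = q} =
      K.pathSet v w q ∪ ({u | v = q} ∩ (⋃ q, K.pathSet v w q)ᶜ) := by
    ext u
    simp only [mem_setOf_eq, mem_union, mem_inter_iff, mem_compl_iff, mem_iUnion, not_exists]
    constructor
    · intro h
      by_cases hex : ∃ q, u ∈ K.pathSet v w q
      · obtain ⟨q', hq'⟩ := hex
        rw [sheetAt_eq hK hq'] at h
        subst h
        exact Or.inl hq'
      · refine Or.inr ⟨?_, by simpa using hex⟩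
        rw [sheetAt, dif_neg hex] at h
        exact h
    · rintro (h | ⟨h1, h2⟩)
      · exact sheetAt_eq hK h
      · rw [sheetAt, dif_neg (by simpa using h2)]
        exact h1
  rw [key]
  refine (hm q).union (MeasurableSet.inter ?_ hU.compl)
  by_cases h : v = q
  · simp [h]
  · simp [h]

/-! ### The cell system of a graph with designated cells -/

section CS

variable {n : ℕ} (r : I → List (L × Bool)) (hlen : ∀ i, (r i).length = n)

/-- The letter at position `m` of the relator `i`. -/
def lett (i : I) (m : Fin n) : L × Bool := (r i)[m.1]'(by rw [hlen]; exact m.2)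

theorem take_succ_eq (i : I) (m : Fin n) :
    (r i).take (m.1 + 1) = (r i).take m.1 ++ [lett r hlen i m] := by
  rw [lett]
  exact List.take_succ_eq_append_getElem _

/-- The point of `X` carrying the edge at position `m`. -/
def posW (i : I) (m : Fin n) : Γ :=
  if (lett r hlen i m).2 then wordAct val ((r i).take m.1) else wordAct val ((r i).take (m.1 + 1))

/-- The edge type at position `m` of the lift from `(u, v)`. -/
noncomputable def incW [Fintype P] [DecidableEq P] (K : MGraph val P X) (c : I × P) (m : Fin n)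
    (u : X) : L × P × P :=
  if (lett r hlen c.1 m).2 then
    ((lett r hlen c.1 m).1, K.sheetAt c.2 ((r c.1).take m.1) u,
      K.sheetAt c.2 ((r c.1).take (m.1 + 1)) u)
  else
    ((lett r hlen c.1 m).1, K.sheetAt c.2 ((r c.1).take (m.1 + 1)) u,
      K.sheetAt c.2 ((r c.1).take m.1) u)

/-- The cell system of a graph with designated cells `D`. -/
noncomputable def cs [Fintype P] [DecidableEq P] (K : MGraph val P X) (D : I → P → Set X) :
    Owner.CellSystem Γ X (L × P × P) (I × P) (Fin n) where
  eSet e := K.E e.1 e.2.1 e.2.2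
  cSet c := D c.1 c.2
  pos c m := posW (val := val) r hlen c.1 m
  inc := incW r hlen K

end CS

/-! ### Prefixes of a closed lift -/

section Prefix

variable {n : ℕ} {r : I → List (L × Bool)} (hlen : ∀ i, (r i).length = n)
variable [Fintype P] [DecidableEq P] {K : MGraph val P X}

theorem sheetAt_prefix (hK : K.Folded) {i : I} {v : P} {u : X} (hu : u ∈ K.closedW r i v)
    (m : ℕ) : K.IsPath (u, v) ((r i).take m)
      (wordAct val ((r i).take m) • u, K.sheetAt v ((r i).take m) u) := by
  have h : K.IsPath (u, v) ((r i).take m ++ (r i).drop m) (u, v) := by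
    rw [List.take_append_drop]; exact hu
  obtain ⟨⟨y, q⟩, h1, -⟩ := (K.isPath_append _ _ _ _).1 h
  have hy := h1.fst_eq
  simp only at hy
  subst hy
  have hmem : u ∈ K.pathSet v ((r i).take m) q := h1
  rw [sheetAt_eq hK hmem]
  exact h1

theorem wordAct_take_succ (i : I) (m : Fin n) :
    wordAct val ((r i).take (m.1 + 1)) =
      sval val (lett r hlen i m) * wordAct val ((r i).take m.1) := by
  rw [take_succ_eq r hlen, wordAct_append]
  simp

theorem adj_at (hK : K.Folded) {i : I} {v : P} {u : X} (hu : u ∈ K.closedW r i v) (m : Fin n) :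
    K.Adj (lett r hlen i m)
      (wordAct val ((r i).take m.1) • u, K.sheetAt v ((r i).take m.1) u)
      (wordAct val ((r i).take (m.1 + 1)) • u, K.sheetAt v ((r i).take (m.1 + 1)) u) := by
  have h := sheetAt_prefix hK hu (m.1 + 1)
  rw [take_succ_eq r hlen] at h
  obtain ⟨y, h1, z, h2, h3⟩ := (K.isPath_append _ _ _ _).1 h
  have hy := hK.path_unique h1 (sheetAt_prefix hK hu m.1)
  subst hy
  have hz : z = _ := h3
  subst hz
  convert h2 using 2 <;> rw [take_succ_eq r hlen]

theorem inc_mem (hK : K.Folded) {i : I} {v : P} {u : X} (hu : u ∈ K.closedW r i v) (m : Fin n) :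
    (posW (val := val) r hlen i m) • u ∈
      K.E (incW r hlen K (i, v) m u).1 (incW r hlen K (i, v) m u).2.1
        (incW r hlen K (i, v) m u).2.2 := by
  have h := adj_at hlen hK hu m
  rcases hl : lett r hlen i m with ⟨s, b⟩
  rw [hl] at h
  cases b with
  | true =>
    have h2 := ((K.adj_true s _ _).1 h).1
    simpa [posW, incW, hl] using h2
  | false =>
    have h2 := ((K.adj_false s _ _).1 h).1
    simpa [posW, incW, hl] using h2

end Prefix

/-! ### Morphisms -/

/-- A morphism of measured graphs over the identity of `X`, given by a measurable family of sheet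
maps. -/
structure Mor (K : MGraph val P X) (K' : MGraph val P' X) (rep : X → P → P') : Prop where
  meas : ∀ p p', MeasurableSet {x | rep x p = p'}
  vert : ∀ p x, x ∈ K.V p → x ∈ K'.V (rep x p)
  edge : ∀ s p q x, x ∈ K.E s p q → x ∈ K'.E s (rep x p) (rep (val s • x) q)

namespace Mor

variable {K : MGraph val P X} {K' : MGraph val P' X} {rep : X → P → P'}

theorem adj (h : Mor K K' rep) {ℓ : L × Bool} {v v' : X × P} (ha : K.Adj ℓ v v') :
    K'.Adj ℓ (v.1, rep v.1 v.2) (v'.1, rep v'.1 v'.2) := by
  obtain ⟨x, p⟩ := v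
  obtain ⟨y, q⟩ := v'
  obtain ⟨s, b⟩ := ℓ
  cases b with
  | true =>
    obtain ⟨h1, h2⟩ := (K.adj_true s _ _).1 ha
    simp only at h1 h2
    subst h2
    exact (K'.adj_true s _ _).2 ⟨h.edge s p q x h1, rfl⟩
  | false =>
    obtain ⟨h1, h2⟩ := (K.adj_false s _ _).1 ha
    simp only at h1 h2
    subst h2
    exact (K'.adj_false s _ _).2 ⟨h.edge s q p y h1, rfl⟩

theorem path (h : Mor K K' rep) {w : List (L × Bool)} {v v' : X × P} (hp : K.IsPath v w v') :
    K'.IsPath (v.1, rep v.1 v.2) w (v'.1, rep v'.1 v'.2) := by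
  induction w generalizing v with
  | nil =>
    have : v = v' := hp
    subst this
    rfl
  | cons ℓ w ih =>
    obtain ⟨z, h1, h2⟩ := hp
    exact ⟨_, h.adj h1, ih h2⟩

theorem closed (h : Mor K K' rep) {r : I → List (L × Bool)} {i : I} {v : P} {u : X}
    (hu : u ∈ K.closedW r i v) : u ∈ K'.closedW r i (rep u v) := h.path hu

end Mor

section Step

variable {n : ℕ} {r : I → List (L × Bool)} (hlen : ∀ i, (r i).length = n)

variable [Fintype P] [DecidableEq P] [Fintype P'] [DecidableEq P']
  {K : MGraph val P X} {K' : MGraph val P' X} {rep : X → P → P'}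

theorem sheetAt_image (h : Mor K K' rep) (hK : K.Folded) (hK' : K'.Folded) {i : I} {v : P} {u : X}
    (hu : u ∈ K.closedW r i v) (m : ℕ) :
    K'.sheetAt (rep u v) ((r i).take m) u =
      rep (wordAct val ((r i).take m) • u) (K.sheetAt v ((r i).take m) u) :=
  sheetAt_eq hK' (h.path (sheetAt_prefix hK hu m))

/-- The map on edge types. -/
def qEdge (rep : X → P → P') (val : L → Γ) (e : L × P × P) (x : X) : L × P' × P' :=
  (e.1, rep x e.2.1, rep (val e.1 • x) e.2.2)

/-- The map on cell types. -/
def qCell (rep : X → P → P') (c : I × P) (u : X) : I × P' := (c.1, rep u c.2)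

theorem incW_image (h : Mor K K' rep) (hK : K.Folded) (hK' : K'.Folded) {i : I} {v : P} {u : X}
    (hu : u ∈ K.closedW r i v) (m : Fin n) :
    incW r hlen K' (i, rep u v) m u =
      qEdge rep val (incW r hlen K (i, v) m u) ((posW (val := val) r hlen i m) • u) := by
  have h1 := sheetAt_image h hK hK' hu m.1
  have h2 := sheetAt_image h hK hK' hu (m.1 + 1)
  have h3 := wordAct_take_succ (val := val) hlen i m
  rcases hl : lett r hlen i m with ⟨s, b⟩
  rw [hl] at h3
  cases b with
  | true =>
    simp only [sval_true] at h3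
    simp only [incW, posW, hl, if_true, qEdge, h1, h2]
    rw [h3, mul_smul]
  | false =>
    simp only [sval_false] at h3
    simp only [incW, posW, hl, Bool.false_eq_true, if_false, qEdge, h1, h2]
    rw [h3, mul_smul, smul_inv_smul]

end Step

/-! ### The account on a graph -/

section Acc

variable {n : ℕ} (r : I → List (L × Bool)) (hlen : ∀ i, (r i).length = n)
variable [Fintype P] [DecidableEq P] [Fintype L] [DecidableEq L] [Fintype I]

/-- The mass of the closed lifts. -/
noncomputable def massFW (K : MGraph val P X) (μ : Measure X) : ℝ :=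
  ∑ i, ∑ v, μ.real (K.closedW r i v)

/-- Data of the account: designated closed lifts `D`, births `b` and ages `a`. -/
structure AccData (K : MGraph val P X) (μ : Measure X) (g j : ℕ) (M : ℝ) (D : I → P → Set X)
    (b : L × P × P → X → ℕ) (a : I × P → X → ℕ) : Prop where
  closed : ∀ i v, D i v ⊆ K.closedW r i v
  measD : ∀ i v, MeasurableSet (D i v)
  measb : ∀ e, Measurable (b e)
  measa : ∀ c, Measurable (a c)
  inv : (cs r hlen K D).Inv g b a
  birth_le : ∀ e x, x ∈ K.E e.1 e.2.1 e.2.2 → b e x ≤ j
  old_mass : ∑ e : L × P × P, μ.real {x | x ∈ K.E e.1 e.2.1 e.2.2 ∧ b e x = 0} ≤ M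

/-- The account: `K` carries designated cells and labels. -/
def Acc (K : MGraph val P X) (μ : Measure X) (g j : ℕ) (M : ℝ) : Prop :=
  ∃ D b a, AccData r hlen K μ g j M D b a

variable {r hlen} {μ : Measure X}

theorem massE_eq_sum (K : MGraph val P X) :
    K.massE μ = ∑ e : L × P × P, μ.real (K.E e.1 e.2.1 e.2.2) := by
  unfold massE
  rw [Fintype.sum_prod_type]
  refine Finset.sum_congr rfl fun s _ => ?_
  rw [Fintype.sum_prod_type]

theorem measurableSet_incW {K : MGraph val P X} (hK : K.Folded)
    (hact : ∀ g : Γ, Measurable fun x : X => g • x) (c : I × P) (m : Fin n) (e : L × P × P) :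
    MeasurableSet {u | incW r hlen K c m u = e} := by
  obtain ⟨s, p, q⟩ := e
  have h1 := fun w p => measurableSet_sheetAt (K := K) hK hact c.2 w p
  by_cases hs : (lett r hlen c.1 m).1 = s
  · by_cases hb : (lett r hlen c.1 m).2 = true
    · have : {u | incW r hlen K c m u = (s, p, q)} =
          {u | K.sheetAt c.2 ((r c.1).take m.1) u = p} ∩
          {u | K.sheetAt c.2 ((r c.1).take (m.1 + 1)) u = q} := by
        ext u
        simp [incW, hb, hs]
      rw [this]
      exact (h1 _ _).inter (h1 _ _)
    · have : {u | incW r hlen K c m u = (s, p, q)} =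
          {u | K.sheetAt c.2 ((r c.1).take (m.1 + 1)) u = p} ∩
          {u | K.sheetAt c.2 ((r c.1).take m.1) u = q} := by
        ext u
        simp [incW, hb, hs]
      rw [this]
      exact (h1 _ _).inter (h1 _ _)
  · have : {u | incW r hlen K c m u = (s, p, q)} = ∅ := by
      ext u
      simp only [incW, mem_setOf_eq, mem_empty_iff_false, iff_false]
      split_ifs <;> simp [hs]
    rw [this]
    exact MeasurableSet.empty

theorem cs_meas {K : MGraph val P X} (hK : K.Folded)
    (hact : ∀ g : Γ, Measurable fun x : X => g • x) {D : I → P → Set X}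
    (hD : ∀ i v, MeasurableSet (D i v)) : (cs r hlen K D).Meas where
  eSet _ := K.measE _ _ _
  cSet _ := hD _ _
  inc c m e := measurableSet_incW hK hact c m e

/-- **The account.** -/
theorem Acc.massE_le [IsFiniteMeasure μ] {K : MGraph val P X} {g j : ℕ} {M : ℝ}
    (hK : K.Folded)
    (hmp : ∀ γ : Γ, MeasurePreserving (fun x : X => γ • x) μ μ)
    (h : Acc r hlen K μ g j M) : K.massE μ ≤ M + g * massFW r K μ := by
  obtain ⟨D, b, a, hd⟩ := h
  have hact : ∀ γ : Γ, Measurable fun x : X => γ • x := fun γ => (hmp γ).measurable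
  have h1 := Owner.CellSystem.length_le (S := cs r hlen K D) (cs_meas hK hact hd.measD) hd.inv hmp
    hd.measb hd.measa
  have hfin1 : ∀ e : L × P × P, μ {x | x ∈ K.E e.1 e.2.1 e.2.2 ∧ b e x = 0} ≠ ⊤ :=
    fun e => measure_ne_top _ _
  have hfin2 : ∀ c : I × P, μ (D c.1 c.2) ≠ ⊤ := fun c => measure_ne_top _ _
  have h2 := ENNReal.toReal_mono (by
    refine ENNReal.add_ne_top.mpr ⟨?_, ?_⟩
    · exact ENNReal.sum_ne_top.mpr fun e _ => measure_ne_top _ _
    · exact ENNReal.mul_ne_top (ENNReal.natCast_ne_top g)
        (ENNReal.sum_ne_top.mpr fun e _ => measure_ne_top _ _)) h1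
  rw [ENNReal.toReal_add (ENNReal.sum_ne_top.mpr fun e _ => measure_ne_top _ _)
    (ENNReal.mul_ne_top (ENNReal.natCast_ne_top g)
      (ENNReal.sum_ne_top.mpr fun e _ => measure_ne_top _ _)),
    ENNReal.toReal_mul, ENNReal.toReal_natCast,
    ENNReal.toReal_sum fun e _ => measure_ne_top _ _,
    ENNReal.toReal_sum fun e _ => measure_ne_top _ _,
    ENNReal.toReal_sum fun e _ => measure_ne_top _ _] at h2
  rw [massE_eq_sum]
  refine h2.trans (add_le_add hd.old_mass (mul_le_mul_of_nonneg_left ?_ (Nat.cast_nonneg g)))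
  change ∑ c : I × P, μ.real (D c.1 c.2) ≤ _
  rw [massFW, Fintype.sum_prod_type]
  exact Finset.sum_le_sum fun i _ => Finset.sum_le_sum fun v _ =>
    measureReal_mono (hd.closed i v)

/-- For the relators of `Cells.lean` the mass `massFW` is `cellMass`. -/
theorem massFW_rel {β : Type*} [Fintype β] {val' : Option β → Γ} (K : MGraph val' P X) (a : β → ℕ → β)
    (Lb : ℕ) (hrel : ∀ i, wordAct val' (rel a Lb i) = 1) (μ : Measure X) :
    massFW (rel a Lb) K μ = K.cellMass a Lb μ := by
  unfold massFW cellMass
  refine Finset.sum_congr rfl fun i _ => Finset.sum_congr rfl fun v _ => ?_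
  rw [closedW_eq_pathSet K hrel]
  rfl

/-- The start of the account: no designated cell, all births `0`. -/
theorem acc_start [IsFiniteMeasure μ] (K : MGraph val P X) (g : ℕ) :
    Acc r hlen K μ g 0 (K.massE μ) := by
  refine ⟨fun _ _ => ∅, fun _ _ => 0, fun _ _ => 0, fun i v => empty_subset _,
    fun _ _ => MeasurableSet.empty, fun _ => measurable_const, fun _ => measurable_const,
    ⟨fun c u hu => absurd hu (notMem_empty _), fun e x _ hb => absurd hb (by simp)⟩,
    fun _ _ _ => le_rfl, ?_⟩
  rw [massE_eq_sum]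
  refine le_of_eq (Finset.sum_congr rfl fun e _ => ?_)
  congr 1
  ext x
  simp

variable [Fintype P'] [DecidableEq P']
  {K : MGraph val P X} {K' : MGraph val P' X} {rep : X → P → P'}

/-- **One stage of the account**: a morphism `K → K'` of folded graphs and one family of new
closed lifts `(i₀, w u)`, `u ∈ U`, of `K'`, with at most `g` positions not coming from `K`, such that
every edge of `K'` not coming from `K` lies on one of the new lifts. -/
theorem Acc.step [IsFiniteMeasure μ] {g j : ℕ} {M : ℝ}
    (hK : K.Folded) (hK' : K'.Folded)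
    (hact : ∀ γ : Γ, Measurable fun x : X => γ • x)
    (hrep : Mor K K' rep) {i₀ : I} {U : Set X} (hU : MeasurableSet U) {w : X → P'}
    (hw : ∀ p', MeasurableSet {u | w u = p'})
    (hcl : ∀ u ∈ U, u ∈ K'.closedW r i₀ (w u))
    (hgap : ∀ u ∈ U, (Finset.univ.filter fun m : Fin n =>
      ¬ ∃ e : L × P × P, (posW (val := val) r hlen i₀ m) • u ∈ K.E e.1 e.2.1 e.2.2 ∧
        qEdge rep val e ((posW (val := val) r hlen i₀ m) • u) = incW r hlen K' (i₀, w u) m u).card ≤ g)
    (hnew : ∀ (e' : L × P' × P') x, x ∈ K'.E e'.1 e'.2.1 e'.2.2 →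
      (¬ ∃ e : L × P × P, x ∈ K.E e.1 e.2.1 e.2.2 ∧ qEdge rep val e x = e') →
      ∃ u ∈ U, ∃ m : Fin n, (posW (val := val) r hlen i₀ m) • u = x ∧
        incW r hlen K' (i₀, w u) m u = e')
    (h : Acc r hlen K μ g j M) : Acc r hlen K' μ g (j + 1) M := by
  classical
  obtain ⟨D, b, a, hd⟩ := h
  let D' : I → P' → Set X := fun i v' =>
    {u | (∃ v, u ∈ D i v ∧ rep u v = v') ∨ (i = i₀ ∧ u ∈ U ∧ w u = v')}
  have hD'm : ∀ i v', MeasurableSet (D' i v') := by
    intro i v'
    have : D' i v' = (⋃ v, (D i v ∩ {u | rep u v = v'})) ∪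
        ({_u | i = i₀} ∩ (U ∩ {u | w u = v'})) := by
      ext u
      simp only [D', mem_setOf_eq, mem_union, mem_iUnion, mem_inter_iff]
    rw [this]
    refine (MeasurableSet.iUnion fun v => (hd.measD i v).inter (hrep.meas v v')).union
      (MeasurableSet.inter ?_ (hU.inter (hw v')))
    by_cases hi : i = i₀ <;> simp [hi]
  have hD'c : ∀ i v', D' i v' ⊆ K'.closedW r i v' := by
    rintro i v' u (⟨v, h1, rfl⟩ | ⟨rfl, h1, rfl⟩)
    · exact hrep.closed (hd.closed i v h1)
    · exact hcl u h1
  have hs : Owner.StepMap (cs r hlen K D) (cs r hlen K' D') g (qEdge rep val) (qCell rep) := by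
    refine ⟨?_, ?_, ?_, ?_, ?_, ?_, ?_⟩
    · rintro ⟨s, p, q⟩ x hx
      exact hrep.edge s p q x hx
    · rintro ⟨i, v⟩ u hu
      exact Or.inl ⟨v, hu, rfl⟩
    · rintro ⟨i, v⟩ u m _
      rfl
    · rintro ⟨i, v⟩ u m hu
      exact inc_mem hlen hK (hd.closed i v hu) m
    · rintro ⟨i, v⟩ u m hu
      exact incW_image hlen hrep hK hK' (hd.closed i v hu) m
    · intro e' x hx hno
      obtain ⟨u, hu, m, hm, he⟩ := hnew e' x hx hno
      refine ⟨(i₀, w u), m, ?_, ?_⟩
      · change (posW (val := val) r hlen i₀ m)⁻¹ • x ∈ D' i₀ (w u)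
        rw [← hm, inv_smul_smul]
        exact Or.inr ⟨rfl, hu, rfl⟩
      · change incW r hlen K' (i₀, w u) m ((posW (val := val) r hlen i₀ m)⁻¹ • x) = e'
        rw [← hm, inv_smul_smul]
        exact he
    · rintro ⟨i, v'⟩ u hu hno
      rcases hu with ⟨v, h1, rfl⟩ | ⟨rfl, h1, rfl⟩
      · exact absurd ⟨(i, v), h1, rfl⟩ hno
      · refine le_trans (le_of_eq ?_) (hgap u h1)
        congr 1
        ext m
        simp only [Finset.mem_filter]
        rfl
  have hqE : ∀ (e : L × P × P) e', MeasurableSet {x | qEdge rep val e x = e'} := by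
    rintro ⟨s, p, q⟩ ⟨s', p', q'⟩
    by_cases hs : s = s'
    · subst hs
      have : {x | qEdge rep val (s, p, q) x = (s, p', q')} =
          {x | rep x p = p'} ∩ (fun x => val s • x) ⁻¹' {x | rep x q = q'} := by
        ext x
        simp [qEdge]
      rw [this]
      exact (hrep.meas p p').inter (hact _ (hrep.meas q q'))
    · have : {x | qEdge rep val (s, p, q) x = (s', p', q')} = ∅ := by
        ext x
        simp [qEdge, hs]
      rw [this]
      exact MeasurableSet.empty
  have hqC : ∀ (c : I × P) c', MeasurableSet {u | qCell rep c u = c'} := by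
    rintro ⟨i, v⟩ ⟨i', v'⟩
    by_cases hi : i = i'
    · subst hi
      have : {u | qCell rep (i, v) u = (i, v')} = {u | rep u v = v'} := by
        ext u
        simp [qCell]
      rw [this]
      exact hrep.meas v v'
    · have : {u | qCell rep (i, v) u = (i', v')} = ∅ := by
        ext u
        simp [qCell, hi]
      rw [this]
      exact MeasurableSet.empty
  have hbm : ∀ e', Measurable (Owner.stepBirth (cs r hlen K D) (qEdge rep val) b j e') :=
    Owner.measurable_stepBirth (fun e => K.measE _ _ _) hqE hd.measb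
  have ham : ∀ c', Measurable (Owner.stepAge (cs r hlen K D) (qCell rep) a j c') :=
    Owner.measurable_stepAge (fun c => hd.measD _ _) hqC hd.measa
  refine ⟨D', _, _, hD'c, hD'm, hbm, ham, Owner.StepMap.inv hs hd.inv hd.birth_le,
    fun e x _ => Owner.stepBirth_le hd.birth_le e x, ?_⟩
  refine le_trans ?_ hd.old_mass
  have h2 := Owner.step_old_mass_le (S := cs r hlen K D) (S' := cs r hlen K' D') (μ := μ)
    (qE := qEdge rep val) (b := b) (j := j)
    (fun e => K.measE _ _ _) hd.measb (fun e => K'.measE _ _ _) hbm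
  have h3 := ENNReal.toReal_mono (ENNReal.sum_ne_top.mpr fun e _ => measure_ne_top _ _) h2
  rw [ENNReal.toReal_sum fun e _ => measure_ne_top _ _,
    ENNReal.toReal_sum fun e _ => measure_ne_top _ _] at h3
  exact h3

end Acc

end MGraph

end Crest.Agent.NoFixedPrice
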