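import Crest.Agent.Lib.NoFixedPrice.TreeForm
import Crest.Agent.Lib.NoFixedPrice.Bernoulli

/-!
# The spectral inequality (row 191, S0291, module M3).

For an injective homomorphism `iota : FreeGroup α →* Γ`, Latin positive words `a i`, and real
functions in `L²` of the Bernoulli shift of `Γ`:
`∑ i, ∑ p < L, ∫ u, A i u * B (a i p) (iota (pre a i p) • u) ≤ mean term + (√(2d) + √L) ‖A‖ ‖B‖`.
-/

set_option autoImplicit false
set_option linter.unusedSectionVars false

namespace Crest.Agent.NoFixedPrice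

open MeasureTheory Finset

variable {Γ α ι : Type*} [Group Γ] [DecidableEq Γ]

section coordinates

/-- Left translation of finite subsets. -/
def tr (g : Γ) (S : Finset Γ) : Finset Γ := S.image (fun h => g * h)

lemma tr_one (S : Finset Γ) : tr (1 : Γ) S = S := by simp [tr]

lemma tr_mul (g g' : Γ) (S : Finset Γ) : tr (g * g') S = tr g (tr g' S) := by
  unfold tr
  rw [image_image]
  congr 1
  funext x
  simp [mul_assoc]

lemma tr_nonempty (g : Γ) {S : Finset Γ} (hS : S.Nonempty) : (tr g S).Nonempty := hS.image _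

lemma tr_inv_eq_iff (g : Γ) (S T : Finset Γ) : S = tr g⁻¹ T ↔ tr g S = T := by
  constructor
  · rintro rfl
    rw [← tr_mul]; simp [tr_one]
  · rintro rfl
    rw [← tr_mul]; simp [tr_one]

variable [DecidableEq α]

/-- Free-group action on nonempty finite subsets of `Γ` through `iota`. -/
@[instance_reducible] def finsetAction (iota : FreeGroup α →* Γ) : MulAction (FreeGroup α) {S : Finset Γ // S.Nonempty} where
  smul g S := ⟨tr (iota g) S.1, tr_nonempty _ S.2⟩
  one_smul S := by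
    apply Subtype.ext
    show tr (iota 1) S.1 = S.1
    simp [tr_one]
  mul_smul g g' S := by
    apply Subtype.ext
    show tr (iota (g * g')) S.1 = tr (iota g) (tr (iota g') S.1)
    rw [map_mul, tr_mul]

/-- A group element preserving a nonempty finite set has finite order. -/
lemma exists_pow_eq_one_of_tr_eq (g : Γ) {S : Finset Γ} (hS : S.Nonempty) (h : tr g S = S) :
    ∃ n : ℕ, 0 < n ∧ g ^ n = 1 := by
  obtain ⟨x, hx⟩ := hS
  have hmem : ∀ n : ℕ, g ^ n * x ∈ S := by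
    intro n
    induction n with
    | zero => simpa using hx
    | succ n ih =>
      have : g * (g ^ n * x) ∈ tr g S := mem_image_of_mem _ ih
      rw [h] at this
      rwa [pow_succ', mul_assoc]
  obtain ⟨m, n, hne, heq⟩ : ∃ m n : ℕ, m ≠ n ∧ g ^ m * x = g ^ n * x := by
    have hfin : Finite (S : Set Γ) := S.finite_toSet
    let φ : ℕ → (S : Set Γ) := fun n => ⟨g ^ n * x, hmem n⟩
    obtain ⟨m, n, hne, he⟩ := Finite.exists_ne_map_eq_of_infinite φ
    exact ⟨m, n, hne, congrArg Subtype.val he⟩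
  have heq' : g ^ m = g ^ n := mul_right_cancel heq
  rcases lt_or_gt_of_ne hne with hlt | hlt
  · refine ⟨n - m, by omega, ?_⟩
    have : g ^ n = g ^ m * g ^ (n - m) := by rw [← pow_add]; congr 1; omega
    rw [heq'] at this
    exact (mul_eq_left.mp this.symm)
  · refine ⟨m - n, by omega, ?_⟩
    have : g ^ m = g ^ n * g ^ (m - n) := by rw [← pow_add]; congr 1; omega
    rw [← heq'] at this
    exact (mul_eq_left.mp this.symm)

/-- Equivariant coordinate on nonempty finite subsets. -/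
lemma exists_coord (iota : FreeGroup α →* Γ) (hiota : Function.Injective iota) :
    letI := finsetAction iota
    ∃ coord : {S : Finset Γ // S.Nonempty} → FreeGroup α,
      ∀ (g : FreeGroup α) (ω : {S : Finset Γ // S.Nonempty}), coord (g • ω) = g * coord ω := by
  let _ := finsetAction iota
  classical
  -- freeness
  have hfree : ∀ (g : FreeGroup α) (ω : {S : Finset Γ // S.Nonempty}), g • ω = ω → g = 1 := by
    intro g ω hg
    have h1 : tr (iota g) ω.1 = ω.1 := congrArg Subtype.val hg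
    obtain ⟨n, hn, hpow⟩ := exists_pow_eq_one_of_tr_eq (iota g) ω.2 h1
    have h2 : iota (g ^ n) = iota 1 := by simpa [map_pow] using hpow
    have h3 : g ^ n = 1 := hiota h2
    exact pow_left_injective hn.ne' (by simpa using h3)
  -- representatives
  let rep : {S : Finset Γ // S.Nonempty} → {S : Finset Γ // S.Nonempty} :=
    fun ω => Quotient.out (Quotient.mk (MulAction.orbitRel (FreeGroup α) _) ω)
  have hrep : ∀ ω, ∃ g : FreeGroup α, g • rep ω = ω := by
    intro ω
    have : (MulAction.orbitRel (FreeGroup α) _) (rep ω) ω :=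
      Quotient.exact (Quotient.out_eq _)
    rw [MulAction.orbitRel_apply] at this
    obtain ⟨g, hg⟩ := this
    -- hg : g • ω = rep ω
    refine ⟨g⁻¹, ?_⟩
    rw [← hg]; simp
  choose coord hcoord using hrep
  have hrep_smul : ∀ (g : FreeGroup α) ω, rep (g • ω) = rep ω := by
    intro g ω
    have : Quotient.mk (MulAction.orbitRel (FreeGroup α) {S : Finset Γ // S.Nonempty}) (g • ω) =
        Quotient.mk _ ω := by
      apply Quotient.sound
      show _ ∈ _
      exact ⟨g, rfl⟩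
    show Quotient.out _ = Quotient.out _
    rw [this]
  refine ⟨coord, fun g ω => ?_⟩
  have h1 : coord (g • ω) • rep (g • ω) = g • ω := hcoord _
  have h2 : (g * coord ω) • rep ω = g • ω := by rw [mul_smul, hcoord]
  rw [hrep_smul] at h1
  have h3 : ((g * coord ω)⁻¹ * coord (g • ω)) • rep ω = rep ω := by
    rw [mul_smul, h1, ← h2, ← mul_smul]
    simp
  have h4 := hfree _ _ h3
  have h5 : coord (g • ω) = g * coord ω := by
    have := mul_left_cancel (a := (g * coord ω)⁻¹) (b := coord (g • ω)) (c := g * coord ω)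
      (by rw [h4]; simp)
    exact this
  exact h5

end coordinates

section koopman

/-- The Koopman operator `(U g f) u = f (g • u)`. -/
noncomputable def koop (g : Γ) : BL2 Γ →ₗᵢ[ℝ] BL2 Γ :=
  Lp.compMeasurePreservingₗᵢ ℝ (fun x : Γ → Bool => g • x) (measurePreserving_bern_smul g)

lemma koop_ae (g : Γ) (f : BL2 Γ) :
    (koop g f : (Γ → Bool) → ℝ) =ᵐ[bernMu Γ] fun u => f (g • u) :=
  Lp.coeFn_compMeasurePreserving f (measurePreserving_bern_smul g)

lemma koop_chiL (g : Γ) (S : Finset Γ) : koop g (chiL S) = chiL (tr g⁻¹ S) := by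
  apply Lp.ext
  refine (koop_ae g _).trans ?_
  have h1 : (fun u => (chiL S : (Γ → Bool) → ℝ) (g • u)) =ᵐ[bernMu Γ] fun u => chi S (g • u) :=
    (measurePreserving_bern_smul g).quasiMeasurePreserving.ae_eq_comp (chiL_ae S)
  refine h1.trans ?_
  have h2 : (fun u => chi S (g • u)) = chi (tr g⁻¹ S) := by
    funext u
    rw [chi_smul]
    rfl
  rw [h2]
  exact (chiL_ae _).symm

/-- Inner product of Walsh sums with a Koopman operator in between. -/
lemma inner_walsh_koop (𝒯 : Finset (Finset Γ)) (A B : Finset Γ → ℝ)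
    (hB : ∀ T, T ∉ 𝒯 → B T = 0) (g : Γ) :
    inner ℝ (∑ S ∈ 𝒯, A S • chiL S) (koop g (∑ T ∈ 𝒯, B T • chiL T)) =
      ∑ S ∈ 𝒯, A S * B (tr g S) := by
  have hk : koop g (∑ T ∈ 𝒯, B T • chiL T) = ∑ T ∈ 𝒯, B T • chiL (tr g⁻¹ T) := by
    rw [map_sum]
    refine sum_congr rfl fun T _ => ?_
    rw [map_smul, koop_chiL]
  rw [hk, sum_inner]
  refine sum_congr rfl fun S _ => ?_
  rw [inner_sum]
  simp_rw [real_inner_smul_left, real_inner_smul_right]
  rw [← mul_sum]
  congr 1
  have hon := orthonormal_iff_ite.mp (chiL_orthonormal (Γ := Γ))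
  simp_rw [hon, tr_inv_eq_iff]
  by_cases hS : tr g S ∈ 𝒯
  · rw [sum_eq_single (tr g S)]
    · simp
    · intro T _ hT
      simp [Ne.symm hT]
    · intro h
      exact absurd hS h
  · rw [hB _ hS, sum_eq_zero]
    intro T hT
    have : tr g S ≠ T := by
      rintro rfl
      exact hS hT
    simp [this]

lemma norm_sq_walsh (𝒯 : Finset (Finset Γ)) (A : Finset Γ → ℝ) :
    ‖∑ S ∈ 𝒯, A S • chiL S‖ ^ 2 = ∑ S ∈ 𝒯, A S ^ 2 := by
  rw [← real_inner_self_eq_norm_sq, (chiL_orthonormal (Γ := Γ)).inner_sum]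
  refine sum_congr rfl fun S _ => ?_
  simp [sq]

lemma inner_chiL_walsh (𝒯 : Finset (Finset Γ)) (A : Finset Γ → ℝ) {S : Finset Γ} (hS : S ∈ 𝒯) :
    inner ℝ (chiL S) (∑ T ∈ 𝒯, A T • chiL T) = A S :=
  (chiL_orthonormal (Γ := Γ)).inner_right_sum A hS

end koopman

section walshBound

variable [Countable Γ] [Fintype ι] [Fintype α] [DecidableEq ι] [DecidableEq α]

/-- The spectral inequality on finite Walsh sums. -/
theorem spectral_walsh (iota : FreeGroup α →* Γ) (hiota : Function.Injective iota)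
    (L : ℕ) (a : ι → ℕ → α)
    (hinj : ∀ i, ∀ p < L, ∀ q < L, a i p = a i q → p = q)
    (hpair : ∀ i i' p p', p + 1 < L → p' + 1 < L → a i p = a i' p' →
      a i (p + 1) = a i' (p' + 1) → i = i' ∧ p = p')
    (𝒯 : Finset (Finset Γ)) (h0 : ∅ ∈ 𝒯) (A : ι → Finset Γ → ℝ) (B : α → Finset Γ → ℝ)
    (hB : ∀ j T, T ∉ 𝒯 → B j T = 0) :
    |∑ i, ∑ p ∈ range L, (inner ℝ (∑ S ∈ 𝒯, A i S • chiL S)
        (koop (iota (pre a i p)) (∑ T ∈ 𝒯, B (a i p) T • chiL T)) - A i ∅ * B (a i p) ∅)| ≤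
      (Real.sqrt (2 * Fintype.card ι) + Real.sqrt L) *
        (Real.sqrt (∑ i, ∑ S ∈ 𝒯, A i S ^ 2) * Real.sqrt (∑ j, ∑ T ∈ 𝒯, B j T ^ 2)) := by
  classical
  let _ := finsetAction iota
  obtain ⟨coord, hcoord⟩ := exists_coord iota hiota
  let 𝒯' : Finset {S : Finset Γ // S.Nonempty} := 𝒯.subtype _
  have hsum : ∀ (F : Finset Γ → ℝ), ∑ ω ∈ 𝒯', F ω.1 = ∑ S ∈ 𝒯.filter Finset.Nonempty, F S := by
    intro F
    exact Finset.sum_subtype_eq_sum_filter (s := 𝒯) (p := Finset.Nonempty) (f := F)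
  have hbase := tree_form_bound (Ω := {S : Finset Γ // S.Nonempty}) L a hinj hpair coord hcoord
    𝒯' 𝒯' (fun i ω => A i ω.1) (fun j ω => B j ω.1) (by
      intro j z hz
      apply hB
      intro hmem
      exact hz (by simpa [𝒯'] using hmem))
  have hL : ∀ i p, inner ℝ (∑ S ∈ 𝒯, A i S • chiL S)
        (koop (iota (pre a i p)) (∑ T ∈ 𝒯, B (a i p) T • chiL T)) - A i ∅ * B (a i p) ∅ =
      ∑ ω ∈ 𝒯', A i ω.1 * B (a i p) ((pre a i p • ω).1) := by
    intro i p
    rw [inner_walsh_koop 𝒯 _ _ (fun T hT => hB _ T hT)]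
    have h1 : ∑ ω ∈ 𝒯', A i ω.1 * B (a i p) ((pre a i p • ω).1) =
        ∑ S ∈ 𝒯.filter Finset.Nonempty, A i S * B (a i p) (tr (iota (pre a i p)) S) :=
      hsum (fun S => A i S * B (a i p) (tr (iota (pre a i p)) S))
    rw [h1]
    have h2 : ∑ S ∈ 𝒯, A i S * B (a i p) (tr (iota (pre a i p)) S) =
        A i ∅ * B (a i p) (tr (iota (pre a i p)) ∅) +
          ∑ S ∈ 𝒯.filter Finset.Nonempty, A i S * B (a i p) (tr (iota (pre a i p)) S) := by
      have hfilt : 𝒯.filter Finset.Nonempty = 𝒯.erase ∅ := by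
        ext S
        simp only [mem_filter, mem_erase, ne_eq, Finset.nonempty_iff_ne_empty]
        tauto
      rw [hfilt]
      exact (add_sum_erase 𝒯 (fun S => A i S * B (a i p) (tr (iota (pre a i p)) S)) h0).symm
    rw [h2]
    have h3 : tr (iota (pre a i p)) (∅ : Finset Γ) = ∅ := by simp [tr]
    rw [h3]
    ring
  simp_rw [hL]
  refine hbase.trans ?_
  refine mul_le_mul_of_nonneg_left ?_ (by positivity)
  have hle : ∀ (F : Finset Γ → ℝ), ∑ ω ∈ 𝒯', F ω.1 ^ 2 ≤ ∑ S ∈ 𝒯, F S ^ 2 := by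
    intro F
    rw [hsum (fun S => F S ^ 2)]
    exact sum_le_sum_of_subset_of_nonneg (filter_subset _ _) fun _ _ _ => sq_nonneg _
  refine mul_le_mul ?_ ?_ (Real.sqrt_nonneg _) (Real.sqrt_nonneg _)
  · exact Real.sqrt_le_sqrt (sum_le_sum fun i _ => hle _)
  · exact Real.sqrt_le_sqrt (sum_le_sum fun j _ => hle _)

/-- The spectral inequality on `L²`. -/
theorem spectral_L2 (iota : FreeGroup α →* Γ) (hiota : Function.Injective iota)
    (L : ℕ) (a : ι → ℕ → α)
    (hinj : ∀ i, ∀ p < L, ∀ q < L, a i p = a i q → p = q)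
    (hpair : ∀ i i' p p', p + 1 < L → p' + 1 < L → a i p = a i' p' →
      a i (p + 1) = a i' (p' + 1) → i = i' ∧ p = p')
    (f : ι → BL2 Γ) (h : α → BL2 Γ) :
    ∑ i, ∑ p ∈ range L, inner ℝ (f i) (koop (iota (pre a i p)) (h (a i p))) ≤
      ∑ i, ∑ p ∈ range L, inner ℝ (chiL ∅) (f i) * inner ℝ (chiL ∅) (h (a i p)) +
      (Real.sqrt (2 * Fintype.card ι) + Real.sqrt L) *
        (Real.sqrt (∑ i, ‖f i‖ ^ 2) * Real.sqrt (∑ j, ‖h j‖ ^ 2)) := by
  classical
  let V : Set (BL2 Γ) := ((Submodule.span ℝ (Set.range (chiL (Γ := Γ))) : Submodule ℝ (BL2 Γ)) :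
    Set (BL2 Γ))
  have hV : Dense V := chiL_dense
  have hdense : Dense ((Set.pi Set.univ fun _ : ι => V) ×ˢ (Set.pi Set.univ fun _ : α => V)) :=
    (dense_pi _ fun _ _ => hV).prod (dense_pi _ fun _ _ => hV)
  have hclosed : IsClosed {x : (ι → BL2 Γ) × (α → BL2 Γ) |
      ∑ i, ∑ p ∈ range L, inner ℝ (x.1 i) (koop (iota (pre a i p)) (x.2 (a i p))) ≤
      ∑ i, ∑ p ∈ range L, inner ℝ (chiL ∅) (x.1 i) * inner ℝ (chiL ∅) (x.2 (a i p)) +
      (Real.sqrt (2 * Fintype.card ι) + Real.sqrt L) *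
        (Real.sqrt (∑ i, ‖x.1 i‖ ^ 2) * Real.sqrt (∑ j, ‖x.2 j‖ ^ 2))} := by
    refine isClosed_le ?_ ?_
    · refine continuous_finsetSum _ fun i _ => continuous_finsetSum _ fun p _ => ?_
      exact ((continuous_apply i).comp continuous_fst).inner
        ((koop _).continuous.comp ((continuous_apply _).comp continuous_snd))
    · refine Continuous.add ?_ ?_
      · refine continuous_finsetSum _ fun i _ => continuous_finsetSum _ fun p _ => ?_
        exact (continuous_const.inner ((continuous_apply i).comp continuous_fst)).mul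
          (continuous_const.inner ((continuous_apply _).comp continuous_snd))
      · refine continuous_const.mul (Continuous.mul ?_ ?_)
        · refine Real.continuous_sqrt.comp (continuous_finsetSum _ fun i _ => ?_)
          exact (((continuous_apply i).comp continuous_fst).norm).pow 2
        · refine Real.continuous_sqrt.comp (continuous_finsetSum _ fun i _ => ?_)
          exact (((continuous_apply i).comp continuous_snd).norm).pow 2
  have hsub : (Set.pi Set.univ fun _ : ι => V) ×ˢ (Set.pi Set.univ fun _ : α => V) ⊆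
      {x : (ι → BL2 Γ) × (α → BL2 Γ) |
      ∑ i, ∑ p ∈ range L, inner ℝ (x.1 i) (koop (iota (pre a i p)) (x.2 (a i p))) ≤
      ∑ i, ∑ p ∈ range L, inner ℝ (chiL ∅) (x.1 i) * inner ℝ (chiL ∅) (x.2 (a i p)) +
      (Real.sqrt (2 * Fintype.card ι) + Real.sqrt L) *
        (Real.sqrt (∑ i, ‖x.1 i‖ ^ 2) * Real.sqrt (∑ j, ‖x.2 j‖ ^ 2))} := by
    rintro ⟨f', h'⟩ ⟨hf', hh'⟩
    have hf2 : ∀ i, ∃ c : Finset Γ →₀ ℝ, (c.sum fun S r => r • chiL S) = f' i :=
      fun i => (Finsupp.mem_span_range_iff_exists_finsupp).mp (hf' i (Set.mem_univ i))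
    have hh2 : ∀ j, ∃ c : Finset Γ →₀ ℝ, (c.sum fun S r => r • chiL S) = h' j :=
      fun j => (Finsupp.mem_span_range_iff_exists_finsupp).mp (hh' j (Set.mem_univ j))
    choose c hc using hf2
    choose d hd using hh2
    let 𝒯 : Finset (Finset Γ) := {∅} ∪ (univ.biUnion fun i => (c i).support) ∪
      (univ.biUnion fun j => (d j).support)
    have h0 : ∅ ∈ 𝒯 := by simp [𝒯]
    have hcT : ∀ i, (c i).support ⊆ 𝒯 := fun i S hS => by
      simp only [𝒯, mem_union, mem_biUnion, mem_univ, true_and]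
      exact Or.inl (Or.inr ⟨i, hS⟩)
    have hdT : ∀ j, (d j).support ⊆ 𝒯 := fun j S hS => by
      simp only [𝒯, mem_union, mem_biUnion, mem_univ, true_and]
      exact Or.inr ⟨j, hS⟩
    have hf3 : ∀ i, f' i = ∑ S ∈ 𝒯, c i S • chiL S := by
      intro i
      rw [← hc i]
      exact Finsupp.sum_of_support_subset _ (hcT i) _ (by simp)
    have hh3 : ∀ j, h' j = ∑ S ∈ 𝒯, d j S • chiL S := by
      intro j
      rw [← hd j]
      exact Finsupp.sum_of_support_subset _ (hdT j) _ (by simp)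
    have hB0 : ∀ j T, T ∉ 𝒯 → d j T = 0 := by
      intro j T hT
      by_contra hne
      exact hT (hdT j (Finsupp.mem_support_iff.mpr hne))
    have key := spectral_walsh iota hiota L a hinj hpair 𝒯 h0 (fun i => c i) (fun j => d j) hB0
    simp only [Set.mem_ofPred_eq]
    simp_rw [hf3, hh3, norm_sq_walsh, inner_chiL_walsh 𝒯 _ h0]
    have hrw : ∑ i, ∑ p ∈ range L, (inner ℝ (∑ S ∈ 𝒯, c i S • chiL S)
        (koop (iota (pre a i p)) (∑ T ∈ 𝒯, d (a i p) T • chiL T)) - c i ∅ * d (a i p) ∅) =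
        ∑ i, ∑ p ∈ range L, inner ℝ (∑ S ∈ 𝒯, c i S • chiL S)
        (koop (iota (pre a i p)) (∑ T ∈ 𝒯, d (a i p) T • chiL T)) -
          ∑ i, ∑ p ∈ range L, c i ∅ * d (a i p) ∅ := by
      simp_rw [sum_sub_distrib]
    rw [hrw] at key
    have := (abs_le.mp key).2
    linarith
  have hall : ∀ x : (ι → BL2 Γ) × (α → BL2 Γ), x ∈ {x : (ι → BL2 Γ) × (α → BL2 Γ) |
      ∑ i, ∑ p ∈ range L, inner ℝ (x.1 i) (koop (iota (pre a i p)) (x.2 (a i p))) ≤
      ∑ i, ∑ p ∈ range L, inner ℝ (chiL ∅) (x.1 i) * inner ℝ (chiL ∅) (x.2 (a i p)) +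
      (Real.sqrt (2 * Fintype.card ι) + Real.sqrt L) *
        (Real.sqrt (∑ i, ‖x.1 i‖ ^ 2) * Real.sqrt (∑ j, ‖x.2 j‖ ^ 2))} := by
    intro x
    have hcl := hdense.closure_eq ▸ (Set.mem_univ x)
    exact (closure_minimal hsub hclosed) hcl
  exact hall (f, h)

/-- **The spectral inequality** at the level of functions. -/
theorem spectral_inequality (iota : FreeGroup α →* Γ) (hiota : Function.Injective iota)
    (L : ℕ) (a : ι → ℕ → α)
    (hinj : ∀ i, ∀ p < L, ∀ q < L, a i p = a i q → p = q)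
    (hpair : ∀ i i' p p', p + 1 < L → p' + 1 < L → a i p = a i' p' →
      a i (p + 1) = a i' (p' + 1) → i = i' ∧ p = p')
    (A : ι → (Γ → Bool) → ℝ) (B : α → (Γ → Bool) → ℝ)
    (hA : ∀ i, MemLp (A i) 2 (bernMu Γ)) (hB : ∀ j, MemLp (B j) 2 (bernMu Γ)) :
    ∑ i, ∑ p ∈ range L, ∫ u, A i u * B (a i p) (iota (pre a i p) • u) ∂(bernMu Γ) ≤
      ∑ i, ∑ p ∈ range L, (∫ u, A i u ∂(bernMu Γ)) * (∫ u, B (a i p) u ∂(bernMu Γ)) +
      (Real.sqrt (2 * Fintype.card ι) + Real.sqrt L) *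
        (Real.sqrt (∑ i, ∫ u, A i u ^ 2 ∂(bernMu Γ)) *
          Real.sqrt (∑ j, ∫ u, B j u ^ 2 ∂(bernMu Γ))) := by
  have key := spectral_L2 iota hiota L a hinj hpair (fun i => (hA i).toLp (A i))
    (fun j => (hB j).toLp (B j))
  have h1 : ∀ (g : Γ) (f F : (Γ → Bool) → ℝ) (hf : MemLp f 2 (bernMu Γ))
      (hF : MemLp F 2 (bernMu Γ)),
      inner ℝ (hf.toLp f) (koop g (hF.toLp F)) = ∫ u, f u * F (g • u) ∂(bernMu Γ) := by
    intro g f F hf hF
    rw [L2.inner_def]
    refine integral_congr_ae ?_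
    have h2 : (fun u => (hF.toLp F : (Γ → Bool) → ℝ) (g • u)) =ᵐ[bernMu Γ] fun u => F (g • u) :=
      (measurePreserving_bern_smul g).quasiMeasurePreserving.ae_eq_comp (MemLp.coeFn_toLp hF)
    filter_upwards [MemLp.coeFn_toLp hf, koop_ae g (hF.toLp F), h2] with u h3 h4 h5
    simp only [h3, h4, h5, RCLike.inner_apply, conj_trivial]
    ring
  have h2 : ∀ (f : (Γ → Bool) → ℝ) (hf : MemLp f 2 (bernMu Γ)),
      inner ℝ (chiL ∅) (hf.toLp f) = ∫ u, f u ∂(bernMu Γ) := by
    intro f hf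
    rw [chiL, inner_toLp]
    simp [chi_empty]
  have h3 : ∀ (f : (Γ → Bool) → ℝ) (hf : MemLp f 2 (bernMu Γ)),
      ‖hf.toLp f‖ ^ 2 = ∫ u, f u ^ 2 ∂(bernMu Γ) := by
    intro f hf
    rw [← real_inner_self_eq_norm_sq, inner_toLp]
    simp [sq]
  simp_rw [h1, h2, h3] at key
  exact key

end walshBound

end Crest.Agent.NoFixedPrice
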