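import Mathlib
import Crest.Agent.Lib.NoFixedPrice.Spectral

/-!
# M6a: the rich bound (row 191, S0291).

A design independent corollary of the spectral inequality: integer valued functions `ψ` on cells
and `h` on `X`-edges.  If every cell carries `m' ψ` incidences counted by `min (ψ, h)`, then
`m' ∫ψ ≤ ∫ψ ∫h + K √(∫ψ) √(∫h)`, hence `∫ψ ≤ K² ∫h / (m' - ∫h)²`.
-/

set_option autoImplicit false
set_option linter.unusedSectionVars false

namespace Crest.Agent.NoFixedPrice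

open MeasureTheory Measure Finset

variable {Γ : Type*} [Group Γ] [DecidableEq Γ] [Countable Γ]
variable {ι α : Type*} [Fintype ι] [Fintype α] [DecidableEq ι] [DecidableEq α]

omit [DecidableEq Γ] [Countable Γ] in
lemma min_le_sqrt_mul_sqrt (a b : ℕ) :
    ((min a b : ℕ) : ℝ) ≤ Real.sqrt a * Real.sqrt b := by
  rw [← Real.sqrt_mul (Nat.cast_nonneg a)]
  apply Real.le_sqrt_of_sq_le
  rcases le_total a b with h | h
  · rw [min_eq_left h, sq]
    exact mul_le_mul_of_nonneg_left (by exact_mod_cast h) (Nat.cast_nonneg a)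
  · rw [min_eq_right h, sq]
    exact mul_le_mul_of_nonneg_right (by exact_mod_cast h) (Nat.cast_nonneg b)

lemma sqrt_nat_le (n : ℕ) : Real.sqrt n ≤ n := by
  rcases Nat.eq_zero_or_pos n with rfl | hn
  · simp
  · have h1 : (1 : ℝ) ≤ n := by exact_mod_cast hn
    calc Real.sqrt n ≤ Real.sqrt (n * n) := Real.sqrt_le_sqrt (by nlinarith)
      _ = n := Real.sqrt_mul_self (Nat.cast_nonneg n)

section

variable {μ : Measure (Γ → Bool)}

lemma memLp_sqrt_nat (f : (Γ → Bool) → ℕ) (hm : Measurable f)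
    (hi : Integrable (fun u => (f u : ℝ)) μ) :
    MemLp (fun u => Real.sqrt (f u)) 2 μ := by
  rw [memLp_two_iff_integrable_sq]
  · refine hi.congr (Filter.Eventually.of_forall fun u => ?_)
    simp [Real.sq_sqrt (Nat.cast_nonneg (f u))]
  · exact ((measurable_from_nat (f := fun n : ℕ => Real.sqrt n)).comp hm).aestronglyMeasurable

lemma integral_sqrt_le (f : (Γ → Bool) → ℕ) (hm : Measurable f) (hi : Integrable (fun u => (f u : ℝ)) μ)
    [IsProbabilityMeasure μ] :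
    ∫ u, Real.sqrt (f u) ∂μ ≤ ∫ u, (f u : ℝ) ∂μ := by
  refine integral_mono ?_ hi (fun u => sqrt_nat_le (f u))
  exact (memLp_sqrt_nat f hm hi).integrable (by norm_num)

lemma integral_sqrt_sq (f : (Γ → Bool) → ℕ) :
    ∫ u, (Real.sqrt (f u)) ^ 2 ∂μ = ∫ u, (f u : ℝ) ∂μ := by
  congr 1; funext u
  exact Real.sq_sqrt (Nat.cast_nonneg (f u))

end

/-- **The rich inequality.** -/
theorem rich_inequality (iota : FreeGroup α →* Γ) (hiota : Function.Injective iota)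
    (L : ℕ) (a : ι → ℕ → α)
    (hinj : ∀ i, ∀ p < L, ∀ q < L, a i p = a i q → p = q)
    (hpair : ∀ i i' p p', p + 1 < L → p' + 1 < L → a i p = a i' p' →
      a i (p + 1) = a i' (p' + 1) → i = i' ∧ p = p')
    (psi : ι → (Γ → Bool) → ℕ) (h : α → (Γ → Bool) → ℕ)
    (hpsim : ∀ i, Measurable (psi i)) (hhm : ∀ j, Measurable (h j))
    (hpsi : ∀ i, Integrable (fun u => (psi i u : ℝ)) (bernMu Γ))
    (hh : ∀ j, Integrable (fun u => (h j u : ℝ)) (bernMu Γ))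
    (m' : ℕ)
    (hrich : ∀ i u, m' * psi i u ≤ ∑ p ∈ range L, min (psi i u) (h (a i p) (iota (pre a i p) • u))) :
    (m' : ℝ) * (∑ i, ∫ u, (psi i u : ℝ) ∂(bernMu Γ)) ≤
      (∑ i, ∫ u, (psi i u : ℝ) ∂(bernMu Γ)) * (∑ j, ∫ u, (h j u : ℝ) ∂(bernMu Γ)) +
      (Real.sqrt (2 * Fintype.card ι) + Real.sqrt L) *
        (Real.sqrt (∑ i, ∫ u, (psi i u : ℝ) ∂(bernMu Γ)) *
          Real.sqrt (∑ j, ∫ u, (h j u : ℝ) ∂(bernMu Γ))) := by
  set μ := bernMu Γ with hμ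
  let A : ι → (Γ → Bool) → ℝ := fun i u => Real.sqrt (psi i u)
  let B : α → (Γ → Bool) → ℝ := fun j u => Real.sqrt (h j u)
  have hA : ∀ i, MemLp (A i) 2 μ := fun i => memLp_sqrt_nat _ (hpsim i) (hpsi i)
  have hB : ∀ j, MemLp (B j) 2 μ := fun j => memLp_sqrt_nat _ (hhm j) (hh j)
  have hspec := spectral_inequality iota hiota L a hinj hpair A B hA hB
  have hA2 : ∀ i, ∫ u, A i u ^ 2 ∂μ = ∫ u, (psi i u : ℝ) ∂μ := fun i => integral_sqrt_sq _
  have hB2 : ∀ j, ∫ u, B j u ^ 2 ∂μ = ∫ u, (h j u : ℝ) ∂μ := fun j => integral_sqrt_sq _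
  simp only [← hμ, hA2, hB2] at hspec
  have hnn_psi : ∀ i, 0 ≤ ∫ u, (psi i u : ℝ) ∂μ := fun i => integral_nonneg fun u => Nat.cast_nonneg _
  have hnn_h : ∀ j, 0 ≤ ∫ u, (h j u : ℝ) ∂μ := fun j => integral_nonneg fun u => Nat.cast_nonneg _
  -- the mean term
  have hmean : ∑ i, ∑ p ∈ range L, (∫ u, A i u ∂μ) * (∫ u, B (a i p) u ∂μ) ≤
      (∑ i, ∫ u, (psi i u : ℝ) ∂μ) * (∑ j, ∫ u, (h j u : ℝ) ∂μ) := by
    rw [Finset.sum_mul]
    refine Finset.sum_le_sum fun i _ => ?_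
    rw [← Finset.mul_sum]
    have hAle : ∫ u, A i u ∂μ ≤ ∫ u, (psi i u : ℝ) ∂μ := integral_sqrt_le _ (hpsim i) (hpsi i)
    have hAnn : 0 ≤ ∫ u, A i u ∂μ := integral_nonneg fun u => Real.sqrt_nonneg _
    have hBsum : ∑ p ∈ range L, ∫ u, B (a i p) u ∂μ ≤ ∑ j, ∫ u, (h j u : ℝ) ∂μ := by
      calc ∑ p ∈ range L, ∫ u, B (a i p) u ∂μ ≤ ∑ p ∈ range L, ∫ u, (h (a i p) u : ℝ) ∂μ :=
            Finset.sum_le_sum fun p _ => integral_sqrt_le _ (hhm _) (hh _)
        _ = ∑ j ∈ (range L).image (a i), ∫ u, (h j u : ℝ) ∂μ := by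
            rw [Finset.sum_image]
            intro p hp q hq hpq
            exact hinj i p (by simpa using hp) q (by simpa using hq) hpq
        _ ≤ ∑ j, ∫ u, (h j u : ℝ) ∂μ :=
            Finset.sum_le_sum_of_subset_of_nonneg (Finset.subset_univ _) fun j _ _ => hnn_h j
    calc (∫ u, A i u ∂μ) * ∑ p ∈ range L, ∫ u, B (a i p) u ∂μ
        ≤ (∫ u, A i u ∂μ) * ∑ j, ∫ u, (h j u : ℝ) ∂μ :=
          mul_le_mul_of_nonneg_left hBsum hAnn
      _ ≤ (∫ u, (psi i u : ℝ) ∂μ) * ∑ j, ∫ u, (h j u : ℝ) ∂μ :=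
          mul_le_mul_of_nonneg_right hAle (Finset.sum_nonneg fun j _ => hnn_h j)
  -- the left side
  have hmeas : ∀ g : Γ, MeasurePreserving (fun x : Γ → Bool => g • x) μ μ := measurePreserving_bern_smul
  have hleft : (m' : ℝ) * (∑ i, ∫ u, (psi i u : ℝ) ∂μ) ≤
      ∑ i, ∑ p ∈ range L, ∫ u, A i u * B (a i p) (iota (pre a i p) • u) ∂μ := by
    rw [Finset.mul_sum]
    refine Finset.sum_le_sum fun i _ => ?_
    -- integrability
    have hBg : ∀ p, MemLp (fun u => B (a i p) (iota (pre a i p) • u)) 2 μ := fun p =>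
      (hB (a i p)).comp_measurePreserving (hmeas _)
    have hprod : ∀ p, Integrable (fun u => A i u * B (a i p) (iota (pre a i p) • u)) μ := fun p =>
      (hA i).integrable_mul (hBg p)
    rw [← integral_const_mul, ← integral_finsetSum _ (fun p _ => hprod p)]
    refine integral_mono ((hpsi i).const_mul _) (integrable_finsetSum _ fun p _ => hprod p) fun u => ?_
    have h1 : ((m' * psi i u : ℕ) : ℝ) ≤
        ((∑ p ∈ range L, min (psi i u) (h (a i p) (iota (pre a i p) • u)) : ℕ) : ℝ) := by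
      exact_mod_cast hrich i u
    push_cast at h1
    refine h1.trans (Finset.sum_le_sum fun p _ => ?_)
    have := min_le_sqrt_mul_sqrt (psi i u) (h (a i p) (iota (pre a i p) • u))
    exact_mod_cast this
  linarith

/-- **The rich bound**, solved form. -/
theorem rich_bound (iota : FreeGroup α →* Γ) (hiota : Function.Injective iota)
    (L : ℕ) (a : ι → ℕ → α)
    (hinj : ∀ i, ∀ p < L, ∀ q < L, a i p = a i q → p = q)
    (hpair : ∀ i i' p p', p + 1 < L → p' + 1 < L → a i p = a i' p' →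
      a i (p + 1) = a i' (p' + 1) → i = i' ∧ p = p')
    (psi : ι → (Γ → Bool) → ℕ) (h : α → (Γ → Bool) → ℕ)
    (hpsim : ∀ i, Measurable (psi i)) (hhm : ∀ j, Measurable (h j))
    (hpsi : ∀ i, Integrable (fun u => (psi i u : ℝ)) (bernMu Γ))
    (hh : ∀ j, Integrable (fun u => (h j u : ℝ)) (bernMu Γ))
    (m' : ℕ)
    (hrich : ∀ i u, m' * psi i u ≤ ∑ p ∈ range L, min (psi i u) (h (a i p) (iota (pre a i p) • u)))
    (hsmall : ∑ j, ∫ u, (h j u : ℝ) ∂(bernMu Γ) < m') :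
    ((m' : ℝ) - ∑ j, ∫ u, (h j u : ℝ) ∂(bernMu Γ)) ^ 2 * (∑ i, ∫ u, (psi i u : ℝ) ∂(bernMu Γ)) ≤
      (Real.sqrt (2 * Fintype.card ι) + Real.sqrt L) ^ 2 * (∑ j, ∫ u, (h j u : ℝ) ∂(bernMu Γ)) := by
  have key := rich_inequality iota hiota L a hinj hpair psi h hpsim hhm hpsi hh m' hrich
  set P := ∑ i, ∫ u, (psi i u : ℝ) ∂(bernMu Γ) with hP
  set H := ∑ j, ∫ u, (h j u : ℝ) ∂(bernMu Γ) with hH
  set K := Real.sqrt (2 * Fintype.card ι) + Real.sqrt L with hK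
  have hP0 : 0 ≤ P := Finset.sum_nonneg fun i _ => integral_nonneg fun u => Nat.cast_nonneg _
  have hH0 : 0 ≤ H := Finset.sum_nonneg fun j _ => integral_nonneg fun u => Nat.cast_nonneg _
  have hK0 : 0 ≤ K := add_nonneg (Real.sqrt_nonneg _) (Real.sqrt_nonneg _)
  rcases hP0.eq_or_lt with hP1 | hP1
  · rw [← hP1]; simp; positivity
  have h1 : ((m' : ℝ) - H) * P ≤ K * (Real.sqrt P * Real.sqrt H) := by linarith
  have h2 : 0 ≤ (m' : ℝ) - H := by linarith
  have h3 : (((m' : ℝ) - H) * P) ^ 2 ≤ (K * (Real.sqrt P * Real.sqrt H)) ^ 2 :=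
    pow_le_pow_left₀ (mul_nonneg h2 hP0) h1 2
  have h4 : (K * (Real.sqrt P * Real.sqrt H)) ^ 2 = K ^ 2 * (P * H) := by
    rw [mul_pow, mul_pow, Real.sq_sqrt hP0, Real.sq_sqrt hH0]
  rw [h4] at h3
  have h5 : P * (((m' : ℝ) - H) ^ 2 * P) ≤ P * (K ^ 2 * H) := by nlinarith
  exact le_of_mul_le_mul_left h5 hP1

end Crest.Agent.NoFixedPrice
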