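-- Row 191 (S0291): the rich cells.  The count of closed lifts with many marked bottom edges.
import Crest.Agent.Lib.NoFixedPrice.OwnerCx
import Crest.Agent.Lib.NoFixedPrice.RichBound

set_option autoImplicit false
set_option linter.unusedSectionVars false

namespace Crest.Agent.NoFixedPrice

open MeasureTheory Finset

namespace MGraph

variable {Γ β P X : Type*} [Group Γ] {val : Option β → Γ} [MulAction Γ X] [MeasurableSpace X]
  [Fintype P] [DecidableEq P] [Fintype β] [DecidableEq β]
  (K : MGraph val P X) (a : β → ℕ → β) (Lb : ℕ)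

/-- The marked edges: an end of degree at least three. -/
def Marked (b : β) (p q : P) : Set X :=
  {x | x ∈ K.E (some b) p q ∧ (3 ≤ K.deg x p ∨ 3 ≤ K.deg (val (some b) • x) q)}

/-- The sheet at position `r` of the bottom of the lift from `(u, c)`. -/
noncomputable def botSheet (i : β) (c : P) (r : ℕ) (u : X) : P := K.sheetAt c (botW a i r) u

/-- The bottom edge at position `r` of the lift from `(u, c)` is marked. -/
def MarkedAt (i : β) (c : P) (r : ℕ) (u : X) : Prop :=
  wordAct val (botW a i r) • u ∈
    K.Marked (a i r) (K.botSheet a i c r u) (K.botSheet a i c (r + 1) u)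

attribute [local instance] Classical.propDecidable

/-- The rich closed lifts: at least `m'` marked bottom edges. -/
def richSet (m' : ℕ) (i : β) (c : P) : Set X :=
  {u | u ∈ K.closedSet a Lb i c ∧ m' ≤ ((range Lb).filter fun r => K.MarkedAt a i c r u).card}

/-- The number of rich lifts at `u`. -/
noncomputable def psi (m' : ℕ) (i : β) (u : X) : ℕ :=
  (univ.filter fun c => u ∈ K.richSet a Lb m' i c).card

/-- The number of marked edges with letter `b` over `x`. -/
noncomputable def hMark (b : β) (x : X) : ℕ :=
  (univ.filter fun e : P × P => x ∈ K.Marked b e.1 e.2).card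

variable {K a Lb}

section Pointwise

variable (hK : K.Folded) (hrel : ∀ i, wordAct val (rel a Lb i) = 1)
include hK hrel

/-- The prefix of a closed lift. -/
theorem closed_prefix {i : β} {c : P} {u : X} (hu : u ∈ K.closedSet a Lb i c) {r : ℕ}
    (hr : r ≤ Lb) :
    K.IsPath (u, c) (botW a i r)
      (wordAct val (botW a i r) • u, K.botSheet a i c r u) := by
  obtain ⟨v, hv⟩ := exists_bot_of_closed hrel hu hr
  obtain ⟨y, q⟩ := v
  have hy := hv.fst_eq
  simp only at hy
  subst hy
  have hmem : u ∈ K.pathSet c (botW a i r) q := hv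
  rw [botSheet, sheetAt_eq hK hmem]
  exact hv

/-- The bottom edge at position `r` of a closed lift. -/
theorem closed_edge {i : β} {c : P} {u : X} (hu : u ∈ K.closedSet a Lb i c) {r : ℕ}
    (hr : r < Lb) :
    wordAct val (botW a i r) • u ∈
      K.E (some (a i r)) (K.botSheet a i c r u) (K.botSheet a i c (r + 1) u) := by
  have h1 := closed_prefix hK hrel hu (Nat.succ_le_of_lt hr)
  obtain ⟨m, h2, h3⟩ := botW_succ_path.1 h1
  have h4 := hK.path_unique h2 (closed_prefix hK hrel hu hr.le)
  subst h4
  exact ((K.adj_true _ _ _).1 h3).1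

/-- Two closed lifts with the same sheet at position `r` coincide. -/
theorem closed_inj {i : β} {c c' : P} {u : X} (hu : u ∈ K.closedSet a Lb i c)
    (hu' : u ∈ K.closedSet a Lb i c') {r : ℕ} (hr : r ≤ Lb)
    (h : K.botSheet a i c r u = K.botSheet a i c' r u) : c = c' := by
  have h1 := (closed_prefix hK hrel hu hr).rinv
  have h2 := (closed_prefix hK hrel hu' hr).rinv
  rw [h] at h1
  have := hK.path_unique h1 h2
  exact congrArg Prod.snd this

/-- **Pointwise rich count.** -/
theorem hrich_pointwise (m' : ℕ) (i : β) (u : X) :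
    m' * K.psi a Lb m' i u ≤ ∑ r ∈ range Lb,
      min (K.psi a Lb m' i u) (K.hMark (a i r) (wordAct val (botW a i r) • u)) := by
  set Rich := univ.filter fun c => u ∈ K.richSet a Lb m' i c with hRich
  have h1 : m' * Rich.card ≤ ∑ c ∈ Rich, ((range Lb).filter fun r => K.MarkedAt a i c r u).card := by
    rw [mul_comm, ← smul_eq_mul]
    refine Finset.card_nsmul_le_sum _ _ _ fun c hc => ?_
    exact (Finset.mem_filter.mp hc).2.2
  refine h1.trans ?_
  have h2 : ∑ c ∈ Rich, ((range Lb).filter fun r => K.MarkedAt a i c r u).card =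
      ∑ r ∈ range Lb, (Rich.filter fun c => K.MarkedAt a i c r u).card := by
    simp only [Finset.card_filter]
    rw [Finset.sum_comm]
  rw [h2]
  refine Finset.sum_le_sum fun r hr => ?_
  have hr' : r < Lb := Finset.mem_range.mp hr
  refine le_min (Finset.card_filter_le _ _) ?_
  -- injection into the marked edges
  refine Finset.card_le_card_of_injOn
    (fun c => (K.botSheet a i c r u, K.botSheet a i c (r + 1) u)) ?_ ?_
  · intro c hc
    have hc' := Finset.mem_coe.mp hc
    have := (Finset.mem_filter.mp hc').2
    exact Finset.mem_coe.mpr (Finset.mem_filter.mpr ⟨Finset.mem_univ _, this⟩)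
  · intro c hc c' hc' he
    have h3 := (Finset.mem_filter.mp (Finset.mem_coe.mp hc)).1
    have h4 := (Finset.mem_filter.mp (Finset.mem_coe.mp hc')).1
    have h5 := (Finset.mem_filter.mp h3).2.1
    have h6 := (Finset.mem_filter.mp h4).2.1
    exact closed_inj hK hrel h5 h6 hr'.le (congrArg Prod.fst he)

end Pointwise

/-! ### Measurability -/

section Meas

variable (hK : K.Folded) (hact : ∀ g : Γ, Measurable fun x : X => g • x)
include hact

theorem measurableSet_three_le_deg (p : P) : MeasurableSet {x | 3 ≤ K.deg x p} := by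
  classical
  have h : (fun x => K.deg x p) = fun x =>
      ∑ a : (Option β × Bool) × P, if x ∈ K.half a.1 p a.2 then 1 else 0 := by
    funext x
    unfold deg
    rw [Finset.card_filter]
  have hm : Measurable fun x => K.deg x p := by
    rw [h]
    refine Finset.measurable_sum _ fun e _ => ?_
    exact Measurable.ite (K.measurableSet_half hact _ _ _) measurable_const measurable_const
  exact measurableSet_le measurable_const hm

theorem measurableSet_marked (b : β) (p q : P) : MeasurableSet (K.Marked b p q) :=
  (K.measE _ _ _).inter ((measurableSet_three_le_deg hact p).union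
    (hact _ (measurableSet_three_le_deg hact q)))

include hK

theorem measurableSet_markedAt (i : β) (c : P) (r : ℕ) :
    MeasurableSet {u | K.MarkedAt a i c r u} := by
  have : {u | K.MarkedAt a i c r u} = ⋃ e : P × P,
      ({u | K.botSheet a i c r u = e.1} ∩ {u | K.botSheet a i c (r + 1) u = e.2} ∩
        (fun u => wordAct val (botW a i r) • u) ⁻¹' K.Marked (a i r) e.1 e.2) := by
    ext u
    simp only [MarkedAt, Set.mem_setOf_eq, Set.mem_iUnion, Set.mem_inter_iff, Set.mem_preimage]
    constructor
    · intro h
      exact ⟨(_, _), ⟨rfl, rfl⟩, h⟩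
    · rintro ⟨⟨p, q⟩, ⟨rfl, rfl⟩, h⟩
      exact h
  rw [this]
  refine MeasurableSet.iUnion fun e => MeasurableSet.inter (MeasurableSet.inter ?_ ?_)
    (hact _ (measurableSet_marked hact _ _ _))
  · exact measurableSet_sheetAt hK hact _ _ _
  · exact measurableSet_sheetAt hK hact _ _ _

theorem measurableSet_richSet (m' : ℕ) (i : β) (c : P) : MeasurableSet (K.richSet a Lb m' i c) := by
  refine (K.measurableSet_closedSet a Lb hact i c).inter ?_
  have hm : Measurable fun u => ((range Lb).filter fun r => K.MarkedAt a i c r u).card := by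
    simp only [Finset.card_filter]
    refine Finset.measurable_sum _ fun r _ => ?_
    exact Measurable.ite (measurableSet_markedAt hK hact i c r) measurable_const measurable_const
  exact measurableSet_le measurable_const hm

theorem measurable_psi (m' : ℕ) (i : β) : Measurable (K.psi a Lb m' i) := by
  unfold psi
  simp only [Finset.card_filter]
  refine Finset.measurable_sum _ fun c _ => ?_
  exact Measurable.ite (measurableSet_richSet hK hact m' i c) measurable_const measurable_const

omit hK in
theorem measurable_hMark (b : β) : Measurable (K.hMark b) := by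
  unfold hMark
  simp only [Finset.card_filter]
  refine Finset.measurable_sum _ fun e _ => ?_
  exact Measurable.ite (measurableSet_marked hact _ _ _) measurable_const measurable_const

end Meas

section Mass

variable {μ : Measure X} [IsFiniteMeasure μ]
  (hmp : ∀ g : Γ, MeasurePreserving (fun x : X => g • x) μ μ)
include hmp

theorem psi_le_card (m' : ℕ) (i : β) (u : X) : K.psi a Lb m' i u ≤ Fintype.card P :=
  (Finset.card_filter_le _ _).trans (by simp)

theorem integral_psi (hK : K.Folded) (m' : ℕ) (i : β) :
    ∫ u, (K.psi a Lb m' i u : ℝ) ∂μ = ∑ c, μ.real (K.richSet a Lb m' i c) := by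
  have hact : ∀ g : Γ, Measurable fun x : X => g • x := fun g => (hmp g).measurable
  have : (fun u => (K.psi a Lb m' i u : ℝ)) = fun u =>
      ∑ c, (K.richSet a Lb m' i c).indicator (fun _ => (1 : ℝ)) u := by
    funext u
    unfold psi
    rw [Finset.card_filter]
    push_cast
    refine Finset.sum_congr rfl fun c _ => ?_
    by_cases h : u ∈ K.richSet a Lb m' i c <;> simp [h]
  rw [this, integral_finset_sum _ fun c _ =>
    (integrable_const (1 : ℝ)).indicator (measurableSet_richSet hK hact m' i c)]
  refine Finset.sum_congr rfl fun c _ => ?_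
  rw [integral_indicator (measurableSet_richSet hK hact m' i c)]
  simp [measureReal_def]

theorem integrable_psi (hK : K.Folded) (m' : ℕ) (i : β) :
    Integrable (fun u => (K.psi a Lb m' i u : ℝ)) μ := by
  have hact : ∀ g : Γ, Measurable fun x : X => g • x := fun g => (hmp g).measurable
  refine Integrable.mono' (integrable_const ((Fintype.card P : ℕ) : ℝ))
    ((measurable_from_top (f := fun n : ℕ => (n : ℝ))).comp
      (measurable_psi hK hact m' i)).aestronglyMeasurable
    (Filter.Eventually.of_forall fun u => ?_)
  rw [Real.norm_of_nonneg (Nat.cast_nonneg _)]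
  exact_mod_cast psi_le_card hmp m' i u

theorem integrable_hMark (b : β) : Integrable (fun x => (K.hMark b x : ℝ)) μ := by
  have hact : ∀ g : Γ, Measurable fun x : X => g • x := fun g => (hmp g).measurable
  refine Integrable.mono' (integrable_const ((Fintype.card (P × P) : ℕ) : ℝ))
    ((measurable_from_top (f := fun n : ℕ => (n : ℝ))).comp
      (measurable_hMark hact b)).aestronglyMeasurable
    (Filter.Eventually.of_forall fun u => ?_)
  rw [Real.norm_of_nonneg (Nat.cast_nonneg _)]
  have : K.hMark b u ≤ Fintype.card (P × P) := (Finset.card_filter_le _ _).trans (by simp)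
  exact_mod_cast this

/-- The mass of the marked edges is bounded by the total degree of the branch vertices. -/
theorem sum_integral_hMark_le :
    ∑ b, ∫ x, (K.hMark b x : ℝ) ∂μ ≤
      ∑ p, ∫ x, (if 3 ≤ K.deg x p then (K.deg x p : ℝ) else 0) ∂μ := by
  classical
  have hact : ∀ g : Γ, Measurable fun x : X => g • x := fun g => (hmp g).measurable
  have hB := fun p => measurableSet_three_le_deg (K := K) hact p
  -- the branch half-edges
  let A : (Option β × Bool) → P → P → Set X := fun ℓ p q => K.half ℓ p q ∩ {y | 3 ≤ K.deg y p}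
  have hAm : ∀ ℓ p q, MeasurableSet (A ℓ p q) := fun ℓ p q =>
    (K.measurableSet_half hact ℓ p q).inter (hB p)
  -- right side
  have hR : ∀ p, ∫ x, (if 3 ≤ K.deg x p then (K.deg x p : ℝ) else 0) ∂μ =
      ∑ e : (Option β × Bool) × P, μ.real (A e.1 p e.2) := by
    intro p
    have : (fun x => if 3 ≤ K.deg x p then (K.deg x p : ℝ) else 0) = fun x =>
        ∑ e : (Option β × Bool) × P, (A e.1 p e.2).indicator (fun _ => (1 : ℝ)) x := by
      funext x
      by_cases h3 : 3 ≤ K.deg x p
      · rw [if_pos h3, K.deg_eq_sum]
        refine Finset.sum_congr rfl fun e _ => ?_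
        by_cases h : x ∈ K.half e.1 p e.2
        · rw [Set.indicator_of_mem h, Set.indicator_of_mem (show x ∈ A e.1 p e.2 from ⟨h, h3⟩)]
        · rw [Set.indicator_of_notMem h, Set.indicator_of_notMem (fun hc => h hc.1)]
      · rw [if_neg h3]
        symm
        refine Finset.sum_eq_zero fun e _ => Set.indicator_of_notMem (fun hc => h3 hc.2) _
    rw [this, integral_finset_sum _ fun e _ =>
      (integrable_const (1 : ℝ)).indicator (hAm _ _ _)]
    refine Finset.sum_congr rfl fun e _ => ?_
    rw [integral_indicator (hAm _ _ _)]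
    simp [measureReal_def]
  simp_rw [hR]
  -- the left side
  have hL : ∀ b, ∫ x, (K.hMark b x : ℝ) ∂μ = ∑ e : P × P, μ.real (K.Marked b e.1 e.2) := by
    intro b
    have : (fun x => (K.hMark b x : ℝ)) = fun x =>
        ∑ e : P × P, (K.Marked b e.1 e.2).indicator (fun _ => (1 : ℝ)) x := by
      funext x
      unfold hMark
      rw [Finset.card_filter]
      push_cast
      refine Finset.sum_congr rfl fun e _ => ?_
      by_cases h : x ∈ K.Marked b e.1 e.2 <;> simp [h]
    rw [this, integral_finset_sum _ fun e _ =>
      (integrable_const (1 : ℝ)).indicator (measurableSet_marked hact _ _ _)]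
    refine Finset.sum_congr rfl fun e _ => ?_
    rw [integral_indicator (measurableSet_marked hact _ _ _)]
    simp [measureReal_def]
  simp_rw [hL]
  -- each marked edge is a branch half edge at one of its two ends
  have hM : ∀ b p q, μ.real (K.Marked b p q) ≤
      μ.real (A (some b, true) p q) + μ.real (A (some b, false) q p) := by
    intro b p q
    have h1 : μ.real (A (some b, false) q p) =
        μ.real {x | x ∈ K.E (some b) p q ∧ 3 ≤ K.deg (val (some b) • x) q} := by
      have hm2 : MeasurableSet {x | x ∈ K.E (some b) p q ∧ 3 ≤ K.deg (val (some b) • x) q} :=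
        (K.measE _ _ _).inter (hact _ (hB q))
      have : A (some b, false) q p = (fun x => (val (some b))⁻¹ • x) ⁻¹'
          {x | x ∈ K.E (some b) p q ∧ 3 ≤ K.deg (val (some b) • x) q} := by
        ext y
        simp only [A, Set.mem_inter_iff, half_false, Set.mem_preimage, Set.mem_setOf_eq,
          smul_inv_smul]
      rw [this, measureReal_def, measureReal_def, (hmp _).measure_preimage hm2.nullMeasurableSet]
    have h2 : A (some b, true) p q = {x | x ∈ K.E (some b) p q ∧ 3 ≤ K.deg x p} := by
      ext y
      simp only [A, Set.mem_inter_iff, half_true, Set.mem_setOf_eq]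
    rw [h1, h2]
    refine le_trans (measureReal_mono ?_) (measureReal_union_le _ _)
    rintro x ⟨hx, h3 | h3⟩
    · exact Or.inl ⟨hx, h3⟩
    · exact Or.inr ⟨hx, h3⟩
  calc ∑ b, ∑ e : P × P, μ.real (K.Marked b e.1 e.2)
      ≤ ∑ b, ∑ e : P × P, (μ.real (A (some b, true) e.1 e.2) + μ.real (A (some b, false) e.2 e.1)) :=
        Finset.sum_le_sum fun b _ => Finset.sum_le_sum fun e _ => hM b e.1 e.2
    _ = ∑ b, ∑ p, ∑ q, μ.real (A (some b, true) p q) + ∑ b, ∑ p, ∑ q, μ.real (A (some b, false) p q) := by
        rw [← Finset.sum_add_distrib]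
        refine Finset.sum_congr rfl fun b _ => ?_
        rw [Finset.sum_add_distrib]
        have e1 : ∑ e : P × P, μ.real (A (some b, true) e.1 e.2) =
            ∑ p, ∑ q, μ.real (A (some b, true) p q) :=
          Fintype.sum_prod_type' (fun p q => μ.real (A (some b, true) p q))
        have e2 : ∑ e : P × P, μ.real (A (some b, false) e.2 e.1) =
            ∑ p, ∑ q, μ.real (A (some b, false) p q) :=
          Fintype.sum_prod_type_right' (fun p q => μ.real (A (some b, false) q p))
        rw [e1, e2]
    _ = ∑ b, ∑ p, ∑ q, (μ.real (A (some b, true) p q) + μ.real (A (some b, false) p q)) := by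
        simp only [Finset.sum_add_distrib]
    _ = ∑ p, ∑ b, ∑ q, (μ.real (A (some b, true) p q) + μ.real (A (some b, false) p q)) :=
        Finset.sum_comm
    _ ≤ ∑ p, ∑ e : (Option β × Bool) × P, μ.real (A e.1 p e.2) := by
        have hnn : ∀ ℓ p q, 0 ≤ μ.real (A ℓ p q) := fun _ _ _ => measureReal_nonneg
        have hsplit : ∀ p, ∑ e : (Option β × Bool) × P, μ.real (A e.1 p e.2) =
            ∑ s : Option β, ∑ q, (μ.real (A (s, true) p q) + μ.real (A (s, false) p q)) := by
          intro p
          rw [Fintype.sum_prod_type, Fintype.sum_prod_type]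
          refine Finset.sum_congr rfl fun s _ => ?_
          rw [Fintype.sum_bool, Finset.sum_add_distrib]
        simp_rw [hsplit]
        refine Finset.sum_le_sum fun p _ => ?_
        rw [Fintype.sum_option]
        have : 0 ≤ ∑ q, (μ.real (A (none, true) p q) + μ.real (A (none, false) p q)) :=
          Finset.sum_nonneg fun q _ => add_nonneg (hnn _ _ _) (hnn _ _ _)
        linarith

end Mass

end MGraph

/-! ### The bound on the Bernoulli action -/

section Bern

variable {Γ β P : Type*} [Group Γ] [DecidableEq Γ] [Countable Γ] [Fintype β] [DecidableEq β]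
  [Fintype P] [DecidableEq P] {val : Option β → Γ} {a : β → ℕ → β} {Lb : ℕ}

theorem wordAct_botW {iota : FreeGroup β →* Γ} (hval : ∀ b, val (some b) = iota (FreeGroup.of b))
    (i : β) (r : ℕ) : wordAct val (botW a i r) = iota (pre a i r) := by
  induction r with
  | zero => simp
  | succ r ih =>
    rw [botW_succ, wordAct_append, ih, pre_succ, map_mul]
    simp [hval]

/-- **The rich bound on a folded graph.** -/
theorem rich_mass_le (iota : FreeGroup β →* Γ) (hiota : Function.Injective iota)
    (hval : ∀ b, val (some b) = iota (FreeGroup.of b))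
    (K : MGraph val P (Γ → Bool)) (hK : K.Folded) (hrel : ∀ i, wordAct val (rel a Lb i) = 1)
    (hinj : ∀ i, ∀ p < Lb, ∀ q < Lb, a i p = a i q → p = q)
    (hpair : ∀ i i' p p', p + 1 < Lb → p' + 1 < Lb → a i p = a i' p' →
      a i (p + 1) = a i' (p' + 1) → i = i' ∧ p = p')
    (m' : ℕ) (hsmall : ∑ b, ∫ x, (K.hMark b x : ℝ) ∂(bernMu Γ) < m') :
    ((m' : ℝ) - ∑ b, ∫ x, (K.hMark b x : ℝ) ∂(bernMu Γ)) ^ 2 *
        (∑ i, ∑ c, (bernMu Γ).real (K.richSet a Lb m' i c)) ≤
      (Real.sqrt (2 * Fintype.card β) + Real.sqrt Lb) ^ 2 *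
        (∑ b, ∫ x, (K.hMark b x : ℝ) ∂(bernMu Γ)) := by
  have hmp : ∀ g : Γ, MeasurePreserving (fun x : Γ → Bool => g • x) (bernMu Γ) (bernMu Γ) :=
    measurePreserving_bern_smul
  have hact : ∀ g : Γ, Measurable fun x : Γ → Bool => g • x := fun g => (hmp g).measurable
  have h := rich_bound iota hiota Lb a hinj hpair (K.psi a Lb m') K.hMark
    (MGraph.measurable_psi hK hact m') (MGraph.measurable_hMark hact)
    (MGraph.integrable_psi hmp hK m') (MGraph.integrable_hMark hmp) m' ?_ hsmall
  · have he : ∑ i, ∫ u, (K.psi a Lb m' i u : ℝ) ∂(bernMu Γ) =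
        ∑ i, ∑ c, (bernMu Γ).real (K.richSet a Lb m' i c) :=
      Finset.sum_congr rfl fun i _ => MGraph.integral_psi hmp hK m' i
    rwa [he] at h
  · intro i u
    have h1 := MGraph.hrich_pointwise hK hrel m' i u
    simp only [wordAct_botW hval] at h1
    exact h1

/-- A set of fewer than `m'` positions misses one of `m'` consecutive blocks of length `R`. -/
theorem exists_block (S : Finset ℕ) {m' : ℕ} (hS : S.card < m') (R : ℕ) :
    ∃ k < m', ∀ r, k * R ≤ r → r < (k + 1) * R → r ∉ S := by
  by_contra hno
  push Not at hno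
  choose! f hf1 hf2 hf3 using hno
  have hinj : Set.InjOn f (Finset.range m' : Set ℕ) := by
    intro k hk l hl he
    have hk' := Finset.mem_coe.mp hk
    have hl' := Finset.mem_coe.mp hl
    have hk1 := hf1 k (Finset.mem_range.mp hk')
    have hk2 := hf2 k (Finset.mem_range.mp hk')
    have hl1 := hf1 l (Finset.mem_range.mp hl')
    have hl2 := hf2 l (Finset.mem_range.mp hl')
    rw [← he] at hl1 hl2
    rcases lt_trichotomy k l with h | h | h
    · have : (k + 1) * R ≤ l * R := Nat.mul_le_mul_right R h
      omega
    · exact h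
    · have : (l + 1) * R ≤ k * R := Nat.mul_le_mul_right R h
      omega
  have hc : (Finset.range m').card ≤ S.card := by
    refine Finset.card_le_card_of_injOn f ?_ hinj
    intro k hk
    exact Finset.mem_coe.mpr (hf3 k (Finset.mem_range.mp (Finset.mem_coe.mp hk)))
  simp at hc
  omega

end Bern

namespace MGraph

end MGraph

end Crest.Agent.NoFixedPrice
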