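import Crest.Agent.Lib.NoFixedPrice.CoreMass
import Crest.Agent.Lib.NoFixedPrice.RichCount

/-!
# Row 191: the excess stays small (`hbound` of `MainStep`)

`boundX`: `K` folded with small excess and small leaf mass, `Pi ≤ e`, accounted against `M`:
`massE K ≤ M + g * cellMass K`, and `M` is near minimal against the competitor `K` minus the cores of
its pattern lifts. Then the excess of `K` is at most `2 e + 2 η + l / 2`.

`removeCores_*`: the competitor stays in the class.
-/

set_option autoImplicit false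
set_option linter.unusedSectionVars false
set_option linter.deprecated false

namespace Crest.Agent.NoFixedPrice

open MeasureTheory Finset

namespace MGraph

section Gen

variable {Γ β P X : Type*} [Group Γ] [Fintype β] [DecidableEq β] [Fintype P] [DecidableEq P]
  [MulAction Γ X] [MeasurableSpace X] {val : Option β → Γ} {a : β → ℕ → β} {Lb r m : ℕ}
  {K : MGraph val P X}

/-- A lift with no block of degree two vertices has at least one marked edge in each block. -/
lemma rich_sub_richSet (hK : K.Folded) (hrel : ∀ i, wordAct val (rel a Lb i) = 1)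
    (hb : m * (r + 1) + 1 ≤ Lb) {i : β} {c : P} :
    K.Rich a Lb r m i c ⊆ K.richSet a Lb m i c := by
  classical
  intro u hu
  refine ⟨hu.1, ?_⟩
  have key : ∀ j, j < m → ∃ k, k ≤ r ∧ K.MarkedAt a i c (bq r j k) u := by
    intro j hj
    by_contra hcon
    push Not at hcon
    refine hu.2 j hj ⟨hu.1, fun k hk v hv => ?_⟩
    by_contra hd
    have hlt : bq r j k < Lb := lt_of_lt_of_le (Nat.lt_succ_self _) (bq_lt hb hj hk)
    have h1 := closed_prefix hK hrel hu.1 hlt.le
    have h2 := hK.path_unique hv h1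
    subst h2
    refine hcon k hk ⟨closed_edge hK hrel hu.1 hlt, Or.inl ?_⟩
    simp only at hd
    omega
  choose! k hk using key
  have h1 : ((range m).image fun j => bq r j (k j)) ⊆
      (range Lb).filter fun q => K.MarkedAt a i c q u := by
    intro q hq
    obtain ⟨j, hj, rfl⟩ := Finset.mem_image.1 hq
    have hj' : j < m := Finset.mem_range.1 hj
    refine Finset.mem_filter.2 ⟨Finset.mem_range.2 ?_, (hk j hj').2⟩
    exact lt_of_lt_of_le (Nat.lt_succ_self _) (bq_lt hb hj' (hk j hj').1)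
  have h2 : ((range m).image fun j => bq r j (k j)).card = m := by
    rw [Finset.card_image_of_injOn, Finset.card_range]
    intro j hj j' hj' h
    have hj1 : j < m := by simpa using hj
    have hj2 : j' < m := by simpa using hj'
    exact (bq_inj (hk j hj1).1 (hk j' hj2).1 h).1
  calc m = ((range m).image fun j => bq r j (k j)).card := h2.symm
    _ ≤ _ := by
      convert Finset.card_le_card h1

/-! ### The competitor stays in the class -/

variable (hK : K.Folded) (hrel : ∀ i, wordAct val (rel a Lb i) = 1)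
  (hpair : ∀ i i' p p', p + 1 < Lb → p' + 1 < Lb → a i p = a i' p' →
      a i (p + 1) = a i' (p' + 1) → i = i' ∧ p = p')
  (hb : m * (r + 1) + 1 ≤ Lb)
  (hact : ∀ g : Γ, Measurable fun x : X => g • x)
  (hdeg : ∀ p : P, Measurable fun x : X => K.deg x p)

local notation "K''" => removeCores (K := K) (a := a) (Lb := Lb) (r := r) (m := m) hK hrel hb hact hdeg

lemma removeCores_folded : (K'').Folded := Folded.sub hK

/-- `t`-edges are kept. -/
lemma removeCores_E_none (p q : P) : (K'').E none p q = K.E none p q := by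
  show K.E none p q \ K.coreRE a Lb r m none p q = K.E none p q
  simp [coreRE]

lemma removeCores_E_sub (s : Option β) (p q : P) : (K'').E s p q ⊆ K.E s p q :=
  fun _ h => h.1

include hpair

/-- Base vertices stay connected. -/
lemma removeCores_conn_base {b : P} (hbase : ∀ x, x ∈ K.E none b b) {x y : X}
    (h : K.Conn (x, b) (y, b)) : (K'').Conn (x, b) (y, b) := by
  refine removeCores_conn hK hrel hpair hb hact hdeg h ?_ ?_
  · refine not_int_of_none hK hrel hpair hb (w₁ := (val none • x, b)) (b := true) ?_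
    simpa using hbase x
  · refine not_int_of_none hK hrel hpair hb (w₁ := (val none • y, b)) (b := true) ?_
    simpa using hbase y

/-- Every surviving vertex is connected to the base. -/
lemma removeCores_conn_to_base {b : P} (hbase : ∀ x, x ∈ K.E none b b) {x y : X} {p : P}
    (hx : x ∈ (K'').V p) (h : K.Conn (y, b) (x, p)) : (K'').Conn (y, b) (x, p) := by
  refine removeCores_conn hK hrel hpair hb hact hdeg h ?_ ?_
  · refine not_int_of_none hK hrel hpair hb (w₁ := (val none • y, b)) (b := true) ?_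
    simpa using hbase y
  · exact not_int_of_not_mem hx.2

omit hpair

variable (μ : Measure X) [IsFiniteMeasure μ]
  (hmp : ∀ g : Γ, MeasurePreserving (fun x : X => g • x) μ μ)

include hpair hmp in
/-- The excess does not increase. -/
lemma removeCores_excess_le (hr : 1 ≤ r) : (K'').excess μ ≤ K.excess μ := by
  have h1 := massE_removeCores μ hK hrel hact hdeg hb hmp hpair
  have h2 := massV_removeCores μ hK hrel hact hdeg hb hmp hr
  have h3 : 0 ≤ patternMass μ K a Lb r m :=
    Finset.sum_nonneg fun _ _ => Finset.sum_nonneg fun _ _ => Finset.sum_nonneg fun _ _ =>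
      measureReal_nonneg
  unfold excess
  rw [h1]
  linarith

end Gen

section Bern

variable {Γ β P : Type*} [Group Γ] [DecidableEq Γ] [Countable Γ] [Fintype β] [DecidableEq β]
  [Fintype P] [DecidableEq P] {val : Option β → Γ} {a : β → ℕ → β} {Lb r m : ℕ}

/-- The real arithmetic at the end of the bound. -/
lemma boundX_numeric {X Fp Fr R e η M ME g rr H K2 mm l κ L : ℝ}
    (hFp : 0 ≤ Fp) (hFr : 0 ≤ Fr) (hg : 0 ≤ g) (hη : 0 ≤ η)
    (hrg : 2 * g + 1 ≤ rr)
    (hpi : X - (Fp + Fr) ≤ e)
    (hmin : M ≤ ME - rr * Fp + η)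
    (hacct : ME ≤ M + g * (Fp + Fr))
    (hRle : Fr ≤ R)
    (hHle : H ≤ 3 * (2 * X + L)) (hL : L ≤ l) (hX : X ≤ κ) (hH0 : 0 ≤ H)
    (hHm : 3 * (2 * κ + l) ≤ mm / 2) (hmm : 0 < mm)
    (hK2pos : 0 < K2) (hK2 : 96 * K2 ≤ mm ^ 2)
    (hrich : (mm - H) ^ 2 * R ≤ K2 * H) (hR0 : 0 ≤ R) :
    X ≤ 2 * e + 2 * η + l / 2 := by
  have h1 : (g + 1) * Fp ≤ g * Fr + η := by
    have : (2 * g + 1) * Fp ≤ rr * Fp := mul_le_mul_of_nonneg_right hrg hFp
    nlinarith
  have h2 : Fp ≤ Fr + η := by
    have hg1 : 0 < g + 1 := by linarith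
    have h3 : (g + 1) * Fp ≤ (g + 1) * (Fr + η) := by nlinarith [mul_nonneg hg hη]
    exact le_of_mul_le_mul_left h3 hg1
  have hH1 : H ≤ mm / 2 := by
    have : 3 * (2 * X + L) ≤ 3 * (2 * κ + l) := by linarith
    linarith
  have h4 : mm / 2 ≤ mm - H := by linarith
  have h5 : (mm / 2) ^ 2 * R ≤ K2 * H := by
    refine le_trans (mul_le_mul_of_nonneg_right ?_ hR0) hrich
    exact pow_le_pow_left₀ (by linarith) h4 2
  have h6 : 96 * K2 * R ≤ 4 * K2 * H := by
    have : 96 * K2 * R ≤ mm ^ 2 * R := mul_le_mul_of_nonneg_right hK2 hR0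
    nlinarith
  have h7 : 24 * R ≤ H := by
    have h8 : K2 * (24 * R) ≤ K2 * H := by nlinarith
    exact le_of_mul_le_mul_left h8 hK2pos
  have h9 : 24 * Fr ≤ 3 * (2 * X + l) := by linarith
  linarith

/-- **The bound.** -/
theorem boundX (iota : FreeGroup β →* Γ) (hiota : Function.Injective iota)
    (hval : ∀ b, val (some b) = iota (FreeGroup.of b))
    (K : MGraph val P (Γ → Bool)) (hK : K.Folded) (hrel : ∀ i, wordAct val (rel a Lb i) = 1)
    (hinj : ∀ i, ∀ p < Lb, ∀ q < Lb, a i p = a i q → p = q)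
    (hpair : ∀ i i' p p', p + 1 < Lb → p' + 1 < Lb → a i p = a i' p' →
      a i (p + 1) = a i' (p' + 1) → i = i' ∧ p = p')
    (hb : m * (r + 1) + 1 ≤ Lb)
    (hact : ∀ g : Γ, Measurable fun x : Γ → Bool => g • x)
    (hdeg : ∀ p : P, Measurable fun x : Γ → Bool => K.deg x p)
    (g : ℕ) (hr : 2 * g + 1 ≤ r) {e η M κ l : ℝ} (hη : 0 ≤ η)
    (hmin : M ≤ (removeCores (a := a) (Lb := Lb) (r := r) (m := m) hK hrel hb hact hdeg).massE
      (bernMu Γ) + η)
    (hacct : K.massE (bernMu Γ) ≤ M + g * K.cellMass a Lb (bernMu Γ))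
    (hpi : K.excess (bernMu Γ) - K.cellMass a Lb (bernMu Γ) ≤ e)
    (hX : K.excess (bernMu Γ) ≤ κ) (hl : K.leafMass (bernMu Γ) ≤ l)
    (hH : 3 * (2 * κ + l) ≤ (m : ℝ) / 2) (hm : 0 < m)
    (hK2 : 96 * (Real.sqrt (2 * Fintype.card β) + Real.sqrt Lb) ^ 2 ≤ (m : ℝ) ^ 2) :
    K.excess (bernMu Γ) ≤ 2 * e + 2 * η + l / 2 := by
  have hmp : ∀ g : Γ, MeasurePreserving (fun x : Γ → Bool => g • x) (bernMu Γ) (bernMu Γ) :=
    measurePreserving_bern_smul
  set μ := bernMu Γ with hμ
  have hsplit := cellMass_split (r := r) (m := m) μ hact hdeg (K := K) (a := a) (Lb := Lb)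
  have hE := massE_removeCores μ hK hrel hact hdeg hb hmp hpair
  rw [hE] at hmin
  rw [hsplit] at hacct hpi
  have hFp : 0 ≤ patternMass μ K a Lb r m :=
    Finset.sum_nonneg fun _ _ => Finset.sum_nonneg fun _ _ => Finset.sum_nonneg fun _ _ =>
      measureReal_nonneg
  have hFr : 0 ≤ richMass μ K a Lb r m :=
    Finset.sum_nonneg fun _ _ => Finset.sum_nonneg fun _ _ => measureReal_nonneg
  have hRle : richMass μ K a Lb r m ≤ ∑ i, ∑ c, μ.real (K.richSet a Lb m i c) :=
    Finset.sum_le_sum fun i _ => Finset.sum_le_sum fun c _ =>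
      measureReal_mono (rich_sub_richSet hK hrel hb)
  have hR0 : 0 ≤ ∑ i, ∑ c, μ.real (K.richSet a Lb m i c) :=
    Finset.sum_nonneg fun _ _ => Finset.sum_nonneg fun _ _ => measureReal_nonneg
  have hH1 := sum_integral_hMark_le (μ := μ) hmp (K := K)
  have hH2 := K.integral_branch_deg_le μ hmp
  have hH0 : 0 ≤ ∑ b, ∫ x, (K.hMark b x : ℝ) ∂μ :=
    Finset.sum_nonneg fun _ _ => integral_nonneg fun _ => Nat.cast_nonneg _
  have hmm : (0 : ℝ) < m := by exact_mod_cast hm
  have hLb : (1 : ℝ) ≤ Lb := by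
    have : 1 ≤ Lb := by omega
    exact_mod_cast this
  have hK2pos : 0 < (Real.sqrt (2 * Fintype.card β) + Real.sqrt Lb) ^ 2 := by
    have h1 : 0 < Real.sqrt Lb := Real.sqrt_pos.2 (by linarith)
    have h2 := Real.sqrt_nonneg (2 * (Fintype.card β : ℝ))
    positivity
  have hHlt : ∑ b, ∫ x, (K.hMark b x : ℝ) ∂μ < m := by
    have h3 : 3 * (2 * K.excess μ + K.leafMass μ) ≤ 3 * (2 * κ + l) := by linarith
    have h4 : (m : ℝ) / 2 < m := by linarith
    linarith
  have hrich := rich_mass_le iota hiota hval K hK hrel hinj hpair m hHlt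
  refine boundX_numeric (Fp := patternMass μ K a Lb r m) (Fr := richMass μ K a Lb r m)
    (R := ∑ i, ∑ c, μ.real (K.richSet a Lb m i c)) (M := M) (ME := K.massE μ) (g := (g : ℝ))
    (rr := (r : ℝ)) (H := ∑ b, ∫ x, (K.hMark b x : ℝ) ∂μ) (mm := (m : ℝ))
    (K2 := (Real.sqrt (2 * Fintype.card β) + Real.sqrt Lb) ^ 2) (L := K.leafMass μ) (κ := κ)
    hFp hFr (Nat.cast_nonneg _) hη (by exact_mod_cast hr) hpi hmin hacct hRle (hH1.trans hH2) hl hX
    hH0 hH hmm hK2pos hK2 hrich hR0

end Bern

end MGraph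

end Crest.Agent.NoFixedPrice
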