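import Crest.Agent.Lib.NoFixedPrice.Class
import Crest.Agent.Lib.NoFixedPrice.BoundX

/-!
# Row 191: `BoundStmt`, the part about the cores

`coreObj`: an element of the class minus the cores of its pattern lifts, again in the class as soon
as the certificate is there. `excess_le_of_coreObj`: near minimality against this competitor bounds
the excess.
-/

set_option autoImplicit false
set_option linter.unusedSectionVars false
set_option linter.deprecated false

namespace Crest.Agent.NoFixedPrice

lemma MGraph.measurable_deg_nat {Γ β P X : Type*} [Group Γ] [Fintype β] [DecidableEq β] [Fintype P]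
    [DecidableEq P] [MulAction Γ X] [MeasurableSpace X] {val : Option β → Γ}
    (K : MGraph val P X) (hact : ∀ g : Γ, Measurable fun x : X => g • x) (p : P) :
    Measurable fun x => K.deg x p := by
  classical
  have h : (fun x => K.deg x p) = fun x =>
      ∑ a : (Option β × Bool) × P, if x ∈ K.half a.1 p a.2 then 1 else 0 := by
    funext x
    unfold MGraph.deg
    rw [Finset.card_filter]
  rw [h]
  refine Finset.measurable_sum _ fun e _ => ?_
  exact Measurable.ite (K.measurableSet_half hact _ _ _) measurable_const measurable_const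

namespace MainLoop

open MeasureTheory FreeGroup Crest.Dynamics
open Crest.Agent.Lib.NoFixedPrice.Arc
open Crest.Agent.NoFixedPrice
open Crest.Agent.NoFixedPrice.FinalDrop

variable {d : ℕ} [NeZero d]

lemma hactL : ∀ g : GamL d, Measurable fun x : XL d => g • x :=
  fun g => (measurePreserving_bern_smul g).measurable

/-- The graph of an object minus the cores of its pattern lifts. -/
noncomputable def coreK {r m : ℕ} (O : ObjL d) (hF : O.K.Folded) (hb : m * (r + 1) + 1 ≤ d) :
    MGraph (lval (latin_good d)) O.P (XL d) :=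
  MGraph.removeCores (a := aL d) (Lb := d) (r := r) (m := m) hF wordAct_rel hb hactL
    (fun p => O.K.measurable_deg_nat hactL p)

/-- The object with the cores removed. -/
noncomputable def coreObj {r m : ℕ} (O : ObjL d) (hF : O.K.Folded) (hb : m * (r + 1) + 1 ≤ d) :
    ObjL d where
  P := O.P
  K := coreK O hF hb
  b := O.b

/-- The competitor is in the class. -/
theorem coreObj_inClass {e κ : ℝ} {r m : ℕ} (hd : 2 ∣ d) {O : ObjL d} (hO : InClass e κ O)
    (hb : m * (r + 1) + 1 ≤ d) (hr : 1 ≤ r)
    (hcert : Cert (coreK O hO.folded hb) (noSeed O.P (XL d))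
      ((coreK O hO.folded hb).ZCells (relL d)) (muL d) e) :
    InClass e κ (coreObj O hO.folded hb) := by
  have hp := aL_pair (d := d) hd
  have hE : ∀ p q, (coreK O hO.folded hb).E none p q = O.K.E none p q := fun p q =>
    MGraph.removeCores_E_none hO.folded wordAct_rel hb hactL (fun p => O.K.measurable_deg_nat hactL p) p q
  have ht : ∀ x, x ∈ (coreK O hO.folded hb).E none O.b O.b := fun x => by
    rw [hE]; exact hO.tline x
  refine
    { least := hO.least
      folded := MGraph.removeCores_folded hO.folded wordAct_rel hb hactL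
        (fun p => O.K.measurable_deg_nat hactL p)
      tline := ht
      gen := fun x g => ?_
      vert := fun x p hx => ?_
      cert := hcert
      cap := ?_ }
  · exact MGraph.removeCores_conn_base hO.folded wordAct_rel hp hb hactL
      (fun p => O.K.measurable_deg_nat hactL p) hO.tline (hO.gen x g)
  · obtain ⟨y, hy⟩ := hO.vert x p hx.1
    exact ⟨y, MGraph.removeCores_conn_to_base hO.folded wordAct_rel hp hb hactL
      (fun p => O.K.measurable_deg_nat hactL p) hO.tline hx hy⟩
  · exact (MGraph.removeCores_excess_le hO.folded wordAct_rel hp hb hactL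
      (fun p => O.K.measurable_deg_nat hactL p) (muL d) measurePreserving_bern_smul hr).trans hO.cap

/-- Numerics: the Latin relators have `2 * card` and `Lb` equal to `2 d`, `d`. -/
lemma sqrt_bound : (Real.sqrt (2 * (d : ℝ)) + Real.sqrt d) ^ 2 ≤ 6 * d := by
  have h0 : (0 : ℝ) ≤ d := Nat.cast_nonneg _
  have h2 : Real.sqrt (2 * (d : ℝ)) = Real.sqrt 2 * Real.sqrt d := Real.sqrt_mul (by norm_num) _
  have h3 : Real.sqrt d ^ 2 = d := Real.sq_sqrt h0
  have h4 : Real.sqrt 2 ^ 2 = 2 := Real.sq_sqrt (by norm_num)
  have h5 : Real.sqrt 2 ≤ 3 / 2 := by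
    rw [Real.sqrt_le_left (by norm_num)]
    norm_num
  have h6 : 0 ≤ Real.sqrt 2 := Real.sqrt_nonneg _
  rw [h2]
  have h7 : (Real.sqrt 2 * Real.sqrt d + Real.sqrt d) ^ 2 = (Real.sqrt 2 + 1) ^ 2 * d := by
    have : (Real.sqrt 2 * Real.sqrt d + Real.sqrt d) ^ 2 =
        (Real.sqrt 2 + 1) ^ 2 * (Real.sqrt d ^ 2) := by ring
    rw [this, h3]
  rw [h7]
  have h8 : (Real.sqrt 2 + 1) ^ 2 ≤ 6 := by nlinarith
  exact mul_le_mul_of_nonneg_right h8 h0

/-- **Near minimality against the competitor bounds the excess.** -/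
theorem excess_le_of_core {e κ η l M : ℝ} {g r m : ℕ} (hd : 2 ∣ d) {O : ObjL d}
    (hO : InClass e κ O) (hb : m * (r + 1) + 1 ≤ d) (hr : 2 * g + 1 ≤ r) (hm : 0 < m)
    (hη : 0 ≤ η) (hH : 3 * (2 * κ + l) ≤ (m : ℝ) / 2) (hdm : 576 * (d : ℝ) ≤ (m : ℝ) ^ 2)
    (hmin : M ≤ (coreK O hO.folded hb).massE (muL d) + η)
    (hacct : ∃ j, MGraph.Acc (relL d) (relL_len d) O.K (muL d) g j M)
    (hl : O.K.leafMass (muL d) ≤ l) :
    O.K.excess (muL d) ≤ 2 * e + 2 * η + l / 2 := by
  classical
  have hp := aL_pair (d := d) hd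
  have hrank : RankIneq (GamL d) (XL d) (muL d) :=
    rankIneq_of_free measurePreserving_bern_smul (bern_free_ae d)
  obtain ⟨j, hj⟩ := hacct
  have h1 := hj.massE_le hO.folded measurePreserving_bern_smul
  have h2 := Cert.excess_le hrank hactL hO.cert
  have h3 : MGraph.massFW (relL d) O.K (muL d) = O.K.cellMass (aL d) d (muL d) :=
    MGraph.massFW_rel _ _ _ wordAct_rel _
  have h4 : O.K.massFc (relL d) (muL d) = O.K.cellMass (aL d) d (muL d) := rfl
  rw [h3] at h1
  rw [h4] at h2
  refine MGraph.boundX (iota (latin_good d)) (iota_injective _) (fun b => rfl) O.K hO.folded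
    wordAct_rel (fun i p hp' q hq' h => aL_inj i p hp' q hq' h) hp hb hactL
    (fun p => O.K.measurable_deg_nat hactL p) g hr hη hmin h1 ?_ hO.cap hl hH hm ?_
  · unfold MGraph.excess
    linarith
  · have h5 : Fintype.card (ZMod d) = d := ZMod.card d
    rw [h5]
    have h6 := sqrt_bound (d := d)
    linarith

end MainLoop

end Crest.Agent.NoFixedPrice
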