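-- Row 191 (S0291): leaves do not increase along a stage.
import Crest.Agent.Lib.NoFixedPrice.OwnerCx

set_option autoImplicit false
set_option linter.unusedSectionVars false

namespace Crest.Agent.NoFixedPrice

open MeasureTheory Finset

namespace MGraph

variable {Γ L P P' X : Type*} [Group Γ] {val : L → Γ} [MulAction Γ X] [MeasurableSpace X]
  [Fintype P] [DecidableEq P] [Fintype P'] [DecidableEq P'] [Fintype L] [DecidableEq L]
  {K : MGraph val P X} {K' : MGraph val P' X} {rep : X → P → P'}

/-- In a folded graph, a morphism does not lower the degree. -/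
theorem deg_le_of_mor (hK : K.Folded) (hrep : Mor K K' rep) (x : X) (p : P) :
    K.deg x p ≤ K'.deg x (rep x p) := by
  classical
  unfold deg
  refine Finset.card_le_card_of_injOn
    (fun a : (L × Bool) × P => (a.1, rep (sval val a.1 • x) a.2)) ?_ ?_
  · intro a ha
    have ha' : x ∈ K.half a.1 p a.2 := (Finset.mem_filter.mp (Finset.mem_coe.mp ha)).2
    refine Finset.mem_coe.mpr (Finset.mem_filter.mpr ⟨Finset.mem_univ _, ?_⟩)
    exact hrep.adj ha'
  · rintro ⟨ℓ, q⟩ ha ⟨ℓ', q'⟩ hb he
    have ha' : x ∈ K.half ℓ p q := (Finset.mem_filter.mp (Finset.mem_coe.mp ha)).2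
    have hb' : x ∈ K.half ℓ' p q' := (Finset.mem_filter.mp (Finset.mem_coe.mp hb)).2
    have hℓ : ℓ = ℓ' := congrArg Prod.fst he
    subst hℓ
    have := hK _ _ _ _ ha' hb'
    have hq : q = q' := congrArg Prod.snd this
    rw [hq]

/-- **Leaves do not increase along a stage.**  `K` folded, `rep` a morphism `K → K'`; every vertex of
`K'` is either the image of a vertex of `K` or has degree at least two. -/
theorem leafMass_le_of_mor {μ : Measure X} [IsFiniteMeasure μ]
    (hmp : ∀ g : Γ, MeasurePreserving (fun x : X => g • x) μ μ)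
    (hK : K.Folded) (hrep : Mor K K' rep)
    (hnew : ∀ x p', x ∈ K'.V p' → (∃ p, x ∈ K.V p ∧ rep x p = p') ∨ 2 ≤ K'.deg x p') :
    K'.leafMass μ ≤ K.leafMass μ := by
  classical
  unfold leafMass
  rw [← integral_finset_sum _ fun p _ => K'.integrable_leafW μ hmp p,
    ← integral_finset_sum _ fun p _ => K.integrable_leafW μ hmp p]
  refine integral_mono (integrable_finset_sum _ fun p _ => K'.integrable_leafW μ hmp p)
    (integrable_finset_sum _ fun p _ => K.integrable_leafW μ hmp p) fun x => ?_
  rw [← Finset.sum_fiberwise (s := univ) (g := rep x) (f := fun p => K.leafW x p)]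
  refine Finset.sum_le_sum fun p' _ => ?_
  have hnn : 0 ≤ ∑ p ∈ univ with rep x p = p', K.leafW x p :=
    Finset.sum_nonneg fun p _ => K.leafW_nonneg x p
  by_cases hV : x ∈ K'.V p'
  · rcases hnew x p' hV with ⟨p, h1, h2⟩ | h2
    · have hle : K'.leafW x p' ≤ K.leafW x p := by
        have hd := deg_le_of_mor hK hrep x p
        rw [h2] at hd
        simp only [leafW, hV, h1, if_true]
        have : 2 - K'.deg x p' ≤ 2 - K.deg x p := by omega
        exact_mod_cast this
      refine hle.trans ?_
      exact Finset.single_le_sum (f := fun p => K.leafW x p)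
        (fun p _ => K.leafW_nonneg x p) (Finset.mem_filter.mpr ⟨Finset.mem_univ _, h2⟩)
    · have : K'.leafW x p' = 0 := by
        simp only [leafW, hV, if_true]
        have : 2 - K'.deg x p' = 0 := by omega
        simp [this]
      rw [this]
      exact hnn
  · have : K'.leafW x p' = 0 := by simp [leafW, hV]
    rw [this]
    exact hnn

end MGraph

end Crest.Agent.NoFixedPrice
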