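import Crest.Agent.Lib.NoFixedPrice.Cells

/-!
# Subgraphs of a measured graph (row 191, S0291)

`K.sub RV RE`: remove the vertices `RV` and the edges `RE`, every edge with a removed endpoint being
removed. Adjacency, masses, retractions.
-/

set_option autoImplicit false
set_option linter.unusedSectionVars false
set_option linter.deprecated false

namespace Crest.Agent.NoFixedPrice

open MeasureTheory Finset

variable {Γ L : Type*} [Group Γ]

namespace MGraph

variable {val : L → Γ} {P X : Type*} [MulAction Γ X] [MeasurableSpace X]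

/-- The subgraph obtained by removing vertices and edges. -/
def sub (K : MGraph val P X) (RV : P → Set X) (RE : L → P → P → Set X)
    (hV : ∀ p, MeasurableSet (RV p)) (hE : ∀ s p q, MeasurableSet (RE s p q))
    (h₁ : ∀ s p q x, x ∈ K.E s p q → x ∈ RV p → x ∈ RE s p q)
    (h₂ : ∀ s p q x, x ∈ K.E s p q → val s • x ∈ RV q → x ∈ RE s p q) : MGraph val P X where
  V p := K.V p \ RV p
  E s p q := K.E s p q \ RE s p q
  measV p := (K.measV p).diff (hV p)
  measE s p q := (K.measE s p q).diff (hE s p q)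
  src s p q x hx := ⟨K.src s p q x hx.1, fun h => hx.2 (h₁ s p q x hx.1 h)⟩
  tgt s p q x hx := ⟨K.tgt s p q x hx.1, fun h => hx.2 (h₂ s p q x hx.1 h)⟩

section

variable {K : MGraph val P X} {RV : P → Set X} {RE : L → P → P → Set X}
  {hV : ∀ p, MeasurableSet (RV p)} {hE : ∀ s p q, MeasurableSet (RE s p q)}
  {h₁ : ∀ s p q x, x ∈ K.E s p q → x ∈ RV p → x ∈ RE s p q}
  {h₂ : ∀ s p q x, x ∈ K.E s p q → val s • x ∈ RV q → x ∈ RE s p q}

/-- Removed step. -/
def Rem (RE : L → P → P → Set X) (ℓ : L × Bool) (v v' : X × P) : Prop :=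
  if ℓ.2 then v.1 ∈ RE ℓ.1 v.2 v'.2 else v'.1 ∈ RE ℓ.1 v'.2 v.2

lemma sub_adj_iff {ℓ : L × Bool} {v v' : X × P} :
    (K.sub RV RE hV hE h₁ h₂).Adj ℓ v v' ↔ K.Adj ℓ v v' ∧ ¬ Rem RE ℓ v v' := by
  cases ℓ with
  | mk s b =>
    cases b
    · simp only [adj_false, sub, Set.mem_diff, Rem, Bool.false_eq_true, if_false]
      tauto
    · simp only [adj_true, sub, Set.mem_diff, Rem, if_true]
      tauto

lemma Adj.of_sub {ℓ : L × Bool} {v v' : X × P}
    (h : (K.sub RV RE hV hE h₁ h₂).Adj ℓ v v') : K.Adj ℓ v v' := (sub_adj_iff.1 h).1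

lemma IsPath.of_sub {w : List (L × Bool)} {v v' : X × P}
    (h : (K.sub RV RE hV hE h₁ h₂).IsPath v w v') : K.IsPath v w v' := by
  induction w generalizing v with
  | nil => exact h
  | cons ℓ w ih =>
    obtain ⟨m, h3, h4⟩ := h
    exact ⟨m, Adj.of_sub h3, ih h4⟩

lemma Folded.sub (hK : K.Folded) : (K.sub RV RE hV hE h₁ h₂).Folded :=
  fun ℓ v v₁ v₂ h h' => hK ℓ v v₁ v₂ (Adj.of_sub h) (Adj.of_sub h')

end

/-- A retraction: if every step of `K` is sent by `r` to a connection of `K'`, connections of `K`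
are sent to connections of `K'`. -/
lemma conn_of_retract {K K' : MGraph val P X} (r : X × P → X × P)
    (hr : ∀ ℓ v v', K.Adj ℓ v v' → K'.Conn (r v) (r v')) {a b : X × P} (h : K.Conn a b) :
    K'.Conn (r a) (r b) := by
  obtain ⟨w, hw⟩ := h
  induction w generalizing a with
  | nil =>
    have : a = b := hw
    subst this
    exact Conn.refl _ _
  | cons ℓ w ih =>
    obtain ⟨m, h3, h4⟩ := hw
    exact (hr _ _ _ h3).trans (ih h4)

section Mass

variable [Fintype P] [DecidableEq P] [Fintype L] [DecidableEq L] (μ : Measure X) [IsFiniteMeasure μ]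
variable {K : MGraph val P X} {RV : P → Set X} {RE : L → P → P → Set X}
  {hV : ∀ p, MeasurableSet (RV p)} {hE : ∀ s p q, MeasurableSet (RE s p q)}
  {h₁ : ∀ s p q x, x ∈ K.E s p q → x ∈ RV p → x ∈ RE s p q}
  {h₂ : ∀ s p q x, x ∈ K.E s p q → val s • x ∈ RV q → x ∈ RE s p q}

lemma massE_sub (hsub : ∀ s p q, RE s p q ⊆ K.E s p q) :
    (K.sub RV RE hV hE h₁ h₂).massE μ = K.massE μ - ∑ s, ∑ p, ∑ q, μ.real (RE s p q) := by
  unfold massE
  simp only [← Finset.sum_sub_distrib]
  refine Finset.sum_congr rfl fun s _ => Finset.sum_congr rfl fun p _ =>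
    Finset.sum_congr rfl fun q _ => ?_
  exact measureReal_diff (hsub s p q) (hE s p q)

lemma massV_sub (hsub : ∀ p, RV p ⊆ K.V p) :
    (K.sub RV RE hV hE h₁ h₂).massV μ = K.massV μ - ∑ p, μ.real (RV p) := by
  unfold massV
  simp only [← Finset.sum_sub_distrib]
  refine Finset.sum_congr rfl fun p _ => ?_
  exact measureReal_diff (hsub p) (hV p)

lemma excess_sub (hsubE : ∀ s p q, RE s p q ⊆ K.E s p q) (hsubV : ∀ p, RV p ⊆ K.V p) :
    (K.sub RV RE hV hE h₁ h₂).excess μ =
      K.excess μ - ∑ s, ∑ p, ∑ q, μ.real (RE s p q) + ∑ p, μ.real (RV p) := by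
  unfold excess
  rw [massE_sub μ hsubE, massV_sub μ hsubV]
  ring

end Mass

end MGraph

end Crest.Agent.NoFixedPrice
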