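-- Row 191 (S0291): removing the leaves of a measured graph.
import Crest.Agent.Lib.NoFixedPrice.SubGraph
import Crest.Agent.Lib.NoFixedPrice.LeafMono

set_option autoImplicit false
set_option linter.unusedSectionVars false

namespace Crest.Agent.NoFixedPrice

open MeasureTheory Finset

namespace MGraph

variable {Γ β P X : Type*} [Group Γ] {val : Option β → Γ} [MulAction Γ X] [MeasurableSpace X]
  [Fintype P] [DecidableEq P] [Fintype β] [DecidableEq β]
  (K : MGraph val P X)

/-- The leaves. -/
def leafV (p : P) : Set X := {x | x ∈ K.V p ∧ K.deg x p = 1}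

/-- The edges with a leaf end. -/
def leafE (s : Option β) (p q : P) : Set X :=
  {x | x ∈ K.E s p q ∧ (K.deg x p = 1 ∨ K.deg (val s • x) q = 1)}

variable {K}

theorem measurableSet_leafV (hdeg : ∀ p : P, Measurable fun x : X => K.deg x p) (p : P) :
    MeasurableSet (K.leafV p) :=
  (K.measV p).inter (hdeg p (measurableSet_singleton 1))

theorem measurableSet_leafE (hact : ∀ g : Γ, Measurable fun x : X => g • x)
    (hdeg : ∀ p : P, Measurable fun x : X => K.deg x p) (s : Option β) (p q : P) :
    MeasurableSet (K.leafE s p q) :=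
  (K.measE s p q).inter ((hdeg p (measurableSet_singleton 1)).union
    (hact _ (hdeg q (measurableSet_singleton 1))))

/-- The graph without its leaves. -/
def dropLeaves (K : MGraph val P X) (hact : ∀ g : Γ, Measurable fun x : X => g • x)
    (hdeg : ∀ p : P, Measurable fun x : X => K.deg x p) : MGraph val P X :=
  K.sub K.leafV K.leafE (measurableSet_leafV hdeg) (measurableSet_leafE hact hdeg)
    (fun _ _ _ _ hx hl => ⟨hx, Or.inl hl.2⟩) (fun _ _ _ _ hx hl => ⟨hx, Or.inr hl.2⟩)

section Basic

variable (hact : ∀ g : Γ, Measurable fun x : X => g • x)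
  (hdeg : ∀ p : P, Measurable fun x : X => K.deg x p)

theorem dropLeaves_folded (hK : K.Folded) : (K.dropLeaves hact hdeg).Folded := hK.sub

theorem dropLeaves_E_iff {s : Option β} {p q : P} {x : X} :
    x ∈ (K.dropLeaves hact hdeg).E s p q ↔
      x ∈ K.E s p q ∧ K.deg x p ≠ 1 ∧ K.deg (val s • x) q ≠ 1 := by
  simp only [dropLeaves, sub, Set.mem_diff, leafE, Set.mem_setOf_eq, not_and, not_or]
  constructor
  · rintro ⟨h1, h2⟩
    exact ⟨h1, h2 h1⟩
  · rintro ⟨h1, h2⟩
    exact ⟨h1, fun _ => h2⟩

theorem dropLeaves_V_iff {p : P} {x : X} :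
    x ∈ (K.dropLeaves hact hdeg).V p ↔ x ∈ K.V p ∧ K.deg x p ≠ 1 := by
  simp only [dropLeaves, sub, Set.mem_diff, leafV, Set.mem_setOf_eq, not_and]
  constructor
  · rintro ⟨h1, h2⟩
    exact ⟨h1, h2 h1⟩
  · rintro ⟨h1, h2⟩
    exact ⟨h1, fun _ => h2⟩

/-- A step between two vertices which are not leaves survives. -/
theorem dropLeaves_adj {ℓ : Option β × Bool} {v v' : X × P} (h : K.Adj ℓ v v')
    (h1 : K.deg v.1 v.2 ≠ 1) (h2 : K.deg v'.1 v'.2 ≠ 1) : (K.dropLeaves hact hdeg).Adj ℓ v v' := by
  obtain ⟨s, b⟩ := ℓ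
  cases b with
  | true =>
    obtain ⟨h3, h4⟩ := (K.adj_true s _ _).1 h
    refine ((K.dropLeaves hact hdeg).adj_true s _ _).2 ⟨?_, h4⟩
    rw [dropLeaves_E_iff]
    exact ⟨h3, h1, h4 ▸ h2⟩
  | false =>
    obtain ⟨h3, h4⟩ := (K.adj_false s _ _).1 h
    refine ((K.dropLeaves hact hdeg).adj_false s _ _).2 ⟨?_, h4⟩
    rw [dropLeaves_E_iff]
    exact ⟨h3, h2, h4 ▸ h1⟩

/-- The half-edge at a vertex of degree one is unique. -/
theorem half_unique {x : X} {p : P} (hd : K.deg x p = 1) {ℓ ℓ' : Option β × Bool} {q q' : P}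
    (h : x ∈ K.half ℓ p q) (h' : x ∈ K.half ℓ' p q') : ℓ = ℓ' ∧ q = q' := by
  classical
  have hc : (univ.filter fun a : (Option β × Bool) × P => x ∈ K.half a.1 p a.2).card ≤ 1 := by
    have : K.deg x p = (univ.filter fun a : (Option β × Bool) × P => x ∈ K.half a.1 p a.2).card := by
      unfold deg
      congr
    omega
  have := Finset.card_le_one.mp hc (ℓ, q) (by simp [h]) (ℓ', q') (by simp [h'])
  exact ⟨congrArg Prod.fst this, congrArg Prod.snd this⟩

/-- The half edge of a step. -/
theorem half_of_adj {ℓ : Option β × Bool} {v v' : X × P} (h : K.Adj ℓ v v') :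
    v.1 ∈ K.half ℓ v.2 v'.2 := by
  have h1 := h.fst_eq
  have : v' = (sval val ℓ • v.1, v'.2) := Prod.ext h1 rfl
  have h2 : K.Adj ℓ (v.1, v.2) (sval val ℓ • v.1, v'.2) := by
    rw [← this]; exact h
  exact h2

theorem adj_unique_of_deg_one {ℓ ℓ' : Option β × Bool} {v w w' : X × P}
    (hd : K.deg v.1 v.2 = 1) (h : K.Adj ℓ v w) (h' : K.Adj ℓ' v w') : w = w' := by
  obtain ⟨h1, h2⟩ := half_unique hd (half_of_adj h) (half_of_adj h')
  subst h1
  refine Prod.ext ?_ h2
  rw [h.fst_eq, h'.fst_eq]

/-- No edge joins two leaves when every vertex is joined to a vertex of degree at least two. -/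
theorem not_two_leaves {b : P}
    (hconn : ∀ x p, x ∈ K.V p → ∃ y, K.Conn (y, b) (x, p))
    (hb : ∀ y, y ∈ K.V b → 2 ≤ K.deg y b) (hbV : ∀ y, y ∈ K.V b)
    {ℓ : Option β × Bool} {v v' : X × P} (h : K.Adj ℓ v v') (h1 : K.deg v.1 v.2 = 1)
    (h2 : K.deg v'.1 v'.2 = 1) : False := by
  obtain ⟨y, w, hw⟩ := hconn v.1 v.2 h.mem_left
  -- any path starting at the leaf stays in the pair
  have key : ∀ (w : List (Option β × Bool)) (a c : X × P), (a = v ∨ a = v') → K.IsPath a w c →
      (c = v ∨ c = v') := by
    intro w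
    induction w with
    | nil =>
      intro a c ha hp
      have : a = c := hp
      subst this
      exact ha
    | cons l w ih =>
      intro a c ha hp
      obtain ⟨m, hm, hrest⟩ := hp
      refine ih m c ?_ hrest
      rcases ha with rfl | rfl
      · exact Or.inr (adj_unique_of_deg_one h1 hm h)
      · exact Or.inl (adj_unique_of_deg_one h2 hm h.symm)
  have h3 := key _ _ _ (Or.inl rfl) hw.rinv
  rcases h3 with h3 | h3
  · have := hb y (hbV y)
    rw [show K.deg y b = K.deg v.1 v.2 by rw [← h3], h1] at this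
    omega
  · have := hb y (hbV y)
    rw [show K.deg y b = K.deg v'.1 v'.2 by rw [← h3], h2] at this
    omega

end Basic

/-! ### Masses -/

section Mass

variable {μ : Measure X} [IsFiniteMeasure μ]
  (hmp : ∀ g : Γ, MeasurePreserving (fun x : X => g • x) μ μ)
  (hdeg : ∀ p : P, Measurable fun x : X => K.deg x p)

include hmp hdeg

/-- Each leaf has exactly one half-edge. -/
theorem sum_leafE_eq
    (h2 : ∀ s p q x, x ∈ K.E s p q → K.deg x p = 1 → K.deg (val s • x) q = 1 → False) :
    ∑ s, ∑ p, ∑ q, μ.real (K.leafE s p q) = ∑ p, μ.real (K.leafV p) := by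
  classical
  have hact : ∀ g : Γ, Measurable fun x : X => g • x := fun g => (hmp g).measurable
  have hV := measurableSet_leafV hdeg
  -- half edges at the leaves
  let A : (Option β × Bool) → P → P → Set X := fun ℓ p q => K.half ℓ p q ∩ K.leafV p
  have hAm : ∀ ℓ p q, MeasurableSet (A ℓ p q) := fun ℓ p q =>
    (K.measurableSet_half hact ℓ p q).inter (hV p)
  have hR : ∀ p, μ.real (K.leafV p) = ∑ e : (Option β × Bool) × P, μ.real (A e.1 p e.2) := by
    intro p
    have h1 : (K.leafV p).indicator (fun _ => (1 : ℝ)) = fun x =>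
        ∑ e : (Option β × Bool) × P, (A e.1 p e.2).indicator (fun _ => (1 : ℝ)) x := by
      funext x
      by_cases hx : x ∈ K.leafV p
      · rw [Set.indicator_of_mem hx]
        have h3 : ((K.deg x p : ℕ) : ℝ) = 1 := by rw [hx.2]; simp
        have h5 := K.deg_eq_sum x p
        rw [h3] at h5
        refine h5.trans (Finset.sum_congr rfl fun e _ => ?_)
        by_cases h : x ∈ K.half e.1 p e.2
        · rw [Set.indicator_of_mem h, Set.indicator_of_mem (show x ∈ A e.1 p e.2 from ⟨h, hx⟩)]
        · rw [Set.indicator_of_notMem h, Set.indicator_of_notMem (fun hc => h hc.1)]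
      · rw [Set.indicator_of_notMem hx]
        symm
        exact Finset.sum_eq_zero fun e _ => Set.indicator_of_notMem (fun hc => hx hc.2) _
    have h4 : μ.real (K.leafV p) = ∫ x, (K.leafV p).indicator (fun _ => (1 : ℝ)) x ∂μ := by
      rw [integral_indicator (hV p)]
      simp [measureReal_def]
    rw [h4, h1, integral_finset_sum _ fun e _ =>
      (integrable_const (1 : ℝ)).indicator (hAm _ _ _)]
    refine Finset.sum_congr rfl fun e _ => ?_
    rw [integral_indicator (hAm _ _ _)]
    simp [measureReal_def]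
  -- an edge with a leaf end is a half edge at the leaf
  have hA1 : ∀ s p q, A (s, true) p q = {x | x ∈ K.E s p q ∧ K.deg x p = 1} := by
    intro s p q
    ext x
    simp only [A, Set.mem_inter_iff, half_true, leafV, Set.mem_setOf_eq]
    constructor
    · rintro ⟨h1, -, h3⟩
      exact ⟨h1, h3⟩
    · rintro ⟨h1, h3⟩
      exact ⟨h1, K.src _ _ _ _ h1, h3⟩
  have hA2 : ∀ s p q, μ.real (A (s, false) q p) =
      μ.real {x | x ∈ K.E s p q ∧ K.deg (val s • x) q = 1} := by
    intro s p q
    have hm2 : MeasurableSet {x | x ∈ K.E s p q ∧ K.deg (val s • x) q = 1} :=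
      (K.measE _ _ _).inter (hact _ (hdeg q (measurableSet_singleton 1)))
    have : A (s, false) q p = (fun x => (val s)⁻¹ • x) ⁻¹'
        {x | x ∈ K.E s p q ∧ K.deg (val s • x) q = 1} := by
      ext y
      simp only [A, Set.mem_inter_iff, half_false, Set.mem_preimage, Set.mem_setOf_eq,
        smul_inv_smul, leafV]
      constructor
      · rintro ⟨h1, -, h3⟩
        exact ⟨h1, h3⟩
      · rintro ⟨h1, h3⟩
        refine ⟨h1, ?_, h3⟩
        have := K.tgt _ _ _ _ h1
        rwa [smul_inv_smul] at this
    rw [this, measureReal_def, measureReal_def, (hmp _).measure_preimage hm2.nullMeasurableSet]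
  have hE : ∀ s p q, μ.real (K.leafE s p q) = μ.real (A (s, true) p q) + μ.real (A (s, false) q p) := by
    intro s p q
    rw [hA1, hA2]
    have hd : Disjoint {x | x ∈ K.E s p q ∧ K.deg x p = 1}
        {x | x ∈ K.E s p q ∧ K.deg (val s • x) q = 1} := by
      rw [Set.disjoint_left]
      rintro x ⟨h3, h4⟩ ⟨-, h5⟩
      exact h2 s p q x h3 h4 h5
    have hm2 : MeasurableSet {x | x ∈ K.E s p q ∧ K.deg (val s • x) q = 1} :=
      (K.measE _ _ _).inter (hact _ (hdeg q (measurableSet_singleton 1)))
    rw [← measureReal_union hd hm2]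
    congr 1
    ext x
    simp only [leafE, Set.mem_setOf_eq, Set.mem_union]
    tauto
  simp_rw [hE, hR]
  -- rearrange
  have hsplit : ∀ p, ∑ e : (Option β × Bool) × P, μ.real (A e.1 p e.2) =
      ∑ s : Option β, ∑ q, (μ.real (A (s, true) p q) + μ.real (A (s, false) p q)) := by
    intro p
    rw [Fintype.sum_prod_type, Fintype.sum_prod_type]
    refine Finset.sum_congr rfl fun s _ => ?_
    rw [Fintype.sum_bool, Finset.sum_add_distrib]
  simp_rw [hsplit]
  have h7 : ∑ p, ∑ s : Option β, ∑ q, (μ.real (A (s, true) p q) + μ.real (A (s, false) p q)) =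
      ∑ s : Option β, ∑ p, ∑ q, (μ.real (A (s, true) p q) + μ.real (A (s, false) p q)) :=
    Finset.sum_comm
  rw [h7]
  refine Finset.sum_congr rfl fun s _ => ?_
  simp only [Finset.sum_add_distrib]
  congr 1
  exact Finset.sum_comm

theorem massE_dropLeaves (hact : ∀ g : Γ, Measurable fun x : X => g • x)
    (h2 : ∀ s p q x, x ∈ K.E s p q → K.deg x p = 1 → K.deg (val s • x) q = 1 → False) :
    (K.dropLeaves hact hdeg).massE μ = K.massE μ - ∑ p, μ.real (K.leafV p) := by
  rw [← sum_leafE_eq hmp hdeg h2]
  exact massE_sub μ fun s p q x hx => hx.1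

theorem massV_dropLeaves (hact : ∀ g : Γ, Measurable fun x : X => g • x) :
    (K.dropLeaves hact hdeg).massV μ = K.massV μ - ∑ p, μ.real (K.leafV p) :=
  massV_sub μ fun p x hx => hx.1

theorem excess_dropLeaves (hact : ∀ g : Γ, Measurable fun x : X => g • x)
    (h2 : ∀ s p q x, x ∈ K.E s p q → K.deg x p = 1 → K.deg (val s • x) q = 1 → False) :
    (K.dropLeaves hact hdeg).excess μ = K.excess μ := by
  unfold excess
  rw [massE_dropLeaves hmp hdeg hact h2, massV_dropLeaves hmp hdeg hact]
  ring

/-- Without vertices of degree zero the leaf mass is the mass of the leaves. -/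
theorem leafMass_eq_sum (h0 : ∀ x p, x ∈ K.V p → K.deg x p ≠ 0) :
    K.leafMass μ = ∑ p, μ.real (K.leafV p) := by
  unfold leafMass
  refine Finset.sum_congr rfl fun p _ => ?_
  have hV := measurableSet_leafV hdeg p
  have : (fun x => K.leafW x p) = (K.leafV p).indicator (fun _ => (1 : ℝ)) := by
    funext x
    unfold leafW
    by_cases hx : x ∈ K.V p
    · simp only [hx, if_true]
      have hne := h0 x p hx
      by_cases h1 : K.deg x p = 1
      · rw [Set.indicator_of_mem (show x ∈ K.leafV p from ⟨hx, h1⟩), h1]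
        norm_num
      · rw [Set.indicator_of_notMem (fun hc => h1 hc.2)]
        have : 2 - K.deg x p = 0 := by omega
        simp [this]
    · simp only [hx, if_false]
      rw [Set.indicator_of_notMem (fun hc => hx hc.1)]
  rw [this, integral_indicator hV]
  simp [measureReal_def]

end Mass

/-! ### Connection and closed lifts -/

section Conn

variable (hact : ∀ g : Γ, Measurable fun x : X => g • x)
  (hdeg : ∀ p : P, Measurable fun x : X => K.deg x p)

/-- Connections between vertices which are not leaves survive. -/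
theorem dropLeaves_conn
    (h2 : ∀ (ℓ : Option β × Bool) (v v' : X × P), K.Adj ℓ v v' → K.deg v.1 v.2 = 1 →
      K.deg v'.1 v'.2 = 1 → False)
    {a b : X × P} (hab : K.Conn a b) (ha : K.deg a.1 a.2 ≠ 1) (hb : K.deg b.1 b.2 ≠ 1) :
    (K.dropLeaves hact hdeg).Conn a b := by
  classical
  let r : X × P → X × P := fun v =>
    if h : K.deg v.1 v.2 = 1 ∧ ∃ w : (Option β × Bool) × (X × P), K.Adj w.1 v w.2
    then h.2.choose.2 else v
  have hr1 : ∀ (ℓ : Option β × Bool) (v v' : X × P), K.Adj ℓ v v' → K.deg v.1 v.2 = 1 → r v = v' := by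
    intro ℓ v v' h h1
    have hex : ∃ w : (Option β × Bool) × (X × P), K.Adj w.1 v w.2 := ⟨(ℓ, v'), h⟩
    have : r v = hex.choose.2 := dif_pos ⟨h1, hex⟩
    rw [this]
    exact adj_unique_of_deg_one h1 hex.choose_spec h
  have hr2 : ∀ v : X × P, K.deg v.1 v.2 ≠ 1 → r v = v := fun v hv => dif_neg fun h => hv h.1
  have key : (K.dropLeaves hact hdeg).Conn (r a) (r b) := by
    refine conn_of_retract r ?_ hab
    intro ℓ v v' h
    by_cases h1 : K.deg v.1 v.2 = 1
    · have h3 : K.deg v'.1 v'.2 ≠ 1 := fun h3 => h2 ℓ v v' h h1 h3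
      rw [hr1 ℓ v v' h h1, hr2 v' h3]
      exact Conn.refl _ _
    · by_cases h3 : K.deg v'.1 v'.2 = 1
      · rw [hr2 v h1, hr1 _ v' v h.symm h3]
        exact Conn.refl _ _
      · rw [hr2 v h1, hr2 v' h3]
        exact (dropLeaves_adj hact hdeg h h1 h3).conn
  rwa [hr2 a ha, hr2 b hb] at key

variable {a : β → ℕ → β} {Lb : ℕ}

/-- A path with a reduced neighbourhood survives. -/
theorem path_survive {w : List (Option β × Bool)} {prev next : Option β × Bool} {v v' z z' : X × P}
    (hchain : List.IsChain (fun l l' => l' ≠ sinv l) (prev :: w ++ [next]))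
    (hprev : K.Adj prev z v) (hnext : K.Adj next v' z') (hp : K.IsPath v w v') :
    (K.dropLeaves hact hdeg).IsPath v w v' := by
  induction w generalizing prev v z with
  | nil => exact hp
  | cons ℓ w ih =>
    obtain ⟨m, hm, hrest⟩ := hp
    have h1 : ℓ ≠ sinv prev := (List.isChain_cons_cons.mp hchain).1
    have h3 := (List.isChain_cons_cons.mp hchain).2
    -- the degree at `v`
    have hv : K.deg v.1 v.2 ≠ 1 := by
      have := two_le_deg (half_of_adj hprev.symm) (half_of_adj hm) (Ne.symm h1)
      omega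
    have hmd : K.deg m.1 m.2 ≠ 1 := by
      cases w with
      | nil =>
        have hmv : m = v' := hrest
        subst hmv
        have h4 : next ≠ sinv ℓ := (List.isChain_cons_cons.mp h3).1
        have := two_le_deg (half_of_adj hm.symm) (half_of_adj hnext) (Ne.symm h4)
        omega
      | cons ℓ2 w2 =>
        obtain ⟨m2, hm2, -⟩ := hrest
        have h4 : ℓ2 ≠ sinv ℓ := (List.isChain_cons_cons.mp h3).1
        have := two_le_deg (half_of_adj hm.symm) (half_of_adj hm2) (Ne.symm h4)
        omega
    exact ⟨m, dropLeaves_adj hact hdeg hm hv hmd, ih h3 hm hrest⟩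

omit [Fintype P] [DecidableEq P] [Fintype β] [DecidableEq β] in
theorem chain_botW (a : β → ℕ → β) (i : β) (n : ℕ) :
    List.IsChain (fun l l' : Option β × Bool => l' ≠ sinv l) (botW a i n) := by
  induction n with
  | zero => simp
  | succ n ih =>
    rw [botW_succ, List.isChain_append]
    refine ⟨ih, by simp, ?_⟩
    intro x hx y hy
    have hy' : y = (some (a i n), true) := by simpa using hy.symm
    have hx' : x ∈ botW a i n := List.mem_of_getLast? hx
    simp only [botW, List.mem_map] at hx'
    obtain ⟨p, -, rfl⟩ := hx'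
    subst hy'
    simp [sinv]

omit [Fintype P] [DecidableEq P] [Fintype β] [DecidableEq β] in
/-- The relator is cyclically reduced. -/
theorem chain_rel (a : β → ℕ → β) (Lb : ℕ) (i : β) (hLb : 0 < Lb) :
    List.IsChain (fun l l' : Option β × Bool => l' ≠ sinv l)
      ((none, false) :: rel a Lb i ++ [(some (a i 0), true)]) := by
  have h1 : ((none, false) :: rel a Lb i ++ [(some (a i 0), true)] : List (Option β × Bool)) =
      [(none, false)] ++ (botW a i Lb ++ [(none, true), (some i, false), (none, false),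
        (some (a i 0), true)]) := by
    simp [rel]
  rw [h1, List.isChain_append, List.isChain_append]
  have hmem : ∀ x ∈ botW a i Lb, x.1 ≠ none ∧ x.2 = true := by
    intro x hx
    simp only [botW, List.mem_map] at hx
    obtain ⟨p, -, rfl⟩ := hx
    simp
  refine ⟨by simp, ⟨chain_botW a i Lb, by simp [sinv], ?_⟩, ?_⟩
  · intro x hx y hy
    have hy' : y = (none, true) := by simpa using hy.symm
    have hx' := hmem x (List.mem_of_getLast? hx)
    subst hy'
    intro hc
    simp only [sinv] at hc
    have := congrArg Prod.fst hc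
    exact hx'.1 this.symm
  · intro x hx y hy
    have hx' : x = (none, false) := by simpa using hx.symm
    subst hx'
    cases hLb' : Lb with
    | zero => omega
    | succ n =>
      rw [hLb'] at hy
      have : y = (some (a i 0), true) := by
        have h5 : botW a i (n + 1) = (some (a i 0), true) ::
            (List.range n).map fun p => (some (a i (0 + 1 + p)), true) := by
          have := botW_add a i 1 n
          simp only [show (1 : ℕ) + n = n + 1 from by omega] at this
          rw [this]
          simp [botW]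
        rw [h5] at hy
        simpa using hy.symm
      subst this
      simp [sinv]

/-- Closed lifts survive the removal of the leaves. -/
theorem closedSet_dropLeaves (hLb : 0 < Lb) (hrel : ∀ i, wordAct val (rel a Lb i) = 1) (i : β)
    (c : P) : (K.dropLeaves hact hdeg).closedSet a Lb i c = K.closedSet a Lb i c := by
  ext u
  rw [MGraph.mem_closedSet_iff _ a Lb hrel, MGraph.mem_closedSet_iff _ a Lb hrel]
  refine ⟨IsPath.of_sub, fun hu => ?_⟩
  have hu' : u ∈ K.closedSet a Lb i c := (K.mem_closedSet_iff a Lb hrel).2 hu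
  obtain ⟨v₁, v₂, v₃, -, -, -, h3⟩ := closed_decomp hrel hu'
  obtain ⟨m, hm⟩ := exists_bot_of_closed hrel hu' (q := 1) hLb
  have hm' : K.Adj (some (a i 0), true) (u, c) m := by
    simp only [botW, List.range_one, List.map_cons, List.map_nil] at hm
    obtain ⟨m2, h5, h6⟩ := hm
    have : m2 = m := h6
    subst this
    exact h5
  exact path_survive hact hdeg (chain_rel a Lb i hLb) h3 hm' hu

theorem cellMass_dropLeaves (hLb : 0 < Lb) (hrel : ∀ i, wordAct val (rel a Lb i) = 1)
    (μ : Measure X) : (K.dropLeaves hact hdeg).cellMass a Lb μ = K.cellMass a Lb μ := by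
  unfold cellMass
  refine Finset.sum_congr rfl fun i _ => Finset.sum_congr rfl fun c _ => ?_
  rw [closedSet_dropLeaves hact hdeg hLb hrel]

end Conn

/-! ### Under the hypotheses of the class -/

section Class

variable {b : P} (hline : ∀ x, x ∈ K.E none b b)
include hline

theorem base_deg (x : X) : 2 ≤ K.deg x b := by
  have h1 : x ∈ K.half (none, true) b b := by rw [half_true]; exact hline x
  have h2 : x ∈ K.half (none, false) b b := by rw [half_false]; exact hline _
  exact two_le_deg h1 h2 (by simp)

theorem base_mem (x : X) : x ∈ K.V b := K.src _ _ _ _ (hline x)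

variable (hconn : ∀ x p, x ∈ K.V p → ∃ y, K.Conn (y, b) (x, p))
include hconn

/-- No vertex of degree zero. -/
theorem deg_ne_zero {x : X} {p : P} (hx : x ∈ K.V p) : K.deg x p ≠ 0 := by
  obtain ⟨y, w, hw⟩ := hconn x p hx
  cases hw' : rinv w with
  | nil =>
    have h1 := hw.rinv
    rw [hw'] at h1
    have h2 : (x, p) = (y, b) := h1
    rw [Prod.mk.injEq] at h2
    rw [h2.1, h2.2]
    have := base_deg hline y
    omega
  | cons ℓ w2 =>
    have h1 := hw.rinv
    rw [hw'] at h1
    obtain ⟨m, hm, -⟩ := h1
    classical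
    have h3 : x ∈ K.half ℓ p m.2 := half_of_adj hm
    unfold deg
    intro hc
    have h4 : (ℓ, m.2) ∈ (univ.filter fun a : (Option β × Bool) × P => x ∈ K.half a.1 p a.2) := by
      simp [h3]
    have h5 : (univ.filter fun a : (Option β × Bool) × P => x ∈ K.half a.1 p a.2).card = 0 := by
      convert hc
    rw [Finset.card_eq_zero] at h5
    rw [h5] at h4
    simp at h4

omit hconn in
/-- The degree is measurable. -/
theorem deg_measurable_of_act (hact : ∀ g : Γ, Measurable fun x : X => g • x) (p : P) :
    Measurable fun x : X => K.deg x p := by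
  classical
  have h1 : Measurable (fun x : X => ((K.deg x p : ℕ) : ℝ)) := by
    simp_rw [deg_eq_sum]
    refine Finset.measurable_sum _ fun a _ => ?_
    exact measurable_const.indicator (K.measurableSet_half hact _ _ _)
  have : (fun x : X => K.deg x p) = (fun r : ℝ => Nat.floor r) ∘ (fun x : X => ((K.deg x p : ℕ) : ℝ)) := by
    ext x; simp
  rw [this]
  exact Nat.measurable_floor.comp h1

/-- No step joins two leaves. -/
theorem no_leaf_step (ℓ : Option β × Bool) (v v' : X × P) (h : K.Adj ℓ v v')
    (h1 : K.deg v.1 v.2 = 1) (h2 : K.deg v'.1 v'.2 = 1) : False :=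
  not_two_leaves hconn (fun y _ => base_deg hline y) (base_mem hline) h h1 h2

/-- No edge joins two leaves. -/
theorem no_leaf_edge (s : Option β) (p q : P) (x : X) (hx : x ∈ K.E s p q)
    (h1 : K.deg x p = 1) (h2 : K.deg (val s • x) q = 1) : False :=
  no_leaf_step hline hconn (s, true) (x, p) (val s • x, q)
    ((K.adj_true s _ _).2 ⟨hx, rfl⟩) h1 h2

variable (hact : ∀ g : Γ, Measurable fun x : X => g • x)
  (hdeg : ∀ p : P, Measurable fun x : X => K.deg x p)

/-- The edge mass drops by exactly the leaf mass. -/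
theorem massE_dropLeaves_eq {μ : Measure X} [IsFiniteMeasure μ]
    (hmp : ∀ g : Γ, MeasurePreserving (fun x : X => g • x) μ μ) :
    (K.dropLeaves hact hdeg).massE μ = K.massE μ - K.leafMass μ := by
  rw [massE_dropLeaves hmp hdeg hact (no_leaf_edge hline hconn),
    leafMass_eq_sum hmp hdeg fun x p hx => deg_ne_zero hline hconn hx]

/-- The excess does not change. -/
theorem excess_dropLeaves_eq {μ : Measure X} [IsFiniteMeasure μ]
    (hmp : ∀ g : Γ, MeasurePreserving (fun x : X => g • x) μ μ) :
    (K.dropLeaves hact hdeg).excess μ = K.excess μ :=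
  excess_dropLeaves hmp hdeg hact (no_leaf_edge hline hconn)

omit hconn in
/-- The base lines survive. -/
theorem dropLeaves_base_line (x : X) : x ∈ (K.dropLeaves hact hdeg).E none b b := by
  rw [dropLeaves_E_iff]
  refine ⟨hline x, ?_, ?_⟩
  · have := base_deg hline x
    omega
  · have := base_deg hline (val none • x)
    omega

/-- Connections between base vertices survive. -/
theorem dropLeaves_conn_base {x y : X} (h : K.Conn (x, b) (y, b)) :
    (K.dropLeaves hact hdeg).Conn (x, b) (y, b) := by
  refine dropLeaves_conn hact hdeg (no_leaf_step hline hconn) h ?_ ?_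
  · have := base_deg hline x
    simp only
    omega
  · have := base_deg hline y
    simp only
    omega

/-- Every surviving vertex stays connected to the base. -/
theorem dropLeaves_conn_to_base {x : X} {p : P} (hx : x ∈ (K.dropLeaves hact hdeg).V p) :
    ∃ y, (K.dropLeaves hact hdeg).Conn (y, b) (x, p) := by
  rw [dropLeaves_V_iff] at hx
  obtain ⟨y, hy⟩ := hconn x p hx.1
  refine ⟨y, dropLeaves_conn hact hdeg (no_leaf_step hline hconn) hy ?_ hx.2⟩
  have := base_deg hline y
  simp only
  omega

end Class


end MGraph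

end Crest.Agent.NoFixedPrice
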