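import Crest.Agent.Lib.NoFixedPrice.BoundStmtCore
import Crest.Agent.Lib.NoFixedPrice.LeafRemove

/-!
# Row 191: `BoundStmt` from the certificates of the two competitors
-/

set_option autoImplicit false
set_option linter.unusedSectionVars false
set_option linter.deprecated false

namespace Crest.Agent.NoFixedPrice.MainLoop

open MeasureTheory FreeGroup Crest.Dynamics
open Crest.Agent.Lib.NoFixedPrice.Arc
open Crest.Agent.NoFixedPrice
open Crest.Agent.NoFixedPrice.FinalDrop

variable {d : ℕ} [NeZero d]

/-- The graph of an object minus its leaves. -/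
noncomputable def leafK (O : ObjL d) : MGraph (lval (latin_good d)) O.P (XL d) :=
  O.K.dropLeaves hactL (fun p => O.K.measurable_deg_nat hactL p)

/-- The object minus its leaves. -/
noncomputable def leafObj (O : ObjL d) : ObjL d where
  P := O.P
  K := leafK O
  b := O.b

/-- The competitor without leaves is in the class. -/
theorem leafObj_inClass {e κ : ℝ} {O : ObjL d} (hO : InClass e κ O)
    (hcert : Cert (leafK O) (noSeed O.P (XL d)) ((leafK O).ZCells (relL d)) (muL d) e) :
    InClass e κ (leafObj O) := by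
  refine
    { least := hO.least
      folded := MGraph.dropLeaves_folded hactL (fun p => O.K.measurable_deg_nat hactL p) hO.folded
      tline := MGraph.dropLeaves_base_line hO.tline hactL (fun p => O.K.measurable_deg_nat hactL p)
      gen := fun x g => MGraph.dropLeaves_conn_base hO.tline hO.vert hactL (fun p => O.K.measurable_deg_nat hactL p) (hO.gen x g)
      vert := fun x p hx => MGraph.dropLeaves_conn_to_base hO.tline hO.vert hactL (fun p => O.K.measurable_deg_nat hactL p) hx
      cert := hcert
      cap := ?_ }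
  have h := MGraph.excess_dropLeaves_eq hO.tline hO.vert hactL
    (fun p => O.K.measurable_deg_nat hactL p) (μ := muL d) measurePreserving_bern_smul
  exact (le_of_eq h).trans hO.cap

/-- **`BoundStmt` from the certificates of the two competitors.** -/
theorem boundStmt_of_certs (hd : 2 ∣ d) {e κ η s c : ℝ} {g r m : ℕ} (hη : 0 ≤ η)
    (hr : 2 * g + 1 ≤ r) (hb : m * (r + 1) + 1 ≤ d) (hm : 0 < m)
    (hH : 3 * (2 * κ + η) ≤ (m : ℝ) / 2) (hdm : 576 * (d : ℝ) ≤ (m : ℝ) ^ 2)
    (hs : 2 * e + 2 * η + η / 2 ≤ s) (hc : 2 * s + η ≤ c)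
    (hcore : ∀ (O : ObjL d) (hO : InClass e κ O), Cert (coreK (r := r) (m := m) O hO.folded hb)
      (noSeed O.P (XL d)) ((coreK (r := r) (m := m) O hO.folded hb).ZCells (relL d)) (muL d) e)
    (hleaf : ∀ (O : ObjL d), InClass e κ O →
      Cert (leafK O) (noSeed O.P (XL d)) ((leafK O).ZCells (relL d)) (muL d) e) :
    BoundStmt d e κ η s c g := by
  intro K₀ hK₀ hmin O hO hA
  have hr1 : 1 ≤ r := by omega
  -- the leaves of the near minimal element
  have h1 : K₀.K.leafMass (muL d) ≤ η := by
    have h2 := hmin (leafObj K₀) (leafObj_inClass hK₀ (hleaf K₀ hK₀))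
    have h3 : (leafObj K₀).K.massE (muL d) = K₀.K.massE (muL d) - K₀.K.leafMass (muL d) :=
      MGraph.massE_dropLeaves_eq hK₀.tline hK₀.vert hactL (fun p => K₀.K.measurable_deg_nat hactL p) measurePreserving_bern_smul
    rw [h3] at h2
    linarith
  obtain ⟨hacc, hlO⟩ := hA
  have hl : O.K.leafMass (muL d) ≤ η := hlO.trans h1
  have h4 := hmin (coreObj O hO.folded hb) (coreObj_inClass hd hO hb hr1 (hcore O hO))
  have hX := excess_le_of_core hd hO hb hr hm hη hH hdm h4 hacc hl
  exact ⟨hX.trans hs, by linarith⟩

end Crest.Agent.NoFixedPrice.MainLoop
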