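import Mathlib

/-!
# Rank lemma (row 191, S0291; helper44)

A group `Γ` acts measure preservingly on a probability space `X`.  A finite matrix `Ω` from the index
set `I` to the index set `J` is a list of elementary terms `(b, a, l, w)`, acting on functions on
orbits (coordinate `(a, h)` = the point `h • x` with label `a`) by
`(Ω_x f) c h = ∑ [c = b] w ((l⁻¹ h) • x) f a (l⁻¹ h)`.

`rank_le`: if `w x = 0` unless `x ∈ A a` and `l • x ∈ B b`, and for a.e. `x` the map `Ω_x` is injective on
ALL functions supported on `{(a, h) | h • x ∈ A a}`, then `∑ μ (A a) ≤ ∑ μ (B b)`.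

Proof: `T = 1 - Ω*Ω/C`, `T' = 1 - ΩΩ*/C`.  Traces of `T^k`, `T'^k` differ by a constant (one change of
variables per pair of terms).  The diagonal of `T'^{2k}` is a sum of squares, and `T^{2k}` has diagonal
tending to `0` on `A` by injectivity.  No `lp` space, no spectral theory.
-/

set_option autoImplicit false
set_option linter.unusedSectionVars false

namespace Crest.Agent.NoFixedPrice.Rank

open MeasureTheory Filter Topology

/-! ### Finitely supported vectors -/

section Vectors

variable {I J Γ : Type*} [Fintype I] [Fintype J]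

/-- Finitely supported in the second variable (and `I` is finite). -/
def FS (u : I → Γ → ℝ) : Prop := ∀ a, (Function.support (u a)).Finite

/-- The inner product. -/
noncomputable def ip (u v : I → Γ → ℝ) : ℝ := ∑ a, ∑' h, u a h * v a h

/-- The squared norm. -/
noncomputable def nsq (u : I → Γ → ℝ) : ℝ := ip u u

omit [Fintype I] in
lemma FS.summable_mul {u : I → Γ → ℝ} (hu : FS u) (a : I) (v : I → Γ → ℝ) :
    Summable (fun h => u a h * v a h) := by
  apply summable_of_hasFiniteSupport
  refine (hu a).subset ?_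
  intro h hh
  simp only [Function.mem_support, ne_eq, mul_eq_zero, not_or] at hh ⊢
  exact hh.1

omit [Fintype I] in
lemma FS.summable_mul' {u : I → Γ → ℝ} (hu : FS u) (a : I) (v : I → Γ → ℝ) :
    Summable (fun h => v a h * u a h) := by
  simpa [mul_comm] using hu.summable_mul a v

omit [Fintype I] in
lemma FS.add {u v : I → Γ → ℝ} (hu : FS u) (hv : FS v) : FS (u + v) := by
  intro a
  refine ((hu a).union (hv a)).subset ?_
  intro h hh
  by_contra hc
  simp only [Set.mem_union, Function.mem_support, ne_eq, not_or, not_not] at hc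
  simp [Function.mem_support, hc.1, hc.2] at hh

omit [Fintype I] in
lemma FS.smul {u : I → Γ → ℝ} (hu : FS u) (r : ℝ) : FS (r • u) := by
  intro a
  refine (hu a).subset ?_
  intro h hh
  by_contra hc
  simp only [Function.mem_support, ne_eq, not_not] at hc
  simp [Function.mem_support, hc] at hh

omit [Fintype I] in
lemma FS.sub {u v : I → Γ → ℝ} (hu : FS u) (hv : FS v) : FS (u - v) := by
  have := hu.add (hv.smul (-1))
  have e : u + (-1 : ℝ) • v = u - v := by
    funext a h; simp [sub_eq_add_neg]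
  rwa [e] at this

omit [Fintype I] in
lemma FS.zero : FS (0 : I → Γ → ℝ) := by
  intro a
  simp [Function.support]

lemma ip_comm (u v : I → Γ → ℝ) : ip u v = ip v u := by
  unfold ip
  refine Finset.sum_congr rfl fun a _ => ?_
  exact tsum_congr fun h => mul_comm _ _

lemma ip_add_left {u u' : I → Γ → ℝ} (hu : FS u) (hu' : FS u') (v : I → Γ → ℝ) :
    ip (u + u') v = ip u v + ip u' v := by
  unfold ip
  rw [← Finset.sum_add_distrib]
  refine Finset.sum_congr rfl fun a _ => ?_
  rw [← (hu.summable_mul a v).tsum_add (hu'.summable_mul a v)]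
  refine tsum_congr fun h => ?_
  simp [add_mul]

lemma ip_add_right (u : I → Γ → ℝ) {v v' : I → Γ → ℝ} (hv : FS v) (hv' : FS v') :
    ip u (v + v') = ip u v + ip u v' := by
  rw [ip_comm, ip_add_left hv hv', ip_comm v, ip_comm v']

lemma ip_smul_left (r : ℝ) (u v : I → Γ → ℝ) : ip (r • u) v = r * ip u v := by
  unfold ip
  rw [Finset.mul_sum]
  refine Finset.sum_congr rfl fun a _ => ?_
  rw [← tsum_mul_left]
  refine tsum_congr fun h => ?_
  simp [mul_assoc]

lemma ip_smul_right (r : ℝ) (u v : I → Γ → ℝ) : ip u (r • v) = r * ip u v := by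
  rw [ip_comm, ip_smul_left, ip_comm]

lemma ip_sub_left {u u' : I → Γ → ℝ} (hu : FS u) (hu' : FS u') (v : I → Γ → ℝ) :
    ip (u - u') v = ip u v - ip u' v := by
  have e : u - u' = u + (-1 : ℝ) • u' := by
    funext a h; simp [sub_eq_add_neg]
  rw [e, ip_add_left hu (hu'.smul _), ip_smul_left]
  ring

lemma ip_sub_right (u : I → Γ → ℝ) {v v' : I → Γ → ℝ} (hv : FS v) (hv' : FS v') :
    ip u (v - v') = ip u v - ip u v' := by
  rw [ip_comm, ip_sub_left hv hv', ip_comm v, ip_comm v']

omit [Fintype I] in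
lemma FS.summable_sq {u : I → Γ → ℝ} (hu : FS u) (a : I) : Summable (fun h => (u a h) ^ 2) := by
  simpa [sq] using hu.summable_mul a u

lemma nsq_eq (u : I → Γ → ℝ) : nsq u = ∑ a, ∑' h, (u a h) ^ 2 := by
  unfold nsq ip
  refine Finset.sum_congr rfl fun a _ => ?_
  exact tsum_congr fun h => by ring

lemma nsq_nonneg (u : I → Γ → ℝ) : 0 ≤ nsq u := by
  rw [nsq_eq]
  exact Finset.sum_nonneg fun a _ => tsum_nonneg fun h => sq_nonneg _

lemma coord_sq_le {u : I → Γ → ℝ} (hu : FS u) (a : I) (h : Γ) : (u a h) ^ 2 ≤ nsq u := by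
  rw [nsq_eq]
  have h1 : (u a h) ^ 2 ≤ ∑' h, (u a h) ^ 2 :=
    (hu.summable_sq a).le_tsum h (fun j _ => sq_nonneg _)
  refine h1.trans ?_
  exact Finset.single_le_sum (f := fun a => ∑' h, (u a h) ^ 2)
    (fun a _ => tsum_nonneg fun h => sq_nonneg _) (Finset.mem_univ a)

lemma nsq_add_le {u v : I → Γ → ℝ} (hu : FS u) (hv : FS v) :
    nsq (u + v) ≤ 2 * nsq u + 2 * nsq v := by
  rw [nsq_eq, nsq_eq, nsq_eq, Finset.mul_sum, Finset.mul_sum, ← Finset.sum_add_distrib]
  refine Finset.sum_le_sum fun a _ => ?_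
  rw [← tsum_mul_left, ← tsum_mul_left,
    ← ((hu.summable_sq a).mul_left 2).tsum_add ((hv.summable_sq a).mul_left 2)]
  refine ((hu.add hv).summable_sq a).tsum_le_tsum (fun h => ?_)
    (((hu.summable_sq a).mul_left 2).add ((hv.summable_sq a).mul_left 2))
  simp only [Pi.add_apply]
  nlinarith [sq_nonneg (u a h - v a h)]

/-- Partial sums over finite sets are bounded by the squared norm. -/
lemma sum_sq_le {u : I → Γ → ℝ} (hu : FS u) (S : I → Finset Γ) :
    ∑ a, ∑ h ∈ S a, (u a h) ^ 2 ≤ nsq u := by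
  rw [nsq_eq]
  refine Finset.sum_le_sum fun a _ => ?_
  exact (hu.summable_sq a).sum_le_tsum _ (fun j _ => sq_nonneg _)

/-- The squared norm as a finite sum. -/
lemma nsq_eq_sum {u : I → Γ → ℝ} (hu : FS u) :
    nsq u = ∑ a, ∑ h ∈ (hu a).toFinset, (u a h) ^ 2 := by
  rw [nsq_eq]
  refine Finset.sum_congr rfl fun a _ => ?_
  refine tsum_eq_sum fun h hh => ?_
  simp only [Set.Finite.mem_toFinset, Function.mem_support, ne_eq, not_not] at hh
  simp [hh]

end Vectors

/-! ### Abstract adjoint pairs -/

section Abstract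

variable {I J Γ : Type*} [Fintype I] [Fintype J]

/-- A pair of bounded adjoint additive maps on finitely supported vectors. -/
structure AdjPair (P : (I → Γ → ℝ) → (J → Γ → ℝ)) (Q : (J → Γ → ℝ) → (I → Γ → ℝ)) (C : ℝ) :
    Prop where
  hC : 0 < C
  P_add : ∀ u v, P (u + v) = P u + P v
  P_smul : ∀ (r : ℝ) u, P (r • u) = r • P u
  Q_add : ∀ u v, Q (u + v) = Q u + Q v
  Q_smul : ∀ (r : ℝ) u, Q (r • u) = r • Q u
  P_FS : ∀ u, FS u → FS (P u)
  Q_FS : ∀ u, FS u → FS (Q u)
  adj : ∀ u g, FS u → FS g → ip (P u) g = ip u (Q g)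
  P_bd : ∀ u, FS u → nsq (P u) ≤ C * nsq u
  Q_bd : ∀ g, FS g → nsq (Q g) ≤ C * nsq g

lemma AdjPair.symm {P : (I → Γ → ℝ) → (J → Γ → ℝ)} {Q : (J → Γ → ℝ) → (I → Γ → ℝ)} {C : ℝ}
    (h : AdjPair P Q C) : AdjPair Q P C where
  hC := h.hC
  P_add := h.Q_add
  P_smul := h.Q_smul
  Q_add := h.P_add
  Q_smul := h.P_smul
  P_FS := h.Q_FS
  Q_FS := h.P_FS
  adj u g hu hg := by rw [ip_comm, ← h.adj g u hg hu, ip_comm]
  P_bd := h.Q_bd
  Q_bd := h.P_bd

variable {P : (I → Γ → ℝ) → (J → Γ → ℝ)} {Q : (J → Γ → ℝ) → (I → Γ → ℝ)} {C : ℝ}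

/-- The operator `1 - Q P / C`. -/
noncomputable def TT (P : (I → Γ → ℝ) → (J → Γ → ℝ)) (Q : (J → Γ → ℝ) → (I → Γ → ℝ)) (C : ℝ)
    (u : I → Γ → ℝ) : I → Γ → ℝ := u - (1 / C) • Q (P u)

lemma AdjPair.TT_FS (h : AdjPair P Q C) {u : I → Γ → ℝ} (hu : FS u) : FS (TT P Q C u) :=
  hu.sub ((h.Q_FS _ (h.P_FS _ hu)).smul _)

lemma AdjPair.iter_FS (h : AdjPair P Q C) {u : I → Γ → ℝ} (hu : FS u) (k : ℕ) :
    FS ((TT P Q C)^[k] u) := by
  induction k with
  | zero => simpa using hu
  | succ k ih =>
    rw [Function.iterate_succ_apply']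
    exact h.TT_FS ih

lemma AdjPair.TT_selfadj (h : AdjPair P Q C) {u v : I → Γ → ℝ} (hu : FS u) (hv : FS v) :
    ip (TT P Q C u) v = ip u (TT P Q C v) := by
  have hq : FS (Q (P u)) := h.Q_FS _ (h.P_FS _ hu)
  have hq' : FS (Q (P v)) := h.Q_FS _ (h.P_FS _ hv)
  unfold TT
  rw [ip_sub_left hu (hq.smul _), ip_sub_right u hv (hq'.smul _), ip_smul_left, ip_smul_right]
  have e1 : ip (Q (P u)) v = ip u (Q (P v)) := by
    rw [ip_comm, ← h.adj v (P u) hv (h.P_FS _ hu), ip_comm, h.adj u (P v) hu (h.P_FS _ hv)]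
  rw [e1]

lemma AdjPair.nsq_TT (h : AdjPair P Q C) {u : I → Γ → ℝ} (hu : FS u) :
    nsq (TT P Q C u) + nsq (P u) / C ≤ nsq u := by
  have hC := h.hC
  have hp : FS (P u) := h.P_FS _ hu
  have hq : FS (Q (P u)) := h.Q_FS _ hp
  have e : nsq (TT P Q C u) =
      nsq u - (2 / C) * nsq (P u) + (1 / C) ^ 2 * nsq (Q (P u)) := by
    unfold nsq TT
    rw [ip_sub_left hu (hq.smul _), ip_sub_right u hu (hq.smul _),
      ip_sub_right _ hu (hq.smul _), ip_smul_left, ip_smul_right, ip_smul_right, ip_smul_left]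
    have e1 : ip u (Q (P u)) = ip (P u) (P u) := (h.adj u (P u) hu hp).symm
    have e2 : ip (Q (P u)) u = ip (P u) (P u) := by rw [ip_comm, e1]
    rw [e1, e2]
    ring
  have hb := h.Q_bd _ hp
  rw [e]
  have h1 : (1 / C) ^ 2 * nsq (Q (P u)) ≤ (1 / C) ^ 2 * (C * nsq (P u)) :=
    mul_le_mul_of_nonneg_left hb (by positivity)
  have h2 : (1 / C) ^ 2 * (C * nsq (P u)) = nsq (P u) / C := by
    field_simp
  have h3 : (2 / C) * nsq (P u) = 2 * (nsq (P u) / C) := by ring
  rw [h2] at h1
  rw [h3]
  linarith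

lemma AdjPair.ip_iter (h : AdjPair P Q C) {u : I → Γ → ℝ} (hu : FS u) (p q : ℕ) :
    ip ((TT P Q C)^[p] u) ((TT P Q C)^[q] u) = ip ((TT P Q C)^[p + q] u) u := by
  induction q generalizing p with
  | zero => simp
  | succ q ih =>
    rw [Function.iterate_succ_apply', ← h.TT_selfadj (h.iter_FS hu p) (h.iter_FS hu q),
      ← Function.iterate_succ_apply' (TT P Q C), ih]
    congr 2
    omega

lemma AdjPair.TT_add (h : AdjPair P Q C) (u v : I → Γ → ℝ) :
    TT P Q C (u + v) = TT P Q C u + TT P Q C v := by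
  unfold TT
  rw [h.P_add, h.Q_add, smul_add]
  abel

lemma AdjPair.TT_smul (h : AdjPair P Q C) (r : ℝ) (u : I → Γ → ℝ) :
    TT P Q C (r • u) = r • TT P Q C u := by
  unfold TT
  rw [h.P_smul, h.Q_smul, smul_sub, smul_comm]

lemma AdjPair.iter_add (h : AdjPair P Q C) (k : ℕ) (u v : I → Γ → ℝ) :
    (TT P Q C)^[k] (u + v) = (TT P Q C)^[k] u + (TT P Q C)^[k] v := by
  induction k with
  | zero => rfl
  | succ k ih =>
    simp only [Function.iterate_succ_apply']
    rw [ih, h.TT_add]

lemma AdjPair.iter_smul (h : AdjPair P Q C) (k : ℕ) (r : ℝ) (u : I → Γ → ℝ) :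
    (TT P Q C)^[k] (r • u) = r • (TT P Q C)^[k] u := by
  induction k with
  | zero => rfl
  | succ k ih =>
    simp only [Function.iterate_succ_apply']
    rw [ih, h.TT_smul]

lemma AdjPair.intertwine (h : AdjPair P Q C) (u : I → Γ → ℝ) :
    P (TT P Q C u) = TT Q P C (P u) := by
  unfold TT
  have e : u - (1 / C) • Q (P u) = u + (-(1 / C)) • Q (P u) := by
    rw [neg_smul, sub_eq_add_neg]
  rw [e, h.P_add, h.P_smul, neg_smul, sub_eq_add_neg]

lemma AdjPair.iter_intertwine (h : AdjPair P Q C) (k : ℕ) (u : I → Γ → ℝ) :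
    P ((TT P Q C)^[k] u) = (TT Q P C)^[k] (P u) := by
  induction k with
  | zero => rfl
  | succ k ih =>
    simp only [Function.iterate_succ_apply']
    rw [h.intertwine, ih]

lemma AdjPair.nsq_iter_le (h : AdjPair P Q C) {u : I → Γ → ℝ} (hu : FS u) (k : ℕ) :
    nsq ((TT P Q C)^[k] u) ≤ nsq u := by
  induction k with
  | zero => exact le_rfl
  | succ k ih =>
    rw [Function.iterate_succ_apply']
    have h1 := h.nsq_TT (h.iter_FS hu k)
    have h2 : 0 ≤ nsq (P ((TT P Q C)^[k] u)) / C := div_nonneg (nsq_nonneg _) h.hC.le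
    linarith

/-- **Decay of the iterates.** -/
theorem AdjPair.tendsto_nsq_iter (h : AdjPair P Q C) {u : I → Γ → ℝ} (hu : FS u)
    (Z : I → Γ → Prop)
    (hZQ : ∀ g : J → Γ → ℝ, ∀ a k, ¬ Z a k → Q g a k = 0)
    (hZu : ∀ a k, ¬ Z a k → u a k = 0)
    (hcont : ∀ (v : ℕ → I → Γ → ℝ) (w : I → Γ → ℝ),
      (∀ a k, Tendsto (fun n => v n a k) atTop (𝓝 (w a k))) →
      ∀ b k, Tendsto (fun n => P (v n) b k) atTop (𝓝 (P w b k)))
    (hinj : ∀ w : I → Γ → ℝ, (∀ a k, ¬ Z a k → w a k = 0) → P w = 0 → w = 0) :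
    Tendsto (fun k => nsq ((TT P Q C)^[k] u)) atTop (𝓝 0) := by
  have hC := h.hC
  set v : ℕ → I → Γ → ℝ := fun k => (TT P Q C)^[k] u with hv
  have hvFS : ∀ k, FS (v k) := h.iter_FS hu
  set a : ℕ → ℝ := fun k => nsq (v k) with ha
  have hstep : ∀ k, a (k + 1) + nsq (P (v k)) / C ≤ a k := by
    intro k
    have := h.nsq_TT (hvFS k)
    simpa [ha, hv, Function.iterate_succ_apply'] using this
  have hanti : Antitone a := by
    apply antitone_nat_of_succ_le
    intro k
    have h1 := hstep k
    have h2 : 0 ≤ nsq (P (v k)) / C := div_nonneg (nsq_nonneg _) hC.le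
    linarith
  have ha0 : ∀ k, 0 ≤ a k := fun k => nsq_nonneg _
  obtain ⟨l, hl⟩ : ∃ l, Tendsto a atTop (𝓝 l) :=
    ⟨_, tendsto_atTop_ciInf hanti ⟨0, by rintro _ ⟨k, rfl⟩; exact ha0 k⟩⟩
  have hlk : ∀ k, l ≤ a k := fun k => hanti.le_of_tendsto hl k
  have hl0 : 0 ≤ l := ge_of_tendsto' hl ha0
  -- `P (v k) → 0`
  have hPv : Tendsto (fun k => nsq (P (v k))) atTop (𝓝 0) := by
    have h1 : Tendsto (fun k => C * (a k - a (k + 1))) atTop (𝓝 (C * (l - l))) :=
      (hl.sub (hl.comp (tendsto_add_atTop_nat 1))).const_mul C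
    rw [sub_self, mul_zero] at h1
    refine squeeze_zero (fun k => nsq_nonneg _) (fun k => ?_) h1
    have h2 := hstep k
    have h3 : nsq (P (v k)) / C ≤ a k - a (k + 1) := by linarith
    rw [div_le_iff₀ hC] at h3
    linarith
  -- the Cauchy estimate
  have hcau : ∀ p q, nsq (v (2 * p) - v (2 * q)) ≤ a (2 * p) + a (2 * q) - 2 * l := by
    intro p q
    have hp := hvFS (2 * p)
    have hq := hvFS (2 * q)
    have e : nsq (v (2 * p) - v (2 * q)) =
        a (2 * p) + a (2 * q) - 2 * ip (v (2 * p)) (v (2 * q)) := by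
      simp only [nsq, ha]
      rw [ip_sub_left hp hq, ip_sub_right _ hp hq, ip_sub_right _ hp hq, ip_comm (v (2 * q))]
      ring
    have e2 : ip (v (2 * p)) (v (2 * q)) = a (p + q) := by
      have h1 := h.ip_iter hu (2 * p) (2 * q)
      have h2 := h.ip_iter hu (p + q) (p + q)
      simp only [ha, nsq, hv]
      rw [h1, h2]
      congr 2
      omega
    rw [e, e2]
    have := hlk (p + q)
    linarith
  -- coordinates converge
  have hcoord : ∀ b k, ∃ w : ℝ, Tendsto (fun n => v (2 * n) b k) atTop (𝓝 w) := by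
    intro b k
    apply cauchySeq_tendsto_of_complete
    rw [Metric.cauchySeq_iff]
    intro ε hε
    have hl2 : Tendsto (fun n => a (2 * n)) atTop (𝓝 l) :=
      hl.comp (tendsto_id.const_mul_atTop' (by norm_num))
    have hev : ∀ᶠ n in atTop, a (2 * n) - l < ε ^ 2 / 2 := by
      have h1 : Tendsto (fun n => a (2 * n) - l) atTop (𝓝 0) := by
        simpa using hl2.sub_const l
      exact h1.eventually (gt_mem_nhds (by positivity))
    obtain ⟨N, hN⟩ := eventually_atTop.1 hev
    refine ⟨N, fun p hp q hq => ?_⟩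
    have h1 := hcau p q
    have h2 := coord_sq_le ((hvFS (2 * p)).sub (hvFS (2 * q))) b k
    have h3 := hN p hp
    have h4 := hN q hq
    simp only [Pi.sub_apply] at h2
    have h5 : (v (2 * p) b k - v (2 * q) b k) ^ 2 < ε ^ 2 := by linarith
    rw [Real.dist_eq]
    exact abs_lt_of_sq_lt_sq h5 hε.le
  choose w hw using hcoord
  -- the limit is killed by `P`
  have hPw : P w = 0 := by
    funext b k
    have h1 := hcont (fun n => v (2 * n)) w hw b k
    have h2 : Tendsto (fun n => P (v (2 * n)) b k) atTop (𝓝 0) := by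
      have h3 : Tendsto (fun n => nsq (P (v (2 * n)))) atTop (𝓝 0) :=
        hPv.comp (tendsto_id.const_mul_atTop' (by norm_num))
      rw [tendsto_zero_iff_abs_tendsto_zero]
      have h4 : Tendsto (fun n => Real.sqrt (nsq (P (v (2 * n))))) atTop (𝓝 0) := by
        simpa using h3.sqrt
      refine squeeze_zero (fun n => abs_nonneg _) (fun n => ?_) h4
      apply Real.le_sqrt_of_sq_le
      show |P (v (2 * n)) b k| ^ 2 ≤ _
      rw [sq_abs]
      exact coord_sq_le (h.P_FS _ (hvFS _)) b k
    exact tendsto_nhds_unique h1 h2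
  have hsupp : ∀ n b k, ¬ Z b k → v n b k = 0 := by
    intro n b k hz
    induction n with
    | zero => simpa [hv] using hZu b k hz
    | succ n ih =>
      simp only [hv, Function.iterate_succ_apply']
      simp only [hv] at ih
      simp [TT, ih, hZQ _ b k hz]
  have hw0 : w = 0 := by
    apply hinj w _ hPw
    intro b k hz
    have h1 := hw b k
    have h2 : (fun n => v (2 * n) b k) = fun _ => 0 := by
      funext n
      exact hsupp _ b k hz
    rw [h2] at h1
    exact tendsto_nhds_unique h1 tendsto_const_nhds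
  -- `l = 0`
  have hl_zero : l = 0 := by
    have key : a 0 ≤ a 0 - l ∨ True := Or.inr trivial
    clear key
    refine le_antisymm ?_ hl0
    -- fix `p = 0` is enough
    have hp := hvFS (2 * 0)
    have hfin : Tendsto (fun q => ∑ b, ∑ k ∈ (hp b).toFinset, (v (2 * 0) b k - v (2 * q) b k) ^ 2)
        atTop (𝓝 (∑ b, ∑ k ∈ (hp b).toFinset, (v (2 * 0) b k - w b k) ^ 2)) := by
      refine tendsto_finsetSum _ fun b _ => tendsto_finsetSum _ fun k _ => ?_
      exact ((tendsto_const_nhds).sub (hw b k)).pow 2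
    have hw0' : ∑ b, ∑ k ∈ (hp b).toFinset, (v (2 * 0) b k - w b k) ^ 2 = a (2 * 0) := by
      simp only [ha]
      rw [nsq_eq_sum hp]
      refine Finset.sum_congr rfl fun b _ => Finset.sum_congr rfl fun k _ => ?_
      simp [hw0]
    rw [hw0'] at hfin
    have hub : Tendsto (fun q => a (2 * 0) + a (2 * q) - 2 * l) atTop (𝓝 (a (2 * 0) + l - 2 * l)) := by
      have hl2 : Tendsto (fun n => a (2 * n)) atTop (𝓝 l) :=
        hl.comp (tendsto_id.const_mul_atTop' (by norm_num))
      exact (hl2.const_add _).sub_const _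
    have hle := le_of_tendsto_of_tendsto' hfin hub (fun q => ?_)
    · linarith
    · refine le_trans ?_ (hcau 0 q)
      have := sum_sq_le ((hvFS (2 * 0)).sub (hvFS (2 * q))) (fun b => (hp b).toFinset)
      simpa using this
  rw [← hl_zero]
  exact hl

end Abstract

/-! ### Finite matrices -/

section Matrices

variable {Γ X : Type*}

/-- An elementary term: from `(a, y)` to `(b, l • y)` with weight `w y`. -/
structure Elem (Γ X J I : Type*) where
  b : J
  a : I
  l : Γ
  w : X → ℝ

/-- A finite matrix from `I` to `J`. -/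
abbrev Mat (Γ X J I : Type*) := List (Elem Γ X J I)

variable [Group Γ] [MulAction Γ X]
variable {I J K : Type*} [DecidableEq I] [DecidableEq J] [DecidableEq K]

/-- Action of an elementary term. -/
def Elem.app (e : Elem Γ X J I) (x : X) (f : I → Γ → ℝ) : J → Γ → ℝ :=
  fun c h => if c = e.b then e.w ((e.l⁻¹ * h) • x) * f e.a (e.l⁻¹ * h) else 0

/-- Action of a matrix on functions on the orbit of `x`. -/
def app (M : Mat Γ X J I) (x : X) (f : I → Γ → ℝ) : J → Γ → ℝ :=
  fun c h => (M.map fun e => e.app x f c h).sum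

@[simp] lemma app_nil (x : X) (f : I → Γ → ℝ) : app ([] : Mat Γ X J I) x f = 0 := rfl

lemma app_cons (e : Elem Γ X J I) (M : Mat Γ X J I) (x : X) (f : I → Γ → ℝ) :
    app (e :: M) x f = e.app x f + app M x f := by
  funext c h
  simp [app]

lemma app_append (M N : Mat Γ X J I) (x : X) (f : I → Γ → ℝ) :
    app (M ++ N) x f = app M x f + app N x f := by
  funext c h
  simp [app]

lemma Elem.app_add (e : Elem Γ X J I) (x : X) (f g : I → Γ → ℝ) :
    e.app x (f + g) = e.app x f + e.app x g := by
  funext c h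
  by_cases hc : c = e.b <;> simp [Elem.app, hc, mul_add]

lemma Elem.app_smul (e : Elem Γ X J I) (x : X) (r : ℝ) (f : I → Γ → ℝ) :
    e.app x (r • f) = r • e.app x f := by
  funext c h
  by_cases hc : c = e.b <;> simp [Elem.app, hc]
  ring

lemma Elem.app_zero (e : Elem Γ X J I) (x : X) : e.app x (0 : I → Γ → ℝ) = 0 := by
  funext c h
  by_cases hc : c = e.b <;> simp [Elem.app, hc]

lemma app_add (M : Mat Γ X J I) (x : X) (f g : I → Γ → ℝ) :
    app M x (f + g) = app M x f + app M x g := by
  induction M with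
  | nil => simp
  | cons e M ih =>
    rw [app_cons, app_cons, app_cons, ih, e.app_add]
    abel

lemma app_smul (M : Mat Γ X J I) (x : X) (r : ℝ) (f : I → Γ → ℝ) :
    app M x (r • f) = r • app M x f := by
  induction M with
  | nil => simp
  | cons e M ih =>
    rw [app_cons, app_cons, ih, e.app_smul, smul_add]

lemma app_zero (M : Mat Γ X J I) (x : X) : app M x (0 : I → Γ → ℝ) = 0 := by
  induction M with
  | nil => simp
  | cons e M ih => rw [app_cons, ih, e.app_zero, add_zero]

/-- Composition of elementary terms. -/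
def Elem.comp (n : Elem Γ X K J) (m : Elem Γ X J I) : Elem Γ X K I :=
  ⟨n.b, m.a, n.l * m.l, fun y => (if n.a = m.b then 1 else 0) * (n.w (m.l • y) * m.w y)⟩

lemma Elem.app_comp (n : Elem Γ X K J) (m : Elem Γ X J I) (x : X) (f : I → Γ → ℝ) :
    (n.comp m).app x f = n.app x (m.app x f) := by
  funext c h
  simp only [Elem.app, Elem.comp]
  by_cases hc : c = n.b
  · simp only [hc, if_true]
    by_cases hab : n.a = m.b
    · have e1 : (n.l * m.l)⁻¹ * h = m.l⁻¹ * (n.l⁻¹ * h) := by group
      have e2 : m.l • ((m.l⁻¹ * (n.l⁻¹ * h)) • x) = (n.l⁻¹ * h) • x := by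
        rw [smul_smul]; congr 1; group
      simp [hab, e2, mul_assoc]
    · simp [hab]
  · simp [hc]

/-- Composition of matrices. -/
def comp (N : Mat Γ X K J) (M : Mat Γ X J I) : Mat Γ X K I :=
  N.flatMap fun n => M.map fun m => n.comp m

lemma app_map_comp (n : Elem Γ X K J) (M : Mat Γ X J I) (x : X) (f : I → Γ → ℝ) :
    app (M.map fun m => n.comp m) x f = n.app x (app M x f) := by
  induction M with
  | nil => simp [n.app_zero]
  | cons m M ih =>
    rw [List.map_cons, app_cons, app_cons, ih, n.app_comp, n.app_add]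

lemma app_comp (N : Mat Γ X K J) (M : Mat Γ X J I) (x : X) (f : I → Γ → ℝ) :
    app (comp N M) x f = app N x (app M x f) := by
  induction N with
  | nil => simp [comp]
  | cons n N ih =>
    have : comp (n :: N) M = (M.map fun m => n.comp m) ++ comp N M := by simp [comp]
    rw [this, app_append, app_map_comp, ih, app_cons]

/-- Adjoint of an elementary term. -/
def Elem.adj (e : Elem Γ X J I) : Elem Γ X I J :=
  ⟨e.a, e.b, e.l⁻¹, fun y => e.w (e.l⁻¹ • y)⟩

/-- Adjoint of a matrix. -/
def adj (M : Mat Γ X J I) : Mat Γ X I J := M.map Elem.adj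

lemma Elem.adj_app (e : Elem Γ X J I) (x : X) (g : J → Γ → ℝ) (c : I) (k : Γ) :
    e.adj.app x g c k = if c = e.a then e.w (k • x) * g e.b (e.l * k) else 0 := by
  simp only [Elem.app, Elem.adj, inv_inv]
  by_cases hc : c = e.a
  · have : e.l⁻¹ • (e.l * k) • x = k • x := by rw [smul_smul]; congr 1; group
    simp [hc, this]
  · simp [hc]

/-- Scalar multiple. -/
def Elem.smulE (r : ℝ) (e : Elem Γ X J I) : Elem Γ X J I := ⟨e.b, e.a, e.l, fun y => r * e.w y⟩

/-- Scalar multiple of a matrix. -/
def smulM (r : ℝ) (M : Mat Γ X J I) : Mat Γ X J I := M.map (Elem.smulE r)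

lemma app_smulM (r : ℝ) (M : Mat Γ X J I) (x : X) (f : I → Γ → ℝ) :
    app (smulM r M) x f = r • app M x f := by
  induction M with
  | nil => simp [smulM]
  | cons e M ih =>
    have h1 : smulM r (e :: M) = e.smulE r :: smulM r M := rfl
    rw [h1, app_cons, app_cons, ih, smul_add]
    congr 1
    funext c h
    by_cases hc : c = e.b <;> simp [Elem.app, Elem.smulE, hc, mul_assoc]

variable [Fintype I]

/-- The identity matrix. -/
noncomputable def idm (Γ X : Type*) (I : Type*) [Fintype I] [Group Γ] : Mat Γ X I I :=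
  Finset.univ.toList.map fun a => ⟨a, a, 1, fun _ => 1⟩

lemma app_idm (x : X) (f : I → Γ → ℝ) : app (idm Γ X I) x f = f := by
  funext c h
  simp only [app, idm, List.map_map]
  rw [Finset.sum_map_toList]
  simp [Elem.app]

/-- The matrix of `1 - M₂ M₁ / C`. -/
noncomputable def TM (M₂ : Mat Γ X I J) (M₁ : Mat Γ X J I) (C : ℝ) : Mat Γ X I I :=
  idm Γ X I ++ smulM (-(1 / C)) (comp M₂ M₁)

lemma app_TM (M₂ : Mat Γ X I J) (M₁ : Mat Γ X J I) (C : ℝ) (x : X) (f : I → Γ → ℝ) :
    app (TM M₂ M₁ C) x f = TT (app M₁ x) (app M₂ x) C f := by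
  unfold TM TT
  rw [app_append, app_idm, app_smulM, app_comp]
  funext c h
  simp [sub_eq_add_neg]

/-- Powers. -/
noncomputable def powM (T : Mat Γ X I I) : ℕ → Mat Γ X I I
  | 0 => idm Γ X I
  | k + 1 => comp (powM T k) T

lemma app_powM (T : Mat Γ X I I) (k : ℕ) (x : X) (f : I → Γ → ℝ) :
    app (powM T k) x f = (app T x)^[k] f := by
  induction k generalizing f with
  | zero => simp [powM, app_idm]
  | succ k ih =>
    rw [powM, app_comp, ih, Function.iterate_succ_apply]

/-- Support of a shifted vector. -/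
lemma Elem.app_FS (e : Elem Γ X J I) (x : X) {f : I → Γ → ℝ} (hf : FS f) :
    FS (e.app x f) := by
  intro c
  refine ((hf e.a).image (fun k => e.l * k)).subset ?_
  intro h hh
  simp only [Function.mem_support, ne_eq, Elem.app] at hh
  have h1 : f e.a (e.l⁻¹ * h) ≠ 0 := by
    intro h0
    apply hh
    simp [h0]
  exact ⟨e.l⁻¹ * h, h1, by simp⟩

lemma app_FS (M : Mat Γ X J I) (x : X) {f : I → Γ → ℝ} (hf : FS f) : FS (app M x f) := by
  induction M with
  | nil => simpa using FS.zero
  | cons e M ih =>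
    rw [app_cons]
    exact (e.app_FS x hf).add ih

variable [Fintype J]

/-- The adjoint identity for an elementary term. -/
lemma Elem.ip_app (e : Elem Γ X J I) (x : X) {f : I → Γ → ℝ} (hf : FS f) (g : J → Γ → ℝ) :
    ip (e.app x f) g = ip f (e.adj.app x g) := by
  unfold ip
  rw [Finset.sum_eq_single e.b, Finset.sum_eq_single e.a]
  · have hR : ∀ k, e.adj.app x g e.a k = e.w (k • x) * g e.b (e.l * k) := fun k => by
      simp [e.adj_app]
    have hL : ∀ h, e.app x f e.b h = e.w ((e.l⁻¹ * h) • x) * f e.a (e.l⁻¹ * h) := fun h => by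
      simp [Elem.app]
    simp only [hR, hL]
    rw [← (Equiv.mulLeft e.l).tsum_eq]
    refine tsum_congr fun k => ?_
    simp only [Equiv.coe_mulLeft, inv_mul_cancel_left]
    ring
  · intro c _ hc
    simp [e.adj_app, hc]
  · simp
  · intro c _ hc
    simp [Elem.app, hc]
  · simp

lemma ip_app (M : Mat Γ X J I) (x : X) {f : I → Γ → ℝ} (hf : FS f) {g : J → Γ → ℝ} (hg : FS g) :
    ip (app M x f) g = ip f (app (adj M) x g) := by
  induction M with
  | nil =>
    simp only [adj, List.map_nil, app_nil]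
    simp [ip]
  | cons e M ih =>
    have h1 : adj (e :: M) = e.adj :: adj M := rfl
    rw [h1, app_cons, app_cons, ip_add_left (e.app_FS x hf) (app_FS M x hf), ih,
      ip_add_right f (e.adj.app_FS x hg) (app_FS _ x hg), e.ip_app x hf]

/-- The norm bound for an elementary term. -/
lemma Elem.nsq_app_le (e : Elem Γ X J I) (x : X) {B : ℝ} (hB : ∀ y, |e.w y| ≤ B)
    {f : I → Γ → ℝ} (hf : FS f) : nsq (e.app x f) ≤ B ^ 2 * nsq f := by
  rw [nsq_eq, nsq_eq, Finset.sum_eq_single e.b]
  · have h1 : ∑' h, ((e.app x f) e.b h) ^ 2 = ∑' k, (e.w (k • x) * f e.a k) ^ 2 := by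
      rw [← (Equiv.mulLeft e.l).tsum_eq]
      refine tsum_congr fun k => ?_
      simp [Elem.app]
    rw [h1]
    have h2 : ∑' k, (e.w (k • x) * f e.a k) ^ 2 ≤ ∑' k, B ^ 2 * (f e.a k) ^ 2 := by
      refine Summable.tsum_le_tsum (fun k => ?_) ?_ ((hf.summable_sq e.a).mul_left _)
      · rw [mul_pow]
        refine mul_le_mul_of_nonneg_right ?_ (sq_nonneg _)
        exact sq_le_sq' (by linarith [(abs_le.1 (hB (k • x))).1]) (abs_le.1 (hB (k • x))).2
      · apply summable_of_hasFiniteSupport
        refine (hf e.a).subset ?_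
        intro k hk
        simp only [Function.mem_support, ne_eq] at hk ⊢
        intro h0
        apply hk
        simp [h0]
    refine h2.trans ?_
    rw [tsum_mul_left]
    refine mul_le_mul_of_nonneg_left ?_ (sq_nonneg _)
    exact Finset.single_le_sum (f := fun a => ∑' h, (f a h) ^ 2)
      (fun a _ => tsum_nonneg fun h => sq_nonneg _) (Finset.mem_univ e.a)
  · intro c _ hc
    simp [Elem.app, hc]
  · simp

/-- Weights are measurable and bounded. -/
def Good (M : Mat Γ X J I) [MeasurableSpace X] : Prop :=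
  ∀ e ∈ M, Measurable e.w ∧ ∃ B, ∀ y, |e.w y| ≤ B

lemma exists_bound [MeasurableSpace X] (M : Mat Γ X J I) (hM : Good M) :
    ∃ C, 0 < C ∧ ∀ x f, FS f → nsq (app M x f) ≤ C * nsq f := by
  induction M with
  | nil =>
    refine ⟨1, one_pos, fun x f _ => ?_⟩
    simp only [app_nil, one_mul]
    have : nsq (0 : J → Γ → ℝ) = 0 := by simp [nsq, ip]
    rw [this]
    exact nsq_nonneg _
  | cons e M ih =>
    obtain ⟨C, hC, hC'⟩ := ih (fun e' he' => hM e' (List.mem_cons_of_mem _ he'))
    obtain ⟨-, B, hB⟩ := hM e (by simp)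
    refine ⟨2 * B ^ 2 + 2 * C, by positivity, fun x f hf => ?_⟩
    rw [app_cons]
    have h1 := nsq_add_le (e.app_FS x hf) (app_FS M x hf)
    have h2 := e.nsq_app_le x hB hf
    have h3 := hC' x f hf
    nlinarith

/-! ### Good matrices -/

section GoodM

variable [MeasurableSpace X]

lemma Good.comp (hact : ∀ g : Γ, Measurable fun x : X => g • x) {N : Mat Γ X K J} {M : Mat Γ X J I}
    (hN : Good N) (hM : Good M) : Good (comp N M) := by
  intro e he
  simp only [Rank.comp, List.mem_flatMap, List.mem_map] at he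
  obtain ⟨n, hn, m, hm, rfl⟩ := he
  obtain ⟨hn1, Bn, hBn⟩ := hN n hn
  obtain ⟨hm1, Bm, hBm⟩ := hM m hm
  refine ⟨?_, Bn * Bm, fun y => ?_⟩
  · exact measurable_const.mul ((hn1.comp (hact m.l)).mul hm1)
  · simp only [Elem.comp]
    have h1 : |n.w (m.l • y)| ≤ Bn := hBn _
    have h2 : |m.w y| ≤ Bm := hBm _
    have h3 : 0 ≤ Bn := (abs_nonneg _).trans h1
    have h4 : |n.w (m.l • y) * m.w y| ≤ Bn * Bm := by
      rw [abs_mul]
      exact mul_le_mul h1 h2 (abs_nonneg _) h3
    by_cases hab : n.a = m.b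
    · simpa [hab] using h4
    · simp only [hab, if_false, zero_mul, abs_zero]
      exact (abs_nonneg _).trans h4

lemma Good.adj (hact : ∀ g : Γ, Measurable fun x : X => g • x) {M : Mat Γ X J I} (hM : Good M) :
    Good (adj M) := by
  intro e he
  simp only [Rank.adj, List.mem_map] at he
  obtain ⟨m, hm, rfl⟩ := he
  obtain ⟨hm1, B, hB⟩ := hM m hm
  exact ⟨hm1.comp (hact _), B, fun y => hB _⟩

lemma Good.smulM (r : ℝ) {M : Mat Γ X J I} (hM : Good M) : Good (smulM r M) := by
  intro e he
  simp only [Rank.smulM, List.mem_map] at he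
  obtain ⟨m, hm, rfl⟩ := he
  obtain ⟨hm1, B, hB⟩ := hM m hm
  refine ⟨measurable_const.mul hm1, |r| * B, fun y => ?_⟩
  simp only [Elem.smulE, abs_mul]
  exact mul_le_mul_of_nonneg_left (hB y) (abs_nonneg _)

lemma Good.idm : Good (idm Γ X I) := by
  intro e he
  simp only [Rank.idm, List.mem_map] at he
  obtain ⟨a, -, rfl⟩ := he
  exact ⟨measurable_const, 1, fun y => by simp⟩

lemma Good.append {M N : Mat Γ X J I} (hM : Good M) (hN : Good N) : Good (M ++ N) := by
  intro e he
  rcases List.mem_append.1 he with h | h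
  · exact hM e h
  · exact hN e h

lemma Good.TM (hact : ∀ g : Γ, Measurable fun x : X => g • x) {M₂ : Mat Γ X I J} {M₁ : Mat Γ X J I}
    (h₂ : Good M₂) (h₁ : Good M₁) (C : ℝ) : Good (TM M₂ M₁ C) :=
  Good.idm.append ((Good.comp hact h₂ h₁).smulM _)

lemma Good.powM (hact : ∀ g : Γ, Measurable fun x : X => g • x) {T : Mat Γ X I I} (hT : Good T)
    (k : ℕ) : Good (powM T k) := by
  induction k with
  | zero => exact Good.idm
  | succ k ih => exact Good.comp hact ih hT

end GoodM

/-! ### The trace -/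

section Trace

variable [MeasurableSpace X] (μ : Measure X) [IsProbabilityMeasure μ]

open Classical in
/-- The basis vectors. -/
noncomputable def dlt (a : I) (h : Γ) : I → Γ → ℝ := fun c k => if c = a ∧ k = h then 1 else 0

lemma dlt_FS (a : I) (h : Γ) : FS (dlt a h) := by
  intro c
  refine (Set.finite_singleton h).subset ?_
  intro k hk
  simp only [Function.mem_support, dlt, ne_eq, ite_eq_right_iff, one_ne_zero, imp_false, not_not] at hk
  exact hk.2

lemma ip_dlt (u : I → Γ → ℝ) (a : I) (h : Γ) : ip u (dlt a h) = u a h := by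
  unfold ip
  rw [Finset.sum_eq_single a]
  · rw [tsum_eq_single h]
    · simp [dlt]
    · intro k hk
      simp [dlt, hk]
  · intro c _ hc
    simp [dlt, hc]
  · simp

lemma nsq_dlt (a : I) (h : Γ) : nsq (dlt a h) = 1 := by
  unfold nsq
  rw [ip_dlt]
  simp [dlt]

/-- The trace of a matrix, through its action. -/
noncomputable def tr (M : Mat Γ X I I) : ℝ := ∑ a, ∫ x, app M x (dlt a 1) a 1 ∂μ

lemma tr_congr {M M' : Mat Γ X I I} (h : ∀ x f, app M x f = app M' x f) : tr μ M = tr μ M' := by
  unfold tr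
  simp only [h]

open Classical in
/-- The diagonal of an elementary term. -/
lemma Elem.diag (e : Elem Γ X I I) (a : I) (x : X) :
    e.app x (dlt a 1) a 1 = if a = e.b ∧ e.a = e.b ∧ e.l = 1 then e.w x else 0 := by
  simp only [Elem.app, dlt, mul_one]
  by_cases h1 : a = e.b
  · subst h1
    by_cases h2 : e.a = e.b
    · by_cases h3 : e.l = 1
      · simp [h2, h3]
      · have : ¬ e.l⁻¹ = 1 := by simpa using h3
        simp [h3, this]
    · simp [h2]
  · simp [h1]

open Classical in
/-- Trace of an elementary term. -/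
noncomputable def Elem.tr1 (e : Elem Γ X I I) : ℝ := if e.b = e.a ∧ e.l = 1 then ∫ x, e.w x ∂μ else 0

lemma integrable_of_good {w : X → ℝ} (h1 : Measurable w) (h2 : ∃ B, ∀ y, |w y| ≤ B) :
    Integrable w μ := by
  obtain ⟨B, hB⟩ := h2
  exact ⟨h1.aestronglyMeasurable, HasFiniteIntegral.of_bounded (C := B)
    (ae_of_all _ fun x => by simpa using hB x)⟩

lemma diag_integrable {M : Mat Γ X I I} (hM : Good M) (a : I) :
    Integrable (fun x => app M x (dlt a 1) a 1) μ := by
  induction M with
  | nil => simp [app]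
  | cons e M ih =>
    have h1 : (fun x => app (e :: M) x (dlt a 1) a 1) =
        (fun x => e.app x (dlt a 1) a 1) + (fun x => app M x (dlt a 1) a 1) := by
      funext x
      rw [app_cons]
      rfl
    rw [h1]
    refine Integrable.add ?_ (ih fun e' he' => hM e' (List.mem_cons_of_mem _ he'))
    obtain ⟨h2, h3⟩ := hM e (by simp)
    simp only [Elem.diag]
    by_cases hc : a = e.b ∧ e.a = e.b ∧ e.l = 1
    · simp only [hc, and_self, if_true]
      exact integrable_of_good μ h2 h3
    · simp [hc]

lemma tr_cons {e : Elem Γ X I I} {M : Mat Γ X I I} (he : Good [e]) (hM : Good M) :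
    tr μ (e :: M) = e.tr1 μ + tr μ M := by
  unfold tr
  have h1 : ∀ a, ∫ x, app (e :: M) x (dlt a 1) a 1 ∂μ =
      ∫ x, e.app x (dlt a 1) a 1 ∂μ + ∫ x, app M x (dlt a 1) a 1 ∂μ := by
    intro a
    have h2 : Integrable (fun x => e.app x (dlt a 1) a 1) μ := by
      simpa [app] using diag_integrable μ he a
    have h3 := diag_integrable μ hM a
    rw [← integral_add h2 h3]
    refine integral_congr_ae (ae_of_all _ fun x => ?_)
    simp only [app_cons]
    rfl
  simp only [h1]
  rw [Finset.sum_add_distrib]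
  congr 1
  rw [Finset.sum_eq_single e.b]
  · simp only [Elem.diag, Elem.tr1, true_and]
    by_cases hc : e.a = e.b ∧ e.l = 1
    · simp [hc]
    · have hc' : ¬ (e.b = e.a ∧ e.l = 1) := fun h => hc ⟨h.1.symm, h.2⟩
      simp [hc, hc']
  · intro c _ hc
    simp [Elem.diag, hc]
  · simp

lemma tr_eq_sum {M : Mat Γ X I I} (hM : Good M) : tr μ M = (M.map (Elem.tr1 μ)).sum := by
  induction M with
  | nil => simp [tr]
  | cons e M ih =>
    have hM' : Good M := fun e' he' => hM e' (List.mem_cons_of_mem _ he')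
    have he : Good [e] := fun e' he' => hM e' (by simp at he'; simp [he'])
    rw [tr_cons μ he hM', ih hM']
    simp

lemma list_sum_swap {α β : Type*} (N : List α) (M : List β) (F : α → β → ℝ) :
    (N.map fun n => (M.map fun m => F n m).sum).sum =
      (M.map fun m => (N.map fun n => F n m).sum).sum := by
  induction N with
  | nil => simp
  | cons n N ih =>
    simp only [List.map_cons, List.sum_cons, ih]
    rw [← List.sum_map_add]

lemma comp_cons (n : Elem Γ X I J) (N : Mat Γ X I J) (M : Mat Γ X J I) :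
    comp (n :: N) M = (M.map fun m => n.comp m) ++ comp N M := by
  simp [comp]

lemma comp_map_tr1 (N : Mat Γ X I J) (M : Mat Γ X J I) :
    ((comp N M).map (Elem.tr1 μ)).sum =
      (N.map fun n => (M.map fun m => (n.comp m).tr1 μ).sum).sum := by
  induction N with
  | nil => simp [comp]
  | cons n N ih =>
    rw [comp_cons, List.map_append, List.sum_append, ih, List.map_map, List.map_cons, List.sum_cons]
    rfl

lemma comp_tr_sum {N : Mat Γ X I J} {M : Mat Γ X J I}
    (hG : Good (comp N M)) :
    tr μ (comp N M) = (N.map fun n => (M.map fun m => (n.comp m).tr1 μ).sum).sum := by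
  rw [tr_eq_sum μ hG, comp_map_tr1]

lemma tr1_comp_comm (hm : ∀ g : Γ, MeasurePreserving (fun x : X => g • x) μ μ)
    (n : Elem Γ X I J) (m : Elem Γ X J I) (hn : Measurable n.w) (hm' : Measurable m.w) :
    (n.comp m).tr1 μ = (m.comp n).tr1 μ := by
  simp only [Elem.tr1, Elem.comp]
  by_cases h1 : n.l * m.l = 1
  · have h1' : m.l * n.l = 1 := by
      have : n.l = m.l⁻¹ := eq_inv_of_mul_eq_one_left h1
      rw [this]; simp
    simp only [h1, h1', and_true]
    by_cases h2 : n.b = m.a
    · by_cases h3 : n.a = m.b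
      · have h2' : m.b = n.a := h3.symm
        rw [if_pos h2, if_pos h2', if_pos h3, if_pos h2.symm]
        simp only [one_mul]
        have hF : Measurable fun z => m.w (n.l • z) * n.w z :=
          (hm'.comp (hm n.l).measurable).mul hn
        have key := integral_map (μ := μ) (φ := fun x : X => m.l • x) (hm m.l).aemeasurable
          (f := fun z => m.w (n.l • z) * n.w z)
          (hF.aestronglyMeasurable)
        rw [(hm m.l).map_eq] at key
        rw [key]
        refine integral_congr_ae (ae_of_all _ fun y => ?_)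
        have : n.l • m.l • y = y := by rw [smul_smul, h1, one_smul]
        simp only [this]
        ring
      · have h3' : ¬ m.b = n.a := fun h => h3 h.symm
        simp [h2, h3, h3']
    · have h2' : ¬ m.a = n.b := fun h => h2 h.symm
      by_cases h3 : n.a = m.b
      · have h3' : m.b = n.a := h3.symm
        simp [h2, h2', h3']
      · have h3' : ¬ m.b = n.a := fun h => h3 h.symm
        simp [h2, h3']
  · have h1' : ¬ m.l * n.l = 1 := by
      intro h
      apply h1
      have : m.l = n.l⁻¹ := eq_inv_of_mul_eq_one_left h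
      rw [this]; simp
    simp [h1, h1']

/-- **The trace property.** -/
lemma tr_comp_comm (hm : ∀ g : Γ, MeasurePreserving (fun x : X => g • x) μ μ)
    {N : Mat Γ X I J} {M : Mat Γ X J I} (hN : Good N) (hM : Good M) :
    tr μ (comp N M) = tr μ (comp M N) := by
  have hact : ∀ g : Γ, Measurable fun x : X => g • x := fun g => (hm g).measurable
  rw [comp_tr_sum μ (Good.comp hact hN hM), comp_tr_sum μ (Good.comp hact hM hN), list_sum_swap]
  congr 1
  refine List.map_congr_left fun m hm1 => ?_
  congr 1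
  refine List.map_congr_left fun n hn1 => ?_
  exact tr1_comp_comm μ hm n m (hN n hn1).1 (hM m hm1).1

lemma app_coord_tendsto (M : Mat Γ X J I) (x : X) (v : ℕ → I → Γ → ℝ) (w : I → Γ → ℝ)
    (hv : ∀ a k, Tendsto (fun n => v n a k) atTop (𝓝 (w a k))) (b : J) (k : Γ) :
    Tendsto (fun n => app M x (v n) b k) atTop (𝓝 (app M x w b k)) := by
  induction M with
  | nil => simp
  | cons e M ih =>
    simp only [app_cons, Pi.add_apply]
    refine Tendsto.add ?_ ih
    simp only [Elem.app]
    by_cases hb : b = e.b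
    · simp only [hb, if_true]
      exact (hv e.a _).const_mul _
    · simp [hb]

/-- The pair of operators of a good matrix. -/
lemma adjPair_of_good (Ω : Mat Γ X J I) {C : ℝ} (hC : 0 < C)
    (h1 : ∀ x f, FS f → nsq (app Ω x f) ≤ C * nsq f)
    (h2 : ∀ x f, FS f → nsq (app (adj Ω) x f) ≤ C * nsq f) (x : X) :
    AdjPair (app Ω x) (app (adj Ω) x) C where
  hC := hC
  P_add u v := app_add Ω x u v
  P_smul r u := app_smul Ω x r u
  Q_add u v := app_add _ x u v
  Q_smul r u := app_smul _ x r u
  P_FS u hu := app_FS Ω x hu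
  Q_FS u hu := app_FS _ x hu
  adj u g hu hg := ip_app Ω x hu hg
  P_bd u hu := h1 x u hu
  Q_bd g hg := h2 x g hg

lemma tr_idm : tr μ (idm Γ X I) = (Fintype.card I : ℝ) := by
  unfold tr
  simp only [app_idm]
  simp [dlt]

/-- **The rank lemma.** -/
theorem rank_le (hm : ∀ g : Γ, MeasurePreserving (fun x : X => g • x) μ μ)
    (Ω : Mat Γ X J I) (hΩ : Good Ω) (A : I → Set X) (B : J → Set X)
    (hAm : ∀ a, MeasurableSet (A a)) (hBm : ∀ b, MeasurableSet (B b))
    (hA : ∀ e ∈ Ω, ∀ y, y ∉ A e.a → e.w y = 0)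
    (hB : ∀ e ∈ Ω, ∀ y, e.l • y ∉ B e.b → e.w y = 0)
    (hinj : ∀ᵐ x ∂μ, ∀ f : I → Γ → ℝ, (∀ a h, h • x ∉ A a → f a h = 0) → app Ω x f = 0 → f = 0) :
    ∑ a, μ.real (A a) ≤ ∑ b, μ.real (B b) := by
  classical
  have hact : ∀ g : Γ, Measurable fun x : X => g • x := fun g => (hm g).measurable
  have hΩ' : Good (adj Ω) := Good.adj hact hΩ
  obtain ⟨C₁, hC₁, hb₁⟩ := exists_bound Ω hΩ
  obtain ⟨C₂, hC₂, hb₂⟩ := exists_bound (adj Ω) hΩ'
  set C := max C₁ C₂ with hCdef
  have hC : 0 < C := lt_max_of_lt_left hC₁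
  have hb₁' : ∀ x f, FS f → nsq (app Ω x f) ≤ C * nsq f := fun x f hf =>
    (hb₁ x f hf).trans (mul_le_mul_of_nonneg_right (le_max_left _ _) (nsq_nonneg _))
  have hb₂' : ∀ x f, FS f → nsq (app (adj Ω) x f) ≤ C * nsq f := fun x f hf =>
    (hb₂ x f hf).trans (mul_le_mul_of_nonneg_right (le_max_right _ _) (nsq_nonneg _))
  have hP := adjPair_of_good Ω hC hb₁' hb₂'
  set T : Mat Γ X I I := TM (adj Ω) Ω C with hT
  set T' : Mat Γ X J J := TM Ω (adj Ω) C with hT'
  have hTG : Good T := Good.TM hact hΩ' hΩ C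
  have hT'G : Good T' := Good.TM hact hΩ hΩ' C
  have hTapp : ∀ x f, app T x f = TT (app Ω x) (app (adj Ω) x) C f := fun x f => app_TM _ _ _ x f
  have hT'app : ∀ x f, app T' x f = TT (app (adj Ω) x) (app Ω x) C f := fun x f => app_TM _ _ _ x f
  have hTpow : ∀ k x f, app (powM T k) x f = (TT (app Ω x) (app (adj Ω) x) C)^[k] f := by
    intro k x f
    rw [app_powM]
    have : app T x = TT (app Ω x) (app (adj Ω) x) C := funext (hTapp x)
    rw [this]
  have hT'pow : ∀ k x f, app (powM T' k) x f = (TT (app (adj Ω) x) (app Ω x) C)^[k] f := by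
    intro k x f
    rw [app_powM]
    have : app T' x = TT (app (adj Ω) x) (app Ω x) C := funext (hT'app x)
    rw [this]
  have hTkG := Good.powM hact hTG
  have hT'kG := Good.powM hact hT'G
  -- one step of the trace identity
  have hstep : ∀ k, tr μ (powM T (k + 1)) - tr μ (powM T k) =
      tr μ (powM T' (k + 1)) - tr μ (powM T' k) := by
    intro k
    set N : Mat Γ X I J := comp (powM T k) (adj Ω) with hN
    have hNG : Good N := Good.comp hact (hTkG k) hΩ'
    set R : Mat Γ X I I := comp N Ω with hR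
    set R' : Mat Γ X J J := comp (comp (powM T' k) Ω) (adj Ω) with hR'
    have hRG : Good R := Good.comp hact hNG hΩ
    have hR'G : Good R' := Good.comp hact (Good.comp hact (hT'kG k) hΩ) hΩ'
    have hRapp : ∀ x f, app R x f =
        (TT (app Ω x) (app (adj Ω) x) C)^[k] (app (adj Ω) x (app Ω x f)) := by
      intro x f
      simp only [hR, hN, app_comp, hTpow]
    have hR'app : ∀ x f, app R' x f =
        (TT (app (adj Ω) x) (app Ω x) C)^[k] (app Ω x (app (adj Ω) x f)) := by
      intro x f
      simp only [hR', app_comp, hT'pow]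
    have e1 : tr μ (powM T (k + 1)) = tr μ (powM T k) - (1 / C) * tr μ R := by
      unfold tr
      rw [Finset.mul_sum, ← Finset.sum_sub_distrib]
      refine Finset.sum_congr rfl fun a _ => ?_
      rw [← integral_const_mul, ← integral_sub (diag_integrable μ (hTkG k) a)
        ((diag_integrable μ hRG a).const_mul _)]
      refine integral_congr_ae (ae_of_all _ fun x => ?_)
      have h1 : app (powM T (k + 1)) x (dlt a 1) =
          app (powM T k) x (dlt a 1) + (-(1 / C)) • app R x (dlt a 1) := by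
        rw [hTpow, hTpow, hRapp, Function.iterate_succ_apply]
        have e : TT (app Ω x) (app (adj Ω) x) C (dlt a 1) =
            dlt a 1 + (-(1 / C)) • app (adj Ω) x (app Ω x (dlt a 1)) := by
          unfold TT
          rw [neg_smul, sub_eq_add_neg]
        rw [e, (hP x).iter_add, (hP x).iter_smul]
      simp only [h1, Pi.add_apply, Pi.smul_apply, smul_eq_mul]
      ring
    have e2 : tr μ (powM T' (k + 1)) = tr μ (powM T' k) - (1 / C) * tr μ R' := by
      unfold tr
      rw [Finset.mul_sum, ← Finset.sum_sub_distrib]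
      refine Finset.sum_congr rfl fun a _ => ?_
      rw [← integral_const_mul, ← integral_sub (diag_integrable μ (hT'kG k) a)
        ((diag_integrable μ hR'G a).const_mul _)]
      refine integral_congr_ae (ae_of_all _ fun x => ?_)
      have h1 : app (powM T' (k + 1)) x (dlt a 1) =
          app (powM T' k) x (dlt a 1) + (-(1 / C)) • app R' x (dlt a 1) := by
        rw [hT'pow, hT'pow, hR'app, Function.iterate_succ_apply]
        have e : TT (app (adj Ω) x) (app Ω x) C (dlt a 1) =
            dlt a 1 + (-(1 / C)) • app Ω x (app (adj Ω) x (dlt a 1)) := by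
          unfold TT
          rw [neg_smul, sub_eq_add_neg]
        rw [e, (hP x).symm.iter_add, (hP x).symm.iter_smul]
      simp only [h1, Pi.add_apply, Pi.smul_apply, smul_eq_mul]
      ring
    have e3 : tr μ R = tr μ R' := by
      rw [hR, tr_comp_comm μ hm hNG hΩ]
      refine tr_congr μ fun x f => ?_
      rw [app_comp, hR'app, hN, app_comp, hTpow, (hP x).iter_intertwine]
    rw [e1, e2, e3]
    ring
  -- the constant difference
  have hdiff : ∀ k, tr μ (powM T k) - Fintype.card I = tr μ (powM T' k) - Fintype.card J := by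
    intro k
    induction k with
    | zero =>
      have h1 : tr μ (powM T 0) = (Fintype.card I : ℝ) := tr_idm μ
      have h2 : tr μ (powM T' 0) = (Fintype.card J : ℝ) := tr_idm μ
      rw [h1, h2]
      ring
    | succ k ih =>
      have := hstep k
      linarith
  -- even powers: diagonal = squared norm
  have hdiagT : ∀ k a x, app (powM T (2 * k)) x (dlt a 1) a 1 =
      nsq ((TT (app Ω x) (app (adj Ω) x) C)^[k] (dlt a 1)) := by
    intro k a x
    rw [hTpow]
    have h1 := (hP x).ip_iter (dlt_FS a (1 : Γ)) k k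
    have h2 : 2 * k = k + k := by ring
    rw [h2, nsq, h1, ip_dlt]
  have hdiagT' : ∀ k b x, app (powM T' (2 * k)) x (dlt b 1) b 1 =
      nsq ((TT (app (adj Ω) x) (app Ω x) C)^[k] (dlt b 1)) := by
    intro k b x
    rw [hT'pow]
    have h1 := (hP x).symm.ip_iter (dlt_FS b (1 : Γ)) k k
    have h2 : 2 * k = k + k := by ring
    rw [h2, nsq, h1, ip_dlt]
  -- off `B` the diagonal is one
  have hQ0 : ∀ b y, y ∉ B b → app (adj Ω) y (dlt b 1) = 0 := by
    intro b y hy
    have key : ∀ M : Mat Γ X J I, (∀ e ∈ M, ∀ y, e.l • y ∉ B e.b → e.w y = 0) →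
        app (adj M) y (dlt b 1) = 0 := by
      intro M
      induction M with
      | nil => intro _; simp [adj]
      | cons e M ih =>
        intro hM
        have h1 : adj (e :: M) = e.adj :: adj M := rfl
        rw [h1, app_cons, ih fun e' he' => hM e' (List.mem_cons_of_mem _ he')]
        funext c k
        simp only [Pi.add_apply, Pi.zero_apply, add_zero, e.adj_app]
        by_cases hc : c = e.a
        · simp only [hc, if_true]
          by_cases hd : e.b = b ∧ e.l * k = 1
          · have hk : e.l • k • y = y := by rw [smul_smul, hd.2, one_smul]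
            have : e.w (k • y) = 0 := by
              apply hM e (by simp)
              rw [hk, hd.1]
              exact hy
            simp [this]
          · simp [dlt, hd]
        · simp [hc]
    exact key Ω hB
  have hP0 : ∀ a x, x ∉ A a → app Ω x (dlt a 1) = 0 := by
    intro a x hx
    have key : ∀ M : Mat Γ X J I, (∀ e ∈ M, ∀ y, y ∉ A e.a → e.w y = 0) →
        app M x (dlt a 1) = 0 := by
      intro M
      induction M with
      | nil => intro _; simp
      | cons e M ih =>
        intro hM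
        rw [app_cons, ih fun e' he' => hM e' (List.mem_cons_of_mem _ he')]
        funext c k
        simp only [Pi.add_apply, Pi.zero_apply, add_zero, Elem.app]
        by_cases hc : c = e.b
        · simp only [hc, if_true]
          by_cases hd : e.a = a ∧ e.l⁻¹ * k = 1
          · have : e.w ((e.l⁻¹ * k) • x) = 0 := by
              apply hM e (by simp)
              rw [hd.2, one_smul, hd.1]
              exact hx
            simp [this]
          · simp [dlt, hd]
        · simp [hc]
    exact key Ω hA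
  -- bound on the `J` side
  have hJ : ∀ k, (Fintype.card J : ℝ) - tr μ (powM T' (2 * k)) ≤ ∑ b, μ.real (B b) := by
    intro k
    have h1 : ∀ b, 1 - μ.real (B b) ≤ ∫ y, app (powM T' (2 * k)) y (dlt b 1) b 1 ∂μ := by
      intro b
      have h2 : ∫ y, (B b)ᶜ.indicator (fun _ => (1 : ℝ)) y ∂μ = 1 - μ.real (B b) := by
        rw [integral_indicator (hBm b).compl, setIntegral_const, smul_eq_mul, mul_one,
          measureReal_compl (hBm b)]
        simp
      rw [← h2]
      refine integral_mono ((integrable_const (1 : ℝ)).indicator (hBm b).compl)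
        (diag_integrable μ (hT'kG _) b) (fun y => ?_)
      by_cases hy : y ∈ B b
      · simp only [Set.indicator_of_notMem (Set.notMem_compl_iff.2 hy)]
        rw [hdiagT']
        exact nsq_nonneg _
      · simp only [Set.indicator_of_mem (Set.mem_compl hy)]
        rw [hT'pow]
        have hfix : TT (app (adj Ω) y) (app Ω y) C (dlt b 1) = dlt b 1 := by
          unfold TT
          rw [hQ0 b y hy, app_zero (M := Ω)]
          simp
        rw [Function.iterate_fixed hfix]
        simp [dlt]
    have h3 : (Fintype.card J : ℝ) - ∑ b, μ.real (B b) ≤ tr μ (powM T' (2 * k)) := by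
      unfold tr
      have h4 : (Fintype.card J : ℝ) - ∑ b, μ.real (B b) = ∑ b, (1 - μ.real (B b)) := by
        rw [Finset.sum_sub_distrib]
        simp
      rw [h4]
      exact Finset.sum_le_sum fun b _ => h1 b
    linarith
  -- limit on the `I` side
  have hIlim : ∀ a, Tendsto (fun k => ∫ x, app (powM T (2 * k)) x (dlt a 1) a 1 ∂μ) atTop
      (𝓝 (1 - μ.real (A a))) := by
    intro a
    have h2 : ∫ y, (A a)ᶜ.indicator (fun _ => (1 : ℝ)) y ∂μ = 1 - μ.real (A a) := by
      rw [integral_indicator (hAm a).compl, setIntegral_const, smul_eq_mul, mul_one,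
        measureReal_compl (hAm a)]
      simp
    rw [← h2]
    refine tendsto_integral_of_dominated_convergence (fun _ => (1 : ℝ))
      (fun k => (diag_integrable μ (hTkG _) a).aestronglyMeasurable) (integrable_const _)
      (fun k => ae_of_all _ fun x => ?_) ?_
    · rw [hdiagT]
      have h3 := (hP x).nsq_iter_le (dlt_FS a (1 : Γ)) k
      rw [nsq_dlt] at h3
      rw [Real.norm_of_nonneg (nsq_nonneg _)]
      exact h3
    · filter_upwards [hinj] with x hx
      by_cases hxa : x ∈ A a
      · rw [Set.indicator_of_notMem (Set.notMem_compl_iff.2 hxa)]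
        simp only [hdiagT]
        refine (hP x).tendsto_nsq_iter (dlt_FS a (1 : Γ)) (fun c k => k • x ∈ A c) ?_ ?_ ?_ ?_
        · intro g c k hz
          have key : ∀ M : Mat Γ X J I, (∀ e ∈ M, ∀ y, y ∉ A e.a → e.w y = 0) →
              app (adj M) x g c k = 0 := by
            intro M
            induction M with
            | nil => intro _; simp [adj]
            | cons e M ih =>
              intro hM
              have h1 : adj (e :: M) = e.adj :: adj M := rfl
              rw [h1, app_cons, Pi.add_apply, Pi.add_apply,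
                ih fun e' he' => hM e' (List.mem_cons_of_mem _ he'), e.adj_app]
              by_cases hc : c = e.a
              · subst hc
                have : e.w (k • x) = 0 := hM e (by simp) _ hz
                simp [this]
              · simp [hc]
          exact key Ω hA
        · intro c k hz
          by_cases hd : c = a ∧ k = 1
          · exfalso
            apply hz
            rw [hd.1, hd.2, one_smul]
            exact hxa
          · simp [dlt, hd]
        · exact fun v w hv b k => app_coord_tendsto Ω x v w hv b k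
        · exact fun w h1 h2 => hx w h1 h2
      · rw [Set.indicator_of_mem (Set.mem_compl hxa)]
        have hfix : TT (app Ω x) (app (adj Ω) x) C (dlt a 1) = dlt a 1 := by
          unfold TT
          rw [hP0 a x hxa, app_zero]
          simp
        have : ∀ k, app (powM T (2 * k)) x (dlt a 1) a 1 = 1 := by
          intro k
          rw [hTpow, Function.iterate_fixed hfix]
          simp [dlt]
        simp only [this]
        exact tendsto_const_nhds
  have hsum : Tendsto (fun k => (Fintype.card I : ℝ) - tr μ (powM T (2 * k))) atTop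
      (𝓝 (∑ a, μ.real (A a))) := by
    have h1 : Tendsto (fun k => tr μ (powM T (2 * k))) atTop (𝓝 (∑ a, (1 - μ.real (A a)))) :=
      tendsto_finsetSum _ fun a _ => hIlim a
    have h2 := h1.const_sub (Fintype.card I : ℝ)
    have h3 : (Fintype.card I : ℝ) - ∑ a, (1 - μ.real (A a)) = ∑ a, μ.real (A a) := by
      rw [Finset.sum_sub_distrib]
      simp
    rwa [h3] at h2
  refine le_of_tendsto' hsum fun k => ?_
  have h1 := hdiff (2 * k)
  have h2 := hJ k
  linarith

end Trace

end Matrices

end Crest.Agent.NoFixedPrice.Rank
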