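import Crest.Agent.Lib.NoFixedPrice.Cx
import Crest.Agent.Lib.NoFixedPrice.RankLemma

/-!
# Certificates for measured graphs (row 191, S0291; helper63, after helper44 #2064, helper35 #2065)

Purely algebraic invariant of a graph `K` (`MGraph`), carried through all the moves of the proof.

* `IsK`: scalar kernels `f ↦ (x ↦ ∑ w x * f a (g • x))`, with bounded measurable weights, closed under
  composition.
* `CertData K S Z μ e W O`: matrices `o`, `c` such that for every cochain `ψ` on the edges of `K`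
  (`supp ⊆ E`) and `φ` on `W`: if `Z ψ` (e.g. `ψ` has zero circulation on all closed lifts) and
  `o (ψ, φ) = 0` then `ψ + δ c (ψ, φ) = 0` on the edges and `c (ψ, φ)` is constant on seeds;
  if moreover `c (ψ, φ) = 0` on the vertices then `φ = 0`.
* Moves: `start`, `mono`, `quotient`, `extend`, `sub`.  Nothing here uses a measure except the number
  `e ≥ μ O - μ W`, which never changes.
* `excess_le`: with a rank lemma `RankIneq`, `E - V ≤ e + μ (target of Z)`.
-/

set_option autoImplicit false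
set_option linter.unusedSectionVars false

namespace Crest.Agent.NoFixedPrice

open MeasureTheory Finset

variable {Γ : Type*} [Group Γ]

section Ker

variable {X : Type*} [MulAction Γ X] [MeasurableSpace X]

/-- Bounded measurable weights. -/
def BddMeas (w : X → ℝ) : Prop := Measurable w ∧ ∃ C, ∀ x, |w x| ≤ C

lemma BddMeas.const (c : ℝ) : BddMeas (fun _ : X => c) := ⟨measurable_const, |c|, fun _ => le_rfl⟩

lemma BddMeas.indicator {A : Set X} (hA : MeasurableSet A) (c : ℝ) :
    BddMeas (A.indicator (fun _ => c)) := by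
  refine ⟨measurable_const.indicator hA, |c| , fun x => ?_⟩
  by_cases h : x ∈ A <;> simp [h]

lemma BddMeas.mul {v w : X → ℝ} (hv : BddMeas v) (hw : BddMeas w) : BddMeas (fun x => v x * w x) := by
  obtain ⟨hv1, C, hC⟩ := hv
  obtain ⟨hw1, D, hD⟩ := hw
  refine ⟨hv1.mul hw1, C * D, fun x => ?_⟩
  rw [abs_mul]
  exact mul_le_mul (hC x) (hD x) (abs_nonneg _) ((abs_nonneg _).trans (hC x))

/-- Scalar kernels on functions `I → X → ℝ`: finite sums of `w x * f a (g • x)`. -/
inductive IsK (Γ : Type*) [Group Γ] [MulAction Γ X] {I : Type*} : ((I → X → ℝ) → X → ℝ) → Prop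
  | coord (a : I) : IsK Γ (fun f => f a)
  | zero : IsK Γ (fun _ _ => 0)
  | add {S T : (I → X → ℝ) → X → ℝ} : IsK Γ S → IsK Γ T → IsK Γ (fun f x => S f x + T f x)
  | mulw {S : (I → X → ℝ) → X → ℝ} (w : X → ℝ) : BddMeas w → IsK Γ S →
      IsK Γ (fun f x => w x * S f x)
  | shift {S : (I → X → ℝ) → X → ℝ} (g : Γ) : IsK Γ S → IsK Γ (fun f x => S f (g • x))

namespace IsK

variable {I J : Type*}

lemma map_zero {S : (I → X → ℝ) → X → ℝ} (h : IsK Γ S) (x : X) : S (fun _ _ => 0) x = 0 := by
  induction h generalizing x with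
  | coord a => rfl
  | zero => rfl
  | add _ _ h1 h2 => simp [h1, h2]
  | mulw w _ _ h => simp [h]
  | shift g _ h => exact h _

lemma neg {S : (I → X → ℝ) → X → ℝ} (h : IsK Γ S) : IsK Γ (fun f x => - S f x) := by
  have := IsK.mulw (fun _ => (-1 : ℝ)) (BddMeas.const (-1)) h
  simpa using this

lemma sub {S T : (I → X → ℝ) → X → ℝ} (h1 : IsK Γ S) (h2 : IsK Γ T) :
    IsK Γ (fun f x => S f x - T f x) := by
  have := IsK.add h1 h2.neg
  simpa [sub_eq_add_neg] using this

lemma sum {A : Type*} (s : Finset A) {S : A → (I → X → ℝ) → X → ℝ} (h : ∀ a ∈ s, IsK Γ (S a)) :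
    IsK Γ (fun f x => ∑ a ∈ s, S a f x) := by
  classical
  induction s using Finset.induction_on with
  | empty => simpa using IsK.zero
  | insert a s ha ih =>
    have h1 := IsK.add (h a (Finset.mem_insert_self a s))
      (ih fun b hb => h b (Finset.mem_insert_of_mem hb))
    simpa [Finset.sum_insert ha] using h1

lemma indicator {S : (I → X → ℝ) → X → ℝ} {A : Set X} (hA : MeasurableSet A) (h : IsK Γ S) :
    IsK Γ (fun f x => A.indicator (fun _ => (1 : ℝ)) x * S f x) :=
  IsK.mulw _ (BddMeas.indicator hA 1) h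

/-- Composition of kernels. -/
lemma comp {S : (J → X → ℝ) → X → ℝ} (hS : IsK Γ S) {T : J → (I → X → ℝ) → X → ℝ}
    (hT : ∀ b, IsK Γ (T b)) : IsK Γ (fun f => S (fun b => T b f)) := by
  induction hS with
  | coord a => exact hT a
  | zero => exact IsK.zero
  | add _ _ h1 h2 => exact IsK.add h1 h2
  | mulw w hw _ h => exact IsK.mulw w hw h
  | shift g _ h => exact IsK.shift g h

end IsK

/-- An elementary term of a kernel. -/
structure KTerm (Γ X I : Type*) where
  inp : I
  g : Γ
  w : X → ℝ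

/-- A kernel is a finite list of elementary terms. -/
theorem IsK.exists_terms {I : Type*} (hact : ∀ g : Γ, Measurable fun x : X => g • x)
    {S : (I → X → ℝ) → X → ℝ} (h : IsK Γ S) :
    ∃ l : List (KTerm Γ X I), (∀ τ ∈ l, BddMeas τ.w) ∧
      ∀ f x, S f x = (l.map (fun τ => τ.w x * f τ.inp (τ.g • x))).sum := by
  induction h with
  | coord a =>
    refine ⟨[⟨a, 1, fun _ => 1⟩], ?_, ?_⟩
    · simpa using BddMeas.const 1
    · intro f x; simp
  | zero => exact ⟨[], by simp, by simp⟩
  | add _ _ h1 h2 =>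
    obtain ⟨l1, h11, h12⟩ := h1
    obtain ⟨l2, h21, h22⟩ := h2
    refine ⟨l1 ++ l2, ?_, ?_⟩
    · intro τ hτ
      rcases List.mem_append.1 hτ with h | h
      · exact h11 τ h
      · exact h21 τ h
    · intro f x; simp [h12, h22]
  | mulw w hw _ h =>
    obtain ⟨l, h1, h2⟩ := h
    refine ⟨l.map (fun τ => ⟨τ.inp, τ.g, fun x => w x * τ.w x⟩), ?_, ?_⟩
    · intro τ hτ
      obtain ⟨σ, hσ, rfl⟩ := List.mem_map.1 hτ
      exact hw.mul (h1 σ hσ)
    · intro f x
      show w x * _ = _
      rw [h2]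
      simp only [List.map_map]
      rw [← List.sum_map_mul_left]
      simp [mul_assoc, Function.comp_def]
  | shift g _ h =>
    obtain ⟨l, h1, h2⟩ := h
    refine ⟨l.map (fun τ => ⟨τ.inp, τ.g * g, fun x => τ.w (g • x)⟩), ?_, ?_⟩
    · intro τ hτ
      obtain ⟨σ, hσ, rfl⟩ := List.mem_map.1 hτ
      obtain ⟨hm, C, hC⟩ := h1 σ hσ
      exact ⟨hm.comp (hact g), C, fun x => hC _⟩
    · intro f x
      show _ = _
      simp only []
      rw [h2]
      simp [Function.comp_def, mul_smul]

/-- The rank inequality, stated as a proposition (proved in `RankLemma`/`RankIneq`). -/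
def RankIneq (Γ X : Type*) [Group Γ] [MulAction Γ X] [MeasurableSpace X] (μ : Measure X) : Prop :=
  ∀ (I J : Type) [Fintype I] [Fintype J] (Ω : (I → X → ℝ) → J → X → ℝ)
    (_ : ∀ b, IsK Γ (fun f => Ω f b)) (A : I → Set X) (B : J → Set X)
    (_ : ∀ a, MeasurableSet (A a)) (_ : ∀ b, MeasurableSet (B b))
    (_ : ∀ f : I → X → ℝ, (∀ a x, x ∉ A a → f a x = 0) → (∀ b x, x ∈ B b → Ω f b x = 0) → f = 0),
    ∑ a, μ.real (A a) ≤ ∑ b, μ.real (B b)

/-- The rank inequality for an essentially free action. -/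
theorem rankIneq_of_free {μ : Measure X} [IsProbabilityMeasure μ]
    (hm : ∀ g : Γ, MeasurePreserving (fun x : X => g • x) μ μ)
    (hfree : ∀ᵐ x ∂μ, ∀ g : Γ, g • x = x → g = 1) : RankIneq Γ X μ := by
  classical
  intro I J _ _ Ω hΩ A B hA hB hinj
  have hact : ∀ g : Γ, Measurable fun x : X => g • x := fun g => (hm g).measurable
  choose l hl1 hl2 using fun b => (hΩ b).exists_terms hact
  let mk : J → KTerm Γ X I → Rank.Elem Γ X J I := fun b τ =>
    ⟨b, τ.inp, τ.g⁻¹, fun y => (A τ.inp).indicator (fun _ => (1 : ℝ)) y *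
      (((fun z => τ.g⁻¹ • z) ⁻¹' B b).indicator (fun _ => (1 : ℝ)) y * τ.w (τ.g⁻¹ • y))⟩
  let M : Rank.Mat Γ X J I := (Finset.univ.toList).flatMap (fun b => (l b).map (mk b))
  have hmem : ∀ e ∈ M, ∃ b, ∃ τ ∈ l b, e = mk b τ := by
    intro e he
    obtain ⟨b, _, hb⟩ := List.mem_flatMap.1 he
    obtain ⟨τ, hτ, rfl⟩ := List.mem_map.1 hb
    exact ⟨b, τ, hτ, rfl⟩
  refine Rank.rank_le μ hm M ?_ A B hA hB ?_ ?_ ?_
  · intro e he
    obtain ⟨b, τ, hτ, rfl⟩ := hmem e he
    obtain ⟨h1, C, hC⟩ := hl1 b τ hτ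
    have h2 : BddMeas (fun y => τ.w (τ.g⁻¹ • y)) := ⟨h1.comp (hact _), C, fun y => hC _⟩
    exact (BddMeas.indicator (hA τ.inp) 1).mul
      ((BddMeas.indicator (hact _ (hB b)) 1).mul h2)
  · intro e he y hy
    obtain ⟨b, τ, hτ, rfl⟩ := hmem e he
    simp only [mk] at hy ⊢
    simp [hy]
  · intro e he y hy
    obtain ⟨b, τ, hτ, rfl⟩ := hmem e he
    simp only [mk] at hy ⊢
    simp [Set.indicator, hy]
  · filter_upwards [hfree] with x hx f hf happ
    -- the function on the space
    let F : I → X → ℝ := fun a y => if h : ∃ g : Γ, g • x = y then f a h.choose else 0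
    have hF : ∀ a (h : Γ), F a (h • x) = f a h := by
      intro a h
      have hex : ∃ g : Γ, g • x = h • x := ⟨h, rfl⟩
      have h1 : hex.choose • x = h • x := hex.choose_spec
      have h2 : hex.choose = h := by
        have h3 : (h⁻¹ * hex.choose) • x = x := by rw [mul_smul, h1, inv_smul_smul]
        have := hx _ h3
        exact (inv_mul_eq_one.mp this).symm
      simp only [F, dif_pos hex, h2]
    have hF0 : ∀ a y, (¬ ∃ g : Γ, g • x = y) → F a y = 0 := by
      intro a y h
      simp only [F, dif_neg h]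
    have happ' : ∀ b h, ∑ e ∈ (∅ : Finset ℕ), (0 : ℝ) + (((l b).map (fun τ =>
        (mk b τ).w ((τ.g * h) • x) * f τ.inp (τ.g * h))).sum) = 0 := by
      intro b h
      have h1 := congrFun (congrFun happ b) h
      have h2 : Rank.app M x f b h = ((l b).map (fun τ =>
          (mk b τ).w ((τ.g * h) • x) * f τ.inp (τ.g * h))).sum := by
        unfold Rank.app
        have h3 : ∀ (bs : List J), ((bs.flatMap (fun b => (l b).map (mk b))).map
            (fun e => Rank.Elem.app e x f b h)).sum =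
            (bs.map (fun b' => (((l b').map (mk b')).map (fun e => Rank.Elem.app e x f b h)).sum)).sum := by
          intro bs
          induction bs with
          | nil => simp
          | cons b0 bs ih => simp [List.flatMap_cons, ih]
        simp only [M]
        rw [h3, Finset.sum_map_toList (s := Finset.univ)]
        rw [Finset.sum_eq_single b]
        · simp only [List.map_map]
          congr 1
          refine List.map_congr_left fun τ _ => ?_
          simp [Rank.Elem.app, mk]
        · intro b' _ hb'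
          refine List.sum_eq_zero ?_
          intro z hz
          obtain ⟨e, he, rfl⟩ := List.mem_map.1 hz
          obtain ⟨τ, _, rfl⟩ := List.mem_map.1 he
          simp [Rank.Elem.app, mk, hb'.symm]
        · intro h'; exact absurd (Finset.mem_univ _) h'
      rw [h2] at h1
      simpa using h1
    have hFz : F = 0 := by
      refine hinj F ?_ ?_
      · intro a y hy
        by_cases h : ∃ g : Γ, g • x = y
        · obtain ⟨g, rfl⟩ := h
          rw [hF]
          exact hf a g hy
        · exact hF0 a y h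
      · intro b y hy
        rw [hl2 b F y]
        by_cases h : ∃ g : Γ, g • x = y
        · obtain ⟨g, rfl⟩ := h
          have h3 := happ' b g
          simp only [Finset.sum_empty, zero_add] at h3
          rw [← h3]
          congr 1
          refine List.map_congr_left fun τ _ => ?_
          simp only [mk]
          have e1 : τ.g⁻¹ • (τ.g * g) • x = g • x := by simp [mul_smul]
          have e2 : τ.g • g • x = (τ.g * g) • x := by rw [mul_smul]
          rw [e2, hF, e1]
          by_cases h5 : (τ.g * g) • x ∈ A τ.inp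
          · simp [Set.indicator, h5, e1, hy]
          · rw [hf _ _ h5]; simp
        · refine List.sum_eq_zero ?_
          intro z hz
          obtain ⟨τ, _, rfl⟩ := List.mem_map.1 hz
          rw [hF0 _ _ ?_, mul_zero]
          rintro ⟨g, hg⟩
          exact h ⟨τ.g⁻¹ * g, by rw [mul_smul, hg, inv_smul_smul]⟩
    funext a h
    have := congrFun (congrFun hFz a) (h • x)
    rw [hF] at this
    simpa using this

end Ker

section Cert

variable {L P P' X : Type} [MulAction Γ X] [MeasurableSpace X] {val : L → Γ}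

/-- Edge index. -/
abbrev EI (L P : Type) := L × P × P

/-- A vertex function is a primitive of `ψ` on the edges: `ψ + δ c = 0`. -/
def MGraph.IsPrim (K : MGraph val P X) (ψ : EI L P → X → ℝ) (c : P → X → ℝ) : Prop :=
  ∀ s p q x, x ∈ K.E s p q → ψ (s, p, q) x + c q (val s • x) - c p x = 0

/-- Cochains and auxiliary functions with the right supports. -/
def MGraph.Adm (K : MGraph val P X) {W : Type} (AW : W → Set X)
    (f : EI L P ⊕ W → X → ℝ) : Prop :=
  (∀ s p q x, x ∉ K.E s p q → f (Sum.inl (s, p, q)) x = 0) ∧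
    (∀ i x, x ∉ AW i → f (Sum.inr i) x = 0)

/-- Certificate data.  `S` are seeds (pairs of vertices over one point), `Z` a constraint on cochains
(for instance: zero circulation on closed lifts). -/
structure CertData (K : MGraph val P X) (S : P → P → Set X) (Z : (EI L P → X → ℝ) → Prop)
    (μ : Measure X) (e : ℝ) (W O : Type) [Fintype W] [Fintype O] where
  AW : W → Set X
  AO : O → Set X
  measAW : ∀ i, MeasurableSet (AW i)
  measAO : ∀ j, MeasurableSet (AO j)
  mass_le : ∑ j, μ.real (AO j) - ∑ i, μ.real (AW i) ≤ e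
  o : (EI L P ⊕ W → X → ℝ) → O → X → ℝ
  c : (EI L P ⊕ W → X → ℝ) → P → X → ℝ
  kero : ∀ j, IsK Γ (fun f => o f j)
  kerc : ∀ p, IsK Γ (fun f => c f p)
  I1 : ∀ f, K.Adm AW f → Z (fun a => f (Sum.inl a)) → (∀ j x, x ∈ AO j → o f j x = 0) →
    K.IsPrim (fun a => f (Sum.inl a)) (c f) ∧ ∀ p p' x, x ∈ S p p' → c f p x = c f p' x
  I2 : ∀ f, K.Adm AW f → Z (fun a => f (Sum.inl a)) → (∀ j x, x ∈ AO j → o f j x = 0) →
    (∀ p x, x ∈ K.V p → c f p x = 0) → ∀ i x, f (Sum.inr i) x = 0

/-- The graph `K` with seeds `S` is certified at level `e` under the constraint `Z`. -/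
def Cert (K : MGraph val P X) (S : P → P → Set X) (Z : (EI L P → X → ℝ) → Prop)
    (μ : Measure X) (e : ℝ) : Prop :=
  ∃ (W O : Type) (_ : Fintype W) (_ : Fintype O), Nonempty (CertData K S Z μ e W O)

/-- No seeds. -/
def noSeed (P X : Type) : P → P → Set X := fun _ _ => ∅

/-- Monotonicity in the constraint and in the level. -/
lemma Cert.mono {K : MGraph val P X} {S : P → P → Set X} {Z Z' : (EI L P → X → ℝ) → Prop}
    {μ : Measure X} {e e' : ℝ} (h : Cert K S Z μ e) (hZ : ∀ ψ, Z' ψ → Z ψ) (he : e ≤ e') :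
    Cert K S Z' μ e' := by
  obtain ⟨W, O, iW, iO, ⟨cd⟩⟩ := h
  refine ⟨W, O, iW, iO, ⟨{ cd with
    mass_le := cd.mass_le.trans he
    I1 := fun f hf hz ho => cd.I1 f hf (hZ _ hz) ho
    I2 := fun f hf hz ho hc => cd.I2 f hf (hZ _ hz) ho hc }⟩⟩

/-! ### Start -/

/-- `START`: a plain graph with seeds is certified at level `E + S - V`, with no constraint. -/
theorem Cert.start [Fintype L] [Fintype P] (K : MGraph val P X) (S : P → P → Set X)
    (hS : ∀ p p', MeasurableSet (S p p')) (μ : Measure X) (Z : (EI L P → X → ℝ) → Prop) :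
    Cert K S Z μ (K.massE μ + ∑ p, ∑ p', μ.real (S p p') - K.massV μ) := by
  classical
  refine ⟨P, EI L P ⊕ (P × P), inferInstance, inferInstance, ⟨?_⟩⟩
  exact
  { AW := fun p => K.V p
    AO := fun j => Sum.elim (fun a => K.E a.1 a.2.1 a.2.2) (fun b => S b.1 b.2) j
    measAW := fun p => K.measV p
    measAO := by
      rintro (⟨s, p, q⟩ | ⟨p, p'⟩)
      · exact K.measE s p q
      · exact hS p p'
    mass_le := by
      rw [Fintype.sum_sum_type]
      simp only [Sum.elim_inl, Sum.elim_inr]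
      rw [Fintype.sum_prod_type, Fintype.sum_prod_type]
      simp only [Fintype.sum_prod_type]
      unfold MGraph.massE MGraph.massV
      exact le_of_eq rfl
    o := fun f j x => Sum.elim
      (fun a => f (Sum.inl a) x + f (Sum.inr a.2.2) (val a.1 • x) - f (Sum.inr a.2.1) x)
      (fun b => f (Sum.inr b.1) x - f (Sum.inr b.2) x) j
    c := fun f p => f (Sum.inr p)
    kero := by
      rintro (⟨s, p, q⟩ | ⟨p, p'⟩)
      · exact ((IsK.coord _).add ((IsK.coord _).shift _)).sub (IsK.coord _)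
      · exact (IsK.coord _).sub (IsK.coord _)
    kerc := fun p => IsK.coord _
    I1 := by
      intro f _ _ ho
      constructor
      · intro s p q x hx
        exact ho (Sum.inl (s, p, q)) x hx
      · intro p p' x hx
        have := ho (Sum.inr (p, p')) x hx
        simp only [Sum.elim_inr] at this
        linarith
    I2 := by
      intro f hf _ _ hc i x
      by_cases hx : x ∈ K.V i
      · exact hc i x hx
      · exact hf.2 i x hx }

/-! ### Extension: attach new sheets -/

section Extend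

variable [Fintype L] [Fintype P] {Q : Type} [Fintype Q]

/-- Restriction of a cochain along a sheet map, with indicator of the old edges. -/
noncomputable def resE (K : MGraph val P X) (j : P → Q) (ψ : EI L Q → X → ℝ) : EI L P → X → ℝ :=
  fun a x => (K.E a.1 a.2.1 a.2.2).indicator (fun _ => (1 : ℝ)) x * ψ (a.1, j a.2.1, j a.2.2) x

lemma resE_of_mem {K : MGraph val P X} {j : P → Q} {ψ : EI L Q → X → ℝ} {s : L} {p q : P} {x : X}
    (hx : x ∈ K.E s p q) : resE K j ψ (s, p, q) x = ψ (s, j p, j q) x := by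
  simp [resE, hx]

/-- `EXTEND`.  `K` is a sub-thing of `K⁺` along the sheet map `j`.  `Int ψ c` integrates a primitive
`c` on `K` to a primitive on `K⁺`, under the constraint `Z⁺`. -/
theorem Cert.extend {K : MGraph val P X} {Kp : MGraph val Q X} {Z : (EI L P → X → ℝ) → Prop}
    {Zp : (EI L Q → X → ℝ) → Prop} {Sp : Q → Q → Set X} {μ : Measure X} {e : ℝ}
    (h : Cert K (noSeed P X) Z μ e) (j : P → Q)
    (hV : ∀ p x, x ∈ K.V p → x ∈ Kp.V (j p))
    (Int : (EI L Q → X → ℝ) → (P → X → ℝ) → Q → X → ℝ)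
    (hker : ∀ q, IsK Γ (I := EI L Q ⊕ P)
      (fun f => Int (fun a => f (Sum.inl a)) (fun p => f (Sum.inr p)) q))
    (hZ : ∀ ψ, (∀ s p q x, x ∉ Kp.E s p q → ψ (s, p, q) x = 0) → Zp ψ → Z (resE K j ψ))
    (hInt : ∀ ψ c, (∀ s p q x, x ∉ Kp.E s p q → ψ (s, p, q) x = 0) → Zp ψ →
      K.IsPrim (resE K j ψ) c → Kp.IsPrim ψ (Int ψ c) ∧
        ∀ p p' x, x ∈ Sp p p' → Int ψ c p x = Int ψ c p' x)
    (hIntV : ∀ ψ c p x, x ∈ K.V p → Int ψ c (j p) x = c p x) :
    Cert Kp Sp Zp μ e := by
  classical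
  obtain ⟨W, O, iW, iO, ⟨cd⟩⟩ := h
  -- the lift of a function
  let lift : (EI L Q ⊕ W → X → ℝ) → EI L P ⊕ W → X → ℝ := fun f =>
    Sum.elim (fun a => resE K j (fun b => f (Sum.inl b)) a) (fun i => f (Sum.inr i))
  have hlift : ∀ b : EI L P ⊕ W, IsK Γ (fun f : EI L Q ⊕ W → X → ℝ => lift f b) := by
    rintro (⟨s, p, q⟩ | i)
    · exact (IsK.coord _).indicator (K.measE s p q)
    · exact IsK.coord _
  have hadm : ∀ f, Kp.Adm cd.AW f → K.Adm cd.AW (lift f) := by
    intro f hf
    refine ⟨?_, fun i x hx => hf.2 i x hx⟩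
    intro s p q x hx
    simp [lift, resE, hx]
  refine ⟨W, O, iW, iO, ⟨?_⟩⟩
  exact
  { AW := cd.AW
    AO := cd.AO
    measAW := cd.measAW
    measAO := cd.measAO
    mass_le := cd.mass_le
    o := fun f => cd.o (lift f)
    c := fun f => Int (fun a => f (Sum.inl a)) (cd.c (lift f))
    kero := fun b => (cd.kero b).comp hlift
    kerc := fun q => by
      have := (hker q).comp (T := fun (b : EI L Q ⊕ P) (f : EI L Q ⊕ W → X → ℝ) =>
        Sum.elim (fun a => f (Sum.inl a)) (fun p => cd.c (lift f) p) b) (by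
          rintro (a | p)
          · exact IsK.coord _
          · exact (cd.kerc p).comp hlift)
      simpa using this
    I1 := by
      intro f hf hz ho
      have h1 := hZ _ hf.1 hz
      obtain ⟨h2, -⟩ := cd.I1 (lift f) (hadm f hf) h1 ho
      exact hInt _ _ hf.1 hz h2
    I2 := by
      intro f hf hz ho hc i x
      have h1 := hZ _ hf.1 hz
      refine cd.I2 (lift f) (hadm f hf) h1 ho ?_ i x
      intro p y hy
      rw [← hIntV (fun a => f (Sum.inl a)) (cd.c (lift f)) p y hy]
      exact hc _ _ (hV p y hy) }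

end Extend

/-! ### Quotient by a fold relation -/

/-- The fold relation generated by seeds. -/
inductive FoldRel (K : MGraph val P X) (S : P → P → Set X) : X × P → X × P → Prop
  | refl (a) : FoldRel K S a a
  | symm {a b} : FoldRel K S a b → FoldRel K S b a
  | trans {a b c} : FoldRel K S a b → FoldRel K S b c → FoldRel K S a c
  | seed {p p' x} : x ∈ S p p' → FoldRel K S (x, p) (x, p')
  | fwd {s p₁ q₁ p₂ q₂ x} : x ∈ K.E s p₁ q₁ → x ∈ K.E s p₂ q₂ → FoldRel K S (x, p₁) (x, p₂) →
      FoldRel K S (val s • x, q₁) (val s • x, q₂)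
  | bwd {s p₁ q₁ p₂ q₂ x} : x ∈ K.E s p₁ q₁ → x ∈ K.E s p₂ q₂ →
      FoldRel K S (val s • x, q₁) (val s • x, q₂) → FoldRel K S (x, p₁) (x, p₂)

section Quotient

variable [Fintype L] [Fintype P] [Fintype P']

/-- The pull back of a cochain along a sheet map `ρ`. -/
noncomputable def pullE (Kp : MGraph val P X) (ρ : P → X → P') (ψ : EI L P' → X → ℝ) :
    EI L P → X → ℝ :=
  fun a x => ∑ p', ∑ q',
    ((Kp.E a.1 a.2.1 a.2.2 ∩ {x | ρ a.2.1 x = p'} ∩ {x | ρ a.2.2 (val a.1 • x) = q'}).indicator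
      (fun _ => (1 : ℝ)) x) * ψ (a.1, p', q') x

lemma pullE_of_mem {Kp : MGraph val P X} {ρ : P → X → P'} {ψ : EI L P' → X → ℝ} {s : L} {p q : P}
    {x : X} (hx : x ∈ Kp.E s p q) :
    pullE Kp ρ ψ (s, p, q) x = ψ (s, ρ p x, ρ q (val s • x)) x := by
  classical
  unfold pullE
  simp only
  rw [Finset.sum_eq_single (ρ p x), Finset.sum_eq_single (ρ q (val s • x))]
  · simp [hx]
  · intro b _ hb
    simp [Set.indicator, hb.symm]
  · intro h; exact absurd (Finset.mem_univ _) h
  · intro b _ hb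
    refine Finset.sum_eq_zero fun c _ => ?_
    simp [Set.indicator, hb.symm]
  · intro h; exact absurd (Finset.mem_univ _) h

lemma pullE_of_not_mem {Kp : MGraph val P X} {ρ : P → X → P'} {ψ : EI L P' → X → ℝ} {s : L}
    {p q : P} {x : X} (hx : x ∉ Kp.E s p q) : pullE Kp ρ ψ (s, p, q) x = 0 := by
  unfold pullE
  simp [Set.indicator, hx]

/-- `QUOTIENT`. `ρ` sends `K⁺` to the folded `K'`; every pair of vertices with the same image is
related by the fold relation; `rep` picks representatives. -/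
theorem Cert.quotient {Kp : MGraph val P X} {K' : MGraph val P' X} {S : P → P → Set X}
    {Z : (EI L P → X → ℝ) → Prop} {Z' : (EI L P' → X → ℝ) → Prop} {μ : Measure X} {e : ℝ}
    (h : Cert Kp S Z μ e) (hF : K'.Folded) (ρ : P → X → P') (rep : P' → P)
    (hact : ∀ g : Γ, Measurable fun x : X => g • x)
    (hρm : ∀ p p', MeasurableSet {x | ρ p x = p'})
    (hV : ∀ p x, x ∈ Kp.V p → x ∈ K'.V (ρ p x))
    (hE : ∀ s p q x, x ∈ Kp.E s p q → x ∈ K'.E s (ρ p x) (ρ q (val s • x)))
    (hE' : ∀ s p' q' x, x ∈ K'.E s p' q' →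
      ∃ p q, x ∈ Kp.E s p q ∧ ρ p x = p' ∧ ρ q (val s • x) = q')
    (hrep : ∀ p' x, x ∈ K'.V p' → x ∈ Kp.V (rep p') ∧ ρ (rep p') x = p')
    (hS : ∀ p p' x, x ∈ S p p' → ρ p x = ρ p' x)
    (hR : ∀ p p₂ x, x ∈ Kp.V p → x ∈ Kp.V p₂ → ρ p x = ρ p₂ x → FoldRel Kp S (x, p) (x, p₂))
    (hZ : ∀ ψ, (∀ s p q x, x ∉ K'.E s p q → ψ (s, p, q) x = 0) → Z' ψ → Z (pullE Kp ρ ψ)) :
    Cert K' (noSeed P' X) Z' μ e := by
  classical
  obtain ⟨W, O, iW, iO, ⟨cd⟩⟩ := h
  let lift : (EI L P' ⊕ W → X → ℝ) → EI L P ⊕ W → X → ℝ := fun f =>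
    Sum.elim (fun a => pullE Kp ρ (fun b => f (Sum.inl b)) a) (fun i => f (Sum.inr i))
  have hlift : ∀ b : EI L P ⊕ W, IsK Γ (fun f : EI L P' ⊕ W → X → ℝ => lift f b) := by
    rintro (⟨s, p, q⟩ | i)
    · refine IsK.sum _ fun p' _ => IsK.sum _ fun q' _ => ?_
      refine IsK.mulw _ (BddMeas.indicator ?_ 1) (IsK.coord _)
      exact ((Kp.measE s p q).inter (hρm p p')).inter (hact _ (hρm q q'))
    · exact IsK.coord _
  have hadm : ∀ f, K'.Adm cd.AW f → Kp.Adm cd.AW (lift f) := by
    intro f hf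
    refine ⟨?_, fun i x hx => hf.2 i x hx⟩
    intro s p q x hx
    exact pullE_of_not_mem (ψ := fun b => f (Sum.inl b)) hx
  -- invariance along the fold relation
  have hinv : ∀ f, K'.Adm cd.AW f → Kp.IsPrim (fun a => lift f (Sum.inl a)) (cd.c (lift f)) →
      (∀ p p' x, x ∈ S p p' → cd.c (lift f) p x = cd.c (lift f) p' x) →
      ∀ a b, FoldRel Kp S a b → (ρ a.2 a.1 = ρ b.2 b.1 ∧ cd.c (lift f) a.2 a.1 = cd.c (lift f) b.2 b.1) := by
    intro f _ hP hSc a b hab
    induction hab with
    | refl a => exact ⟨rfl, rfl⟩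
    | symm _ ih => exact ⟨ih.1.symm, ih.2.symm⟩
    | trans _ _ h1 h2 => exact ⟨h1.1.trans h2.1, h1.2.trans h2.2⟩
    | seed hx => exact ⟨hS _ _ _ hx, hSc _ _ _ hx⟩
    | @fwd s p₁ q₁ p₂ q₂ x h1 h2 _ ih =>
      have e1 := hE _ _ _ _ h1
      have e2 := hE _ _ _ _ h2
      simp only at ih
      rw [← ih.1] at e2
      have hq : ρ q₁ (val s • x) = ρ q₂ (val s • x) := by
        have := hF (s, true) (x, ρ p₁ x) (val s • x, ρ q₁ (val s • x)) (val s • x, ρ q₂ (val s • x))
          ((K'.adj_true s _ _).2 ⟨e1, rfl⟩) ((K'.adj_true s _ _).2 ⟨e2, rfl⟩)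
        simpa using congrArg Prod.snd this
      refine ⟨hq, ?_⟩
      have c1 := hP _ _ _ _ h1
      have c2 := hP _ _ _ _ h2
      simp only [lift, Sum.elim_inl] at c1 c2
      rw [pullE_of_mem h1] at c1
      rw [pullE_of_mem h2, ← ih.1, ← hq] at c2
      simp only
      linarith [ih.2]
    | @bwd s p₁ q₁ p₂ q₂ x h1 h2 _ ih =>
      have e1 := hE _ _ _ _ h1
      have e2 := hE _ _ _ _ h2
      simp only at ih
      rw [← ih.1] at e2
      have hq : ρ p₁ x = ρ p₂ x := by
        have := hF (s, false) (val s • x, ρ q₁ (val s • x)) (x, ρ p₁ x) (x, ρ p₂ x)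
          ((K'.adj_false s _ _).2 ⟨e1, rfl⟩) ((K'.adj_false s _ _).2 ⟨e2, rfl⟩)
        simpa using congrArg Prod.snd this
      refine ⟨hq, ?_⟩
      have c1 := hP _ _ _ _ h1
      have c2 := hP _ _ _ _ h2
      simp only [lift, Sum.elim_inl] at c1 c2
      rw [pullE_of_mem h1] at c1
      rw [pullE_of_mem h2, ← ih.1, ← hq] at c2
      simp only
      linarith [ih.2]
  refine ⟨W, O, iW, iO, ⟨?_⟩⟩
  exact
  { AW := cd.AW
    AO := cd.AO
    measAW := cd.measAW
    measAO := cd.measAO
    mass_le := cd.mass_le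
    o := fun f => cd.o (lift f)
    c := fun f p' => cd.c (lift f) (rep p')
    kero := fun b => (cd.kero b).comp hlift
    kerc := fun p' => (cd.kerc (rep p')).comp hlift
    I1 := by
      intro f hf hz ho
      have h1 := hZ _ hf.1 hz
      obtain ⟨hP, hSc⟩ := cd.I1 (lift f) (hadm f hf) h1 ho
      have hi := hinv f hf hP hSc
      refine ⟨?_, fun _ _ _ hx => hx.elim⟩
      intro s p' q' x hx
      obtain ⟨p, q, he, rfl, rfl⟩ := hE' _ _ _ _ hx
      have c1 := hP _ _ _ _ he
      simp only [lift, Sum.elim_inl] at c1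
      rw [pullE_of_mem he] at c1
      have v1 := hrep _ _ (K'.src _ _ _ _ hx)
      have v2 := hrep _ _ (K'.tgt _ _ _ _ hx)
      have e1 := (hi _ _ (hR p (rep (ρ p x)) x (Kp.src _ _ _ _ he) v1.1 v1.2.symm)).2
      have e2 := (hi _ _ (hR q (rep (ρ q (val s • x))) (val s • x) (Kp.tgt _ _ _ _ he) v2.1
        v2.2.symm)).2
      simp only at e1 e2
      show f (Sum.inl (s, ρ p x, ρ q (val s • x))) x + cd.c (lift f) (rep (ρ q (val s • x))) (val s • x)
        - cd.c (lift f) (rep (ρ p x)) x = 0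
      rw [← e1, ← e2]
      exact c1
    I2 := by
      intro f hf hz ho hc i x
      have h1 := hZ _ hf.1 hz
      obtain ⟨hP, hSc⟩ := cd.I1 (lift f) (hadm f hf) h1 ho
      have hi := hinv f hf hP hSc
      refine cd.I2 (lift f) (hadm f hf) h1 ho ?_ i x
      intro p y hy
      have v0 := hV p y hy
      have v1 := hrep _ _ v0
      have e1 := (hi _ _ (hR p (rep (ρ p y)) y hy v1.1 v1.2.symm)).2
      simp only at e1
      rw [e1]
      exact hc _ _ v0 }

end Quotient

/-! ### Sub-graphs -/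

section Sub

variable [Fintype L] [Fintype P]

/-- `SUB`. `K₂` is a subgraph of `K`, `Ext` extends cochains from `K₂` to `K`, the constraint of `K₂`
implies the constraint of `K` for extended cochains, and `K₂` meets each connected piece. -/
theorem Cert.sub {K K₂ : MGraph val P X} {Z Z₂ : (EI L P → X → ℝ) → Prop} {μ : Measure X} {e : ℝ}
    (h : Cert K (noSeed P X) Z μ e)
    (_hV : ∀ p x, x ∈ K₂.V p → x ∈ K.V p)
    (hEsub : ∀ s p q x, x ∈ K₂.E s p q → x ∈ K.E s p q)
    (Ext : (EI L P → X → ℝ) → EI L P → X → ℝ)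
    (hker : ∀ a, IsK Γ (Ext · a))
    (hExt : ∀ ψ s p q x, x ∈ K₂.E s p q → Ext ψ (s, p, q) x = ψ (s, p, q) x)
    (hsupp : ∀ ψ s p q x, x ∉ K.E s p q → Ext ψ (s, p, q) x = 0)
    (hZ : ∀ ψ, (∀ s p q x, x ∉ K₂.E s p q → ψ (s, p, q) x = 0) → Z₂ ψ → Z (Ext ψ))
    (hconn : ∀ c : P → X → ℝ, (∀ s p q x, x ∈ K.E s p q → c q (val s • x) - c p x = 0) →
      (∀ p x, x ∈ K₂.V p → c p x = 0) → ∀ p x, x ∈ K.V p → c p x = 0) :
    Cert K₂ (noSeed P X) Z₂ μ e := by
  classical
  obtain ⟨W, O, iW, iO, ⟨cd⟩⟩ := h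
  let lift : (EI L P ⊕ W → X → ℝ) → EI L P ⊕ W → X → ℝ := fun f =>
    Sum.elim (fun a => Ext (fun b => f (Sum.inl b)) a) (fun i => f (Sum.inr i))
  have hlift : ∀ b : EI L P ⊕ W, IsK Γ (fun f : EI L P ⊕ W → X → ℝ => lift f b) := by
    rintro (a | i)
    · exact (hker a).comp (T := fun (b : EI L P) (f : EI L P ⊕ W → X → ℝ) => f (Sum.inl b))
        (fun b => IsK.coord _)
    · exact IsK.coord _
  have hadm : ∀ f, K₂.Adm cd.AW f → K.Adm cd.AW (lift f) := by
    intro f hf
    exact ⟨fun s p q x hx => hsupp _ s p q x hx, fun i x hx => hf.2 i x hx⟩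
  refine ⟨W, O, iW, iO, ⟨?_⟩⟩
  exact
  { AW := cd.AW
    AO := cd.AO
    measAW := cd.measAW
    measAO := cd.measAO
    mass_le := cd.mass_le
    o := fun f => cd.o (lift f)
    c := fun f => cd.c (lift f)
    kero := fun b => (cd.kero b).comp hlift
    kerc := fun p => (cd.kerc p).comp hlift
    I1 := by
      intro f hf hz ho
      have h1 := hZ _ hf.1 hz
      obtain ⟨hP, -⟩ := cd.I1 (lift f) (hadm f hf) h1 ho
      refine ⟨?_, fun _ _ _ hx => hx.elim⟩
      intro s p q x hx
      have := hP s p q x (hEsub _ _ _ _ hx)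
      simp only [lift, Sum.elim_inl] at this
      rw [hExt _ _ _ _ _ hx] at this
      exact this
    I2 := by
      intro f hf hz ho hc i x
      have h1 := hZ _ hf.1 hz
      obtain ⟨hP, -⟩ := cd.I1 (lift f) (hadm f hf) h1 ho
      -- the cochain vanishes on `K₂`
      have h0 : ∀ a y, f (Sum.inl a) y = 0 := by
        rintro ⟨s, p, q⟩ y
        by_cases hy : y ∈ K₂.E s p q
        · have := hP s p q y (hEsub _ _ _ _ hy)
          simp only [lift, Sum.elim_inl] at this
          rw [hExt _ _ _ _ _ hy, hc _ _ (K₂.src _ _ _ _ hy), hc _ _ (K₂.tgt _ _ _ _ hy)] at this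
          simpa using this
        · exact hf.1 s p q y hy
      have h2 : (fun b => f (Sum.inl b)) = fun _ _ => 0 := by
        funext b y; exact h0 b y
      have h3 : ∀ a y, lift f (Sum.inl a) y = 0 := by
        intro a y
        simp only [lift, Sum.elim_inl]
        rw [h2]
        exact (hker a).map_zero y
      refine cd.I2 (lift f) (hadm f hf) h1 ho ?_ i x
      refine hconn _ ?_ hc
      intro s p q y hy
      have := hP s p q y hy
      simp only [h3] at this
      simpa using this }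

end Sub

/-! ### Path integrals and closed lifts -/

section Circ

variable [Fintype P]

/-- The value of a cochain on one signed step from sheet `p` to sheet `q` at the point `x`. -/
noncomputable def stepVal (val : L → Γ) (ψ : EI L P → X → ℝ) (ℓ : L × Bool) (p q : P) (x : X) : ℝ :=
  if ℓ.2 then ψ (ℓ.1, p, q) x else - ψ (ℓ.1, q, p) ((val ℓ.1)⁻¹ • x)

/-- The integral of a cochain along the lifts of a word (one lift if `K` is folded). -/
noncomputable def MGraph.circ (K : MGraph val P X) (ψ : EI L P → X → ℝ) :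
    P → List (L × Bool) → X → ℝ
  | _, [], _ => 0
  | p, ℓ :: w, x => ∑ q, (K.half ℓ p q).indicator (fun _ => (1 : ℝ)) x *
      (stepVal val ψ ℓ p q x + MGraph.circ K ψ q w (sval val ℓ • x))

lemma isK_stepVal (ℓ : L × Bool) (p q : P) :
    IsK Γ (fun ψ : EI L P → X → ℝ => stepVal val ψ ℓ p q) := by
  cases ℓ with
  | mk s b =>
    cases b
    · exact ((IsK.coord _).shift _).neg
    · exact IsK.coord _

lemma MGraph.isK_circ (K : MGraph val P X) (hact : ∀ g : Γ, Measurable fun x : X => g • x)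
    (p : P) (w : List (L × Bool)) :
    IsK Γ (fun ψ : EI L P → X → ℝ => K.circ ψ p w) := by
  classical
  induction w generalizing p with
  | nil => exact IsK.zero
  | cons ℓ w ih =>
    refine IsK.sum _ fun q _ => ?_
    exact IsK.mulw _ (BddMeas.indicator (K.measurableSet_half hact ℓ p q) 1)
      ((isK_stepVal ℓ p q).add ((ih q).shift _))

lemma MGraph.circ_cons_of_adj {K : MGraph val P X} (hF : K.Folded) (ψ : EI L P → X → ℝ)
    {ℓ : L × Bool} {w : List (L × Bool)} {p r : P} {x x₁ : X} (h : K.Adj ℓ (x, p) (x₁, r)) :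
    K.circ ψ p (ℓ :: w) x = stepVal val ψ ℓ p r x + K.circ ψ r w x₁ := by
  classical
  have hx₁ : x₁ = sval val ℓ • x := h.fst_eq
  subst hx₁
  show ∑ q, _ = _
  rw [Finset.sum_eq_single r]
  · have : x ∈ K.half ℓ p r := h
    simp [this]
  · intro q _ hq
    have : x ∉ K.half ℓ p q := by
      intro hx
      have h2 : K.Adj ℓ (x, p) (sval val ℓ • x, q) := hx
      have := hF _ _ _ _ h h2
      exact hq (congrArg Prod.snd this).symm
    simp [this]
  · intro h'; exact absurd (Finset.mem_univ _) h'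

/-- The step value of a cochain with a primitive. -/
lemma MGraph.stepVal_of_prim {K : MGraph val P X} {ψ : EI L P → X → ℝ} {c : P → X → ℝ}
    (hc : K.IsPrim ψ c) {ℓ : L × Bool} {p r : P} {x x₁ : X} (h : K.Adj ℓ (x, p) (x₁, r)) :
    stepVal val ψ ℓ p r x = c p x - c r x₁ := by
  cases ℓ with
  | mk s b =>
    cases b
    · obtain ⟨h1, h2⟩ := (K.adj_false s _ _).1 h
      simp only at h1 h2
      have h3 : (val s)⁻¹ • x = x₁ := by rw [h2]; simp
      have := hc s r p x₁ h1
      rw [← h2] at this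
      simp only [stepVal, Bool.false_eq_true, if_false, h3]
      linarith
    · obtain ⟨h1, h2⟩ := (K.adj_true s _ _).1 h
      simp only at h1 h2
      have := hc s p r x h1
      rw [← h2] at this
      simp only [stepVal, if_true]
      linarith

/-- Telescoping: the integral of a cochain with a primitive along a path. -/
theorem MGraph.circ_of_prim {K : MGraph val P X} (hF : K.Folded) {ψ : EI L P → X → ℝ}
    {c : P → X → ℝ} (hc : K.IsPrim ψ c) {w : List (L × Bool)} {p q : P} {x y : X}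
    (h : K.IsPath (x, p) w (y, q)) : K.circ ψ p w x = c p x - c q y := by
  induction w generalizing p x with
  | nil =>
    obtain ⟨rfl, rfl⟩ := Prod.mk.inj (show (x, p) = (y, q) from h)
    simp [MGraph.circ]
  | cons ℓ w ih =>
    obtain ⟨⟨x₁, r⟩, h1, h2⟩ := h
    rw [K.circ_cons_of_adj hF ψ h1, K.stepVal_of_prim hc h1, ih h2]
    ring

/-- Concatenation along a path. -/
theorem MGraph.circ_append {K : MGraph val P X} (hF : K.Folded) (ψ : EI L P → X → ℝ)
    {u w : List (L × Bool)} {p r : P} {x x₁ : X} (h : K.IsPath (x, p) u (x₁, r)) :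
    K.circ ψ p (u ++ w) x = K.circ ψ p u x + K.circ ψ r w x₁ := by
  induction u generalizing p x with
  | nil =>
    obtain ⟨rfl, rfl⟩ := Prod.mk.inj (show (x, p) = (x₁, r) from h)
    simp [MGraph.circ]
  | cons ℓ u ih =>
    obtain ⟨⟨y, m⟩, h1, h2⟩ := h
    rw [List.cons_append, K.circ_cons_of_adj hF ψ h1, K.circ_cons_of_adj hF ψ h1, ih h2]
    ring

/-- The inverse path. -/
theorem MGraph.stepVal_symm {K : MGraph val P X} (ψ : EI L P → X → ℝ) {ℓ : L × Bool} {p r : P}
    {x x₁ : X} (h : K.Adj ℓ (x, p) (x₁, r)) :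
    stepVal val ψ (sinv ℓ) r p x₁ = - stepVal val ψ ℓ p r x := by
  cases ℓ with
  | mk s b =>
    cases b
    · obtain ⟨h1, h2⟩ := (K.adj_false s _ _).1 h
      simp only at h1 h2
      have h3 : (val s)⁻¹ • x = x₁ := by rw [h2]; simp
      simp [stepVal, sinv, h3]
    · obtain ⟨h1, h2⟩ := (K.adj_true s _ _).1 h
      simp only at h1 h2
      have h3 : (val s)⁻¹ • x₁ = x := by rw [h2]; simp
      simp [stepVal, sinv, h3]

theorem MGraph.circ_rinv {K : MGraph val P X} (hF : K.Folded) (ψ : EI L P → X → ℝ)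
    {w : List (L × Bool)} {p q : P} {x y : X} (h : K.IsPath (x, p) w (y, q)) :
    K.circ ψ q (rinv w) y = - K.circ ψ p w x := by
  induction w generalizing p x with
  | nil =>
    obtain ⟨rfl, rfl⟩ := Prod.mk.inj (show (x, p) = (y, q) from h)
    simp [MGraph.circ]
  | cons ℓ w ih =>
    obtain ⟨⟨x₁, r⟩, h1, h2⟩ := h
    rw [rinv_cons, K.circ_append hF ψ h2.rinv, ih h2, K.circ_cons_of_adj hF ψ h1]
    have h3 : K.Adj (sinv ℓ) (x₁, r) (x, p) := h1.symm
    rw [K.circ_cons_of_adj (w := []) hF ψ h3, K.stepVal_symm ψ h1]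
    simp [MGraph.circ]

/-- Pull back along a morphism of folded graphs: the integrals agree. -/
theorem MGraph.circ_pull {K : MGraph val P X} {K' : MGraph val P' X} [Fintype P'] (hF : K.Folded)
    (hF' : K'.Folded) (ρ : P → X → P')
    (hE : ∀ s p q x, x ∈ K.E s p q → x ∈ K'.E s (ρ p x) (ρ q (val s • x)))
    {ψ : EI L P → X → ℝ} {ψ' : EI L P' → X → ℝ}
    (hψ : ∀ s p q x, x ∈ K.E s p q → ψ (s, p, q) x = ψ' (s, ρ p x, ρ q (val s • x)) x)
    {w : List (L × Bool)} {p q : P} {x y : X} (h : K.IsPath (x, p) w (y, q)) :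
    K.circ ψ p w x = K'.circ ψ' (ρ p x) w x := by
  induction w generalizing p x with
  | nil => simp [MGraph.circ]
  | cons ℓ w ih =>
    obtain ⟨⟨x₁, r⟩, h1, h2⟩ := h
    have h3 : K'.Adj ℓ (x, ρ p x) (x₁, ρ r x₁) := by
      cases ℓ with
      | mk s b =>
        cases b
        · obtain ⟨h4, h5⟩ := (K.adj_false s _ _).1 h1
          simp only at h4 h5
          refine (K'.adj_false s _ _).2 ⟨?_, h5⟩
          have := hE _ _ _ _ h4
          rw [← h5] at this
          exact this
        · obtain ⟨h4, h5⟩ := (K.adj_true s _ _).1 h1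
          simp only at h4 h5
          refine (K'.adj_true s _ _).2 ⟨?_, h5⟩
          have := hE _ _ _ _ h4
          rw [← h5] at this
          exact this
    rw [K.circ_cons_of_adj hF ψ h1, K'.circ_cons_of_adj hF' ψ' h3, ih h2]
    congr 1
    cases ℓ with
    | mk s b =>
      cases b
      · obtain ⟨h4, h5⟩ := (K.adj_false s _ _).1 h1
        simp only at h4 h5
        have h6 : (val s)⁻¹ • x = x₁ := by rw [h5]; simp
        simp only [stepVal, Bool.false_eq_true, if_false, h6]
        rw [hψ _ _ _ _ h4, ← h5]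
      · obtain ⟨h4, h5⟩ := (K.adj_true s _ _).1 h1
        simp only at h4 h5
        simp only [stepVal, if_true]
        rw [hψ _ _ _ _ h4, ← h5]

variable {ι : Type}

/-- Zero circulation on all closed lifts of the relators. -/
def MGraph.ZCells (K : MGraph val P X) (r : ι → List (L × Bool)) (ψ : EI L P → X → ℝ) : Prop :=
  ∀ i p x, x ∈ K.pathSet p (r i) p → K.circ ψ p (r i) x = 0

/-- The mass of the closed lifts. -/
noncomputable def MGraph.massFc (K : MGraph val P X) [Fintype ι] (r : ι → List (L × Bool))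
    (μ : Measure X) : ℝ := ∑ i, ∑ p, μ.real (K.pathSet p (r i) p)

/-- `E - V ≤ e + F`. -/
theorem Cert.excess_le [Fintype L] [Fintype ι] {K : MGraph val P X} {r : ι → List (L × Bool)}
    {μ : Measure X} {e : ℝ} (hrank : RankIneq Γ X μ)
    (hact : ∀ g : Γ, Measurable fun x : X => g • x)
    (h : Cert K (noSeed P X) (K.ZCells r) μ e) : K.massE μ - K.massV μ ≤ e + K.massFc r μ := by
  classical
  obtain ⟨W, O, iW, iO, ⟨cd⟩⟩ := h
  let Ω : (EI L P ⊕ W → X → ℝ) → (ι × P) ⊕ O ⊕ P → X → ℝ := fun f b =>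
    Sum.elim (fun a => K.circ (fun e => f (Sum.inl e)) a.2 (r a.1))
      (Sum.elim (cd.o f) (cd.c f)) b
  have key := hrank (EI L P ⊕ W) ((ι × P) ⊕ O ⊕ P) Ω
    (by
      rintro (a | j | p)
      · exact (K.isK_circ hact a.2 (r a.1)).comp (fun _ => IsK.coord _)
      · exact cd.kero j
      · exact cd.kerc p)
    (fun a => Sum.elim (fun e => K.E e.1 e.2.1 e.2.2) cd.AW a)
    (fun b => Sum.elim (fun a => K.pathSet a.2 (r a.1) a.2) (Sum.elim cd.AO K.V) b)
    (by
      rintro (⟨s, p, q⟩ | i)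
      · exact K.measE s p q
      · exact cd.measAW i)
    (by
      rintro (a | j | p)
      · exact K.measurableSet_pathSet hact _ _ _
      · exact cd.measAO j
      · exact K.measV p)
    (by
      intro f hf hΩ
      have hadm : K.Adm cd.AW f := ⟨fun s p q x hx => hf (Sum.inl (s, p, q)) x hx,
        fun i x hx => hf (Sum.inr i) x hx⟩
      have hz : K.ZCells r (fun a => f (Sum.inl a)) := fun i p x hx =>
        hΩ (Sum.inl (i, p)) x hx
      have ho : ∀ j x, x ∈ cd.AO j → cd.o f j x = 0 := fun j x hx =>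
        hΩ (Sum.inr (Sum.inl j)) x hx
      have hc : ∀ p x, x ∈ K.V p → cd.c f p x = 0 := fun p x hx =>
        hΩ (Sum.inr (Sum.inr p)) x hx
      obtain ⟨h1, -⟩ := cd.I1 f hadm hz ho
      have h2 := cd.I2 f hadm hz ho hc
      funext a x
      rcases a with ⟨s, p, q⟩ | i
      · by_cases hx : x ∈ K.E s p q
        · have := h1 s p q x hx
          simp only at this
          rw [hc _ _ (K.src _ _ _ _ hx), hc _ _ (K.tgt _ _ _ _ hx)] at this
          simpa using this
        · exact hadm.1 s p q x hx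
      · exact h2 i x)
  have hm := cd.mass_le
  rw [Fintype.sum_sum_type, Fintype.sum_sum_type, Fintype.sum_sum_type] at key
  simp only [Sum.elim_inl, Sum.elim_inr] at key
  have h1 : ∑ a : EI L P, μ.real (K.E a.1 a.2.1 a.2.2) = K.massE μ := by
    unfold MGraph.massE
    rw [Fintype.sum_prod_type]
    refine Finset.sum_congr rfl fun s _ => ?_
    rw [Fintype.sum_prod_type]
  have h2 : ∑ a : ι × P, μ.real (K.pathSet a.2 (r a.1) a.2) = K.massFc r μ := by
    unfold MGraph.massFc
    rw [Fintype.sum_prod_type]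
  rw [h1, h2] at key
  unfold MGraph.massV
  linarith

/-- `E - V ≤ e` for a certificate with no constraint. -/
theorem Cert.excess_le_of_true [Fintype L] {K : MGraph val P X}
    {μ : Measure X} {e : ℝ} (hrank : RankIneq Γ X μ)
    (h : Cert K (noSeed P X) (fun _ => True) μ e) : K.massE μ - K.massV μ ≤ e := by
  classical
  obtain ⟨W, O, iW, iO, ⟨cd⟩⟩ := h
  let Ω : (EI L P ⊕ W → X → ℝ) → O ⊕ P → X → ℝ := fun f b =>
    Sum.elim (cd.o f) (cd.c f) b
  have key := hrank (EI L P ⊕ W) (O ⊕ P) Ω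
    (by
      rintro (j | p)
      · exact cd.kero j
      · exact cd.kerc p)
    (fun a => Sum.elim (fun e => K.E e.1 e.2.1 e.2.2) cd.AW a)
    (fun b => Sum.elim cd.AO K.V b)
    (by
      rintro (⟨s, p, q⟩ | i)
      · exact K.measE s p q
      · exact cd.measAW i)
    (by
      rintro (j | p)
      · exact cd.measAO j
      · exact K.measV p)
    (by
      intro f hf hΩ
      have hadm : K.Adm cd.AW f := ⟨fun s p q x hx => hf (Sum.inl (s, p, q)) x hx,
        fun i x hx => hf (Sum.inr i) x hx⟩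
      have ho : ∀ j x, x ∈ cd.AO j → cd.o f j x = 0 := fun j x hx =>
        hΩ (Sum.inl j) x hx
      have hc : ∀ p x, x ∈ K.V p → cd.c f p x = 0 := fun p x hx =>
        hΩ (Sum.inr p) x hx
      obtain ⟨h1, -⟩ := cd.I1 f hadm trivial ho
      have h2 := cd.I2 f hadm trivial ho hc
      funext a x
      rcases a with ⟨s, p, q⟩ | i
      · by_cases hx : x ∈ K.E s p q
        · have := h1 s p q x hx
          simp only at this
          rw [hc _ _ (K.src _ _ _ _ hx), hc _ _ (K.tgt _ _ _ _ hx)] at this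
          simpa using this
        · exact hadm.1 s p q x hx
      · exact h2 i x)
  have hm := cd.mass_le
  rw [Fintype.sum_sum_type, Fintype.sum_sum_type] at key
  simp only [Sum.elim_inl, Sum.elim_inr] at key
  have h1 : ∑ a : EI L P, μ.real (K.E a.1 a.2.1 a.2.2) = K.massE μ := by
    unfold MGraph.massE
    rw [Fintype.sum_prod_type]
    refine Finset.sum_congr rfl fun s _ => ?_
    rw [Fintype.sum_prod_type]
  rw [h1] at key
  unfold MGraph.massV
  linarith

end Circ

end Cert

end Crest.Agent.NoFixedPrice
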