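import Crest.Agent.Lib.NoFixedPrice.FoldQuot
import Crest.Agent.Lib.NoFixedPrice.OwnerCx

/-!
# Row 191: one stage: add a strand, fold (helper46)

`K⁺ = addStrand K W D`: the sheets are `P ⊕ₗ Fin (W.length + 1)`; over each `u ∈ D` a fresh path
reading `W` from `(u, fr 0)` to `(wordAct W • u, fr n)`.
-/

set_option autoImplicit false
set_option linter.unusedSectionVars false

namespace Crest.Agent.NoFixedPrice

open MeasureTheory

variable {Γ L : Type*} [Group Γ] {val : L → Γ} {P X : Type*} [MulAction Γ X] [MeasurableSpace X]

namespace MGraph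

section Strand

/-- The group element reached after `k` letters. -/
def preG (val : L → Γ) (W : List (L × Bool)) (k : ℕ) : Γ := wordAct val (W.take k)

@[simp] lemma preG_zero (W : List (L × Bool)) : preG val W 0 = 1 := by simp [preG]

lemma preG_length (W : List (L × Bool)) : preG val W W.length = wordAct val W := by
  simp [preG]

lemma preG_succ {W : List (L × Bool)} {k : ℕ} {ℓ : L × Bool} (h : W[k]? = some ℓ) :
    preG val W (k + 1) = sval val ℓ * preG val W k := by
  have hk : k < W.length := (List.getElem?_eq_some_iff.1 h).1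
  have h2 : W[k] = ℓ := (List.getElem?_eq_some_iff.1 h).2
  unfold preG
  rw [List.take_succ_eq_append_getElem hk, wordAct_append, h2]
  simp

/-- The fresh vertices over `D` on sheet `k`. -/
def stV (val : L → Γ) (W : List (L × Bool)) (D : Set X) (k : ℕ) : Set X :=
  (fun x => (preG val W k)⁻¹ • x) ⁻¹' D

lemma mem_stV {W : List (L × Bool)} {D : Set X} {k : ℕ} {x : X} :
    x ∈ stV val W D k ↔ (preG val W k)⁻¹ • x ∈ D := Iff.rfl

lemma smul_mem_stV {W : List (L × Bool)} {D : Set X} {k : ℕ} {u : X} (hu : u ∈ D) :
    preG val W k • u ∈ stV val W D k := by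
  simpa [mem_stV] using hu

/-- The condition for a fresh edge of letter `s` from sheet `k` to sheet `k'`. -/
def stStep (W : List (L × Bool)) (s : L) (k k' : ℕ) : Prop :=
  (k' = k + 1 ∧ W[k]? = some (s, true)) ∨ (k = k' + 1 ∧ W[k']? = some (s, false))

/-- The strand added to a graph. -/
def addStrand (K : MGraph val P X) (hact : ∀ g : Γ, Measurable fun x : X => g • x)
    (W : List (L × Bool)) (D : Set X) (hD : MeasurableSet D) :
    MGraph val (P ⊕ₗ Fin (W.length + 1)) X := by
  classical
  exact
  { V := fun a => Sum.elim K.V (fun k : Fin (W.length + 1) => stV val W D k) (ofLex a)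
    E := fun s a b => match ofLex a, ofLex b with
      | Sum.inl p, Sum.inl q => K.E s p q
      | Sum.inr k, Sum.inr k' => if stStep W s k k' then stV val W D k else ∅
      | _, _ => ∅
    measV := by
      intro a
      rcases h : ofLex a with p | k
      · simpa using K.measV p
      · simpa [stV] using hact _ hD
    measE := by
      intro s a b
      rcases h : ofLex a with p | k <;> rcases h' : ofLex b with q | k'
      · simpa using K.measE s p q
      · simp
      · simp
      · simp only
        split_ifs
        · exact hact _ hD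
        · exact MeasurableSet.empty
    src := by
      intro s a b x hx
      rcases h : ofLex a with p | k <;> rcases h' : ofLex b with q | k' <;> simp only [h, h'] at hx
      · simpa [h] using K.src _ _ _ _ hx
      · exact hx.elim
      · exact hx.elim
      · split_ifs at hx
        · simpa [h] using hx
        · exact hx.elim
    tgt := by
      intro s a b x hx
      rcases h : ofLex a with p | k <;> rcases h' : ofLex b with q | k' <;> simp only [h, h'] at hx
      · simpa [h'] using K.tgt _ _ _ _ hx
      · exact hx.elim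
      · exact hx.elim
      · split_ifs at hx with hs
        · simp only [h', Sum.elim_inr]
          rcases hs with ⟨h1, h2⟩ | ⟨h1, h2⟩
          · rw [h1, mem_stV]
            have := preG_succ (val := val) h2
            rw [this, sval_true, mul_inv_rev, mul_smul, inv_smul_smul]
            exact hx
          · rw [mem_stV]
            have := preG_succ (val := val) h2
            rw [sval_false] at this
            have e : preG val W k' = val s * preG val W (k' + 1) := by
              rw [this, mul_inv_cancel_left]
            rw [e, mul_inv_rev, mul_smul, inv_smul_smul]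
            rw [mem_stV, h1] at hx
            exact hx
        · exact hx.elim }

end Strand

section API

variable (K : MGraph val P X) (hact : ∀ g : Γ, Measurable fun x : X => g • x)
  (W : List (L × Bool)) (D : Set X) (hD : MeasurableSet D)

/-- The old sheets. -/
def inS (W : List (L × Bool)) (p : P) : P ⊕ₗ Fin (W.length + 1) := toLex (Sum.inl p)

/-- The fresh sheets. -/
def fr (P : Type*) (W : List (L × Bool)) (k : Fin (W.length + 1)) : P ⊕ₗ Fin (W.length + 1) :=
  toLex (Sum.inr k)

lemma inS_inj {W : List (L × Bool)} {p q : P} (h : inS W p = inS W q) : p = q := by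
  simpa [inS] using h

@[simp] lemma addStrand_V_inS (p : P) : (K.addStrand hact W D hD).V (inS W p) = K.V p := rfl

@[simp] lemma addStrand_V_fr (k : Fin (W.length + 1)) :
    (K.addStrand hact W D hD).V (fr P W k) = stV val W D k := rfl

@[simp] lemma addStrand_E_inS (s : L) (p q : P) :
    (K.addStrand hact W D hD).E s (inS W p) (inS W q) = K.E s p q := rfl

@[simp] lemma addStrand_E_fr (s : L) (k k' : Fin (W.length + 1)) (hs : stStep W s k k') :
    (K.addStrand hact W D hD).E s (fr P W k) (fr P W k') = stV val W D k := by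
  classical
  simp only [addStrand, fr, ofLex_toLex]
  rw [if_pos hs]

lemma addStrand_E_fr' (s : L) (k k' : Fin (W.length + 1)) (hs : ¬ stStep W s k k') :
    (K.addStrand hact W D hD).E s (fr P W k) (fr P W k') = ∅ := by
  classical
  simp only [addStrand, fr, ofLex_toLex]
  rw [if_neg hs]

@[simp] lemma addStrand_E_mixed₁ (s : L) (p : P) (k : Fin (W.length + 1)) :
    (K.addStrand hact W D hD).E s (inS W p) (fr P W k) = ∅ := rfl

@[simp] lemma addStrand_E_mixed₂ (s : L) (p : P) (k : Fin (W.length + 1)) :
    (K.addStrand hact W D hD).E s (fr P W k) (inS W p) = ∅ := rfl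

/-- Every sheet is old or fresh. -/
lemma sheet_cases (a : P ⊕ₗ Fin (W.length + 1)) : (∃ p, a = inS W p) ∨ (∃ k, a = fr P W k) := by
  rcases h : ofLex a with p | k
  · exact Or.inl ⟨p, by simp [inS, ← h]⟩
  · exact Or.inr ⟨k, by simp [fr, ← h]⟩

/-- Old steps are steps of the graph with the strand. -/
lemma adj_inS {ℓ : L × Bool} {x y : X} {p q : P} (h : K.Adj ℓ (x, p) (y, q)) :
    (K.addStrand hact W D hD).Adj ℓ (x, inS W p) (y, inS W q) := by
  obtain ⟨s, b⟩ := ℓ
  cases b
  · simpa using h
  · simpa using h

lemma isPath_inS {w : List (L × Bool)} {x y : X} {p q : P} (h : K.IsPath (x, p) w (y, q)) :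
    (K.addStrand hact W D hD).IsPath (x, inS W p) w (y, inS W q) := by
  induction w generalizing x p with
  | nil =>
    have h' : (x, p) = (y, q) := h
    obtain ⟨rfl, rfl⟩ := Prod.mk.inj h'
    rfl
  | cons ℓ w ih =>
    obtain ⟨⟨z, r⟩, h1, h2⟩ := h
    exact ⟨(z, inS W r), K.adj_inS hact W D hD h1, ih h2⟩

/-- One step of the strand. -/
lemma adj_fr {u : X} (hu : u ∈ D) {k : ℕ} {ℓ : L × Bool} (hk : W[k]? = some ℓ) :
    (K.addStrand hact W D hD).Adj ℓ
      (preG val W k • u, fr P W ⟨k, Nat.lt_succ_of_lt (List.getElem?_eq_some_iff.1 hk).1⟩)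
      (preG val W (k + 1) • u, fr P W ⟨k + 1, Nat.succ_lt_succ (List.getElem?_eq_some_iff.1 hk).1⟩) := by
  obtain ⟨s, b⟩ := ℓ
  have hs := preG_succ (val := val) hk
  cases b with
  | true =>
    rw [adj_true]
    refine ⟨?_, ?_⟩
    · rw [addStrand_E_fr K hact W D hD s _ _ (Or.inl ⟨rfl, hk⟩)]
      exact smul_mem_stV hu
    · simp only [sval_true] at hs
      simp [hs, mul_smul]
  | false =>
    rw [adj_false]
    simp only [sval_false] at hs
    have e : preG val W k = val s * preG val W (k + 1) := by
      rw [hs, mul_inv_cancel_left]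
    refine ⟨?_, ?_⟩
    · rw [addStrand_E_fr K hact W D hD s _ _ (Or.inr ⟨rfl, hk⟩)]
      exact smul_mem_stV hu
    · simp [e, mul_smul]

/-- The strand from sheet `k` to sheet `k + m`. -/
lemma isPath_fr_sub {u : X} (hu : u ∈ D) (k m : ℕ) (hk : k + m ≤ W.length) :
    (K.addStrand hact W D hD).IsPath (preG val W k • u, fr P W ⟨k, by omega⟩) ((W.drop k).take m)
      (preG val W (k + m) • u, fr P W ⟨k + m, by omega⟩) := by
  induction m generalizing k with
  | zero => simp
  | succ m ih =>
    have hk' : k < W.length := by omega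
    have hd : W.drop k = W[k] :: W.drop (k + 1) := (List.drop_eq_getElem_cons hk')
    rw [hd, List.take_succ_cons]
    have h1 := K.adj_fr hact W D hD hu (k := k) (ℓ := W[k]) (List.getElem?_eq_getElem hk')
    have h2 := ih (k + 1) (by omega)
    have e : k + 1 + m = k + (m + 1) := by omega
    simp only [e] at h2
    exact ⟨_, h1, h2⟩

/-- The whole strand. -/
lemma isPath_strand {u : X} (hu : u ∈ D) :
    (K.addStrand hact W D hD).IsPath (u, fr P W 0) W
      (wordAct val W • u, fr P W (Fin.last _)) := by
  have h := K.isPath_fr_sub hact W D hD hu 0 W.length (by omega)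
  simp only [List.drop_zero, List.take_length, zero_add, preG_zero, one_smul, preG_length] at h
  exact h

/-- A step of the strand from fresh sheets. -/
lemma adj_of_fr {ℓ : L × Bool} {x y : X} {k k' : Fin (W.length + 1)}
    (h : (K.addStrand hact W D hD).Adj ℓ (x, fr P W k) (y, fr P W k')) :
    (preG val W k)⁻¹ • x ∈ D ∧ (preG val W k')⁻¹ • y ∈ D := by
  have h1 := Adj.mem_left h
  have h2 := Adj.mem_right h
  exact ⟨h1, h2⟩

end API

section Mass

variable [Fintype P] [Fintype L] [DecidableEq L] (K : MGraph val P X)
  (hact : ∀ g : Γ, Measurable fun x : X => g • x)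
  (W : List (L × Bool)) (D : Set X) (hD : MeasurableSet D)
  (μ : Measure X) [IsFiniteMeasure μ]
  (hmp : ∀ g : Γ, MeasurePreserving (fun x : X => g • x) μ μ)

omit [Fintype L] [DecidableEq L] in
lemma sum_lex {Q : Type*} [Fintype Q] (f : P ⊕ₗ Q → ℝ) :
    ∑ a, f a = ∑ p, f (toLex (Sum.inl p)) + ∑ k, f (toLex (Sum.inr k)) := by
  rw [← Equiv.sum_comp (toLex : P ⊕ Q ≃ P ⊕ₗ Q) f, Fintype.sum_sum_type]

include hmp in
lemma measureReal_stV (hD' : MeasurableSet D) (k : ℕ) : μ.real (stV val W D k) = μ.real D := by
  unfold stV
  rw [measureReal_def, measureReal_def, (hmp _).measure_preimage hD'.nullMeasurableSet]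

include hmp in
/-- The vertex mass of the graph with the strand. -/
lemma massV_addStrand (hD : MeasurableSet D) :
    (K.addStrand hact W D hD).massV μ = K.massV μ + (W.length + 1) * μ.real D := by
  unfold massV
  rw [sum_lex]
  congr 1
  have : ∀ k : Fin (W.length + 1), μ.real ((K.addStrand hact W D hD).V (toLex (Sum.inr k))) =
      μ.real D := fun k => measureReal_stV W D μ hmp hD k
  simp [this]

omit [Fintype P] in
open Classical in
/-- The number of fresh edges. -/
lemma card_stStep (W : List (L × Bool)) :
    (Finset.univ.filter fun c : L × Fin (W.length + 1) × Fin (W.length + 1) =>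
      stStep W c.1 c.2.1 c.2.2).card ≤ W.length := by
  classical
  have : (Finset.univ.filter fun c : L × Fin (W.length + 1) × Fin (W.length + 1) =>
      stStep W c.1 c.2.1 c.2.2).card ≤ (Finset.range W.length).card := by
    refine Finset.card_le_card_of_injOn
      (fun c => min (c.2.1 : ℕ) c.2.2) ?_ ?_
    · rintro ⟨s, k, k'⟩ hc
      simp only [Finset.coe_filter, Finset.mem_univ, true_and, Set.mem_ofPred_eq] at hc
      simp only [Finset.coe_range, Set.mem_Iio]
      rcases hc with ⟨h1, h2⟩ | ⟨h1, h2⟩
      · have := (List.getElem?_eq_some_iff.1 h2).1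
        omega
      · have := (List.getElem?_eq_some_iff.1 h2).1
        omega
    · rintro ⟨s, k, k'⟩ hc ⟨s', l, l'⟩ hc' he
      simp only [Finset.coe_filter, Finset.mem_univ, true_and, Set.mem_ofPred_eq] at hc hc'
      simp only at he
      rcases hc with ⟨h1, h2⟩ | ⟨h1, h2⟩ <;> rcases hc' with ⟨h3, h4⟩ | ⟨h3, h4⟩
      · have e : (k : ℕ) = l := by omega
        rw [e, h4] at h2
        have e2 : (s', true) = (s, true) := by simpa using h2
        have e3 : s' = s := congrArg Prod.fst e2
        subst e3
        have : k = l := Fin.ext e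
        have : k' = l' := Fin.ext (by omega)
        simp_all
      · have e : (k : ℕ) = l' := by omega
        rw [e, h4] at h2
        simp at h2
      · have e : (k' : ℕ) = l := by omega
        rw [e, h4] at h2
        simp at h2
      · have e : (k' : ℕ) = l' := by omega
        rw [e, h4] at h2
        have e2 : (s', false) = (s, false) := by simpa using h2
        have e3 : s' = s := congrArg Prod.fst e2
        subst e3
        have : k' = l' := Fin.ext e
        have : k = l := Fin.ext (by omega)
        simp_all
  simpa using this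

include hmp in
/-- The edge mass of the graph with the strand. -/
lemma massE_addStrand_le (hD : MeasurableSet D) :
    (K.addStrand hact W D hD).massE μ ≤ K.massE μ + W.length * μ.real D := by
  classical
  have h0 : 0 ≤ μ.real D := measureReal_nonneg
  have key : ∀ s : L, ∑ a, ∑ b, μ.real ((K.addStrand hact W D hD).E s a b) =
      ∑ p, ∑ q, μ.real (K.E s p q) + ∑ k : Fin (W.length + 1), ∑ k' : Fin (W.length + 1),
        if stStep W s k k' then μ.real D else 0 := by
    intro s
    rw [sum_lex]
    congr 1
    · refine Finset.sum_congr rfl fun p _ => ?_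
      rw [sum_lex]
      have : ∀ k : Fin (W.length + 1),
          μ.real ((K.addStrand hact W D hD).E s (toLex (Sum.inl p)) (toLex (Sum.inr k))) = 0 := by
        intro k
        have : (K.addStrand hact W D hD).E s (toLex (Sum.inl p)) (toLex (Sum.inr k)) = ∅ := rfl
        simp [this]
      simp only [this, Finset.sum_const_zero, add_zero]
      rfl
    · refine Finset.sum_congr rfl fun k _ => ?_
      rw [sum_lex]
      have : ∀ p : P,
          μ.real ((K.addStrand hact W D hD).E s (toLex (Sum.inr k)) (toLex (Sum.inl p))) = 0 := by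
        intro p
        have : (K.addStrand hact W D hD).E s (toLex (Sum.inr k)) (toLex (Sum.inl p)) = ∅ := rfl
        simp [this]
      simp only [this, Finset.sum_const_zero, zero_add]
      refine Finset.sum_congr rfl fun k' _ => ?_
      by_cases hs : stStep W s k k'
      · rw [if_pos hs]
        have : (K.addStrand hact W D hD).E s (toLex (Sum.inr k)) (toLex (Sum.inr k')) =
            stV val W D k := K.addStrand_E_fr hact W D hD s k k' hs
        rw [this]
        exact measureReal_stV W D μ hmp hD k
      · rw [if_neg hs]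
        have : (K.addStrand hact W D hD).E s (toLex (Sum.inr k)) (toLex (Sum.inr k')) = ∅ :=
          K.addStrand_E_fr' hact W D hD s k k' hs
        simp [this]
  unfold massE
  simp_rw [key]
  rw [Finset.sum_add_distrib]
  refine add_le_add le_rfl ?_
  have h1 : ∑ s : L, ∑ k : Fin (W.length + 1), ∑ k' : Fin (W.length + 1),
      (if stStep W s k k' then μ.real D else 0) =
      ∑ c : L × Fin (W.length + 1) × Fin (W.length + 1),
        if stStep W c.1 c.2.1 c.2.2 then μ.real D else 0 := by
    rw [Fintype.sum_prod_type]
    refine Finset.sum_congr rfl fun s _ => ?_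
    rw [Fintype.sum_prod_type]
  rw [h1, Finset.sum_ite, Finset.sum_const_zero, add_zero, Finset.sum_const, nsmul_eq_mul]
  exact mul_le_mul_of_nonneg_right (by exact_mod_cast card_stStep W) h0

end Mass

section Seeds

variable [Fintype P] [LinearOrder P] [Countable L] (K : MGraph val P X)
  (hact : ∀ g : Γ, Measurable fun x : X => g • x)
  (W : List (L × Bool)) (D : Set X) (hD : MeasurableSet D) (α γ : X → P)
  (hα : ∀ p, MeasurableSet {x | α x = p}) (hγ : ∀ p, MeasurableSet {x | γ x = p})

/-- The two junctions of a strand. -/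
def seedS (x : X) (a b : P ⊕ₗ Fin (W.length + 1)) : Prop :=
  (x ∈ D ∧ a = inS W (α x) ∧ b = fr P W 0) ∨
  ((wordAct val W)⁻¹ • x ∈ D ∧ a = inS W (γ ((wordAct val W)⁻¹ • x)) ∧ b = fr P W (Fin.last _))

include hact hD hα hγ in
lemma measurable_seedS (a b : P ⊕ₗ Fin (W.length + 1)) :
    MeasurableSet {x | seedS (val := val) W D α γ x a b} := by
  classical
  have h1 : MeasurableSet {x | x ∈ D ∧ a = inS W (α x) ∧ b = fr P W 0} := by
    by_cases hb : b = fr P W 0
    · rcases sheet_cases W a with ⟨p, rfl⟩ | ⟨k, rfl⟩
      · have : {x | x ∈ D ∧ inS W p = inS W (α x) ∧ b = fr P W 0} = D ∩ {x | α x = p} := by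
          ext x
          simp only [Set.mem_ofPred_eq, Set.mem_inter_iff, hb, and_true]
          exact and_congr_right fun _ => ⟨fun h => (inS_inj h).symm, fun h => by rw [h]⟩
        rw [this]
        exact hD.inter (hα p)
      · have : {x | x ∈ D ∧ fr P W k = inS W (α x) ∧ b = fr P W 0} = ∅ := by
          ext x
          simp [fr, inS]
        rw [this]
        exact MeasurableSet.empty
    · have : {x | x ∈ D ∧ a = inS W (α x) ∧ b = fr P W 0} = ∅ := by
        ext x
        simp [hb]
      rw [this]
      exact MeasurableSet.empty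
  have h2 : MeasurableSet {x | (wordAct val W)⁻¹ • x ∈ D ∧ a = inS W (γ ((wordAct val W)⁻¹ • x)) ∧
      b = fr P W (Fin.last _)} := by
    by_cases hb : b = fr P W (Fin.last _)
    · rcases sheet_cases W a with ⟨p, rfl⟩ | ⟨k, rfl⟩
      · have : {x | (wordAct val W)⁻¹ • x ∈ D ∧ inS W p = inS W (γ ((wordAct val W)⁻¹ • x)) ∧
            b = fr P W (Fin.last _)} =
            (fun x => (wordAct val W)⁻¹ • x) ⁻¹' (D ∩ {x | γ x = p}) := by
          ext x
          simp only [Set.mem_ofPred_eq, Set.mem_preimage, Set.mem_inter_iff, hb, and_true]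
          exact and_congr_right fun _ => ⟨fun h => (inS_inj h).symm, fun h => by rw [h]⟩
        rw [this]
        exact hact _ (hD.inter (hγ p))
      · have : {x | (wordAct val W)⁻¹ • x ∈ D ∧ fr P W k = inS W (γ ((wordAct val W)⁻¹ • x)) ∧
            b = fr P W (Fin.last _)} = ∅ := by
          ext x
          simp [fr, inS]
        rw [this]
        exact MeasurableSet.empty
    · have : {x | (wordAct val W)⁻¹ • x ∈ D ∧ a = inS W (γ ((wordAct val W)⁻¹ • x)) ∧
          b = fr P W (Fin.last _)} = ∅ := by
        ext x
        simp [hb]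
      rw [this]
      exact MeasurableSet.empty
  exact h1.union h2

/-- The fold relation of a stage. -/
noncomputable def rhoS : SheetRel (P ⊕ₗ Fin (W.length + 1)) X :=
  (K.addStrand hact W D hD).foldRel hact (seedS (val := val) W D α γ)
    (measurable_seedS hact W D hD α γ hα hγ)

/-- The graph after the stage. -/
noncomputable def foldS : MGraph val (P ⊕ₗ Fin (W.length + 1)) X :=
  (K.addStrand hact W D hD).fold hact (seedS (val := val) W D α γ)
    (measurable_seedS hact W D hD α γ hα hγ)

/-- The sheet map of a stage. -/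
noncomputable def repS (x : X) (p : P) : P ⊕ₗ Fin (W.length + 1) :=
  (K.rhoS hact W D hD α γ hα hγ).rep x (inS W p)

theorem folded_foldS : (K.foldS hact W D hD α γ hα hγ).Folded :=
  folded_fold _ hact _ _

/-- The image of a vertex of the strand. -/
noncomputable def repF (x : X) (k : Fin (W.length + 1)) : P ⊕ₗ Fin (W.length + 1) :=
  (K.rhoS hact W D hD α γ hα hγ).rep x (fr P W k)

theorem repF_zero {u : X} (hu : u ∈ D) :
    K.repF hact W D hD α γ hα hγ u 0 = K.repS hact W D hD α γ hα hγ u (α u) := by
  refine (SheetRel.rep_eq_of_rel _ ?_).symm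
  exact foldRel_seed _ hact _ _ (Or.inl ⟨hu, rfl, rfl⟩)

theorem repF_last {u : X} (hu : u ∈ D) :
    K.repF hact W D hD α γ hα hγ (wordAct val W • u) (Fin.last _) =
      K.repS hact W D hD α γ hα hγ (wordAct val W • u) (γ u) := by
  refine (SheetRel.rep_eq_of_rel _ ?_).symm
  refine foldRel_seed _ hact _ _ (Or.inr ⟨?_, ?_, rfl⟩)
  · simpa using hu
  · simp

/-- The sheet map is a morphism. -/
theorem mor_repS : Mor K (K.foldS hact W D hD α γ hα hγ) (K.repS hact W D hD α γ hα hγ) where
  meas p p' := SheetRel.measurableSet_rep_eq _ _ _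
  vert p x hx := ⟨inS W p, rfl, hx⟩
  edge s p q x hx := ⟨inS W p, inS W q, rfl, rfl, hx⟩

/-- The strand in the quotient, closing the arc. -/
theorem foldS_isPath {u : X} (hu : u ∈ D) :
    (K.foldS hact W D hD α γ hα hγ).IsPath (u, K.repS hact W D hD α γ hα hγ u (α u)) W
      (wordAct val W • u, K.repS hact W D hD α γ hα hγ (wordAct val W • u) (γ u)) := by
  have h := IsPath.qv (K.rhoS hact W D hD α γ hα hγ) hact (K.isPath_strand hact W D hD hu)
  have e1 := K.repF_zero hact W D hD α γ hα hγ hu
  have e2 := K.repF_last hact W D hD α γ hα hγ hu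
  simp only [qv] at h
  exact (e1 ▸ e2 ▸ h)

end Seeds

end MGraph

end Crest.Agent.NoFixedPrice
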