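import Crest.Agent.Lib.NoFixedPrice.CertMoves
import Crest.Agent.Lib.NoFixedPrice.Stage

/-!
# The certificate survives one stage (row 191, S0291; helper63)

`Cert.foldS`: if `K` is folded and certified on all its closed lifts, and `foldS` closes a family of
arcs by the complementary word of an arc pair, then `foldS` is certified at the same level on all
its closed lifts.
-/

set_option autoImplicit false
set_option linter.unusedSectionVars false

namespace Crest.Agent.NoFixedPrice

open MeasureTheory Finset

variable {Γ : Type*} [Group Γ] {L P X : Type} [MulAction Γ X] [MeasurableSpace X] {val : L → Γ}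

namespace MGraph

section Strand

variable (P) (W : List (L × Bool))

/-- The fresh sheet with a natural index. -/
def frN (n : ℕ) : P ⊕ₗ Fin (W.length + 1) := fr P W (Fin.ofNat (W.length + 1) n)

lemma frN_eq {n : ℕ} (h : n < W.length + 1) : frN P W n = fr P W ⟨n, h⟩ := by
  unfold frN
  congr 1
  apply Fin.ext
  simp [Fin.ofNat, Nat.mod_eq_of_lt h]

lemma frN_val (k : Fin (W.length + 1)) : frN P W k = fr P W k := by
  rw [frN_eq P W k.2]

variable {P} (val)

/-- The integral of a cochain along one step of the strand over `u`. -/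
noncomputable def stAt (ψ : EI L (P ⊕ₗ Fin (W.length + 1)) → X → ℝ) (n : ℕ) (u : X) : ℝ :=
  match W[n]? with
  | some ℓ => stepVal val ψ ℓ (frN P W n) (frN P W (n + 1)) (preG val W n • u)
  | none => 0

/-- The integral of a cochain along the first `k` steps of the strand over `u`. -/
noncomputable def stSum (ψ : EI L (P ⊕ₗ Fin (W.length + 1)) → X → ℝ) (k : ℕ) (u : X) : ℝ :=
  ∑ n ∈ Finset.range k, stAt val W ψ n u

lemma isK_stAt [Fintype P] (n : ℕ) (g : Γ) :
    IsK Γ (fun (ψ : EI L (P ⊕ₗ Fin (W.length + 1)) → X → ℝ) (y : X) => stAt val W ψ n (g • y)) := by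
  unfold stAt
  cases W[n]? with
  | none => exact IsK.zero
  | some ℓ =>
    simp only
    have : IsK Γ (fun (ψ : EI L (P ⊕ₗ Fin (W.length + 1)) → X → ℝ) =>
        stepVal val ψ ℓ (frN P W n) (frN P W (n + 1))) := isK_stepVal _ _ _
    have h2 := IsK.shift (preG val W n * g) this
    simpa [mul_smul] using h2

variable (D : Set X) (α : X → P)

/-- The primitive on the fresh sheet `k`. -/
noncomputable def strF [Fintype P] (ψ : EI L (P ⊕ₗ Fin (W.length + 1)) → X → ℝ) (c : P → X → ℝ)
    (k : ℕ) (y : X) : ℝ :=
  D.indicator (fun _ => (1 : ℝ)) ((preG val W k)⁻¹ • y) *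
    (∑ p, ({x | α x = p} : Set X).indicator (fun _ => (1 : ℝ)) ((preG val W k)⁻¹ • y) *
        c p ((preG val W k)⁻¹ • y) -
      stSum val W ψ k ((preG val W k)⁻¹ • y))

/-- The extended primitive. -/
noncomputable def strInt [Fintype P] (ψ : EI L (P ⊕ₗ Fin (W.length + 1)) → X → ℝ) (c : P → X → ℝ)
    (a : P ⊕ₗ Fin (W.length + 1)) (y : X) : ℝ :=
  Sum.elim (fun p => c p y) (fun k : Fin (W.length + 1) => strF val W D α ψ c k y) (ofLex a)

lemma strF_apply [Fintype P] {ψ : EI L (P ⊕ₗ Fin (W.length + 1)) → X → ℝ} {c : P → X → ℝ} {u : X}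
    (hu : u ∈ D) (k : ℕ) :
    strF val W D α ψ c k (preG val W k • u) = c (α u) u - stSum val W ψ k u := by
  classical
  unfold strF
  rw [inv_smul_smul]
  have h1 : ∑ p, ({x | α x = p} : Set X).indicator (fun _ => (1 : ℝ)) u * c p u = c (α u) u := by
    rw [Finset.sum_eq_single (α u)]
    · simp
    · intro b _ hb
      simp [Set.indicator, hb.symm]
    · intro h; exact absurd (Finset.mem_univ _) h
  rw [h1]
  simp [hu]

end Strand

section Extend

variable [Fintype L] [Fintype P] [LinearOrder P] (K : MGraph val P X)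
  (hact : ∀ g : Γ, Measurable fun x : X => g • x)
  (W : List (L × Bool)) (D : Set X) (hD : MeasurableSet D) (α γ : X → P)
  (hα : ∀ p, MeasurableSet {x | α x = p}) (hγ : ∀ p, MeasurableSet {x | γ x = p})

/-- The constraint on the graph with the strand: the old constraint, and closure of the new cell. -/
def ZStrand (Z : (EI L P → X → ℝ) → Prop) (Aw : List (L × Bool))
    (ψ : EI L (P ⊕ₗ Fin (W.length + 1)) → X → ℝ) : Prop :=
  Z (resE K (inS W) ψ) ∧
    ∀ u ∈ D, K.circ (resE K (inS W) ψ) (α u) Aw u = stSum val W ψ W.length u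

include hα hD in
lemma isK_strInt (a : P ⊕ₗ Fin (W.length + 1)) :
    IsK Γ (I := EI L (P ⊕ₗ Fin (W.length + 1)) ⊕ P)
      (fun f => strInt val W D α (fun e => f (Sum.inl e)) (fun p => f (Sum.inr p)) a) := by
  rcases sheet_cases W a with ⟨p, rfl⟩ | ⟨k, rfl⟩
  · exact IsK.coord (Sum.inr p)
  · -- the kernel at the base point of the strand
    have h0 : IsK Γ (I := EI L (P ⊕ₗ Fin (W.length + 1)) ⊕ P) (fun f u =>
        D.indicator (fun _ => (1 : ℝ)) u *
          (∑ p, ({x | α x = p} : Set X).indicator (fun _ => (1 : ℝ)) u * f (Sum.inr p) u -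
            stSum val W (fun e => f (Sum.inl e)) k u)) := by
      refine IsK.mulw _ (BddMeas.indicator hD 1) (IsK.sub ?_ ?_)
      · exact IsK.sum _ fun p _ => IsK.mulw _ (BddMeas.indicator (hα p) 1) (IsK.coord _)
      · unfold stSum
        refine IsK.sum _ fun n _ => ?_
        have h1 := (isK_stAt val W n (1 : Γ) (P := P) (X := X)).comp
          (T := fun (e : EI L (P ⊕ₗ Fin (W.length + 1)))
            (f : EI L (P ⊕ₗ Fin (W.length + 1)) ⊕ P → X → ℝ) => f (Sum.inl e))
          (fun e => IsK.coord _)
        simpa using h1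
    exact IsK.shift ((preG val W k)⁻¹) h0

/-- The primitive extends over the strand. -/
lemma isPrim_strInt {Z : (EI L P → X → ℝ) → Prop} {Aw : List (L × Bool)}
    (hF : K.Folded)
    (harc : ∀ u ∈ D, K.IsPath (u, α u) Aw (wordAct val W • u, γ u))
    {ψ : EI L (P ⊕ₗ Fin (W.length + 1)) → X → ℝ} {c : P → X → ℝ}
    (hZ : ZStrand K W D α Z Aw ψ) (hc : K.IsPrim (resE K (inS W) ψ) c) :
    (K.addStrand hact W D hD).IsPrim ψ (strInt val W D α ψ c) ∧
      ∀ a b x, x ∈ seedSets (seedS (val := val) W D α γ) a b →
        strInt val W D α ψ c a x = strInt val W D α ψ c b x := by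
  classical
  constructor
  · intro s a b x hx
    rcases sheet_cases W a with ⟨p, rfl⟩ | ⟨k, rfl⟩ <;> rcases sheet_cases W b with ⟨q, rfl⟩ | ⟨k', rfl⟩
    · have hx' : x ∈ K.E s p q := hx
      have := hc s p q x hx'
      rw [resE_of_mem hx'] at this
      exact this
    · exact absurd hx (by simp)
    · exact absurd hx (by simp)
    · by_cases hs : stStep W s k k'
      · rw [K.addStrand_E_fr hact W D hD s k k' hs] at hx
        have hu : (preG val W k)⁻¹ • x ∈ D := hx
        set u := (preG val W k)⁻¹ • x with hudef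
        have hxu : x = preG val W k • u := by rw [hudef, smul_inv_smul]
        show ψ (s, fr P W k, fr P W k') x + strF val W D α ψ c k' (val s • x) -
          strF val W D α ψ c k x = 0
        rcases hs with ⟨h1, h2⟩ | ⟨h1, h2⟩
        · have e1 := preG_succ (val := val) h2
          rw [sval_true] at e1
          have e2 : val s • x = preG val W k' • u := by
            rw [h1, e1, mul_smul, ← hxu]
          rw [e2, strF_apply val W D α hu]
          rw [hxu, strF_apply val W D α hu, ← hxu]
          have e3 : stAt val W ψ k u = ψ (s, fr P W k, fr P W k') x := by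
            unfold stAt
            rw [h2]
            simp only [stepVal, if_true]
            rw [← hxu, frN_val, ← h1, frN_val]
          have e4 : stSum val W ψ k' u = stSum val W ψ k u + stAt val W ψ k u := by
            unfold stSum
            rw [h1, Finset.sum_range_succ]
          rw [e4, e3]
          ring
        · have e1 := preG_succ (val := val) h2
          rw [sval_false] at e1
          have e0 : preG val W k = (val s)⁻¹ * preG val W k' := by
            rw [← e1]; congr 1
          have e2 : val s • x = preG val W k' • u := by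
            rw [hxu, e0, ← mul_smul, mul_inv_cancel_left]
          rw [e2, strF_apply val W D α hu]
          rw [hxu, strF_apply val W D α hu, ← hxu]
          have e3 : stAt val W ψ k' u = - ψ (s, fr P W k, fr P W k') x := by
            unfold stAt
            rw [h2]
            simp only [stepVal, Bool.false_eq_true, if_false]
            have e5 : (val s)⁻¹ • preG val W k' • u = x := by
              rw [hxu, e0, mul_smul]
            rw [e5, frN_val]
            have e6 : frN P W ((k' : ℕ) + 1) = fr P W k := by
              rw [← h1, frN_val]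
            rw [e6]
          have e4 : stSum val W ψ k u = stSum val W ψ k' u + stAt val W ψ k' u := by
            unfold stSum
            rw [h1, Finset.sum_range_succ]
          rw [e4, e3]
          ring
      · rw [K.addStrand_E_fr' hact W D hD s k k' hs] at hx
        exact hx.elim
  · intro a b x hx
    rcases hx with ⟨h1, rfl, rfl⟩ | ⟨h1, rfl, rfl⟩
    · show c (α x) x = strF val W D α ψ c ((0 : Fin (W.length + 1)) : ℕ) x
      have := strF_apply val W D α (ψ := ψ) (c := c) h1 0
      simpa [stSum] using this.symm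
    · set u := (wordAct val W)⁻¹ • x with hu
      have hxu : x = wordAct val W • u := by rw [hu, smul_inv_smul]
      show c (γ u) x = strF val W D α ψ c ((Fin.last W.length : Fin (W.length + 1)) : ℕ) x
      have e1 := strF_apply val W D α (ψ := ψ) (c := c) h1 W.length
      rw [preG_length, ← hxu] at e1
      simp only [Fin.val_last]
      rw [e1, ← hZ.2 u h1]
      have h2 := harc u h1
      rw [← hxu] at h2
      rw [circ_of_prim hF hc h2]
      ring

include hα in
/-- `CLOSE`: attach the strand with its two seeds. -/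
theorem Cert.addStrand {Z : (EI L P → X → ℝ) → Prop} {μ : Measure X} {e : ℝ} {Aw : List (L × Bool)}
    (h : Cert K (noSeed P X) Z μ e) (hF : K.Folded)
    (harc : ∀ u ∈ D, K.IsPath (u, α u) Aw (wordAct val W • u, γ u)) :
    Cert (K.addStrand hact W D hD) (seedSets (seedS (val := val) W D α γ))
      (ZStrand K W D α Z Aw) μ e := by
  refine Cert.extend h (inS W) (fun p x hx => hx) (strInt val W D α)
    (isK_strInt (val := val) W D hD α hα) (fun ψ _ hz => hz.1) ?_ (fun _ _ _ _ _ => rfl)
  intro ψ c _ hz hc
  exact K.isPrim_strInt hact W D hD α γ hF harc hz hc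

end Extend

section Close

open Crest.Agent.Lib.NoFixedPrice.Arc FreeGroup
open Crest.Agent.NoFixedPrice.FinalDrop

variable {β : Type} [Fintype β] [DecidableEq β] [Fintype P] [LinearOrder P] {val : Option β → Γ}
  (K : MGraph val P X)
  (hact : ∀ g : Γ, Measurable fun x : X => g • x)
  (W : List (Option β × Bool)) (D : Set X) (hD : MeasurableSet D) (α γ : X → P)
  (hα : ∀ p, MeasurableSet {x | α x = p}) (hγ : ∀ p, MeasurableSet {x | γ x = p})
  {a : β → ℕ → β} {Lb : ℕ} {w : β → List β}

/-- The pulled back cochain on one step. -/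
lemma stepVal_pull {Kp : MGraph val P X} {P' : Type} [Fintype P'] {ρ : P → X → P'}
    {ψ' : EI (Option β) P' → X → ℝ} {ℓ : Option β × Bool} {p q : P} {y y' : X}
    (h : Kp.Adj ℓ (y, p) (y', q)) :
    stepVal val (pullE Kp ρ ψ') ℓ p q y = stepVal val ψ' ℓ (ρ p y) (ρ q y') y := by
  obtain ⟨s, b⟩ := ℓ
  cases b
  · obtain ⟨h1, h2⟩ := (Kp.adj_false s _ _).1 h
    simp only at h1 h2
    have h3 : (val s)⁻¹ • y = y' := by rw [h2]; simp
    simp only [stepVal, Bool.false_eq_true, if_false, h3]
    rw [pullE_of_mem h1, ← h2]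
  · obtain ⟨h1, h2⟩ := (Kp.adj_true s _ _).1 h
    simp only at h1 h2
    simp only [stepVal, if_true]
    rw [pullE_of_mem h1, ← h2]

/-- The strand sum of the pull back is the integral along the image of the strand. -/
lemma stSum_pull {ψ' : EI (Option β) (P ⊕ₗ Fin (W.length + 1)) → X → ℝ} {u : X} (hu : u ∈ D)
    (hF' : (K.foldS hact W D hD α γ hα hγ).Folded) (m : ℕ) (hm : m ≤ W.length) :
    stSum val W (pullE (K.addStrand hact W D hD)
        (fun b x => (K.rhoS hact W D hD α γ hα hγ).rep x b) ψ') m u =
      (K.foldS hact W D hD α γ hα hγ).circ ψ' ((K.rhoS hact W D hD α γ hα hγ).rep u (fr P W 0))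
        (W.take m) u := by
  set K' := K.foldS hact W D hD α γ hα hγ with hK'
  set ρ := K.rhoS hact W D hD α γ hα hγ with hρ
  induction m with
  | zero => simp [stSum, MGraph.circ]
  | succ m ih =>
    have hm' : m < W.length := hm
    have hp1 := K.isPath_fr_sub hact W D hD hu 0 m (by omega)
    simp only [List.drop_zero, zero_add, preG_zero, one_smul] at hp1
    have hp2 : K'.IsPath (u, ρ.rep u (fr P W 0)) (W.take m)
        (preG val W m • u, ρ.rep (preG val W m • u) (fr P W ⟨m, by omega⟩)) := IsPath.qv ρ hact hp1
    have hadj := K.adj_fr hact W D hD hu (k := m) (ℓ := W[m]) (List.getElem?_eq_getElem hm')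
    have hadj' := Adj.qv ρ hact hadj
    simp only [qv] at hadj'
    rw [stSum, Finset.sum_range_succ, ← stSum, ih (by omega),
      List.take_succ_eq_append_getElem hm', K'.circ_append hF' ψ' hp2]
    congr 1
    unfold stAt
    rw [List.getElem?_eq_getElem hm']
    simp only
    rw [frN_eq P W (by omega), frN_eq P W (by omega : m + 1 < W.length + 1)]
    rw [stepVal_pull hadj]
    have hadj'' : K'.Adj W[m] (preG val W m • u, ρ.rep (preG val W m • u) (fr P W ⟨m, by omega⟩))
        (preG val W (m + 1) • u, ρ.rep (preG val W (m + 1) • u) (fr P W ⟨m + 1, by omega⟩)) := hadj'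
    rw [K'.circ_cons_of_adj (w := []) hF' ψ' hadj'']
    simp [MGraph.circ]

/-- **The certificate survives one stage.** -/
theorem Cert.foldS {μ : Measure X} {e : ℝ} {A C : List (HLet β)}
    (hK : Cert K (noSeed P X) (K.ZCells (rel a Lb)) μ e) (hF : K.Folded)
    (hbot : ∀ i, botW a i Lb = (embW (Crest.Agent.NoFixedPrice.pos (w i))).reverse)
    (hrel : ∀ i, wordAct val (rel a Lb i) = 1)
    (hAC : ArcPair w A C) (hW : W = C.reverse)
    (harc : ∀ u ∈ D, K.IsPath (u, α u) A.reverse (wordAct val W • u, γ u))
    (hsv : ∀ u ∈ D, u ∈ K.V (α u) ∧ wordAct val W • u ∈ K.V (γ u)) :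
    Cert (K.foldS hact W D hD α γ hα hγ) (noSeed (P ⊕ₗ Fin (W.length + 1)) X)
      ((K.foldS hact W D hD α γ hα hγ).ZCells (rel a Lb)) μ e := by
  classical
  have h1 := Cert.addStrand K hact W D hD α γ hα hK hF harc
  have hF' := K.folded_foldS hact W D hD α γ hα hγ
  set K' := K.foldS hact W D hD α γ hα hγ with hK'
  refine Cert.fold (K.addStrand hact W D hD) hact (seedS (val := val) W D α γ)
    (measurable_seedS hact W D hD α γ hα hγ) h1 ?_ ?_
  · -- the seeds are vertices
    rintro x p q (⟨h2, rfl, rfl⟩ | ⟨h2, rfl, rfl⟩)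
    · refine ⟨(hsv x h2).1, ?_⟩
      show x ∈ stV val W D _
      simpa [mem_stV] using h2
    · have h3 := (hsv _ h2).2
      rw [smul_inv_smul] at h3
      refine ⟨h3, ?_⟩
      show x ∈ stV val W D _
      simpa [mem_stV, preG_length] using h2
  · intro ψ' _ hz
    have hmor := K.mor_repS hact W D hD α γ hα hγ
    set ρ := K.rhoS hact W D hD α γ hα hγ with hρ
    -- the cochain on the old edges
    have hres : ∀ s p q x, x ∈ K.E s p q →
        resE K (inS W) (pullE (K.addStrand hact W D hD) (fun p x => ρ.rep x p) ψ') (s, p, q) x =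
          ψ' (s, K.repS hact W D hD α γ hα hγ x p,
            K.repS hact W D hD α γ hα hγ (val s • x) q) x := by
      intro s p q x hx
      rw [resE_of_mem hx]
      exact pullE_of_mem (Kp := K.addStrand hact W D hD) hx
    show K.ZStrand W D α _ _ (pullE (K.addStrand hact W D hD) (fun p x => ρ.rep x p) ψ')
    constructor
    · -- the old cells
      intro i p x hx
      have hx' : K.IsPath (x, p) (rel a Lb i) (wordAct val (rel a Lb i) • x, p) := hx
      rw [hrel i, one_smul] at hx'
      rw [K.circ_pull hF hF' (fun p x => K.repS hact W D hD α γ hα hγ x p) hmor.edge hres hx']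
      refine hz i _ x ?_
      show K'.IsPath _ _ _
      rw [hrel i, one_smul]
      exact hmor.path hx'
    · -- the new cell
      intro u hu
      rw [K.circ_pull hF hF' (fun p x => K.repS hact W D hD α γ hα hγ x p) hmor.edge hres (harc u hu)]
      have h2 := K.stSum_pull hact W D hD α γ hα hγ (ψ' := ψ') hu hF' W.length le_rfl
      rw [List.take_length] at h2
      have e1 : ρ.rep u (fr P W 0) = K.repS hact W D hD α γ hα hγ u (α u) := K.repF_zero hact W D hD α γ hα hγ hu
      rw [e1] at h2
      refine Eq.trans ?_ h2.symm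
      have hp2 := K.foldS_isPath hact W D hD α γ hα hγ hu
      have hp1 := hmor.path (harc u hu)
      subst hW
      exact arcPair_circ hF' hbot hrel hz hAC hp1 hp2

end Close

end MGraph

end Crest.Agent.NoFixedPrice
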