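import Crest.Agent.Lib.NoFixedPrice.CertSub
import Crest.Agent.Lib.NoFixedPrice.LeafRemove

/-!
# The certificate survives the removal of the leaves (row 191, S0291; helper63)

Closed lifts contain no leaf, so a cochain on the graph without leaves is extended by `0`.
-/

set_option autoImplicit false
set_option linter.unusedSectionVars false

namespace Crest.Agent.NoFixedPrice

open MeasureTheory Finset

variable {Γ : Type*} [Group Γ] {β : Type} [Fintype β] [DecidableEq β]

namespace MGraph

variable {val : Option β → Γ} {P X : Type} [MulAction Γ X] [MeasurableSpace X]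
  [Fintype P] [DecidableEq P] {K : MGraph val P X} {a : β → ℕ → β} {Lb : ℕ}

/-- **The certificate survives the removal of the leaves.** -/
theorem Cert.dropLeaves {μ : Measure X} {e : ℝ}
    (h : Cert K (noSeed P X) (K.ZCells (rel a Lb)) μ e) (hK : K.Folded) (hLb : 0 < Lb)
    (hrel : ∀ i, wordAct val (rel a Lb i) = 1)
    (hact : ∀ g : Γ, Measurable fun x : X => g • x)
    (hdeg : ∀ p : P, Measurable fun x : X => K.deg x p) {b : P}
    (hline : ∀ x, x ∈ K.E none b b)
    (hvert : ∀ x p, x ∈ K.V p → ∃ y, K.Conn (y, b) (x, p)) :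
    Cert (K.dropLeaves hact hdeg) (noSeed P X) ((K.dropLeaves hact hdeg).ZCells (rel a Lb)) μ e := by
  classical
  refine _root_.Crest.Agent.NoFixedPrice.Cert.sub h (fun p x hx => hx.1) (fun s p q x hx => hx.1)
    (fun ψ e x => ((K.dropLeaves hact hdeg).E e.1 e.2.1 e.2.2).indicator (fun _ => (1 : ℝ)) x * ψ e x)
    (fun e => IsK.mulw _ (BddMeas.indicator ((K.dropLeaves hact hdeg).measE _ _ _) 1) (IsK.coord _))
    ?_ ?_ ?_ ?_
  · intro ψ s p q x hx
    simp only
    rw [Set.indicator_of_mem hx, one_mul]
  · intro ψ s p q x hx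
    simp only
    rw [Set.indicator_of_notMem (fun h' => hx h'.1), zero_mul]
  · intro ψ _ hZ i c u hu
    have hu' : u ∈ (K.dropLeaves hact hdeg).closedSet a Lb i c := by
      rw [closedSet_dropLeaves hact hdeg hLb hrel]
      exact hu
    have h2 := ((K.dropLeaves hact hdeg).mem_closedSet_iff a Lb hrel).1 hu'
    have h3 := (K.dropLeaves hact hdeg).circ_pull (K' := K) (dropLeaves_folded hact hdeg hK) hK
      (fun p _ => p) (fun s p q x hx => hx.1) (ψ := ψ)
      (ψ' := fun e x => ((K.dropLeaves hact hdeg).E e.1 e.2.1 e.2.2).indicator (fun _ => (1 : ℝ)) x * ψ e x)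
      (fun s p q x hx => by
        simp only
        rw [Set.indicator_of_mem hx, one_mul]) h2
    rw [← h3]
    exact hZ i c u hu'
  · intro c hc hc0 p x hx
    obtain ⟨y, hy⟩ := hvert x p hx
    have h1 := conn_const hc hy
    simp only at h1
    rw [← h1]
    refine hc0 b y ?_
    rw [dropLeaves_V_iff]
    refine ⟨base_mem hline y, ?_⟩
    have := base_deg hline y
    omega

end MGraph

end Crest.Agent.NoFixedPrice
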