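import Crest.Agent.Lib.NoFixedPrice.ArcConcrete

/-!
# Row 191: the final contradiction at the level of labelled graphs

No sheets, no fold, no measure on the graphs: `W` is an abstract vertex type with a projection
`p : W → X` (in the application `W = X × Fin N`).

* `LG`: a folded labelled graph; `Rd` reads a word right to left (the first list element acts last).
* `ArcPair w L A C`: `A` is a long contiguous piece of a relator and `C` the complementary word.
* `dist_drop`: if the image of every long arc is closed by the complementary word in `K'`, then a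
  shortest path that is not the letter itself gets strictly shorter in `K'`.
* `final_contradiction`: along a sequence of stages, almost every `y` eventually sees a non-`t` edge
  at its base vertex; hence the sets of such `y` cannot have measure bounded away from one.
-/

set_option autoImplicit false

namespace Crest.Agent.NoFixedPrice.FinalDrop

open FreeGroup List MeasureTheory
open Crest.Agent.Lib.NoFixedPrice.Arc
open Crest.Agent.NoFixedPrice (Good Gam iota tt block)

variable {β : Type} {W W' : Type*}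

/-- A folded labelled graph on the vertex type `W`. -/
structure LG (β : Type) (W : Type*) where
  adj : HLet β → W → W → Prop
  symm : ∀ {l : HLet β} {a b : W}, adj l a b → adj (l.1, !l.2) b a
  det : ∀ {l : HLet β} {a b b' : W}, adj l a b → adj l a b' → b = b'

/-- `K.Rd v π v'`: a path from `v` to `v'` reading `π` right to left. -/
def LG.Rd (K : LG β W) (v : W) : List (HLet β) → W → Prop
  | [], v' => v = v'
  | l :: π, v' => ∃ z, LG.Rd K v π z ∧ K.adj l z v'

@[simp] theorem LG.rd_nil (K : LG β W) (v v' : W) : K.Rd v [] v' ↔ v = v' := Iff.rfl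

theorem LG.rd_cons (K : LG β W) (v v' : W) (l : HLet β) (π : List (HLet β)) :
    K.Rd v (l :: π) v' ↔ ∃ z, K.Rd v π z ∧ K.adj l z v' := Iff.rfl

theorem LG.rd_append (K : LG β W) (v v' : W) (A B : List (HLet β)) :
    K.Rd v (A ++ B) v' ↔ ∃ z, K.Rd v B z ∧ K.Rd z A v' := by
  induction A generalizing v' with
  | nil => simp
  | cons l A ih =>
    simp only [List.cons_append, LG.rd_cons, ih]
    constructor
    · rintro ⟨z, ⟨z', h1, h2⟩, h3⟩
      exact ⟨z', h1, z, h2, h3⟩
    · rintro ⟨z', h1, z, h2, h3⟩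
      exact ⟨z, ⟨z', h1, h2⟩, h3⟩

/-- `π` is a shortest path. -/
def LG.Shortest (K : LG β W) (v : W) (π : List (HLet β)) (v' : W) : Prop :=
  K.Rd v π v' ∧ ∀ π', K.Rd v π' v' → π.length ≤ π'.length

theorem LG.exists_shortest (K : LG β W) {v v' : W} {π : List (HLet β)} (h : K.Rd v π v') :
    ∃ π', K.Shortest v π' v' := by
  classical
  have hex : ∃ n, ∃ π : List (HLet β), K.Rd v π v' ∧ π.length = n := ⟨_, π, h, rfl⟩
  obtain ⟨π', h1, h2⟩ := Nat.find_spec hex
  refine ⟨π', h1, fun π'' h3 => ?_⟩
  rw [h2]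
  exact Nat.find_min' hex ⟨π'', h3, rfl⟩

/-- Not reduced words have a cancelling pair. -/
theorem exists_cancel_pair {π : List (HLet β)} (h : ¬ IsReduced π) :
    ∃ A a b B, π = A ++ a :: b :: B ∧ a.1 = b.1 ∧ a.2 ≠ b.2 := by
  rw [FreeGroup.IsReduced, List.isChain_iff_forall_rel_of_append_cons_cons] at h
  push Not at h
  obtain ⟨a, b, A, B, h1, h2, h3⟩ := h
  exact ⟨A, a, b, B, h1, h2, h3⟩

/-- A shortest path in a folded graph is reduced. -/
theorem LG.Shortest.isReduced {K : LG β W} {v v' : W} {π : List (HLet β)}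
    (h : K.Shortest v π v') : IsReduced π := by
  by_contra hr
  obtain ⟨A, a, b, B, rfl, h1, h2⟩ := exists_cancel_pair hr
  obtain ⟨h3, h4⟩ := h
  rw [LG.rd_append] at h3
  obtain ⟨z, ⟨y, ⟨x, hx, hb⟩, ha⟩, hz'⟩ := h3
  have hab' : a = (b.1, !b.2) := by
    obtain ⟨a1, a2⟩ := a
    obtain ⟨b1, b2⟩ := b
    simp only at h1 h2
    subst h1
    cases a2 <;> cases b2 <;> simp_all
  subst hab'
  have hxy : z = x := K.det ha (K.symm hb)
  subst hxy
  have : K.Rd v (A ++ B) v' := (K.rd_append v v' A B).2 ⟨z, hx, hz'⟩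
  have := h4 _ this
  simp at this

section eval

variable {G : Type*} [Group G] {X : Type*} [MulAction G X]

/-- The projection is compatible with the labels. -/
def LG.Over (K : LG β W) (ι : FreeGroup β →* G) (t : G) (p : W → X) : Prop :=
  ∀ {l : HLet β} {a b : W}, K.adj l a b → p b = letVal ι t l • p a

theorem LG.Over.rd {K : LG β W} {ι : FreeGroup β →* G} {t : G} {p : W → X} (h : K.Over ι t p)
    {v v' : W} {π : List (HLet β)} (hr : K.Rd v π v') : p v' = evalW ι t π • p v := by
  induction π generalizing v' with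
  | nil =>
    cases hr
    simp
  | cons l π ih =>
    obtain ⟨z, h1, h2⟩ := hr
    rw [h h2, ih h1, evalW_cons, mul_smul]

end eval

/-- A label preserving map. -/
def IsHom (K : LG β W) (K' : LG β W') (q : W → W') : Prop :=
  ∀ {l : HLet β} {a b : W}, K.adj l a b → K'.adj l (q a) (q b)

theorem IsHom.rd {K : LG β W} {K' : LG β W'} {q : W → W'} (h : IsHom K K' q)
    {v v' : W} {π : List (HLet β)} (hr : K.Rd v π v') : K'.Rd (q v) π (q v') := by
  induction π generalizing v' with
  | nil =>
    cases hr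
    rfl
  | cons l π ih =>
    obtain ⟨z, h1, h2⟩ := hr
    exact ⟨q z, ih h1, h h2⟩

variable [DecidableEq β]

/-- `A` is a long contiguous piece of a relator and `C` the complementary word. -/
def ArcPair (w : β → List β) (A C : List (HLet β)) : Prop :=
  (∃ (y : β × Bool) (a u s : List (β × Bool)), block w y = a ++ u ++ s ∧ a.length + s.length ≤ 2 ∧
      A = embW u ∧ C = embW (invRev a) ++ tI :: emb y :: tL :: embW (invRev s)) ∨
  (∃ (y : β × Bool) (a m s : List (β × Bool)), block w y = a ++ m ++ s ∧ m.length ≤ 2 ∧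
      A = embW (invRev a) ++ tI :: emb y :: tL :: embW (invRev s) ∧ C = embW m)

/-- The closing property of a stage. -/
def Closes (w : β → List β) (K : LG β W) (K' : LG β W') (q : W → W') : Prop :=
  ∀ A C, ArcPair w A C → ∀ a b, K.Rd a A b → K'.Rd (q a) C (q b)

theorem ArcPair.length_lt {w : β → List β} {L : ℕ} (hlen : ∀ a, (w a).length = L) (hL : 8 ≤ L)
    {A C : List (HLet β)} (h : ArcPair w A C) : C.length < A.length := by
  have hb : ∀ y : β × Bool, (block w y).length = L := by
    intro y
    rw [Crest.Agent.NoFixedPrice.length_block, hlen]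
  rcases h with ⟨y, a, u, s, h1, h2, rfl, rfl⟩ | ⟨y, a, m, s, h1, h2, rfl, rfl⟩
  · have := hb y
    rw [h1] at this
    simp [invRev] at this ⊢
    omega
  · have := hb y
    rw [h1] at this
    simp [invRev] at this ⊢
    omega

theorem HasArc.exists_pair {w : β → List β} {L : ℕ} (hlen : ∀ a, (w a).length = L)
    {M : List (HLet β)} (h : HasArc (block w) L M) :
    ∃ A C, ArcPair w A C ∧ A <:+: M := by
  have hb : ∀ y : β × Bool, (block w y).length = L := by
    intro y
    rw [Crest.Agent.NoFixedPrice.length_block, hlen]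
  rcases h with ⟨y, u, ⟨a, s, h1⟩, h2, h3⟩ | ⟨y, l, r, h1, h2, h3⟩
  · refine ⟨_, _, Or.inl ⟨y, a, u, s, h1.symm, ?_, rfl, rfl⟩, h3⟩
    have := hb y
    rw [← h1] at this
    simp at this
    omega
  · refine ⟨_, _, Or.inr ⟨y, (block w y).take l, ((block w y).take (L - r)).drop l,
      (block w y).drop (L - r), ?_, ?_, rfl, rfl⟩, h3⟩
    · have hlr : l ≤ L - r := by omega
      rw [List.append_assoc]
      have e : (block w y).take l ++ ((block w y).take (L - r)).drop l = (block w y).take (L - r) := by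
        conv_lhs => rw [show (block w y).take l = ((block w y).take (L - r)).take l by
          rw [List.take_take, min_eq_left hlr]]
        exact List.take_append_drop _ _
      rw [← List.append_assoc, e, List.take_append_drop]
    · simp [hb y]
      omega

variable {w : β → List β} (hw : Good w) {X : Type*} [MulAction (Gam hw) X]

/-- A shortest path which is not the letter itself gets strictly shorter in the next stage. -/
theorem dist_drop (hp : PairUnique w) {L : ℕ} (hlen : ∀ a, (w a).length = L) (hL : 8 ≤ L)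
    {K : LG β W} {K' : LG β W'} {q : W → W'} (hq : IsHom K K' q) (hc : Closes w K K' q)
    {P : W → X} (hP : K.Over (iota hw) (tt hw) P) {v v' : W} {π : List (HLet β)}
    (hs : K.Shortest v π v') {τ : List (β × Bool)} (hτ : IsReduced τ) (hτl : τ.length ≤ 1)
    (hv : P v' = iota hw (mk τ) • P v)
    (hfree : ∀ g : Gam hw, g • P v = P v → g = 1) (hne : π ≠ embW τ) :
    ∃ π', K'.Rd (q v) π' (q v') ∧ π'.length < π.length := by
  have hπ := hs.isReduced
  have hev : evalW (iota hw) (tt hw) π = iota hw (mk τ) := by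
    have h1 := hP.rd hs.1
    rw [hv] at h1
    have h2 : ((iota hw (mk τ))⁻¹ * evalW (iota hw) (tt hw) π) • P v = P v := by
      rw [mul_smul, ← h1, inv_smul_smul]
    have h3 := hfree _ h2
    exact (eq_of_inv_mul_eq_one h3).symm
  rcases arc_lemma hw hp hlen (by omega) hπ hτ hτl hev with h | h
  · exact absurd h hne
  obtain ⟨A, C, hAC, l, r, hM⟩ := HasArc.exists_pair hlen h
  have hlt := hAC.length_lt hlen hL
  have h0 := hs.1
  rw [← hM] at h0
  obtain ⟨z, hz, hz'⟩ := (K.rd_append _ _ _ _).1 h0
  obtain ⟨z', hz1, hz2⟩ := (K.rd_append _ _ _ _).1 hz'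
  refine ⟨l ++ C ++ r, (K'.rd_append _ _ _ _).2 ⟨q z, hq.rd hz,
    (K'.rd_append _ _ _ _).2 ⟨q z', hc A C hAC _ _ hz1, hq.rd hz2⟩⟩, ?_⟩
  rw [← hM]
  simp only [List.length_append]
  omega

/-- The sequence of stages. -/
structure Stages (w : β → List β) (W : ℕ → Type*) (X : Type*) where
  K : ∀ n, LG β (W n)
  q : ∀ n, W n → W (n + 1)
  base : ∀ n, X → W n
  hom : ∀ n, IsHom (K n) (K (n + 1)) (q n)
  closes : ∀ n, Closes w (K n) (K (n + 1)) (q n)
  q_base : ∀ n y, q n (base n y) = base (n + 1) y

/-- `y` sees a non-`t` edge at its base vertex at stage `n`. -/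
def Stages.Bad {W : ℕ → Type*} (S : Stages w W X) (n : ℕ) : Set X :=
  {y | ∃ (l : HLet β) (b : W n), l.1 ≠ none ∧ (S.K n).adj l (S.base n y) b}

theorem Stages.bad_mono {W : ℕ → Type*} (S : Stages w W X) : Monotone S.Bad := by
  refine monotone_nat_of_le_succ fun n y hy => ?_
  obtain ⟨l, b, h1, h2⟩ := hy
  refine ⟨l, S.q n b, h1, ?_⟩
  have := S.hom n h2
  rwa [S.q_base] at this

/-- The drop, for one point: a point with a path between the two base vertices eventually sees
a non-`t` edge. -/
theorem Stages.exists_bad {W : ℕ → Type*} (S : Stages w W X) (hp : PairUnique w) {L : ℕ}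
    (hlen : ∀ a, (w a).length = L) (hL : 8 ≤ L)
    (P : ∀ n, W n → X) (hP : ∀ n, (S.K n).Over (iota hw) (tt hw) (P n))
    (hPb : ∀ n y, P n (S.base n y) = y)
    (x : β × Bool) {y : X} (hfree : ∀ g : Gam hw, g • y = y → g = 1)
    (hx : iota hw (FreeGroup.mk [x]) ≠ 1) :
    ∀ (m n : ℕ) (π : List (HLet β)), π.length ≤ m →
      (S.K n).Rd (S.base n y) π (S.base n (iota hw (FreeGroup.mk [x]) • y)) → ∃ n', y ∈ S.Bad n' := by
  intro m
  induction m with
  | zero =>
    intro n π hπ hr
    have : π = [] := List.length_eq_zero_iff.1 (by omega)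
    subst this
    have h1 := hPb n y
    have h2 := hPb n (iota hw (FreeGroup.mk [x]) • y)
    rw [← (show S.base n y = _ from hr)] at h2
    rw [h1] at h2
    exact absurd (hfree _ h2.symm) hx
  | succ m ih =>
    intro n π hπ hr
    by_contra hbad
    push Not at hbad
    obtain ⟨π', hs⟩ := (S.K n).exists_shortest hr
    have hle := hs.2 π hr
    have hnot : π' ≠ embW [x] := by
      intro h
      subst h
      obtain ⟨z, hz, hz'⟩ := hs.1
      cases hz
      exact hbad n ⟨_, _, by simp [emb], hz'⟩
    obtain ⟨π'', h1, h2⟩ := dist_drop hw hp hlen hL (S.hom n) (S.closes n) (hP n) hs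
      (τ := [x]) (by simp [FreeGroup.IsReduced]) (by simp)
      (by rw [hPb, hPb]) (by rw [hPb]; exact hfree) hnot
    rw [S.q_base, S.q_base] at h1
    obtain ⟨n', hn'⟩ := ih (n + 1) π'' (by omega) h1
    exact hbad n' hn'

/-- **The final contradiction.**  Almost every point has trivial stabiliser and a path in the first
graph; then the sets `Bad n` exhaust the space, so they cannot all have measure at most `c < 1`. -/
theorem final_contradiction {W : ℕ → Type*} [MeasurableSpace X] (μ : Measure X)
    [IsProbabilityMeasure μ] (S : Stages w W X) (hp : PairUnique w) {L : ℕ}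
    (hlen : ∀ a, (w a).length = L) (hL : 8 ≤ L)
    (P : ∀ n, W n → X) (hP : ∀ n, (S.K n).Over (iota hw) (tt hw) (P n))
    (hPb : ∀ n y, P n (S.base n y) = y)
    (x : β × Bool) (hx : iota hw (FreeGroup.mk [x]) ≠ 1)
    (hfree : ∀ᵐ y ∂μ, ∀ g : Gam hw, g • y = y → g = 1)
    (hconn : ∀ᵐ y ∂μ, ∃ π, (S.K 0).Rd (S.base 0 y) π (S.base 0 (iota hw (FreeGroup.mk [x]) • y)))
    {c : ENNReal} (hc : c < 1) (hB : ∀ n, μ (S.Bad n) ≤ c) : False := by
  have h1 : ∀ᵐ y ∂μ, y ∈ ⋃ n, S.Bad n := by
    filter_upwards [hfree, hconn] with y h1 h2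
    obtain ⟨π, hπ⟩ := h2
    obtain ⟨n', hn'⟩ := S.exists_bad hw hp hlen hL P hP hPb x h1 hx π.length 0 π le_rfl hπ
    exact Set.mem_iUnion.2 ⟨n', hn'⟩
  have h2 : μ (⋃ n, S.Bad n) = 1 := by
    have h3 : μ (⋃ n, S.Bad n)ᶜ = 0 := by
      rw [← compl_mem_ae_iff, compl_compl]
      exact h1
    have h4 : μ Set.univ ≤ μ (⋃ n, S.Bad n) + μ (⋃ n, S.Bad n)ᶜ := by
      rw [← Set.union_compl_self (⋃ n, S.Bad n)]
      exact measure_union_le _ _
    rw [h3, add_zero, measure_univ] at h4
    exact le_antisymm prob_le_one h4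
  rw [S.bad_mono.measure_iUnion] at h2
  have h5 : (⨆ n, μ (S.Bad n)) ≤ c := iSup_le hB
  rw [h2] at h5
  exact absurd hc (not_lt.2 h5)

end Crest.Agent.NoFixedPrice.FinalDrop
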