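import Crest.Agent.Lib.NoFixedPrice.Cx

/-!
# Quotients of measured graphs by measurable sheet relations; the fold closure (row 191, S0291)

* `SheetRel P X`: a measurable family of equivalence relations on the sheets, one for each point.
* `SheetRel.rep`: the least sheet of a class.
* `MGraph.quot`: the quotient graph, on the same sheet type.  `MGraph.qv` is the vertex map: it
  preserves steps, paths, connection; every step of the quotient lifts; masses do not increase.
* `FoldClosed`, `folded_quot`: the quotient by a fold closed relation is folded.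
* `MGraph.foldRel`: the least fold closed relation containing given (measurable) seeds; it is
  measurable and is the union of explicit finite stages. `MGraph.fold`: the quotient by it.
* `MGraph.reindex`: transport along a bijection of the sheets.
-/

set_option autoImplicit false
set_option linter.unusedSectionVars false

namespace Crest.Agent.NoFixedPrice

open MeasureTheory Finset

/-- A measurable family of equivalence relations on the sheets. -/
structure SheetRel (P X : Type*) [MeasurableSpace X] where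
  rel : X → Setoid P
  meas : ∀ p q, MeasurableSet {x | (rel x).r p q}

namespace SheetRel

variable {P X : Type*} [MeasurableSpace X] [Fintype P] [LinearOrder P] (ρ : SheetRel P X)

/-- The least sheet of the class of `p` at the point `x`. -/
noncomputable def rep (x : X) (p : P) : P := by
  classical
  exact (univ.filter (fun q => (ρ.rel x).r p q)).min'
    ⟨p, by simpa using (ρ.rel x).iseqv.refl p⟩

lemma rep_rel (x : X) (p : P) : (ρ.rel x).r p (ρ.rep x p) := by
  classical
  have := Finset.min'_mem (univ.filter (fun q => (ρ.rel x).r p q))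
    ⟨p, by simpa using (ρ.rel x).iseqv.refl p⟩
  simpa [rep] using this

lemma rep_le {x : X} {p q : P} (h : (ρ.rel x).r p q) : ρ.rep x p ≤ q := by
  classical
  exact Finset.min'_le _ _ (by simpa using h)

lemma rep_eq_of_rel {x : X} {p q : P} (h : (ρ.rel x).r p q) : ρ.rep x p = ρ.rep x q := by
  apply le_antisymm
  · exact ρ.rep_le ((ρ.rel x).iseqv.trans h (ρ.rep_rel x q))
  · exact ρ.rep_le ((ρ.rel x).iseqv.trans ((ρ.rel x).iseqv.symm h) (ρ.rep_rel x p))

@[simp] lemma rep_rep (x : X) (p : P) : ρ.rep x (ρ.rep x p) = ρ.rep x p :=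
  (ρ.rep_eq_of_rel (ρ.rep_rel x p)).symm

lemma rep_eq_iff {x : X} {p q : P} : ρ.rep x p = ρ.rep x q ↔ (ρ.rel x).r p q := by
  constructor
  · intro h
    have h1 := ρ.rep_rel x p
    have h2 := ρ.rep_rel x q
    rw [h] at h1
    exact (ρ.rel x).iseqv.trans h1 ((ρ.rel x).iseqv.symm h2)
  · exact ρ.rep_eq_of_rel

lemma measurableSet_rep_eq (p r : P) : MeasurableSet {x | ρ.rep x p = r} := by
  classical
  have : {x | ρ.rep x p = r} =
      {x | (ρ.rel x).r p r} ∩ ⋂ q, ({x | (ρ.rel x).r p q}ᶜ ∪ (if r ≤ q then Set.univ else ∅)) := by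
    ext x
    simp only [Set.mem_setOf_eq, Set.mem_inter_iff, Set.mem_iInter, Set.mem_union,
      Set.mem_compl_iff]
    constructor
    · rintro rfl
      refine ⟨ρ.rep_rel x p, fun q => ?_⟩
      by_cases h : (ρ.rel x).r p q
      · right
        simp [ρ.rep_le h]
      · exact Or.inl h
    · rintro ⟨h1, h2⟩
      apply le_antisymm (ρ.rep_le h1)
      have := h2 (ρ.rep x p)
      rcases this with h | h
      · exact absurd (ρ.rep_rel x p) h
      · by_contra hc
        simp [hc] at h
  rw [this]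
  refine (ρ.meas p r).inter (MeasurableSet.iInter fun q => (ρ.meas p q).compl.union ?_)
  split_ifs
  · exact MeasurableSet.univ
  · exact MeasurableSet.empty

lemma iUnion_rep_eq (p : P) : ⋃ r, {x | ρ.rep x p = r} = Set.univ := by
  ext x; simp

end SheetRel

variable {Γ L : Type*} [Group Γ] {val : L → Γ} {P X : Type*} [MulAction Γ X] [MeasurableSpace X]

namespace MGraph

section Quot

variable [Fintype P] [LinearOrder P] (K : MGraph val P X) (ρ : SheetRel P X)
  (hact : ∀ g : Γ, Measurable fun x : X => g • x)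

/-- The quotient of `K` by `ρ`, on the same sheets: a class is represented by its least sheet. -/
def quot : MGraph val P X where
  V p := {x | ∃ p', ρ.rep x p' = p ∧ x ∈ K.V p'}
  E s p q := {x | ∃ p' q', ρ.rep x p' = p ∧ ρ.rep (val s • x) q' = q ∧ x ∈ K.E s p' q'}
  measV p := by
    have : {x | ∃ p', ρ.rep x p' = p ∧ x ∈ K.V p'} = ⋃ p', {x | ρ.rep x p' = p} ∩ K.V p' := by
      ext x; simp
    rw [this]
    exact MeasurableSet.iUnion fun p' => (ρ.measurableSet_rep_eq p' p).inter (K.measV p')
  measE s p q := by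
    have : {x | ∃ p' q', ρ.rep x p' = p ∧ ρ.rep (val s • x) q' = q ∧ x ∈ K.E s p' q'} =
        ⋃ p', ⋃ q', {x | ρ.rep x p' = p} ∩ ((fun x => val s • x) ⁻¹' {x | ρ.rep x q' = q}) ∩
          K.E s p' q' := by
      ext x; simp [and_assoc]
    rw [this]
    exact MeasurableSet.iUnion fun p' => MeasurableSet.iUnion fun q' =>
      ((ρ.measurableSet_rep_eq p' p).inter (hact _ (ρ.measurableSet_rep_eq q' q))).inter
        (K.measE s p' q')
  src := by
    rintro s p q x ⟨p', q', h1, _, h3⟩
    exact ⟨p', h1, K.src _ _ _ _ h3⟩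
  tgt := by
    rintro s p q x ⟨p', q', _, h2, h3⟩
    exact ⟨q', h2, K.tgt _ _ _ _ h3⟩

@[simp] lemma mem_quot_V {x : X} {p : P} :
    x ∈ (K.quot ρ hact).V p ↔ ∃ p', ρ.rep x p' = p ∧ x ∈ K.V p' := Iff.rfl

@[simp] lemma mem_quot_E {s : L} {x : X} {p q : P} :
    x ∈ (K.quot ρ hact).E s p q ↔
      ∃ p' q', ρ.rep x p' = p ∧ ρ.rep (val s • x) q' = q ∧ x ∈ K.E s p' q' := Iff.rfl

/-- The vertex map of the quotient. -/
noncomputable def qv (ρ : SheetRel P X) (v : X × P) : X × P := (v.1, ρ.rep v.1 v.2)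

@[simp] lemma qv_fst (ρ : SheetRel P X) (v : X × P) : (qv ρ v).1 = v.1 := rfl
@[simp] lemma qv_snd (ρ : SheetRel P X) (v : X × P) : (qv ρ v).2 = ρ.rep v.1 v.2 := rfl

lemma qv_qv (ρ : SheetRel P X) (v : X × P) : qv ρ (qv ρ v) = qv ρ v := by
  simp [qv]

lemma qv_eq_qv_iff {x : X} {p q : P} : qv ρ (x, p) = qv ρ (x, q) ↔ (ρ.rel x).r p q := by
  simp [qv, ρ.rep_eq_iff]

/-- The vertex map preserves steps. -/
lemma Adj.qv {K : MGraph val P X} {ℓ : L × Bool} {v v' : X × P} (h : K.Adj ℓ v v') :
    (K.quot ρ hact).Adj ℓ (MGraph.qv ρ v) (MGraph.qv ρ v') := by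
  obtain ⟨x, p⟩ := v
  obtain ⟨y, q⟩ := v'
  obtain ⟨s, b⟩ := ℓ
  cases b
  · have h' := (K.adj_false s _ _).1 h
    simp only at h'
    obtain ⟨h1, rfl⟩ := h'
    rw [adj_false]
    exact ⟨⟨q, p, rfl, rfl, h1⟩, rfl⟩
  · have h' := (K.adj_true s _ _).1 h
    simp only at h'
    obtain ⟨h1, rfl⟩ := h'
    rw [adj_true]
    exact ⟨⟨p, q, rfl, rfl, h1⟩, rfl⟩

/-- The vertex map preserves paths. -/
lemma IsPath.qv {K : MGraph val P X} {w : List (L × Bool)} {v v' : X × P} (h : K.IsPath v w v') :
    (K.quot ρ hact).IsPath (MGraph.qv ρ v) w (MGraph.qv ρ v') := by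
  induction w generalizing v with
  | nil =>
    have : v = v' := h
    subst this
    rfl
  | cons ℓ w ih =>
    obtain ⟨m, h1, h2⟩ := h
    exact ⟨MGraph.qv ρ m, Adj.qv ρ hact h1, ih h2⟩

lemma Conn.qv {K : MGraph val P X} {v v' : X × P} (h : K.Conn v v') :
    (K.quot ρ hact).Conn (MGraph.qv ρ v) (MGraph.qv ρ v') := by
  obtain ⟨w, hw⟩ := h
  exact ⟨w, IsPath.qv ρ hact hw⟩

/-- Every step of the quotient lifts to a step of `K` with the same letter. -/
lemma exists_lift {ℓ : L × Bool} {v v' : X × P} (h : (K.quot ρ hact).Adj ℓ v v') :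
    ∃ u u', MGraph.qv ρ u = v ∧ MGraph.qv ρ u' = v' ∧ K.Adj ℓ u u' := by
  obtain ⟨x, p⟩ := v
  obtain ⟨y, q⟩ := v'
  obtain ⟨s, b⟩ := ℓ
  cases b
  · have h' := ((K.quot ρ hact).adj_false s _ _).1 h
    simp only at h'
    obtain ⟨⟨q', p', h1, h2, h3⟩, rfl⟩ := h'
    exact ⟨(val s • y, p'), (y, q'), by simp [MGraph.qv, h2], by simp [MGraph.qv, h1],
      (K.adj_false s _ _).2 ⟨h3, rfl⟩⟩
  · have h' := ((K.quot ρ hact).adj_true s _ _).1 h
    simp only at h'
    obtain ⟨⟨p', q', h1, h2, h3⟩, rfl⟩ := h'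
    exact ⟨(x, p'), (val s • x, q'), by simp [MGraph.qv, h1], by simp [MGraph.qv, h2],
      (K.adj_true s _ _).2 ⟨h3, rfl⟩⟩

/-- Vertices of the quotient lift. -/
lemma exists_lift_vertex {x : X} {p : P} (h : x ∈ (K.quot ρ hact).V p) :
    ∃ p', MGraph.qv ρ (x, p') = (x, p) ∧ x ∈ K.V p' := by
  obtain ⟨p', h1, h2⟩ := h
  exact ⟨p', by simp [MGraph.qv, h1], h2⟩

/-- A vertex of `K` maps to a vertex of the quotient. -/
lemma mem_quot_V_of_mem {x : X} {p : P} (h : x ∈ K.V p) : x ∈ (K.quot ρ hact).V (ρ.rep x p) :=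
  ⟨p, rfl, h⟩

/-- A relation is fold closed if parallel steps from related sheets end in related sheets. -/
def FoldClosed (K : MGraph val P X) (ρ : SheetRel P X) : Prop :=
  ∀ (ℓ : L × Bool) (x y : X) (p p' q q' : P), K.Adj ℓ (x, p) (y, q) → K.Adj ℓ (x, p') (y, q') →
    (ρ.rel x).r p p' → (ρ.rel y).r q q'

/-- The quotient by a fold closed relation is folded. -/
theorem folded_quot (h : FoldClosed K ρ) : (K.quot ρ hact).Folded := by
  intro ℓ v v₁ v₂ h1 h2
  obtain ⟨u, u₁, rfl, rfl, h3⟩ := K.exists_lift ρ hact h1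
  obtain ⟨u', u₂, hu, rfl, h4⟩ := K.exists_lift ρ hact h2
  obtain ⟨x, p⟩ := u
  obtain ⟨x', p'⟩ := u'
  obtain ⟨y, q⟩ := u₁
  obtain ⟨y', q'⟩ := u₂
  have hx : x' = x := congrArg Prod.fst hu
  subst hx
  have hrep : ρ.rep x' p' = ρ.rep x' p := congrArg Prod.snd hu
  have e1 : y = sval val ℓ • x' := h3.fst_eq
  have e2 : y' = sval val ℓ • x' := h4.fst_eq
  have hy : y' = y := e2.trans e1.symm
  subst hy
  have := h ℓ x' y' p p' q q' h3 h4 (ρ.rep_eq_iff.1 hrep.symm)
  simp [MGraph.qv, ρ.rep_eq_iff.2 this]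

/-- The quotient by the identity relation on the sheets. -/
def SheetRel.bot (P X : Type*) [MeasurableSpace X] [Fintype P] [LinearOrder P] : SheetRel P X where
  rel _ := ⊥
  meas p q := by
    classical
    by_cases h : p = q
    · have : {x : X | (⊥ : Setoid P).r p q} = Set.univ := by
        ext x; simp [h]
      rw [this]; exact MeasurableSet.univ
    · have : {x : X | (⊥ : Setoid P).r p q} = ∅ := by
        ext x; simpa using h
      rw [this]; exact MeasurableSet.empty

section Mass

variable [DecidableEq L] [Fintype L] (μ : Measure X) [IsFiniteMeasure μ]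

lemma measureReal_quot_V_le (p : P) :
    μ.real ((K.quot ρ hact).V p) ≤ ∑ p', μ.real ({x | ρ.rep x p' = p} ∩ K.V p') := by
  have : (K.quot ρ hact).V p = ⋃ p', {x | ρ.rep x p' = p} ∩ K.V p' := by
    ext x; simp
  rw [this]
  exact measureReal_iUnion_fintype_le _

omit [LinearOrder P] in
lemma sum_measureReal_fiber (f : X → P) (hf : ∀ r, MeasurableSet {x | f x = r}) (S : Set X)
    (hS : MeasurableSet S) : ∑ r, μ.real ({x | f x = r} ∩ S) = μ.real S := by
  classical
  have h : S = ⋃ r, {x | f x = r} ∩ S := by ext x; simp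
  conv_rhs => rw [h]
  rw [measureReal_iUnion_fintype]
  · intro a b hab
    refine Set.disjoint_left.2 ?_
    rintro x ⟨h1, _⟩ ⟨h2, _⟩
    exact hab (h1.symm.trans h2)
  · exact fun r => (hf r).inter hS

/-- The vertex mass does not increase. -/
theorem massV_quot_le : (K.quot ρ hact).massV μ ≤ K.massV μ := by
  unfold massV
  calc ∑ p, μ.real ((K.quot ρ hact).V p)
      ≤ ∑ p, ∑ p', μ.real ({x | ρ.rep x p' = p} ∩ K.V p') :=
        Finset.sum_le_sum fun p _ => K.measureReal_quot_V_le ρ hact μ p
    _ = ∑ p', ∑ p, μ.real ({x | ρ.rep x p' = p} ∩ K.V p') := Finset.sum_comm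
    _ = ∑ p', μ.real (K.V p') :=
        Finset.sum_congr rfl fun p' _ =>
          sum_measureReal_fiber μ _ (ρ.measurableSet_rep_eq p') _ (K.measV p')

/-- The edge mass does not increase. -/
theorem massE_quot_le : (K.quot ρ hact).massE μ ≤ K.massE μ := by
  unfold massE
  refine Finset.sum_le_sum fun s _ => ?_
  have h1 : ∀ p q, μ.real ((K.quot ρ hact).E s p q) ≤
      ∑ p', ∑ q', μ.real ({x | ρ.rep x p' = p} ∩ ({x | ρ.rep (val s • x) q' = q} ∩ K.E s p' q')) := by
    intro p q
    have : (K.quot ρ hact).E s p q =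
        ⋃ p', ⋃ q', {x | ρ.rep x p' = p} ∩ ({x | ρ.rep (val s • x) q' = q} ∩ K.E s p' q') := by
      ext x; simp
    rw [this]
    refine (measureReal_iUnion_fintype_le _).trans (Finset.sum_le_sum fun p' _ => ?_)
    exact measureReal_iUnion_fintype_le _
  calc ∑ p, ∑ q, μ.real ((K.quot ρ hact).E s p q)
      ≤ ∑ p, ∑ q, ∑ p', ∑ q',
          μ.real ({x | ρ.rep x p' = p} ∩ ({x | ρ.rep (val s • x) q' = q} ∩ K.E s p' q')) :=
        Finset.sum_le_sum fun p _ => Finset.sum_le_sum fun q _ => h1 p q
    _ = ∑ p', ∑ q', ∑ q, ∑ p,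
          μ.real ({x | ρ.rep x p' = p} ∩ ({x | ρ.rep (val s • x) q' = q} ∩ K.E s p' q')) := by
        refine (Finset.sum_congr rfl fun p _ => Finset.sum_comm).trans ?_
        refine Finset.sum_comm.trans (Finset.sum_congr rfl fun p' _ => ?_)
        refine (Finset.sum_congr rfl fun p _ => Finset.sum_comm).trans ?_
        refine Finset.sum_comm.trans (Finset.sum_congr rfl fun q' _ => ?_)
        exact Finset.sum_comm
    _ = ∑ p', ∑ q', μ.real (K.E s p' q') := by
        refine Finset.sum_congr rfl fun p' _ => Finset.sum_congr rfl fun q' _ => ?_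
        have hq : ∀ q, MeasurableSet ({x | ρ.rep (val s • x) q' = q} ∩ K.E s p' q') := fun q =>
          (hact _ (ρ.measurableSet_rep_eq q' q)).inter (K.measE s p' q')
        rw [← sum_measureReal_fiber μ (fun x => ρ.rep (val s • x) q')
          (fun r => hact _ (ρ.measurableSet_rep_eq q' r)) _ (K.measE s p' q')]
        refine Finset.sum_congr rfl fun q _ => ?_
        exact sum_measureReal_fiber μ _ (ρ.measurableSet_rep_eq p') _ (hq q)

end Mass

end Quot

section FoldRel

variable [Countable L] [Fintype P] [LinearOrder P] (K : MGraph val P X)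
  (hact : ∀ g : Γ, Measurable fun x : X => g • x)
  (seed : X → P → P → Prop) (hseed : ∀ p q, MeasurableSet {x | seed x p q})

/-- The finite stages of the fold closure. -/
def foldStage (K : MGraph val P X) (seed : X → P → P → Prop) : ℕ → P → P → Set X
  | 0, p, q => {x | p = q ∨ seed x p q}
  | n + 1, p, q => foldStage K seed n p q ∪ foldStage K seed n q p ∪
      (⋃ r, foldStage K seed n p r ∩ foldStage K seed n r q) ∪
      ⋃ (ℓ : L × Bool), ⋃ (a : P), ⋃ (b : P), (fun y => (sval val ℓ)⁻¹ • y) ⁻¹'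
        (K.half ℓ a p ∩ K.half ℓ b q ∩ foldStage K seed n a b)

lemma foldStage_mono_succ (n : ℕ) (p q : P) :
    K.foldStage seed n p q ⊆ K.foldStage seed (n + 1) p q := by
  intro x hx
  exact Or.inl (Or.inl (Or.inl hx))

lemma foldStage_mono {m n : ℕ} (h : m ≤ n) (p q : P) :
    K.foldStage seed m p q ⊆ K.foldStage seed n p q := by
  induction h with
  | refl => exact subset_rfl
  | step _ ih => exact ih.trans (K.foldStage_mono_succ seed _ p q)

include hact hseed in
lemma measurableSet_foldStage (n : ℕ) (p q : P) : MeasurableSet (K.foldStage seed n p q) := by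
  classical
  induction n generalizing p q with
  | zero =>
    have : K.foldStage seed 0 p q = {x | p = q} ∪ {x | seed x p q} := rfl
    rw [this]
    refine MeasurableSet.union ?_ (hseed p q)
    by_cases h : p = q <;> simp [h]
  | succ n ih =>
    refine ((((ih p q).union (ih q p)).union
      (MeasurableSet.iUnion fun r => (ih p r).inter (ih r q))).union
      (MeasurableSet.iUnion fun ℓ => MeasurableSet.iUnion fun a => MeasurableSet.iUnion fun b =>
        hact _ ?_))
    exact ((K.measurableSet_half hact ℓ a p).inter (K.measurableSet_half hact ℓ b q)).inter (ih a b)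

/-- The fold closure of the seeds: the union of the stages. -/
def foldSetoid (K : MGraph val P X) (seed : X → P → P → Prop) (x : X) : Setoid P where
  r p q := ∃ n, x ∈ K.foldStage seed n p q
  iseqv :=
    { refl := fun p => ⟨0, Or.inl rfl⟩
      symm := by
        rintro p q ⟨n, h⟩
        exact ⟨n + 1, Or.inl (Or.inl (Or.inr h))⟩
      trans := by
        rintro p q r ⟨m, h1⟩ ⟨n, h2⟩
        refine ⟨max m n + 1, Or.inl (Or.inr (Set.mem_iUnion.2 ⟨q, ?_, ?_⟩))⟩
        · exact K.foldStage_mono seed (le_max_left m n) _ _ h1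
        · exact K.foldStage_mono seed (le_max_right m n) _ _ h2 }

/-- The fold closure as a measurable sheet relation. -/
def foldRel : SheetRel P X where
  rel := K.foldSetoid seed
  meas p q := by
    have : {x | (K.foldSetoid seed x).r p q} = ⋃ n, K.foldStage seed n p q := by
      ext x
      simp only [Set.mem_iUnion]
      exact Iff.rfl
    rw [this]
    exact MeasurableSet.iUnion fun n => K.measurableSet_foldStage hact seed hseed n p q

lemma foldRel_rel_iff {x : X} {p q : P} :
    ((K.foldRel hact seed hseed).rel x).r p q ↔ ∃ n, x ∈ K.foldStage seed n p q := Iff.rfl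

lemma foldRel_seed {x : X} {p q : P} (h : seed x p q) :
    ((K.foldRel hact seed hseed).rel x).r p q := ⟨0, Or.inr h⟩

/-- The fold closure is fold closed. -/
theorem foldClosed_foldRel : FoldClosed K (K.foldRel hact seed hseed) := by
  rintro ℓ x y p p' q q' h1 h2 ⟨n, hn⟩
  refine ⟨n + 1, Or.inr (Set.mem_iUnion.2 ⟨ℓ, Set.mem_iUnion.2 ⟨p, Set.mem_iUnion.2 ⟨p', ?_⟩⟩⟩)⟩
  have hy : y = sval val ℓ • x := h1.fst_eq
  subst hy
  simp only [Set.mem_preimage, inv_smul_smul]
  exact ⟨⟨h1, h2⟩, hn⟩

/-- **Leastness, pointwise**: any family of equivalence relations (no measurability required)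
containing the seeds and closed under the fold rule contains the fold closure. -/
theorem foldRel_le (T : X → Setoid P) (hT : ∀ x p q, seed x p q → (T x).r p q)
    (hF : ∀ (ℓ : L × Bool) (x y : X) (p p' q q' : P), K.Adj ℓ (x, p) (y, q) →
      K.Adj ℓ (x, p') (y, q') → (T x).r p p' → (T y).r q q')
    {x : X} {p q : P} (h : ((K.foldRel hact seed hseed).rel x).r p q) : (T x).r p q := by
  obtain ⟨n, hn⟩ := h
  induction n generalizing x p q with
  | zero =>
    rcases hn with rfl | hs
    · exact (T x).iseqv.refl _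
    · exact hT _ _ _ hs
  | succ n ih =>
    rcases hn with ((h1 | h2) | h3) | h4
    · exact ih h1
    · exact (T x).iseqv.symm (ih h2)
    · obtain ⟨r, h5, h6⟩ := Set.mem_iUnion.1 h3
      exact (T x).iseqv.trans (ih h5) (ih h6)
    · obtain ⟨ℓ, h5⟩ := Set.mem_iUnion.1 h4
      obtain ⟨a, h6⟩ := Set.mem_iUnion.1 h5
      obtain ⟨b, ⟨⟨h7, h8⟩, h9⟩⟩ := Set.mem_iUnion.1 h6
      have e : sval val ℓ • (sval val ℓ)⁻¹ • x = x := smul_inv_smul _ _
      have h7' : K.Adj ℓ ((sval val ℓ)⁻¹ • x, a) (x, p) := by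
        have := h7
        simp only [half, Set.mem_setOf_eq, e] at this
        exact this
      have h8' : K.Adj ℓ ((sval val ℓ)⁻¹ • x, b) (x, q) := by
        have := h8
        simp only [half, Set.mem_setOf_eq, e] at this
        exact this
      exact hF ℓ _ x a b p q h7' h8' (ih h9)

/-- The fold of `K` with seeds: the quotient by the fold closure. -/
abbrev fold : MGraph val P X := K.quot (K.foldRel hact seed hseed) hact

theorem folded_fold : (K.fold hact seed hseed).Folded :=
  K.folded_quot _ hact (K.foldClosed_foldRel hact seed hseed)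

end FoldRel

section Reindex

variable {Q : Type*} (K : MGraph val P X) (e : P ≃ Q)

/-- Transport along a bijection of the sheets. -/
def reindex : MGraph val Q X where
  V q := K.V (e.symm q)
  E s p q := K.E s (e.symm p) (e.symm q)
  measV _ := K.measV _
  measE s _ _ := K.measE s _ _
  src _ _ _ _ h := K.src _ _ _ _ h
  tgt _ _ _ _ h := K.tgt _ _ _ _ h

lemma adj_reindex {ℓ : L × Bool} {v v' : X × Q} :
    (K.reindex e).Adj ℓ v v' ↔ K.Adj ℓ (v.1, e.symm v.2) (v'.1, e.symm v'.2) := by
  obtain ⟨s, b⟩ := ℓ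
  cases b <;> simp [Adj, reindex]

lemma massE_reindex [Fintype P] [Fintype Q] [Fintype L] (μ : Measure X) :
    (K.reindex e).massE μ = K.massE μ := by
  unfold massE
  refine Finset.sum_congr rfl fun s _ => ?_
  rw [← e.symm.sum_comp]
  refine Finset.sum_congr rfl fun p _ => ?_
  rw [← e.symm.sum_comp]
  rfl

lemma massV_reindex [Fintype P] [Fintype Q] (μ : Measure X) :
    (K.reindex e).massV μ = K.massV μ := by
  unfold massV
  rw [← e.symm.sum_comp]
  rfl

end Reindex

end MGraph

end Crest.Agent.NoFixedPrice
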