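import Crest.Agent.Lib.NoFixedPrice.Cert
import Crest.Agent.Lib.NoFixedPrice.FoldQuot
import Crest.Agent.Lib.NoFixedPrice.FinalDrop
import Crest.Agent.Lib.NoFixedPrice.Cells

/-!
# Moves of the certificate on the concrete constructions (row 191, S0291; helper63)

* `Cert.fold`: from `K⁺` with seeds to `K⁺.fold`.
-/

set_option autoImplicit false
set_option linter.unusedSectionVars false

namespace Crest.Agent.NoFixedPrice

open MeasureTheory Finset

variable {Γ : Type*} [Group Γ] {L P X : Type} [MulAction Γ X] [MeasurableSpace X] {val : L → Γ}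

section Fold

variable [Countable L] [Fintype P] [LinearOrder P] (K : MGraph val P X)
  (hact : ∀ g : Γ, Measurable fun x : X => g • x)
  (seed : X → P → P → Prop) (hseed : ∀ p q, MeasurableSet {x | seed x p q})

/-- The seeds as sets. -/
def seedSets (seed : X → P → P → Prop) : P → P → Set X := fun p q => {x | seed x p q}

/-- The fold closure is contained in the inductive fold relation. -/
lemma MGraph.foldRel_foldRel {x : X} {p q : P} (h : ((K.foldRel hact seed hseed).rel x).r p q) :
    FoldRel K (seedSets seed) (x, p) (x, q) := by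
  let T : X → Setoid P := fun x =>
    { r := fun p q => FoldRel K (seedSets seed) (x, p) (x, q)
      iseqv := ⟨fun _ => FoldRel.refl _, FoldRel.symm, FoldRel.trans⟩ }
  refine MGraph.foldRel_le K hact seed hseed T ?_ ?_ h
  · intro x p q hs
    exact FoldRel.seed hs
  · rintro ⟨s, b⟩ x y p p' q q' h1 h2 h3
    cases b
    · obtain ⟨h4, rfl⟩ := (K.adj_false s _ _).1 h1
      obtain ⟨h5, _⟩ := (K.adj_false s _ _).1 h2
      exact FoldRel.bwd h4 h5 h3
    · obtain ⟨h4, rfl⟩ := (K.adj_true s _ _).1 h1
      obtain ⟨h5, _⟩ := (K.adj_true s _ _).1 h2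
      exact FoldRel.fwd h4 h5 h3

/-- Non-trivial classes of the fold closure consist of vertices, if the seeds do. -/
lemma MGraph.foldRel_vertices (hsv : ∀ x p q, seed x p q → x ∈ K.V p ∧ x ∈ K.V q) {x : X} {p q : P}
    (h : ((K.foldRel hact seed hseed).rel x).r p q) : p = q ∨ (x ∈ K.V p ∧ x ∈ K.V q) := by
  let T : X → Setoid P := fun x =>
    { r := fun p q => p = q ∨ (x ∈ K.V p ∧ x ∈ K.V q)
      iseqv := ⟨fun _ => Or.inl rfl, by
        rintro a b (rfl | h)
        · exact Or.inl rfl
        · exact Or.inr ⟨h.2, h.1⟩, by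
        rintro a b c (rfl | h) (rfl | h')
        · exact Or.inl rfl
        · exact Or.inr h'
        · exact Or.inr h
        · exact Or.inr ⟨h.1, h'.2⟩⟩ }
  refine MGraph.foldRel_le K hact seed hseed T ?_ ?_ h
  · intro x p q hs
    exact Or.inr (hsv x p q hs)
  · intro ℓ x y p p' q q' h1 h2 _
    exact Or.inr ⟨h1.mem_right, h2.mem_right⟩

/-- A representative of a vertex of the fold is a vertex. -/
lemma MGraph.mem_V_of_mem_fold (hsv : ∀ x p q, seed x p q → x ∈ K.V p ∧ x ∈ K.V q) {x : X} {p : P}
    (h : x ∈ (K.fold hact seed hseed).V p) : x ∈ K.V p ∧ (K.foldRel hact seed hseed).rep x p = p := by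
  obtain ⟨p', h1, h2⟩ := h
  have hr := (K.foldRel hact seed hseed).rep_rel x p'
  rw [h1] at hr
  refine ⟨?_, ?_⟩
  · rcases K.foldRel_vertices hact seed hseed hsv hr with rfl | h3
    · exact h2
    · exact h3.2
  · rw [← h1]
    exact (K.foldRel hact seed hseed).rep_rep x p'

variable [Fintype L]

/-- `FOLD`: the certificate passes to the fold. -/
theorem Cert.fold {Z : (EI L P → X → ℝ) → Prop} {Z' : (EI L P → X → ℝ) → Prop} {μ : Measure X}
    {e : ℝ} (h : Cert K (seedSets seed) Z μ e)
    (hsv : ∀ x p q, seed x p q → x ∈ K.V p ∧ x ∈ K.V q)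
    (hZ : ∀ ψ, (∀ s p q x, x ∉ (K.fold hact seed hseed).E s p q → ψ (s, p, q) x = 0) → Z' ψ →
      Z (pullE K (fun p x => (K.foldRel hact seed hseed).rep x p) ψ)) :
    Cert (K.fold hact seed hseed) (noSeed P X) Z' μ e := by
  classical
  set ρ := K.foldRel hact seed hseed with hρ
  refine Cert.quotient h (K.folded_fold hact seed hseed) (fun p x => ρ.rep x p) id hact
    (fun p p' => ρ.measurableSet_rep_eq p p') ?_ ?_ ?_ ?_ ?_ ?_ hZ
  · intro p x hx
    exact MGraph.mem_quot_V_of_mem K _ hact hx
  · intro s p q x hx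
    exact ⟨p, q, rfl, rfl, hx⟩
  · rintro s p' q' x ⟨p, q, h1, h2, h3⟩
    exact ⟨p, q, h3, h1, h2⟩
  · intro p' x hx
    exact K.mem_V_of_mem_fold hact seed hseed hsv hx
  · intro p p' x hx
    exact ρ.rep_eq_of_rel (K.foldRel_seed hact seed hseed hx)
  · intro p p₂ x _ _ hr
    exact K.foldRel_foldRel hact seed hseed (ρ.rep_eq_iff.1 hr)

end Fold

/-! ### The arc pairs close along closed lifts -/

section ArcCirc

open Crest.Agent.Lib.NoFixedPrice.Arc FreeGroup
open Crest.Agent.NoFixedPrice.FinalDrop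

variable {β : Type} [Fintype P] {val : Option β → Γ} {K : MGraph val P X}

lemma rinv_rinv' {M : Type} (w : List (M × Bool)) : rinv (rinv w) = w := by
  unfold rinv
  simp [List.map_reverse, Function.comp_def]

lemma rinv_append' {M : Type} (u v : List (M × Bool)) : rinv (u ++ v) = rinv v ++ rinv u := by
  simp [rinv]

lemma embW_invRev_reverse (s : List (β × Bool)) :
    (embW (invRev s)).reverse = rinv (embW s).reverse := by
  simp [rinv, invRev, embW, List.map_reverse, Function.comp_def, emb, sinv]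

lemma reverse_D (A S : List (β × Bool)) (y : β × Bool) :
    (embW (invRev A) ++ tI :: emb y :: tL :: embW (invRev S)).reverse =
      rinv (embW S).reverse ++ ([tL, emb y, tI] ++ rinv (embW A).reverse) := by
  rw [← embW_invRev_reverse, ← embW_invRev_reverse]
  simp

lemma rinv_T (y : β × Bool) :
    rinv ([tL, emb y, tI] : List (Option β × Bool)) = [tL, emb (y.1, !y.2), tI] := by
  simp [rinv, tL, tI, emb, sinv]

variable {a : β → ℕ → β} {Lb : ℕ}

/-- The positive case. -/
theorem arc_circ_pos {w : β → List β} (hF : K.Folded)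
    (hbot : ∀ i, botW a i Lb = (embW (Crest.Agent.NoFixedPrice.pos (w i))).reverse)
    (hrel : ∀ i, wordAct val (rel a Lb i) = 1) {ψ : EI (Option β) P → X → ℝ}
    (hZ : K.ZCells (rel a Lb) ψ) (i : β) {A M S : List (β × Bool)}
    (hsplit : Crest.Agent.NoFixedPrice.pos (w i) = A ++ M ++ S) {x x' : X} {p p' : P}
    (h1 : K.IsPath (x, p) (embW M).reverse (x', p'))
    (h2 : K.IsPath (x, p) (embW (invRev A) ++ tI :: emb (i, true) :: tL :: embW (invRev S)).reverse
      (x', p')) :
    K.circ ψ p (embW M).reverse x =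
      K.circ ψ p (embW (invRev A) ++ tI :: emb (i, true) :: tL :: embW (invRev S)).reverse x := by
  rw [reverse_D] at h2 ⊢
  obtain ⟨⟨x₁, c⟩, h3, h4⟩ := (K.isPath_append _ _ _ _).1 h2
  obtain ⟨⟨x₂, d⟩, h5, h6⟩ := (K.isPath_append _ _ _ _).1 h4
  -- the closed lift
  have h7 := h3.rinv
  rw [rinv_rinv'] at h7
  have h8 := h6.rinv
  rw [rinv_rinv'] at h8
  have h9 := h5.rinv
  rw [rinv_T] at h9
  have hrelw : rel a Lb i = (embW S).reverse ++ ((embW M).reverse ++ ((embW A).reverse ++
      [tL, emb (i, false), tI])) := by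
    unfold rel
    rw [hbot, hsplit]
    simp [embW, tL, tI, emb]
  have hcl : K.IsPath (x₁, c) (rel a Lb i) (x₁, c) := by
    rw [hrelw]
    exact h7.append (h1.append (h8.append h9))
  have hmem : x₁ ∈ K.pathSet c (rel a Lb i) c := by
    show K.IsPath _ _ _
    rw [hrel i, one_smul]
    exact hcl
  have hz := hZ i c x₁ hmem
  rw [hrelw, K.circ_append hF ψ h7, K.circ_append hF ψ h1, K.circ_append hF ψ h8] at hz
  have e1 := K.circ_rinv hF ψ h7
  have e2 := K.circ_rinv hF ψ h8
  have e3 := K.circ_rinv hF ψ h5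
  rw [rinv_T] at e3
  have e3' : K.circ ψ d [tL, emb (i, false), tI] x₂ = -K.circ ψ c [tL, emb (i, true), tI] x₁ := e3
  rw [K.circ_append hF ψ h3, K.circ_append hF ψ h5]
  linarith

/-- Both orientations of the relator. -/
theorem arc_circ {w : β → List β} (hF : K.Folded)
    (hbot : ∀ i, botW a i Lb = (embW (Crest.Agent.NoFixedPrice.pos (w i))).reverse)
    (hrel : ∀ i, wordAct val (rel a Lb i) = 1) {ψ : EI (Option β) P → X → ℝ}
    (hZ : K.ZCells (rel a Lb) ψ) (y : β × Bool) {A M S : List (β × Bool)}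
    (hsplit : Crest.Agent.NoFixedPrice.block w y = A ++ M ++ S) {x x' : X} {p p' : P}
    (h1 : K.IsPath (x, p) (embW M).reverse (x', p'))
    (h2 : K.IsPath (x, p) (embW (invRev A) ++ tI :: emb y :: tL :: embW (invRev S)).reverse
      (x', p')) :
    K.circ ψ p (embW M).reverse x =
      K.circ ψ p (embW (invRev A) ++ tI :: emb y :: tL :: embW (invRev S)).reverse x := by
  obtain ⟨i, b⟩ := y
  cases b
  · -- negative: reverse everything
    have hs : Crest.Agent.NoFixedPrice.pos (w i) = invRev S ++ invRev M ++ invRev A := by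
      have h0 : Crest.Agent.NoFixedPrice.neg (w i) = A ++ M ++ S := by
        simpa [Crest.Agent.NoFixedPrice.block] using hsplit
      have h3 : Crest.Agent.NoFixedPrice.pos (w i) = invRev (A ++ M ++ S) := by
        rw [← h0, Crest.Agent.NoFixedPrice.invRev_neg]
      rw [h3]
      simp [invRev_append, List.append_assoc]
    have h3 := h1.rinv
    rw [← embW_invRev_reverse] at h3
    have h4 := h2.rinv
    have e0 : rinv (embW (invRev A) ++ tI :: emb (i, false) :: tL :: embW (invRev S)).reverse =
        (embW (invRev (invRev S)) ++ tI :: emb (i, true) :: tL :: embW (invRev (invRev A))).reverse := by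
      rw [reverse_D, reverse_D, rinv_append', rinv_append', rinv_T, embW_invRev_reverse A,
        embW_invRev_reverse S, rinv_rinv', rinv_rinv']
      simp
    rw [e0] at h4
    have key := arc_circ_pos hF hbot hrel hZ i hs h3 h4
    have c1 := K.circ_rinv hF ψ h1
    rw [← embW_invRev_reverse] at c1
    have c2 := K.circ_rinv hF ψ h2
    rw [e0] at c2
    rw [c1, c2] at key
    linarith
  · exact arc_circ_pos hF hbot hrel hZ i hsplit h1 h2

/-- The two sides of an arc pair have the same integral, on a folded graph, for a cochain with zero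
circulation on the closed lifts. -/
theorem arcPair_circ {w : β → List β} (hF : K.Folded)
    (hbot : ∀ i, botW a i Lb = (embW (Crest.Agent.NoFixedPrice.pos (w i))).reverse)
    (hrel : ∀ i, wordAct val (rel a Lb i) = 1) {ψ : EI (Option β) P → X → ℝ}
    (hZ : K.ZCells (rel a Lb) ψ) {A C : List (HLet β)} (hAC : ArcPair w A C) {x x' : X} {p p' : P}
    (h1 : K.IsPath (x, p) A.reverse (x', p')) (h2 : K.IsPath (x, p) C.reverse (x', p')) :
    K.circ ψ p A.reverse x = K.circ ψ p C.reverse x := by
  rcases hAC with ⟨y, a', u, s, hs, -, rfl, rfl⟩ | ⟨y, a', m, s, hs, -, rfl, rfl⟩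
  · exact arc_circ hF hbot hrel hZ y hs h1 h2
  · exact (arc_circ hF hbot hrel hZ y hs h2 h1).symm

end ArcCirc

end Crest.Agent.NoFixedPrice
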