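import Crest.Agent.Lib.NoFixedPrice.CoreDefs

/-!
# Removing the cores of pattern lifts (row 191, S0291): the graph, survival, connectivity
-/

set_option autoImplicit false
set_option linter.unusedSectionVars false
set_option linter.deprecated false

namespace Crest.Agent.NoFixedPrice

open MeasureTheory Finset

variable {Γ β : Type*} [Group Γ] [Fintype β] [DecidableEq β]

lemma ms_and {X : Type*} [MeasurableSpace X] {p q : X → Prop} (hp : MeasurableSet {x | p x})
    (hq : MeasurableSet {x | q x}) : MeasurableSet {x | p x ∧ q x} := hp.inter hq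

namespace MGraph

variable {val : Option β → Γ} {P X : Type*} [MulAction Γ X] [MeasurableSpace X]
  [Fintype P] [DecidableEq P]
  (K : MGraph val P X) (a : β → ℕ → β) (Lb : ℕ) (r m : ℕ)

/-- The core edges with letter `s` between the sheets `p` and `q`. -/
def coreE (s : β) (p q : P) : Set X :=
  {x | ∃ i c u j k, a i (bq r j k) = s ∧ CoreStep K a Lb r m i c u j k (x, p) (val (some s) • x, q)}

/-- The interior vertices of cores on the sheet `p`. -/
def coreV (p : P) : Set X :=
  {x | ∃ i c u j k, j < m ∧ 0 < k ∧ k < r ∧ u ∈ K.PB a Lb r i c j ∧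
    K.IsPath (u, c) (botW a i (bq r j k)) (x, p)}

/-- The removed edges, by letter. -/
def coreRE : Option β → P → P → Set X
  | none, _, _ => ∅
  | some s, p, q => K.coreE a Lb r m s p q

variable {K a Lb r m}

lemma coreE_sub {s : β} {p q : P} : K.coreE a Lb r m s p q ⊆ K.E (some s) p q := by
  rintro x ⟨i, c, u, j, k, rfl, h⟩
  exact ((K.adj_true _ _ _).1 h.2.2.2.2).1

lemma coreRE_sub (s : Option β) (p q : P) : K.coreRE a Lb r m s p q ⊆ K.E s p q := by
  cases s with
  | none => exact Set.empty_subset _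
  | some s => exact coreE_sub

lemma coreV_sub (p : P) : K.coreV a Lb r m p ⊆ K.V p := by
  rintro x ⟨i, c, u, j, k, _, _, _, _, h⟩
  cases hk : bq r j k with
  | zero => exact absurd hk (by have := bq_pos r j k; omega)
  | succ n =>
    rw [hk] at h
    obtain ⟨w, _, hw⟩ := botW_succ_path.1 h
    exact hw.mem_right

section Compat

variable (hK : K.Folded) (hrel : ∀ i, wordAct val (rel a Lb i) = 1)
  (hb : m * (r + 1) + 1 ≤ Lb)

include hK hrel hb

/-- An interior core vertex: everything about its half-edges. -/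
lemma int_halves {i : β} {c : P} {u : X} {j k : ℕ} {v w : X × P} {ℓ : Option β × Bool}
    (hj : j < m) (hk : k < r) (hu : u ∈ K.PB a Lb r i c j)
    (hv : K.IsPath (u, c) (botW a i (bq r j (k + 1))) v) (hs : K.Adj ℓ v w) :
    ℓ = (some (a i (bq r j (k + 1))), true) ∨ ℓ = (some (a i (bq r j k)), false) := by
  have hq : bq r j k + 1 + 1 ≤ Lb := by
    have := bq_lt hb hj (Nat.succ_le_of_lt hk)
    exact this
  have hd : K.deg v.1 v.2 ≤ 2 := hu.1.2 (k + 1) hk v hv
  exact pos_halves hK hrel hu.1.1 (q := bq r j k) hq hv hd hs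

/-- A step out of an interior vertex is a core step. -/
lemma int_out {i : β} {c : P} {u : X} {j k : ℕ} {v w : X × P} {s : β}
    (hj : j < m) (hk : k + 1 < r) (hu : u ∈ K.PB a Lb r i c j)
    (hv : K.IsPath (u, c) (botW a i (bq r j (k + 1))) v) (hs : K.Adj (some s, true) v w) :
    a i (bq r j (k + 1)) = s ∧ CoreStep K a Lb r m i c u j (k + 1) v w := by
  have h1 := int_halves hK hrel hb hj (Nat.lt_of_succ_lt hk) hu hv hs
  have h2 : s = a i (bq r j (k + 1)) := by
    rcases h1 with h | h
    · simpa using h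
    · simp at h
  subst h2
  exact ⟨rfl, hj, hk, hu, hv, hs⟩

/-- A step into an interior vertex is a core step. -/
lemma int_in {i : β} {c : P} {u : X} {j k : ℕ} {v w : X × P} {s : β}
    (hj : j < m) (hk : k < r) (hu : u ∈ K.PB a Lb r i c j)
    (hv : K.IsPath (u, c) (botW a i (bq r j (k + 1))) v) (hs : K.Adj (some s, true) w v) :
    a i (bq r j k) = s ∧ CoreStep K a Lb r m i c u j k w v := by
  have h1 := int_halves hK hrel hb hj hk hu hv hs.symm
  have h2 : s = a i (bq r j k) := by
    rcases h1 with h | h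
    · simp [sinv] at h
    · simpa [sinv] using h
  subst h2
  obtain ⟨m', hm', hs'⟩ := botW_succ_path.1 (show K.IsPath (u, c)
    (botW a i (bq r j k + 1)) v from hv)
  have : m' = w := by
    have := hK _ _ _ _ hs'.symm hs.symm
    exact this
  subst this
  exact ⟨rfl, hj, hk, hu, hm', hs⟩

/-- No leg at an interior vertex. -/
lemma int_not_none {i : β} {c : P} {u : X} {j k : ℕ} {v w : X × P} {b : Bool}
    (hj : j < m) (hk : k < r) (hu : u ∈ K.PB a Lb r i c j)
    (hv : K.IsPath (u, c) (botW a i (bq r j (k + 1))) v) (hs : K.Adj (none, b) v w) : False := by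
  have h1 := int_halves hK hrel hb hj hk hu hv hs
  simp at h1

lemma coreCompat₁ (s : Option β) (p q : P) (x : X) (hx : x ∈ K.E s p q)
    (hv : x ∈ K.coreV a Lb r m p) : x ∈ K.coreRE a Lb r m s p q := by
  obtain ⟨i, c, u, j, k, hj, hk0, hk, hu, hp⟩ := hv
  obtain ⟨k, rfl⟩ : ∃ k', k = k' + 1 := ⟨k - 1, by omega⟩
  cases s with
  | none =>
    exact (int_not_none hK hrel hb hj (Nat.lt_of_succ_lt hk) hu hp
      (w := (val none • x, q)) (b := true) (by simpa using hx)).elim
  | some s =>
    have hs : K.Adj (some s, true) (x, p) (val (some s) • x, q) := by simpa using hx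
    obtain ⟨h1, h2⟩ := int_out hK hrel hb hj hk hu hp hs
    exact ⟨i, c, u, j, k + 1, h1, h2⟩

lemma coreCompat₂ (s : Option β) (p q : P) (x : X) (hx : x ∈ K.E s p q)
    (hv : val s • x ∈ K.coreV a Lb r m q) : x ∈ K.coreRE a Lb r m s p q := by
  obtain ⟨i, c, u, j, k, hj, hk0, hk, hu, hp⟩ := hv
  obtain ⟨k, rfl⟩ : ∃ k', k = k' + 1 := ⟨k - 1, by omega⟩
  cases s with
  | none =>
    have hs : K.Adj (none, true) (x, p) (val none • x, q) := by simpa using hx
    exact (int_not_none hK hrel hb hj (Nat.lt_of_succ_lt hk) hu hp hs.symm).elim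
  | some s =>
    have hs : K.Adj (some s, true) (x, p) (val (some s) • x, q) := by simpa using hx
    obtain ⟨h1, h2⟩ := int_in hK hrel hb hj (Nat.lt_of_succ_lt hk) hu hp hs
    exact ⟨i, c, u, j, k, h1, h2⟩

end Compat

section Meas

variable (hact : ∀ g : Γ, Measurable fun x : X => g • x)
  (hdeg : ∀ p : P, Measurable fun x : X => K.deg x p)

include hact hdeg

lemma measurableSet_UB (i : β) (c : P) (j : ℕ) : MeasurableSet (K.UB a Lb r i c j) := by
  have : K.UB a Lb r i c j = K.closedSet a Lb i c ∩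
      ⋂ k ∈ Finset.range (r + 1), ⋂ p : P, (K.pathSet c (botW a i (bq r j k)) p)ᶜ ∪
        (fun x => wordAct val (botW a i (bq r j k)) • x) ⁻¹' {x | K.deg x p ≤ 2} := by
    ext u
    simp only [UB, Set.mem_setOf_eq, Set.mem_inter_iff, Set.mem_iInter, Finset.mem_range,
      Set.mem_union, Set.mem_compl_iff, Set.mem_preimage]
    refine and_congr_right fun _ => ?_
    constructor
    · intro h k hk p
      by_cases hp : u ∈ K.pathSet c (botW a i (bq r j k)) p
      · exact Or.inr (h k (Nat.lt_succ_iff.1 hk) _ hp)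
      · exact Or.inl hp
    · rintro h k hk ⟨y, p⟩ hv
      have h1 := (K.isPath_iff_mem_pathSet.1 hv)
      rcases h k (Nat.lt_succ_of_le hk) p with h2 | h2
      · exact absurd h1.2 h2
      · simpa [h1.1] using h2
  rw [this]
  refine (K.measurableSet_closedSet a Lb hact i c).inter ?_
  refine Finset.measurableSet_biInter _ fun k _ => MeasurableSet.iInter fun p => ?_
  refine (K.measurableSet_pathSet hact _ _ _).compl.union (hact _ ?_)
  exact hdeg p (measurableSet_Iic (a := 2))

lemma measurableSet_PB (i : β) (c : P) (j : ℕ) : MeasurableSet (K.PB a Lb r i c j) := by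
  have : K.PB a Lb r i c j = K.UB a Lb r i c j ∩
      ⋂ j' ∈ Finset.range j, (K.UB a Lb r i c j')ᶜ := by
    ext u
    simp [PB]
  rw [this]
  exact (measurableSet_UB hact hdeg i c j).inter
    (Finset.measurableSet_biInter _ fun j' _ => (measurableSet_UB hact hdeg i c j').compl)

lemma measurableSet_Rich (i : β) (c : P) : MeasurableSet (K.Rich a Lb r m i c) := by
  have : K.Rich a Lb r m i c = K.closedSet a Lb i c ∩
      ⋂ j' ∈ Finset.range m, (K.UB a Lb r i c j')ᶜ := by
    ext u
    simp [Rich]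
  rw [this]
  exact (K.measurableSet_closedSet a Lb hact i c).inter
    (Finset.measurableSet_biInter _ fun j' _ => (measurableSet_UB hact hdeg i c j').compl)

omit hact hdeg in
lemma mem_coreE_iff {s : β} {p q : P} {x : X} :
    x ∈ K.coreE a Lb r m s p q ↔ ∃ (i : β) (c : P) (j : Fin m) (k : Fin r),
      a i (bq r j k) = s ∧ (wordAct val (botW a i (bq r j k)))⁻¹ • x ∈ K.PB a Lb r i c j ∧
      (wordAct val (botW a i (bq r j k)))⁻¹ • x ∈ K.pathSet c (botW a i (bq r j k)) p ∧
      x ∈ K.E (some s) p q := by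
  constructor
  · rintro ⟨i, c, u, j, k, h1, hj, hk, hu, hp, hs⟩
    have h2 := K.isPath_iff_mem_pathSet.1 hp
    have h3 : (wordAct val (botW a i (bq r j k)))⁻¹ • x = u := by
      rw [h2.1, inv_smul_smul]
    subst h1
    refine ⟨i, c, ⟨j, hj⟩, ⟨k, hk⟩, rfl, ?_, ?_, ?_⟩
    · simpa [h3] using hu
    · simpa [h3] using h2.2
    · simpa using hs
  · rintro ⟨i, c, ⟨j, hj⟩, ⟨k, hk⟩, h1, h2, h3, h4⟩
    subst h1
    refine ⟨i, c, _, j, k, rfl, hj, hk, h2, ?_, by simpa using h4⟩
    exact K.isPath_iff_mem_pathSet.2 ⟨by simp, h3⟩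

omit hact hdeg in
lemma mem_coreV_iff {p : P} {x : X} :
    x ∈ K.coreV a Lb r m p ↔ ∃ (i : β) (c : P) (j : Fin m) (k : Fin r), 0 < (k : ℕ) ∧
      (wordAct val (botW a i (bq r j k)))⁻¹ • x ∈ K.PB a Lb r i c j ∧
      (wordAct val (botW a i (bq r j k)))⁻¹ • x ∈ K.pathSet c (botW a i (bq r j k)) p := by
  constructor
  · rintro ⟨i, c, u, j, k, hj, hk0, hk, hu, hp⟩
    have h2 := K.isPath_iff_mem_pathSet.1 hp
    have h3 : (wordAct val (botW a i (bq r j k)))⁻¹ • x = u := by
      rw [h2.1, inv_smul_smul]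
    refine ⟨i, c, ⟨j, hj⟩, ⟨k, hk⟩, hk0, ?_, ?_⟩
    · simpa [h3] using hu
    · simpa [h3] using h2.2
  · rintro ⟨i, c, ⟨j, hj⟩, ⟨k, hk⟩, hk0, h2, h3⟩
    exact ⟨i, c, _, j, k, hj, hk0, hk, h2, K.isPath_iff_mem_pathSet.2 ⟨by simp, h3⟩⟩

lemma measurableSet_coreE (s : β) (p q : P) : MeasurableSet (K.coreE a Lb r m s p q) := by
  classical
  have : K.coreE a Lb r m s p q = ⋃ (i : β) (c : P) (j : Fin m) (k : Fin r),
      {x | a i (bq r j k) = s ∧ (wordAct val (botW a i (bq r j k)))⁻¹ • x ∈ K.PB a Lb r i c j ∧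
      (wordAct val (botW a i (bq r j k)))⁻¹ • x ∈ K.pathSet c (botW a i (bq r j k)) p ∧
      x ∈ K.E (some s) p q} := by
    ext x
    rw [mem_coreE_iff]
    simp only [Set.mem_iUnion, Set.mem_setOf_eq]
  rw [this]
  refine MeasurableSet.iUnion fun i => MeasurableSet.iUnion fun c => MeasurableSet.iUnion fun j =>
    MeasurableSet.iUnion fun k => ?_
  refine ms_and (MeasurableSet.const _) ?_
  refine ms_and (hact _ (measurableSet_PB hact hdeg i c j)) ?_
  exact ms_and (hact _ (K.measurableSet_pathSet hact _ _ _)) (K.measE _ _ _)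

lemma measurableSet_coreRE (s : Option β) (p q : P) : MeasurableSet (K.coreRE a Lb r m s p q) := by
  cases s with
  | none => exact MeasurableSet.empty
  | some s => exact measurableSet_coreE hact hdeg s p q

lemma measurableSet_coreV (p : P) : MeasurableSet (K.coreV a Lb r m p) := by
  have : K.coreV a Lb r m p = ⋃ (i : β) (c : P) (j : Fin m) (k : Fin r),
      {x | 0 < (k : ℕ) ∧ (wordAct val (botW a i (bq r j k)))⁻¹ • x ∈ K.PB a Lb r i c j ∧
      (wordAct val (botW a i (bq r j k)))⁻¹ • x ∈ K.pathSet c (botW a i (bq r j k)) p} := by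
    ext x
    rw [mem_coreV_iff]
    simp only [Set.mem_iUnion, Set.mem_setOf_eq]
  rw [this]
  refine MeasurableSet.iUnion fun i => MeasurableSet.iUnion fun c => MeasurableSet.iUnion fun j =>
    MeasurableSet.iUnion fun k => ?_
  refine ms_and (MeasurableSet.const _) ?_
  exact ms_and (hact _ (measurableSet_PB hact hdeg i c j))
    (hact _ (K.measurableSet_pathSet hact _ _ _))

end Meas

section Remove

variable (hK : K.Folded) (hrel : ∀ i, wordAct val (rel a Lb i) = 1)
  (hpair : ∀ i i' p p', p + 1 < Lb → p' + 1 < Lb → a i p = a i' p' →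
      a i (p + 1) = a i' (p' + 1) → i = i' ∧ p = p')
  (hb : m * (r + 1) + 1 ≤ Lb)
  (hact : ∀ g : Γ, Measurable fun x : X => g • x)
  (hdeg : ∀ p : P, Measurable fun x : X => K.deg x p)

/-- The graph without the cores of the pattern lifts. -/
def removeCores : MGraph val P X :=
  K.sub (K.coreV a Lb r m) (K.coreRE a Lb r m) (measurableSet_coreV hact hdeg)
    (measurableSet_coreRE hact hdeg) (coreCompat₁ hK hrel hb) (coreCompat₂ hK hrel hb)

local notation "K''" => removeCores (K := K) (a := a) (Lb := Lb) (r := r) (m := m) hK hrel hb hact hdeg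

lemma rem_none (b : Bool) (v v' : X × P) : ¬ Rem (K.coreRE a Lb r m) (none, b) v v' := by
  cases b <;> simp [Rem, coreRE]

lemma removeCores_adj {ℓ : Option β × Bool} {v v' : X × P} :
    (K'').Adj ℓ v v' ↔ K.Adj ℓ v v' ∧ ¬ Rem (K.coreRE a Lb r m) ℓ v v' := sub_adj_iff

lemma rem_true {s : β} {v v' : X × P} (hrem : Rem (K.coreRE a Lb r m) (some s, true) v v')
    (hs : K.Adj (some s, true) v v') :
    ∃ i c u j k, a i (bq r j k) = s ∧ CoreStep K a Lb r m i c u j k v v' := by
  have h1 : v.1 ∈ K.coreE a Lb r m s v.2 v'.2 := by simpa [Rem, coreRE] using hrem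
  obtain ⟨i, c, u, j, k, h2, h3⟩ := h1
  refine ⟨i, c, u, j, k, h2, ?_⟩
  have h4 : v' = (val (some s) • v.1, v'.2) := Prod.ext ((K.adj_true _ _ _).1 hs).2 rfl
  rw [h4]
  exact h3

lemma rem_false {s : β} {v v' : X × P} (hrem : Rem (K.coreRE a Lb r m) (some s, false) v v')
    (hs : K.Adj (some s, false) v v') :
    ∃ i c u j k, a i (bq r j k) = s ∧ CoreStep K a Lb r m i c u j k v' v := by
  have h1 : v'.1 ∈ K.coreE a Lb r m s v'.2 v.2 := by simpa [Rem, coreRE] using hrem
  obtain ⟨i, c, u, j, k, h2, h3⟩ := h1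
  refine ⟨i, c, u, j, k, h2, ?_⟩
  have h4 : v = (val (some s) • v'.1, v.2) := Prod.ext ((K.adj_false _ _ _).1 hs).2 rfl
  rw [h4]
  exact h3

lemma rem_of_core {i : β} {c : P} {u : X} {j k : ℕ} {v v' : X × P}
    (h : CoreStep K a Lb r m i c u j k v v') :
    Rem (K.coreRE a Lb r m) (some (a i (bq r j k)), true) v v' := by
  have h4 : v' = (val (some (a i (bq r j k))) • v.1, v'.2) :=
    Prod.ext ((K.adj_true _ _ _).1 h.2.2.2.2).2 rfl
  have : v.1 ∈ K.coreE a Lb r m (a i (bq r j k)) v.2 v'.2 := by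
    refine ⟨i, c, u, j, k, rfl, ?_⟩
    rw [← h4]
    exact h
  simpa [Rem, coreRE] using this

include hK hrel hpair hb

/-- A removed bottom step of a closed lift is a step of one of its own blocks. -/
lemma bottom_rem {i' : β} {c' : P} {u' : X} {q' : ℕ} {v v' : X × P}
    (hu' : u' ∈ K.closedSet a Lb i' c') (hq' : q' < Lb)
    (hv' : K.IsPath (u', c') (botW a i' q') v) (hs' : K.Adj (some (a i' q'), true) v v')
    (hrem : Rem (K.coreRE a Lb r m) (some (a i' q'), true) v v') :
    ∃ j k, j < m ∧ k < r ∧ u' ∈ K.PB a Lb r i' c' j ∧ q' = bq r j k := by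
  obtain ⟨i, c, u, j, k, h1, h2⟩ := rem_true hrem hs'
  obtain ⟨rfl, h3, rfl, rfl⟩ := h2.unique hK hrel hpair hb hu' hq' hv' hs' h1
  exact ⟨j, k, h2.1, h2.2.1, h2.2.2.1, h3.symm⟩

/-- A top with a leg at its source is not removed. -/
lemma top_not_rem {s : β} {v₂ v₃ w : X × P} (h1 : K.Adj (some s, false) v₂ v₃)
    (h2 : K.Adj (none, false) v₃ w) : ¬ Rem (K.coreRE a Lb r m) (some s, false) v₂ v₃ := by
  intro hrem
  obtain ⟨i, c, u, j, k, _, h3⟩ := rem_false hrem h1
  exact h3.not_none hK hrel hpair hb h2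

/-- A piece of the bottom without removed steps survives, as a connection. -/
lemma conn_segment {i : β} {c : P} {u : X} {n₁ n₂ : ℕ} (h12 : n₁ ≤ n₂)
    (hno : ∀ q', n₁ ≤ q' → q' < n₂ → ∀ v v', K.IsPath (u, c) (botW a i q') v →
      K.Adj (some (a i q'), true) v v' → ¬ Rem (K.coreRE a Lb r m) (some (a i q'), true) v v')
    {v₁ v₂ : X × P} (h1 : K.IsPath (u, c) (botW a i n₁) v₁)
    (h2 : K.IsPath (u, c) (botW a i n₂) v₂) : (K'').Conn v₁ v₂ := by
  induction n₂, h12 using Nat.le_induction generalizing v₂ with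
  | base =>
    have := hK.path_unique h1 h2
    subst this
    exact Conn.refl _ _
  | succ n hn ih =>
    obtain ⟨m', hm', hs⟩ := botW_succ_path.1 h2
    have h3 := ih (fun q' h4 h5 => hno q' h4 (Nat.lt_succ_of_lt h5)) hm'
    have h4 := hno n hn (Nat.lt_succ_self n) _ _ hm' hs
    exact h3.trans (Adj.conn ((removeCores_adj hK hrel hb hact hdeg).2 ⟨hs, h4⟩))

/-- A piece of the bottom from its start, as a path. -/
lemma path_segment {i : β} {c : P} {u : X} {n : ℕ}
    (hno : ∀ q', q' < n → ∀ v v', K.IsPath (u, c) (botW a i q') v →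
      K.Adj (some (a i q'), true) v v' → ¬ Rem (K.coreRE a Lb r m) (some (a i q'), true) v v')
    {v : X × P} (h2 : K.IsPath (u, c) (botW a i n) v) : (K'').IsPath (u, c) (botW a i n) v := by
  induction n generalizing v with
  | zero => exact h2
  | succ n ih =>
    obtain ⟨m', hm', hs⟩ := botW_succ_path.1 h2
    have h3 := ih (fun q' h5 => hno q' (Nat.lt_succ_of_lt h5)) hm'
    have h4 := hno n (Nat.lt_succ_self n) _ _ hm' hs
    exact botW_succ_path.2 ⟨m', h3, (removeCores_adj hK hrel hb hact hdeg).2 ⟨hs, h4⟩⟩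

/-- A closed lift none of whose bottom steps is removed survives. -/
lemma closed_survive {i : β} {c : P} {u : X} (hu : u ∈ K.closedSet a Lb i c)
    (hno : ∀ q', q' < Lb → ∀ v v', K.IsPath (u, c) (botW a i q') v →
      K.Adj (some (a i q'), true) v v' → ¬ Rem (K.coreRE a Lb r m) (some (a i q'), true) v v') :
    u ∈ (K'').closedSet a Lb i c := by
  obtain ⟨v₁, v₂, v₃, h1, h2, h3, h4⟩ := closed_decomp (K := K) hrel hu
  rw [(K'').mem_closedSet_iff a Lb hrel]
  unfold rel
  refine (path_segment hK hrel hpair hb hact hdeg hno h1).append ?_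
  refine ⟨v₂, (removeCores_adj hK hrel hb hact hdeg).2 ⟨h2, rem_none _ _ _⟩, v₃, (removeCores_adj hK hrel hb hact hdeg).2 ⟨h3, ?_⟩, (u, c),
    (removeCores_adj hK hrel hb hact hdeg).2 ⟨h4, rem_none _ _ _⟩, rfl⟩
  exact top_not_rem hK hrel hpair hb h3 h4

/-- Rich lifts survive. -/
lemma rich_survive {i : β} {c : P} : K.Rich a Lb r m i c ⊆ (K'').closedSet a Lb i c := by
  intro u hu
  refine closed_survive hK hrel hpair hb hact hdeg hu.1 ?_
  intro q' hq' v v' hv hs hrem
  obtain ⟨j, k, hj, _, h2, _⟩ := bottom_rem hK hrel hpair hb hu.1 hq' hv hs hrem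
  exact hu.2 j hj h2.1

/-- The two ends of a core are joined by the rest of the lift. -/
lemma core_ends_conn {i : β} {c : P} {u : X} {j : ℕ} (hj : j < m)
    (hu : u ∈ K.PB a Lb r i c j) {v₀ v₁ : X × P}
    (h0 : K.IsPath (u, c) (botW a i (bq r j 0)) v₀)
    (h1 : K.IsPath (u, c) (botW a i (bq r j r)) v₁) : (K'').Conn v₀ v₁ := by
  have hclosed := hu.1.1
  obtain ⟨w₁, w₂, w₃, h2, h3, h4, h5⟩ := closed_decomp (K := K) hrel hclosed
  have hle : bq r j 0 ≤ bq r j r := by unfold bq; omega
  have hlb : bq r j r ≤ Lb := le_trans (Nat.le_succ _) (bq_lt hb hj le_rfl)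
  -- from the start of the lift to the start of the core
  have hA : (K'').Conn (u, c) v₀ := by
    refine conn_segment hK hrel hpair hb hact hdeg (Nat.zero_le _) ?_ rfl h0
    intro q' _ hq' v v' hv hs hrem
    obtain ⟨j', k, hj', _, h6, h7⟩ := bottom_rem hK hrel hpair hb hu.1.1
      (lt_of_lt_of_le hq' (hle.trans hlb)) hv hs hrem
    have := PB_unique hu h6
    subst this
    rw [h7] at hq'
    simp only [bq] at hq'
    omega
  -- from the end of the core to the end of the bottom
  have hB : (K'').Conn v₁ w₁ := by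
    refine conn_segment hK hrel hpair hb hact hdeg hlb ?_ h1 h2
    intro q' hq1 hq' v v' hv hs hrem
    obtain ⟨j', k, hj', hk, h6, h7⟩ := bottom_rem hK hrel hpair hb hu.1.1 hq' hv hs hrem
    have := PB_unique hu h6
    subst this
    rw [h7] at hq1
    simp only [bq] at hq1
    omega
  have hC : (K'').Conn w₁ (u, c) := by
    refine Conn.trans (Adj.conn ((removeCores_adj hK hrel hb hact hdeg).2 ⟨h3, rem_none _ _ _⟩)) ?_
    refine Conn.trans (Adj.conn ((removeCores_adj hK hrel hb hact hdeg).2 ⟨h4, top_not_rem hK hrel hpair hb h4 h5⟩)) ?_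
    exact Adj.conn ((removeCores_adj hK hrel hb hact hdeg).2 ⟨h5, rem_none _ _ _⟩)
  exact (hA.symm).trans (hB.trans hC).symm

/-! ### The retraction -/

variable (K a Lb r m) in
/-- `v` is an interior vertex of the core of a pattern lift and `w` the start of this core. -/
def IsInt (v w : X × P) : Prop :=
  ∃ i c u j k, j < m ∧ k + 1 < r ∧ u ∈ K.PB a Lb r i c j ∧
    K.IsPath (u, c) (botW a i (bq r j (k + 1))) v ∧ K.IsPath (u, c) (botW a i (bq r j 0)) w

lemma IsInt.unique {v w w' : X × P} (h : IsInt K a Lb r m v w) (h' : IsInt K a Lb r m v w') :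
    w = w' := by
  obtain ⟨i, c, u, j, k, hj, hk, hu, hv, hw⟩ := h
  obtain ⟨i', c', u', j', k', hj', hk', hu', hv', hw'⟩ := h'
  have hlt : bq r j (k + 1) < Lb :=
    lt_of_lt_of_le (Nat.lt_succ_self _) (bq_lt hb hj (le_of_lt hk))
  obtain ⟨v₁, hv₁⟩ := bot_next hK hrel hu.1.1 hlt hv
  obtain ⟨h1, h2⟩ := int_out hK hrel hb hj' hk' hu' hv' hv₁
  have h3 : CoreStep K a Lb r m i c u j (k + 1) v v₁ := ⟨hj, hk, hu, hv, hv₁⟩
  obtain ⟨rfl, rfl, rfl, rfl, _⟩ := h3.unique' hK hrel hpair hb h2 h1.symm
  exact hK.path_unique hw hw'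

variable (K a Lb r m) in
open Classical in
/-- The retraction of the graph on the graph without the cores. -/
noncomputable def ret (v : X × P) : X × P :=
  if h : ∃ w, IsInt K a Lb r m v w then h.choose else v

lemma ret_of_int {v w : X × P} (h : IsInt K a Lb r m v w) : K.ret a Lb r m v = w := by
  classical
  have hex : ∃ w, IsInt K a Lb r m v w := ⟨w, h⟩
  unfold ret
  rw [dif_pos hex]
  exact hex.choose_spec.unique hK hrel hpair hb h

omit hK hrel hpair hb in
lemma ret_of_not {v : X × P} (h : ¬ ∃ w, IsInt K a Lb r m v w) : K.ret a Lb r m v = v := by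
  classical
  unfold ret
  rw [dif_neg h]

omit hK hrel hpair hb in
lemma not_int_of_not_mem {v : X × P} (h : v.1 ∉ K.coreV a Lb r m v.2) :
    ¬ ∃ w, IsInt K a Lb r m v w := by
  rintro ⟨w, i, c, u, j, k, hj, hk, hu, hv, _⟩
  exact h ⟨i, c, u, j, k + 1, hj, Nat.succ_pos _, hk, hu, hv⟩

/-- A positive step is sent to a connection. -/
lemma ret_step_true {s : Option β} {v v' : X × P} (hs : K.Adj (s, true) v v') :
    (K'').Conn (K.ret a Lb r m v) (K.ret a Lb r m v') := by
  by_cases hrem : Rem (K.coreRE a Lb r m) (s, true) v v'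
  · cases s with
    | none => exact absurd hrem (rem_none _ _ _)
    | some s =>
      obtain ⟨i, c, u, j, k, rfl, h⟩ := rem_true hrem hs
      have hclosed := h.closed
      have hj := h.1
      have hk := h.2.1
      have hu := h.2.2.1
      have hlb0 : bq r j 0 ≤ Lb := le_trans (Nat.le_succ _) (bq_lt hb hj (Nat.zero_le _))
      have hlbr : bq r j r ≤ Lb := le_trans (Nat.le_succ _) (bq_lt hb hj le_rfl)
      obtain ⟨w₀, hw₀⟩ := exists_bot_of_closed (K := K) hrel hclosed hlb0
      obtain ⟨w₁, hw₁⟩ := exists_bot_of_closed (K := K) hrel hclosed hlbr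
      -- the image of the left end
      have hL : K.ret a Lb r m v = w₀ := by
        cases k with
        | zero =>
          have : v = w₀ := hK.path_unique h.2.2.2.1 hw₀
          subst this
          refine ret_of_not ?_
          rintro ⟨w, i', c', u', j', k', hj', hk', hu', hv', _⟩
          obtain ⟨h1, h2⟩ := int_out hK hrel hb hj' hk' hu' hv' hs
          obtain ⟨_, _, _, _, h3⟩ := h.unique' hK hrel hpair hb h2 h1.symm
          omega
        | succ k =>
          exact ret_of_int hK hrel hpair hb ⟨i, c, u, j, k, hj, hk, hu, h.2.2.2.1, hw₀⟩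
      rw [hL]
      by_cases hk1 : k + 1 < r
      · have hR : K.ret a Lb r m v' = w₀ :=
          ret_of_int hK hrel hpair hb ⟨i, c, u, j, k, hj, hk1, hu, h.path_right, hw₀⟩
        rw [hR]
        exact Conn.refl _ _
      · have hk2 : k + 1 = r := by omega
        have hR : K.ret a Lb r m v' = v' := by
          refine ret_of_not ?_
          rintro ⟨w, i', c', u', j', k', hj', hk', hu', hv', _⟩
          obtain ⟨h1, h2⟩ := int_in hK hrel hb hj' (Nat.lt_of_succ_lt hk') hu' hv' hs
          obtain ⟨_, _, _, _, h3⟩ := h.unique' hK hrel hpair hb h2 h1.symm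
          omega
        rw [hR]
        have h1 : K.IsPath (u, c) (botW a i (bq r j r)) v' := by
          have := h.path_right
          rwa [hk2] at this
        exact core_ends_conn hK hrel hpair hb hact hdeg hj hu hw₀ h1
  · have h1 : ¬ ∃ w, IsInt K a Lb r m v w := by
      rintro ⟨w, i', c', u', j', k', hj', hk', hu', hv', _⟩
      cases s with
      | none => exact int_not_none hK hrel hb hj' (Nat.lt_of_succ_lt hk') hu' hv' hs
      | some s =>
        obtain ⟨h1, h2⟩ := int_out hK hrel hb hj' hk' hu' hv' hs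
        subst h1
        exact hrem (rem_of_core h2)
    have h2 : ¬ ∃ w, IsInt K a Lb r m v' w := by
      rintro ⟨w, i', c', u', j', k', hj', hk', hu', hv', _⟩
      cases s with
      | none => exact int_not_none hK hrel hb hj' (Nat.lt_of_succ_lt hk') hu' hv' hs.symm
      | some s =>
        obtain ⟨h1, h2⟩ := int_in hK hrel hb hj' (Nat.lt_of_succ_lt hk') hu' hv' hs
        subst h1
        exact hrem (rem_of_core h2)
    rw [ret_of_not h1, ret_of_not h2]
    exact Adj.conn ((removeCores_adj hK hrel hb hact hdeg).2 ⟨hs, hrem⟩)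

/-- Every step is sent to a connection. -/
lemma ret_step {ℓ : Option β × Bool} {v v' : X × P} (hs : K.Adj ℓ v v') :
    (K'').Conn (K.ret a Lb r m v) (K.ret a Lb r m v') := by
  obtain ⟨s, b⟩ := ℓ
  cases b
  · exact (ret_step_true hK hrel hpair hb hact hdeg hs.symm).symm
  · exact ret_step_true hK hrel hpair hb hact hdeg hs

/-- Connections between vertices that are not interior to cores survive. -/
theorem removeCores_conn {x y : X × P} (h : K.Conn x y) (hx : ¬ ∃ w, IsInt K a Lb r m x w)
    (hy : ¬ ∃ w, IsInt K a Lb r m y w) : (K'').Conn x y := by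
  have := conn_of_retract (K' := K'') (K.ret a Lb r m)
    (fun _ _ _ hs => ret_step hK hrel hpair hb hact hdeg hs) h
  rwa [ret_of_not hx, ret_of_not hy] at this

/-- A vertex with a leg is not interior to a core. -/
lemma not_int_of_none {v w₁ : X × P} {b : Bool} (hs : K.Adj (none, b) v w₁) :
    ¬ ∃ w, IsInt K a Lb r m v w := by
  rintro ⟨w, i', c', u', j', k', hj', hk', hu', hv', _⟩
  exact int_not_none hK hrel hb hj' (Nat.lt_of_succ_lt hk') hu' hv' hs

end Remove

end MGraph

end Crest.Agent.NoFixedPrice
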