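import Crest.Agent.Lib.NoFixedPrice.CertClose
import Crest.Agent.Lib.NoFixedPrice.CoreRemoval

/-!
# The certificate survives the removal of cores (row 191, S0291; helper63)

`Cert.removeCores`: the graph without the cores of the pattern lifts is certified at the same level:
a cochain on the smaller graph is extended by giving to the first edge of each core the value
killing the circulation of its lift, and `0` to the other edges of the core.
-/

set_option autoImplicit false
set_option linter.unusedSectionVars false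

namespace Crest.Agent.NoFixedPrice

open MeasureTheory Finset

variable {Γ : Type*} [Group Γ] {β : Type} [Fintype β] [DecidableEq β]

namespace MGraph

variable {val : Option β → Γ} {P X : Type} [MulAction Γ X] [MeasurableSpace X]
  [Fintype P] [DecidableEq P] {K : MGraph val P X} {a : β → ℕ → β} {Lb r m : ℕ}

/-- The segment of the bottom starting at the position `q`, of `n` letters. -/
def segW (a : β → ℕ → β) (i : β) (q n : ℕ) : List (Option β × Bool) :=
  (List.range n).map fun p => (some (a i (q + p)), true)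

lemma segW_succ (i : β) (q n : ℕ) :
    segW a i q (n + 1) = segW a i q n ++ [(some (a i (q + n)), true)] := by
  simp [segW, List.range_succ]

lemma botW_add_seg (i : β) (q n : ℕ) : botW a i (q + n) = botW a i q ++ segW a i q n :=
  botW_add a i q n

/-- The rest of a lift after the core of its block `j`, up to the start of the core. -/
def restW (a : β → ℕ → β) (Lb r : ℕ) (i : β) (j : ℕ) : List (Option β × Bool) :=
  segW a i (bq r j r) (Lb - bq r j r) ++
    ([(none, true), (some i, false), (none, false)] ++ botW a i (bq r j 0))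

/-- The group element from the start of the core to its end. -/
def coreG (val : Option β → Γ) (a : β → ℕ → β) (r : ℕ) (i : β) (j : ℕ) : Γ :=
  wordAct val (segW a i (bq r j 0) r)

/-- The first edges of cores, of given data. -/
def coreFirst (K : MGraph val P X) (a : β → ℕ → β) (Lb r m : ℕ) (s : Option β) (p q : P)
    (t : β × P × Fin m × P) : Set X :=
  {x | s = some (a t.1 (bq r t.2.2.1 0)) ∧
    (wordAct val (botW a t.1 (bq r t.2.2.1 0)))⁻¹ • x ∈ K.PB a Lb r t.1 t.2.1 t.2.2.1 ∧
    (wordAct val (botW a t.1 (bq r t.2.2.1 0)))⁻¹ • x ∈ K.pathSet t.2.1 (botW a t.1 (bq r t.2.2.1 0)) p ∧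
    (wordAct val (botW a t.1 (bq r t.2.2.1 0)))⁻¹ • x ∈ K.pathSet t.2.1 (botW a t.1 (bq r t.2.2.1 r)) t.2.2.2 ∧
    x ∈ K.E s p q}

section Meas

variable (hact : ∀ g : Γ, Measurable fun x : X => g • x)
  (hdeg : ∀ p : P, Measurable fun x : X => K.deg x p)

include hact hdeg

lemma measurableSet_coreFirst (s : Option β) (p q : P) (t : β × P × Fin m × P) :
    MeasurableSet (K.coreFirst a Lb r m s p q t) := by
  refine ms_and (MeasurableSet.const _) ?_
  refine ms_and (hact _ (measurableSet_PB hact hdeg _ _ _)) ?_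
  refine ms_and (hact _ (K.measurableSet_pathSet hact _ _ _)) ?_
  exact ms_and (hact _ (K.measurableSet_pathSet hact _ _ _)) (K.measE _ _ _)

end Meas

section Ext

variable (hK : K.Folded) (hrel : ∀ i, wordAct val (rel a Lb i) = 1)
  (hpair : ∀ i i' p p', p + 1 < Lb → p' + 1 < Lb → a i p = a i' p' →
      a i (p + 1) = a i' (p' + 1) → i = i' ∧ p = p')
  (hb : m * (r + 1) + 1 ≤ Lb)
  (hact : ∀ g : Γ, Measurable fun x : X => g • x)
  (hdeg : ∀ p : P, Measurable fun x : X => K.deg x p)

local notation "K''" => removeCores (K := K) (a := a) (Lb := Lb) (r := r) (m := m) hK hrel hb hact hdeg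

/-- The extension of a cochain from the graph without the cores. -/
noncomputable def coreExt (ψ : EI (Option β) P → X → ℝ) (e : EI (Option β) P) (x : X) : ℝ :=
  ((K'').E e.1 e.2.1 e.2.2).indicator (fun _ => (1 : ℝ)) x * ψ e x -
    ∑ t : β × P × Fin m × P, (K.coreFirst a Lb r m e.1 e.2.1 e.2.2 t).indicator (fun _ => (1 : ℝ)) x *
      (K'').circ ψ t.2.2.2 (restW a Lb r t.1 t.2.2.1) (coreG val a r t.1 t.2.2.1 • x)

lemma isK_coreExt (e : EI (Option β) P) :
    IsK Γ (fun ψ => coreExt hK hrel hb hact hdeg ψ e) := by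
  refine IsK.sub (IsK.mulw _ (BddMeas.indicator ((K'').measE _ _ _) 1) (IsK.coord _)) ?_
  refine IsK.sum _ fun t _ => ?_
  exact IsK.mulw _ (BddMeas.indicator (measurableSet_coreFirst hact hdeg _ _ _ t) 1)
    (((K'').isK_circ hact _ _).shift _)

/-- An element of `coreFirst` is a core step at position `0`. -/
lemma coreFirst_step (hr : 0 < r) {s : Option β} {p q : P} {t : β × P × Fin m × P} {x : X}
    (h : x ∈ K.coreFirst a Lb r m s p q t) :
    s = some (a t.1 (bq r t.2.2.1 0)) ∧
    CoreStep K a Lb r m t.1 t.2.1 ((wordAct val (botW a t.1 (bq r t.2.2.1 0)))⁻¹ • x) t.2.2.1 0 (x, p)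
      (val s • x, q) := by
  obtain ⟨h1, h2, h3, h4, h5⟩ := h
  refine ⟨h1, t.2.2.1.2, hr, h2, ?_, ?_⟩
  · have := (K.isPath_iff_mem_pathSet (x := (wordAct val (botW a t.1 (bq r t.2.2.1 0)))⁻¹ • x)
      (y := x)).2 ⟨by simp, h3⟩
    exact this
  · rw [← h1]
    exact (K.adj_true s _ _).2 ⟨h5, rfl⟩

lemma not_mem_E_of_coreStep {i : β} {c : P} {u : X} {j k : ℕ} {x : X} {p q : P} {s : Option β}
    (hs : s = some (a i (bq r j k)))
    (h : CoreStep K a Lb r m i c u j k (x, p) (val s • x, q)) :
    x ∉ (K'').E s p q := by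
  subst hs
  intro hx
  have h1 := rem_of_core h
  exact hx.2 (by simpa [Rem] using h1)

include hK hrel hpair hb in
/-- Two data of first core edges of one edge coincide. -/
lemma coreFirst_unique (hr : 0 < r) {s : Option β} {p q : P} {t t' : β × P × Fin m × P} {x : X}
    (h : x ∈ K.coreFirst a Lb r m s p q t) (h' : x ∈ K.coreFirst a Lb r m s p q t') : t = t' := by
  obtain ⟨e1, h1⟩ := coreFirst_step hr h
  obtain ⟨e2, h2⟩ := coreFirst_step hr h'
  have ha : a t.1 (bq r t.2.2.1 0) = a t'.1 (bq r t'.2.2.1 0) := by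
    rw [e1] at e2
    simpa using e2
  obtain ⟨i1, c1, u1, j1, _⟩ := h1.unique' hK hrel hpair hb h2 ha
  obtain ⟨i, c, j, q₁⟩ := t
  obtain ⟨i', c', j', q₁'⟩ := t'
  simp only at i1 c1 u1 j1
  subst i1 c1
  have hj : j = j' := Fin.ext j1
  subst hj
  -- the end of the core is determined
  have h3 : K.IsPath _ _ _ := ((K.isPath_iff_mem_pathSet
    (x := (wordAct val (botW a i (bq r j 0)))⁻¹ • x)
    (y := wordAct val (botW a i (bq r j r)) • ((wordAct val (botW a i (bq r j 0)))⁻¹ • x))).2
    ⟨rfl, h.2.2.2.1⟩)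
  have h4 : K.IsPath _ _ _ := ((K.isPath_iff_mem_pathSet
    (x := (wordAct val (botW a i (bq r j 0)))⁻¹ • x)
    (y := wordAct val (botW a i (bq r j r)) • ((wordAct val (botW a i (bq r j 0)))⁻¹ • x))).2
    ⟨rfl, h'.2.2.2.1⟩)
  have h5 := hK.path_unique h3 h4
  have : q₁ = q₁' := (Prod.ext_iff.1 h5).2
  subst this
  rfl

include hpair in
/-- The value on a first core edge. -/
lemma coreExt_first (hr : 0 < r) (ψ : EI (Option β) P → X → ℝ) {s : Option β} {p q : P}
    {t : β × P × Fin m × P} {x : X} (h : x ∈ K.coreFirst a Lb r m s p q t) :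
    coreExt hK hrel hb hact hdeg ψ (s, p, q) x =
      - (K'').circ ψ t.2.2.2 (restW a Lb r t.1 t.2.2.1) (coreG val a r t.1 t.2.2.1 • x) := by
  classical
  obtain ⟨e1, h1⟩ := coreFirst_step hr h
  have h0 : x ∉ (K'').E s p q := not_mem_E_of_coreStep hK hrel hb hact hdeg e1 h1
  unfold coreExt
  simp only
  rw [Set.indicator_of_notMem h0, zero_mul, zero_sub, Finset.sum_eq_single t]
  · simp [h]
  · intro t' _ ht'
    have : x ∉ K.coreFirst a Lb r m s p q t' := fun h' =>
      ht' (coreFirst_unique hK hrel hpair hb hr h' h)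
    simp [this]
  · intro h'; exact absurd (Finset.mem_univ _) h'

include hpair in
/-- The value on the other edges of a core. -/
lemma coreExt_later (hr : 0 < r) (ψ : EI (Option β) P → X → ℝ) {s : Option β} {p q : P}
    {i : β} {c : P} {u : X} {j k : ℕ} {x : X} (hs : s = some (a i (bq r j (k + 1))))
    (h : CoreStep K a Lb r m i c u j (k + 1) (x, p) (val s • x, q)) :
    coreExt hK hrel hb hact hdeg ψ (s, p, q) x = 0 := by
  classical
  have h0 : x ∉ (K'').E s p q := not_mem_E_of_coreStep hK hrel hb hact hdeg hs h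
  unfold coreExt
  simp only
  rw [Set.indicator_of_notMem h0, zero_mul, zero_sub, neg_eq_zero]
  refine Finset.sum_eq_zero fun t _ => ?_
  have : x ∉ K.coreFirst a Lb r m s p q t := by
    intro h'
    obtain ⟨e1, h1⟩ := coreFirst_step hr h'
    have ha : a t.1 (bq r t.2.2.1 0) = a i (bq r j (k + 1)) := by
      rw [e1] at hs
      simpa using hs
    obtain ⟨_, _, _, _, h3⟩ := h1.unique' hK hrel hpair hb h ha
    omega
  simp [this]

/-- The value on the surviving edges. -/
lemma coreExt_sub (hr : 0 < r) (ψ : EI (Option β) P → X → ℝ) {s : Option β} {p q : P} {x : X}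
    (hx : x ∈ (K'').E s p q) : coreExt hK hrel hb hact hdeg ψ (s, p, q) x = ψ (s, p, q) x := by
  classical
  unfold coreExt
  simp only
  rw [Set.indicator_of_mem hx, one_mul, sub_eq_self]
  refine Finset.sum_eq_zero fun t _ => ?_
  have : x ∉ K.coreFirst a Lb r m s p q t := by
    intro h'
    obtain ⟨e1, h1⟩ := coreFirst_step hr h'
    exact not_mem_E_of_coreStep hK hrel hb hact hdeg e1 h1 hx
  simp [this]

/-- The extension vanishes off the edges. -/
lemma coreExt_off (ψ : EI (Option β) P → X → ℝ) {s : Option β} {p q : P} {x : X}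
    (hx : x ∉ K.E s p q) : coreExt hK hrel hb hact hdeg ψ (s, p, q) x = 0 := by
  classical
  unfold coreExt
  simp only
  have h1 : x ∉ (K'').E s p q := fun h => hx h.1
  rw [Set.indicator_of_notMem h1, zero_mul, zero_sub, neg_eq_zero]
  refine Finset.sum_eq_zero fun t _ => ?_
  have : x ∉ K.coreFirst a Lb r m s p q t := fun h => hx h.2.2.2.2
  simp [this]

/-- On the graph without the cores, the extension has the integrals of the cochain. -/
lemma circ_coreExt (hr : 0 < r) (ψ : EI (Option β) P → X → ℝ) {w : List (Option β × Bool)}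
    {p q : P} {x y : X} (h : (K'').IsPath (x, p) w (y, q)) :
    K.circ (coreExt hK hrel hb hact hdeg ψ) p w x = (K'').circ ψ p w x := by
  refine ((K'').circ_pull (K' := K) (Folded.sub hK) hK (fun p _ => p)
    (fun s p q x hx => hx.1) (ψ := ψ) (ψ' := coreExt hK hrel hb hact hdeg ψ) ?_ h).symm
  intro s p q x hx
  exact (coreExt_sub hK hrel hb hact hdeg hr ψ hx).symm

lemma bq_add (r j n : ℕ) : bq r j 0 + n = bq r j n := by
  unfold bq; omega

omit hK hrel hpair hb hact hdeg in
lemma path_bot_seg {i : β} {q n : ℕ} {u w v : X × P} (h0 : K.IsPath u (botW a i q) v)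
    (hw : K.IsPath v (segW a i q n) w) : K.IsPath u (botW a i (q + n)) w := by
  rw [botW_add_seg]
  exact h0.append hw

include hpair in
/-- The integral of the extension along the beginning of a core is the value on its first edge. -/
lemma circ_coreExt_seg (hr : 0 < r) (ψ : EI (Option β) P → X → ℝ) {i : β} {c : P} {u : X} {j : ℕ}
    (hj : j < m) (hu : u ∈ K.PB a Lb r i c j) {x₀ x₁ : X} {p₀ p₁ : P}
    (h0 : K.IsPath (u, c) (botW a i (bq r j 0)) (x₀, p₀))
    (h1 : K.Adj (some (a i (bq r j 0)), true) (x₀, p₀) (x₁, p₁))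
    {n : ℕ} (hn : 1 ≤ n) (hnr : n ≤ r) {v : X × P}
    (hv : K.IsPath (x₀, p₀) (segW a i (bq r j 0) n) v) :
    K.circ (coreExt hK hrel hb hact hdeg ψ) p₀ (segW a i (bq r j 0) n) x₀ =
      coreExt hK hrel hb hact hdeg ψ (some (a i (bq r j 0)), p₀, p₁) x₀ := by
  induction n, hn using Nat.le_induction generalizing v with
  | base =>
    have e : segW a i (bq r j 0) 1 = [(some (a i (bq r j 0)), true)] := by
      simp [segW]
    rw [e, K.circ_cons_of_adj hK _ h1]
    simp [MGraph.circ, stepVal]
  | succ n hn ih =>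
    rw [segW_succ] at hv ⊢
    obtain ⟨⟨y, q⟩, hw, hs⟩ := (K.isPath_append _ _ _ _).1 hv
    obtain ⟨⟨y', q'⟩, hs', rfl⟩ := hs
    rw [K.circ_append hK _ hw, ih (Nat.le_of_succ_le hnr) hw, K.circ_cons_of_adj hK _ hs']
    obtain ⟨k, rfl⟩ : ∃ k, n = k + 1 := ⟨n - 1, by omega⟩
    have e : bq r j 0 + (k + 1) = bq r j (k + 1) := bq_add r j (k + 1)
    rw [e] at hs' ⊢
    have hpath : K.IsPath (u, c) (botW a i (bq r j (k + 1))) (y, q) := by
      rw [← e]
      exact path_bot_seg h0 hw
    have hy' : y' = val (some (a i (bq r j (k + 1)))) • y :=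
      ((K.adj_true _ _ _).1 hs').2
    subst hy'
    have hcs : CoreStep K a Lb r m i c u j (k + 1) (y, q)
        (val (some (a i (bq r j (k + 1)))) • y, q') := ⟨hj, by omega, hu, hpath, hs'⟩
    have := coreExt_later hK hrel hpair hb hact hdeg hr ψ rfl hcs
    simp [MGraph.circ, stepVal, this]

include hpair in
/-- A piece of the bottom after the core of a pattern lift survives. -/
lemma seg_survive {i : β} {c : P} {u : X} {j : ℕ}
    (hu : u ∈ K.PB a Lb r i c j) {v₁ : X × P} (h1 : K.IsPath (u, c) (botW a i (bq r j r)) v₁)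
    {n : ℕ} (hn : bq r j r + n ≤ Lb) {w : X × P}
    (hw : K.IsPath (u, c) (botW a i (bq r j r + n)) w) :
    (K'').IsPath v₁ (segW a i (bq r j r) n) w := by
  induction n generalizing w with
  | zero =>
    have : v₁ = w := hK.path_unique h1 hw
    subst this
    simp [segW]
  | succ n ih =>
    obtain ⟨m', hm', hs⟩ := botW_succ_path.1 (show K.IsPath (u, c) (botW a i (bq r j r + n + 1)) w from hw)
    have h3 := ih (by omega) hm'
    have h4 : ¬ Rem (K.coreRE a Lb r m) (some (a i (bq r j r + n)), true) m' w := by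
      intro hrem
      obtain ⟨j', k, hj', hk, h6, h7⟩ := bottom_rem hK hrel hpair hb hu.1.1 (by omega) hm' hs hrem
      have := PB_unique hu h6
      subst this
      simp only [bq] at h7
      omega
    rw [segW_succ]
    exact ((K'').isPath_append _ _ _ _).2
      ⟨m', h3, w, (removeCores_adj hK hrel hb hact hdeg).2 ⟨hs, h4⟩, rfl⟩

include hpair in
/-- The extension of a cochain with zero circulation on the closed lifts of `K''` has zero
circulation on the closed lifts of `K`. -/
theorem zCells_coreExt (hr : 0 < r) (ψ : EI (Option β) P → X → ℝ)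
    (hZ : (K'').ZCells (rel a Lb) ψ) :
    K.ZCells (rel a Lb) (coreExt hK hrel hb hact hdeg ψ) := by
  intro i c u hu
  have hu' : u ∈ K.closedSet a Lb i c := hu
  by_cases hR : u ∈ K.Rich a Lb r m i c
  · have h1 := rich_survive hK hrel hpair hb hact hdeg hR
    have h2 := ((K'').mem_closedSet_iff a Lb hrel).1 h1
    rw [circ_coreExt hK hrel hb hact hdeg hr ψ h2]
    exact hZ i c u h1
  · obtain ⟨j, hj, hPB⟩ := exists_PB hu' hR
    have hlb0 : bq r j 0 ≤ Lb := le_trans (Nat.le_succ _) (bq_lt hb hj (Nat.zero_le _))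
    have hlbr : bq r j r ≤ Lb := le_trans (Nat.le_succ _) (bq_lt hb hj le_rfl)
    have hlb1 : bq r j 0 + 1 ≤ Lb := bq_lt hb hj (Nat.zero_le _)
    have e0r : bq r j r = bq r j 0 + r := (bq_add r j r).symm
    obtain ⟨⟨x₀, p₀⟩, h0⟩ := exists_bot_of_closed (K := K) hrel hu' hlb0
    obtain ⟨⟨x₁, p₁⟩, h1⟩ := exists_bot_of_closed (K := K) hrel hu' hlbr
    obtain ⟨⟨y₁, q₁⟩, hy⟩ := exists_bot_of_closed (K := K) hrel hu' hlb1
    obtain ⟨m', hm', hs⟩ := botW_succ_path.1 hy
    have : m' = (x₀, p₀) := hK.path_unique hm' h0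
    subst this
    obtain ⟨v₁, v₂, v₃, hA, hB, hC, hD⟩ := closed_decomp (K := K) hrel hu'
    -- the paths in the smaller graph
    have h0' : (K'').IsPath (u, c) (botW a i (bq r j 0)) (x₀, p₀) := by
      refine path_segment hK hrel hpair hb hact hdeg ?_ h0
      intro q' hq' v v' hv hs' hrem
      obtain ⟨j', k, hj', _, h6, h7⟩ := bottom_rem hK hrel hpair hb hu'
        (lt_of_lt_of_le hq' hlb0) hv hs' hrem
      have := PB_unique hPB h6
      subst this
      rw [h7] at hq'
      simp only [bq] at hq'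
      omega
    have hLb : bq r j r + (Lb - bq r j r) = Lb := by omega
    have htail : (K'').IsPath (x₁, p₁) (segW a i (bq r j r) (Lb - bq r j r)) v₁ := by
      refine seg_survive hK hrel hpair hb hact hdeg hPB h1 (by omega) ?_
      rw [hLb]
      exact hA
    have h3 : (K'').IsPath v₁ [(none, true), (some i, false), (none, false)] (u, c) :=
      ⟨v₂, (removeCores_adj hK hrel hb hact hdeg).2 ⟨hB, rem_none _ _ _⟩, v₃,
        (removeCores_adj hK hrel hb hact hdeg).2 ⟨hC, top_not_rem hK hrel hpair hb hC hD⟩, (u, c),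
        (removeCores_adj hK hrel hb hact hdeg).2 ⟨hD, rem_none _ _ _⟩, rfl⟩
    have hrest := htail.append h3
    -- the paths in the larger graph
    have hseg : K.IsPath (x₀, p₀) (segW a i (bq r j 0) r) (x₁, p₁) := by
      rw [e0r, botW_add_seg] at h1
      obtain ⟨m', h4, h5⟩ := (K.isPath_append _ _ _ _).1 h1
      have : m' = (x₀, p₀) := hK.path_unique h4 h0
      subst this
      exact h5
    -- the first edge
    have hy1 : y₁ = val (some (a i (bq r j 0))) • x₀ := ((K.adj_true _ _ _).1 hs).2
    have hu0 : (wordAct val (botW a i (bq r j 0)))⁻¹ • x₀ = u := by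
      have hf : x₀ = wordAct val (botW a i (bq r j 0)) • u := h0.fst_eq
      rw [hf, inv_smul_smul]
    have hfirst : x₀ ∈ K.coreFirst a Lb r m (some (a i (bq r j 0))) p₀ q₁ (i, c, ⟨j, hj⟩, p₁) := by
      refine ⟨rfl, ?_, ?_, ?_, ((K.adj_true _ _ _).1 hs).1⟩
      · show (wordAct val (botW a i (bq r j 0)))⁻¹ • x₀ ∈ K.PB a Lb r i c j
        rw [hu0]; exact hPB
      · show (wordAct val (botW a i (bq r j 0)))⁻¹ • x₀ ∈ K.pathSet c (botW a i (bq r j 0)) p₀
        rw [hu0]; exact (K.isPath_iff_mem_pathSet.1 h0).2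
      · show (wordAct val (botW a i (bq r j 0)))⁻¹ • x₀ ∈ K.pathSet c (botW a i (bq r j r)) p₁
        rw [hu0]; exact (K.isPath_iff_mem_pathSet.1 h1).2
    have hrel_eq : rel a Lb i = botW a i (bq r j 0) ++ (segW a i (bq r j 0) r ++
        (segW a i (bq r j r) (Lb - bq r j r) ++ [(none, true), (some i, false), (none, false)])) := by
      unfold rel
      conv_lhs => rw [← hLb, botW_add_seg, e0r, botW_add_seg, ← e0r]
      simp [List.append_assoc]
    have hg : coreG val a r i j • x₀ = x₁ := (hseg.fst_eq).symm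
    have e1 := coreExt_first hK hrel hpair hb hact hdeg hr ψ hfirst
    simp only at e1
    rw [hg] at e1
    have e2 : restW a Lb r i j = (segW a i (bq r j r) (Lb - bq r j r) ++
        [(none, true), (some i, false), (none, false)]) ++ botW a i (bq r j 0) := by
      unfold restW
      simp [List.append_assoc]
    rw [hrel_eq, K.circ_append hK _ h0, K.circ_append hK _ hseg,
      circ_coreExt hK hrel hb hact hdeg hr ψ h0', circ_coreExt hK hrel hb hact hdeg hr ψ hrest,
      circ_coreExt_seg hK hrel hpair hb hact hdeg hr ψ hj hPB h0 hs (by omega) le_rfl hseg, e1,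
      e2, (K'').circ_append (Folded.sub hK) ψ hrest]
    ring

end Ext

/-- A function without variation along the edges is constant on connected pieces. -/
lemma conn_const {K : MGraph val P X} {c : P → X → ℝ}
    (hc : ∀ s p q x, x ∈ K.E s p q → c q (val s • x) - c p x = 0) {v v' : X × P}
    (h : K.Conn v v') : c v.2 v.1 = c v'.2 v'.1 := by
  obtain ⟨w, hw⟩ := h
  have hprim : K.IsPrim (fun _ _ => 0) c := by
    intro s p q x hx
    have := hc s p q x hx
    simpa using this
  induction w generalizing v with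
  | nil =>
    have : v = v' := hw
    subst this
    rfl
  | cons ℓ w ih =>
    obtain ⟨⟨y, q⟩, h1, h2⟩ := hw
    obtain ⟨x, p⟩ := v
    have h3 := K.stepVal_of_prim hprim h1
    have h4 := ih h2
    simp only at h4 ⊢
    have h5 : stepVal val (fun _ _ => (0 : ℝ)) ℓ p q x = 0 := by
      simp [stepVal]
    rw [h5] at h3
    linarith

/-- **The certificate survives the removal of the cores.** -/
theorem Cert.removeCores {μ : Measure X} {e : ℝ}
    (h : Cert K (noSeed P X) (K.ZCells (rel a Lb)) μ e) (hK : K.Folded)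
    (hrel : ∀ i, wordAct val (rel a Lb i) = 1)
    (hpair : ∀ i i' p p', p + 1 < Lb → p' + 1 < Lb → a i p = a i' p' →
      a i (p + 1) = a i' (p' + 1) → i = i' ∧ p = p')
    (hb : m * (r + 1) + 1 ≤ Lb)
    (hact : ∀ g : Γ, Measurable fun x : X => g • x)
    (hdeg : ∀ p : P, Measurable fun x : X => K.deg x p) (hr : 0 < r) {b : P}
    (hline : ∀ x, x ∈ K.E none b b)
    (hvert : ∀ x p, x ∈ K.V p → ∃ y, K.Conn (y, b) (x, p)) :
    Cert (MGraph.removeCores (K := K) (a := a) (Lb := Lb) (r := r) (m := m) hK hrel hb hact hdeg)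
      (noSeed P X)
      ((MGraph.removeCores (K := K) (a := a) (Lb := Lb) (r := r) (m := m) hK hrel hb hact hdeg).ZCells
        (rel a Lb)) μ e := by
  refine _root_.Crest.Agent.NoFixedPrice.Cert.sub h (fun p x hx => hx.1) (fun s p q x hx => hx.1)
    (coreExt hK hrel hb hact hdeg) (fun e => isK_coreExt hK hrel hb hact hdeg e) ?_ ?_ ?_ ?_
  · intro ψ s p q x hx
    exact coreExt_sub hK hrel hb hact hdeg hr ψ hx
  · intro ψ s p q x hx
    exact coreExt_off hK hrel hb hact hdeg ψ hx
  · intro ψ _ hZ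
    exact zCells_coreExt hK hrel hpair hb hact hdeg hr ψ hZ
  · intro c hc hc0 p x hx
    obtain ⟨y, hy⟩ := hvert x p hx
    have h1 := conn_const hc hy
    simp only at h1
    rw [← h1]
    refine hc0 b y ⟨K.src _ _ _ _ (hline y), ?_⟩
    intro hmem
    obtain ⟨i, c', u, j, k, hj, hk0, hk, hu, hp⟩ := hmem
    obtain ⟨k, rfl⟩ : ∃ k', k = k' + 1 := ⟨k - 1, by omega⟩
    exact int_not_none hK hrel hb hj (Nat.lt_of_succ_lt hk) hu hp
      (w := (val none • y, b)) (b := true) (by simpa using hline y)

end MGraph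

end Crest.Agent.NoFixedPrice
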