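import Crest.Agent.Lib.NoFixedPrice.SubGraph

/-!
# Pattern cells and their cores (row 191, S0291): definitions and uniqueness

The bottom of a relator is cut into `m` disjoint blocks of `r + 1` consecutive vertices. A closed
lift whose block `j` has only vertices of degree at most two is a *pattern* lift (`PB` = first such
block is `j`). A step of such a block lies on no other closed lift (`core_unique`), and it is not a
top (`core_not_top`).
-/

set_option autoImplicit false
set_option linter.unusedSectionVars false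
set_option linter.deprecated false

namespace Crest.Agent.NoFixedPrice

open MeasureTheory Finset

variable {Γ β : Type*} [Group Γ] [Fintype β] [DecidableEq β]

/-- The `k`-th vertex position of the block `j`. -/
def bq (r j k : ℕ) : ℕ := 1 + j * (r + 1) + k

lemma bq_pos (r j k : ℕ) : 1 ≤ bq r j k := by unfold bq; omega

lemma bq_lt {r m j k Lb : ℕ} (hb : m * (r + 1) + 1 ≤ Lb) (hj : j < m) (hk : k ≤ r) :
    bq r j k + 1 ≤ Lb := by
  unfold bq
  have : (j + 1) * (r + 1) ≤ m * (r + 1) := Nat.mul_le_mul_right _ hj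
  have h2 : (j + 1) * (r + 1) = j * (r + 1) + r + 1 := by ring
  omega

lemma bq_inj {r j j' k k' : ℕ} (hk : k ≤ r) (hk' : k' ≤ r) (h : bq r j k = bq r j' k') :
    j = j' ∧ k = k' := by
  unfold bq at h
  have h1 : j * (r + 1) + k = j' * (r + 1) + k' := by omega
  have hq : (j * (r + 1) + k) / (r + 1) = j := by
    rw [Nat.add_comm, Nat.add_mul_div_right _ _ (Nat.succ_pos r),
      Nat.div_eq_of_lt (Nat.lt_succ_of_le hk)]
    simp
  have hq' : (j' * (r + 1) + k') / (r + 1) = j' := by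
    rw [Nat.add_comm, Nat.add_mul_div_right _ _ (Nat.succ_pos r),
      Nat.div_eq_of_lt (Nat.lt_succ_of_le hk')]
    simp
  have hjj : j = j' := by rw [← hq, ← hq', h1]
  subst hjj
  exact ⟨rfl, by omega⟩

namespace MGraph

variable {val : Option β → Γ} {P X : Type*} [MulAction Γ X] [MeasurableSpace X]
  [Fintype P] [DecidableEq P]
  (K : MGraph val P X) (a : β → ℕ → β) (Lb : ℕ) (r : ℕ)

/-- All vertices of the block `j` of the closed lift `(i, c, u)` have degree at most two. -/
def UB (i : β) (c : P) (j : ℕ) : Set X :=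
  {u | u ∈ K.closedSet a Lb i c ∧
    ∀ k ≤ r, ∀ v, K.IsPath (u, c) (botW a i (bq r j k)) v → K.deg v.1 v.2 ≤ 2}

/-- The first block with this property is `j`. -/
def PB (i : β) (c : P) (j : ℕ) : Set X :=
  {u | u ∈ K.UB a Lb r i c j ∧ ∀ j' < j, u ∉ K.UB a Lb r i c j'}

/-- Closed lifts with no such block among the first `m`. -/
def Rich (m : ℕ) (i : β) (c : P) : Set X :=
  {u | u ∈ K.closedSet a Lb i c ∧ ∀ j < m, u ∉ K.UB a Lb r i c j}

variable {K a Lb r}

lemma PB_sub_UB {i : β} {c : P} {j : ℕ} {u : X} (h : u ∈ K.PB a Lb r i c j) :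
    u ∈ K.UB a Lb r i c j := h.1

lemma PB_unique {i : β} {c : P} {j j' : ℕ} {u : X} (h : u ∈ K.PB a Lb r i c j)
    (h' : u ∈ K.PB a Lb r i c j') : j = j' := by
  rcases lt_trichotomy j j' with hlt | heq | hgt
  · exact absurd h.1 (h'.2 j hlt)
  · exact heq
  · exact absurd h'.1 (h.2 j' hgt)

/-- The first block. -/
lemma exists_PB {i : β} {c : P} {m : ℕ} {u : X} (hu : u ∈ K.closedSet a Lb i c)
    (hr : u ∉ K.Rich a Lb r m i c) : ∃ j < m, u ∈ K.PB a Lb r i c j := by
  classical
  have : ∃ j, j < m ∧ u ∈ K.UB a Lb r i c j := by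
    by_contra hcon
    push Not at hcon
    exact hr ⟨hu, hcon⟩
  refine ⟨Nat.find this, (Nat.find_spec this).1, (Nat.find_spec this).2, fun j' hj' hj'' => ?_⟩
  have hlt : j' < m := hj'.trans (Nat.find_spec this).1
  exact Nat.find_min this hj' ⟨hlt, hj''⟩

section Local

variable (hK : K.Folded) (hrel : ∀ i, wordAct val (rel a Lb i) = 1)

include hK hrel

/-- The step after position `q` of a closed lift. -/
lemma bot_next {i : β} {c : P} {u : X} (hu : u ∈ K.closedSet a Lb i c) {q : ℕ} (hq : q < Lb)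
    {v : X × P} (hv : K.IsPath (u, c) (botW a i q) v) :
    ∃ v', K.Adj (some (a i q), true) v v' := by
  obtain ⟨v', hv'⟩ := exists_bot_of_closed (K := K) (a := a) (Lb := Lb) hrel hu (q := q + 1) hq
  obtain ⟨m, h1, h2⟩ := botW_succ_path.1 hv'
  have : m = v := hK.path_unique h1 hv
  subst this
  exact ⟨v', h2⟩

/-- The leg after the end of the bottom of a closed lift. -/
lemma bot_end {i : β} {c : P} {u : X} (hu : u ∈ K.closedSet a Lb i c) {v : X × P}
    (hv : K.IsPath (u, c) (botW a i Lb) v) : ∃ v', K.Adj (none, true) v v' := by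
  obtain ⟨v₁, v₂, _, h1, h2, _⟩ := closed_decomp (K := K) hrel hu
  have : v₁ = v := hK.path_unique h1 hv
  subst this
  exact ⟨v₂, h2⟩

/-- A half-edge with sign `true` after position `q < Lb` of a closed lift. -/
lemma next_half {i : β} {c : P} {u : X} (hu : u ∈ K.closedSet a Lb i c) {q : ℕ} (hq : q ≤ Lb)
    {v : X × P} (hv : K.IsPath (u, c) (botW a i q) v) :
    ∃ ℓ v', ℓ.2 = true ∧ K.Adj ℓ v v' ∧ (q < Lb → ℓ = (some (a i q), true)) ∧
      (q = Lb → ℓ = (none, true)) := by
  rcases hq.lt_or_eq with h | h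
  · obtain ⟨v', hv'⟩ := bot_next hK hrel hu h hv
    exact ⟨_, v', rfl, hv', fun _ => rfl, fun h' => absurd h' (Nat.ne_of_lt h)⟩
  · subst h
    obtain ⟨v', hv'⟩ := bot_end hK hrel hu hv
    exact ⟨_, v', rfl, hv', fun h => absurd h (lt_irrefl _), fun _ => rfl⟩

omit hK hrel in
/-- The half-edge back along the previous step. -/
lemma prev_half {i : β} {c : P} {u : X} {q : ℕ} {v : X × P}
    (hv : K.IsPath (u, c) (botW a i (q + 1)) v) :
    ∃ v', K.IsPath (u, c) (botW a i q) v' ∧ K.Adj (some (a i q), false) v v' := by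
  obtain ⟨m, h1, h2⟩ := botW_succ_path.1 hv
  exact ⟨m, h1, h2.symm⟩

/-- At a position of degree at most two inside the bottom, the half-edges are the two of the lift. -/
lemma pos_halves {i : β} {c : P} {u : X} (hu : u ∈ K.closedSet a Lb i c) {q : ℕ} (hq : q + 1 < Lb)
    {v : X × P} (hv : K.IsPath (u, c) (botW a i (q + 1)) v) (hd : K.deg v.1 v.2 ≤ 2)
    {ℓ : Option β × Bool} {w : X × P} (hs : K.Adj ℓ v w) :
    ℓ = (some (a i (q + 1)), true) ∨ ℓ = (some (a i q), false) := by
  obtain ⟨v₁, hv₁⟩ := bot_next hK hrel hu hq hv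
  obtain ⟨v₀, _, hv₀⟩ := prev_half hv
  have h1 : v.1 ∈ K.half (some (a i (q + 1)), true) v.2 v₁.2 := mem_half_of_adj hv₁
  have h2 : v.1 ∈ K.half (some (a i q), false) v.2 v₀.2 := mem_half_of_adj hv₀
  have h3 : v.1 ∈ K.half ℓ v.2 w.2 := mem_half_of_adj hs
  exact deg_le_two_letter hd h1 h2 h3 (by simp)

/-- **Uniqueness.** A step of degree two at its head lies at one position of one closed lift. -/
lemma step_unique
    (hpair : ∀ i i' p p', p + 1 < Lb → p' + 1 < Lb → a i p = a i' p' →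
      a i (p + 1) = a i' (p' + 1) → i = i' ∧ p = p')
    {i i' : β} {c c' : P} {u u' : X} {q q' : ℕ} {v v' : X × P}
    (hu : u ∈ K.closedSet a Lb i c) (hq : q + 1 < Lb)
    (hv : K.IsPath (u, c) (botW a i q) v) (hs : K.Adj (some (a i q), true) v v')
    (hd : K.deg v'.1 v'.2 ≤ 2)
    (hu' : u' ∈ K.closedSet a Lb i' c') (hq' : q' < Lb)
    (hv' : K.IsPath (u', c') (botW a i' q') v) (hs' : K.Adj (some (a i' q'), true) v v')
    (ha : a i q = a i' q') :
    i = i' ∧ q = q' ∧ u = u' ∧ c = c' := by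
  have hp1 : K.IsPath (u, c) (botW a i (q + 1)) v' := botW_succ_path.2 ⟨v, hv, hs⟩
  have hp2 : K.IsPath (u', c') (botW a i' (q' + 1)) v' := botW_succ_path.2 ⟨v, hv', hs'⟩
  obtain ⟨ℓ, w, hℓ, hw, h1, h2⟩ := next_half hK hrel hu' (q := q' + 1) hq' hp2
  have h3 := pos_halves hK hrel hu hq hp1 hd hw
  have hq'' : q' + 1 < Lb := by
    rcases (Nat.succ_le_of_lt hq').lt_or_eq with h | h
    · exact h
    · exfalso
      have := h2 h
      subst this
      simp at h3
  have h4 := h1 hq''
  subst h4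
  have h5 : a i (q + 1) = a i' (q' + 1) := by
    rcases h3 with h | h
    · simpa using h.symm
    · simp at h
  obtain ⟨rfl, rfl⟩ := hpair i i' q q' hq hq'' ha h5
  have h6 : v.1 = wordAct val (botW a i q) • u := hv.fst_eq
  have h7 : v.1 = wordAct val (botW a i q) • u' := hv'.fst_eq
  have h8 : u = u' := smul_left_cancel _ (h6.symm.trans h7)
  subst h8
  have h9 := hK.path_unique hv.rinv hv'.rinv
  have : c = c' := (Prod.ext_iff.1 h9).2
  exact ⟨rfl, rfl, rfl, this⟩

end Local

section Core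

variable (K a Lb r) in
/-- A step of the block `j` of a pattern lift. -/
def CoreStep (m : ℕ) (i : β) (c : P) (u : X) (j k : ℕ) (v v' : X × P) : Prop :=
  j < m ∧ k < r ∧ u ∈ K.PB a Lb r i c j ∧ K.IsPath (u, c) (botW a i (bq r j k)) v ∧
    K.Adj (some (a i (bq r j k)), true) v v'

variable {m : ℕ}

lemma CoreStep.deg_left {i : β} {c : P} {u : X} {j k : ℕ} {v v' : X × P}
    (h : CoreStep K a Lb r m i c u j k v v') : K.deg v.1 v.2 ≤ 2 :=
  h.2.2.1.1.2 k (le_of_lt h.2.1) v h.2.2.2.1

lemma CoreStep.path_right {i : β} {c : P} {u : X} {j k : ℕ} {v v' : X × P}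
    (h : CoreStep K a Lb r m i c u j k v v') :
    K.IsPath (u, c) (botW a i (bq r j (k + 1))) v' := by
  have : bq r j (k + 1) = bq r j k + 1 := rfl
  rw [this]
  exact botW_succ_path.2 ⟨v, h.2.2.2.1, h.2.2.2.2⟩

lemma CoreStep.deg_right {i : β} {c : P} {u : X} {j k : ℕ} {v v' : X × P}
    (h : CoreStep K a Lb r m i c u j k v v') : K.deg v'.1 v'.2 ≤ 2 :=
  h.2.2.1.1.2 (k + 1) h.2.1 v' h.path_right

lemma CoreStep.closed {i : β} {c : P} {u : X} {j k : ℕ} {v v' : X × P}
    (h : CoreStep K a Lb r m i c u j k v v') : u ∈ K.closedSet a Lb i c := h.2.2.1.1.1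

lemma CoreStep.lt (hb : m * (r + 1) + 1 ≤ Lb) {i : β} {c : P} {u : X} {j k : ℕ} {v v' : X × P}
    (h : CoreStep K a Lb r m i c u j k v v') : bq r j k + 1 < Lb :=
  lt_of_lt_of_le (Nat.lt_succ_self _) (bq_lt hb h.1 (Nat.succ_le_of_lt h.2.1))

variable (hK : K.Folded) (hrel : ∀ i, wordAct val (rel a Lb i) = 1)
  (hpair : ∀ i i' p p', p + 1 < Lb → p' + 1 < Lb → a i p = a i' p' →
      a i (p + 1) = a i' (p' + 1) → i = i' ∧ p = p')
  (hb : m * (r + 1) + 1 ≤ Lb)

include hK hrel hpair hb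

/-- **Core steps lie on one lift at one position.** -/
lemma CoreStep.unique {i i' : β} {c c' : P} {u u' : X} {j k q' : ℕ} {v v' : X × P}
    (h : CoreStep K a Lb r m i c u j k v v') (hu' : u' ∈ K.closedSet a Lb i' c') (hq' : q' < Lb)
    (hv' : K.IsPath (u', c') (botW a i' q') v) (hs' : K.Adj (some (a i' q'), true) v v')
    (ha : a i (bq r j k) = a i' q') :
    i = i' ∧ bq r j k = q' ∧ u = u' ∧ c = c' :=
  step_unique hK hrel hpair h.closed (h.lt hb) h.2.2.2.1 h.2.2.2.2 h.deg_right hu' hq' hv' hs' ha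

/-- Two core steps with the same ends and the same letter coincide. -/
lemma CoreStep.unique' {i i' : β} {c c' : P} {u u' : X} {j j' k k' : ℕ} {v v' : X × P}
    (h : CoreStep K a Lb r m i c u j k v v') (h' : CoreStep K a Lb r m i' c' u' j' k' v v')
    (ha : a i (bq r j k) = a i' (bq r j' k')) :
    i = i' ∧ c = c' ∧ u = u' ∧ j = j' ∧ k = k' := by
  have hlt' := h'.lt hb
  obtain ⟨rfl, h2, rfl, rfl⟩ := h.unique hK hrel hpair hb h'.closed (Nat.lt_of_succ_lt hlt')
    h'.2.2.2.1 h'.2.2.2.2 ha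
  have hjj := PB_unique h.2.2.1 h'.2.2.1
  subst hjj
  have := (bq_inj (le_of_lt h.2.1) (le_of_lt h'.2.1) h2).2
  exact ⟨rfl, rfl, rfl, rfl, this⟩

/-- A core step is not the top of a closed lift, nor a leg. -/
lemma CoreStep.not_none {i : β} {c : P} {u : X} {j k : ℕ} {v v' w : X × P} {b : Bool}
    (h : CoreStep K a Lb r m i c u j k v v') (hs : K.Adj (none, b) v w) : False := by
  have hq : bq r j k + 1 < Lb := h.lt hb
  have hpos : bq r j k = (j * (r + 1) + k) + 1 := by unfold bq; omega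
  have hv := h.2.2.2.1
  rw [hpos] at hv
  have hq' : (j * (r + 1) + k) + 1 + 1 < Lb := by omega
  have := pos_halves hK hrel h.closed (q := j * (r + 1) + k) (Nat.lt_of_succ_lt hq') hv h.deg_left hs
  simp at this

end Core

end MGraph

end Crest.Agent.NoFixedPrice
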