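import Crest.Agent.Lib.NoFixedPrice.CoreRemoval

/-!
# Removing the cores of pattern lifts (row 191, S0291): masses
-/

set_option autoImplicit false
set_option linter.unusedSectionVars false
set_option linter.deprecated false

namespace Crest.Agent.NoFixedPrice

open MeasureTheory Finset

variable {Γ β : Type*} [Group Γ] [Fintype β] [DecidableEq β]

namespace MGraph

variable {val : Option β → Γ} {P X : Type*} [MulAction Γ X] [MeasurableSpace X]
  [Fintype P] [DecidableEq P]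
  {K : MGraph val P X} {a : β → ℕ → β} {Lb : ℕ} {r m : ℕ}
  (μ : Measure X) [IsFiniteMeasure μ]

/-- Mass of pattern lifts. -/
noncomputable def patternMass (K : MGraph val P X) (a : β → ℕ → β) (Lb r m : ℕ) : ℝ :=
  ∑ i, ∑ c, ∑ j : Fin m, μ.real (K.PB a Lb r i c j)

/-- Mass of rich lifts. -/
noncomputable def richMass (K : MGraph val P X) (a : β → ℕ → β) (Lb r m : ℕ) : ℝ :=
  ∑ i, ∑ c, μ.real (K.Rich a Lb r m i c)

variable (hK : K.Folded) (hrel : ∀ i, wordAct val (rel a Lb i) = 1)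
  (hact : ∀ g : Γ, Measurable fun x : X => g • x)
  (hdeg : ∀ p : P, Measurable fun x : X => K.deg x p)

include hact hdeg in
/-- Closed lifts are rich or pattern. -/
lemma closed_split (i : β) (c : P) :
    μ.real (K.closedSet a Lb i c) =
      μ.real (K.Rich a Lb r m i c) + ∑ j : Fin m, μ.real (K.PB a Lb r i c j) := by
  have hU : K.closedSet a Lb i c = K.Rich a Lb r m i c ∪ ⋃ j : Fin m, K.PB a Lb r i c j := by
    ext u
    simp only [Set.mem_union, Set.mem_iUnion]
    constructor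
    · intro hu
      by_cases hr : u ∈ K.Rich a Lb r m i c
      · exact Or.inl hr
      · obtain ⟨j, hj, h⟩ := exists_PB hu hr
        exact Or.inr ⟨⟨j, hj⟩, h⟩
    · rintro (h | ⟨j, h⟩)
      · exact h.1
      · exact h.1.1
  have hd : Disjoint (K.Rich a Lb r m i c) (⋃ j : Fin m, K.PB a Lb r i c j) := by
    rw [Set.disjoint_left]
    intro u hu hu'
    obtain ⟨j, hj⟩ := Set.mem_iUnion.1 hu'
    exact hu.2 j j.2 hj.1
  have h2 : μ.real (⋃ j : Fin m, K.PB a Lb r i c j) = ∑ j : Fin m, μ.real (K.PB a Lb r i c j) := by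
    refine measureReal_iUnion_fintype ?_ fun j => measurableSet_PB hact hdeg i c j
    intro j j' hne
    rw [Function.onFun, Set.disjoint_left]
    intro u hu hu'
    exact hne (Fin.ext (PB_unique hu hu'))
  rw [hU, measureReal_union hd (MeasurableSet.iUnion fun j => measurableSet_PB hact hdeg i c j), h2]

include hact hdeg in
lemma cellMass_split : K.cellMass a Lb μ = patternMass μ K a Lb r m + richMass μ K a Lb r m := by
  unfold cellMass patternMass richMass
  rw [← Finset.sum_add_distrib]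
  refine Finset.sum_congr rfl fun i _ => ?_
  rw [← Finset.sum_add_distrib]
  refine Finset.sum_congr rfl fun c _ => ?_
  rw [closed_split μ hact hdeg i c (r := r) (m := m)]
  ring

include hK hrel hact in
/-- A measurable part of the closed lifts is partitioned by the sheet at position `q`. -/
lemma sum_sheet {i : β} {c : P} {A : Set X} (hA : MeasurableSet A) (hsub : A ⊆ K.closedSet a Lb i c)
    {q : ℕ} (hq : q ≤ Lb) : ∑ p, μ.real (A ∩ K.pathSet c (botW a i q) p) = μ.real A := by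
  have hU : A = ⋃ p, A ∩ K.pathSet c (botW a i q) p := by
    ext u
    simp only [Set.mem_iUnion, Set.mem_inter_iff, exists_and_left, iff_self_and]
    intro hu
    obtain ⟨⟨y, p⟩, hv⟩ := exists_bot_of_closed (K := K) hrel (hsub hu) hq
    exact ⟨p, (K.isPath_iff_mem_pathSet.1 hv).2⟩
  conv_rhs => rw [hU]
  rw [measureReal_iUnion_fintype]
  · intro p p' hne
    rw [Function.onFun, Set.disjoint_left]
    intro u hu hu'
    have h1 := hK.path_unique hu.2 hu'.2
    exact hne (Prod.ext_iff.1 h1).2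
  · exact fun p => hA.inter (K.measurableSet_pathSet hact _ _ _)

include hK hrel hact in
/-- A measurable part of the lifts with given sheet at `q` is partitioned by the next sheet. -/
lemma sum_next {i : β} {c : P} {A : Set X} (hA : MeasurableSet A) (hsub : A ⊆ K.closedSet a Lb i c)
    {q : ℕ} (hq : q < Lb) {p : P} (hp : A ⊆ K.pathSet c (botW a i q) p) :
    ∑ p', μ.real (A ∩ (fun u => wordAct val (botW a i q) • u) ⁻¹' K.E (some (a i q)) p p') =
      μ.real A := by
  have hU : A = ⋃ p', A ∩ (fun u => wordAct val (botW a i q) • u) ⁻¹' K.E (some (a i q)) p p' := by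
    ext u
    simp only [Set.mem_iUnion, Set.mem_inter_iff, exists_and_left, iff_self_and]
    intro hu
    obtain ⟨v', hv'⟩ := bot_next hK hrel (hsub hu) hq (hp hu)
    refine ⟨v'.2, ?_⟩
    exact ((K.adj_true _ _ _).1 hv').1
  conv_rhs => rw [hU]
  rw [measureReal_iUnion_fintype]
  · intro p₁ p₂ hne
    rw [Function.onFun, Set.disjoint_left]
    intro u hu hu'
    have h1 : K.Adj (some (a i q), true) (wordAct val (botW a i q) • u, p)
        (val (some (a i q)) • wordAct val (botW a i q) • u, p₁) := by simpa using hu.2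
    have h2 : K.Adj (some (a i q), true) (wordAct val (botW a i q) • u, p)
        (val (some (a i q)) • wordAct val (botW a i q) • u, p₂) := by simpa using hu'.2
    exact hne (Prod.ext_iff.1 (hK _ _ _ _ h1 h2)).2
  · exact fun p' => hA.inter (hact _ (K.measE _ _ _))

section Core

/-- The piece of pattern lifts whose core edge `k` runs between the sheets `p` and `q`. -/
def coreT (K : MGraph val P X) (a : β → ℕ → β) (Lb r : ℕ) (i : β) (c : P) (j k : ℕ) (p q : P) :
    Set X :=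
  K.PB a Lb r i c j ∩ K.pathSet c (botW a i (bq r j k)) p ∩
    (fun u => wordAct val (botW a i (bq r j k)) • u) ⁻¹' K.E (some (a i (bq r j k))) p q

include hact hdeg in
lemma measurableSet_coreT (i : β) (c : P) (j k : ℕ) (p q : P) :
    MeasurableSet (coreT K a Lb r i c j k p q) :=
  ((measurableSet_PB hact hdeg i c j).inter (K.measurableSet_pathSet hact _ _ _)).inter
    (hact _ (K.measE _ _ _))

variable (hb : m * (r + 1) + 1 ≤ Lb)

include hK hrel hact hdeg hb in
lemma sum_coreT {i : β} {c : P} {j k : ℕ} (hj : j < m) (hk : k ≤ r) :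
    ∑ p, ∑ q, μ.real (coreT K a Lb r i c j k p q) = μ.real (K.PB a Lb r i c j) := by
  have hq : bq r j k < Lb := lt_of_lt_of_le (Nat.lt_succ_self _) (bq_lt hb hj hk)
  have hPB := measurableSet_PB (K := K) (a := a) (Lb := Lb) (r := r) hact hdeg i c j
  have hsub : K.PB a Lb r i c j ⊆ K.closedSet a Lb i c := fun u hu => hu.1.1
  have h1 : ∀ p, ∑ q, μ.real (coreT K a Lb r i c j k p q) =
      μ.real (K.PB a Lb r i c j ∩ K.pathSet c (botW a i (bq r j k)) p) := by
    intro p
    exact sum_next μ hK hrel hact (hPB.inter (K.measurableSet_pathSet hact _ _ _))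
      (fun u hu => hsub hu.1) hq (fun u hu => hu.2)
  simp_rw [h1]
  exact sum_sheet μ hK hrel hact hPB hsub hq.le

/-- The index of a core edge. -/
abbrev CoreIdx (β P : Type*) (m r : ℕ) := β × P × Fin m × Fin r

/-- The image of `coreT` in the sheet of the letter. -/
def coreA (K : MGraph val P X) (a : β → ℕ → β) (Lb r : ℕ) (ι : CoreIdx β P m r) (s : β) (p q : P) :
    Set X :=
  {x | a ι.1 (bq r ι.2.2.1 ι.2.2.2) = s ∧
    (wordAct val (botW a ι.1 (bq r ι.2.2.1 ι.2.2.2)))⁻¹ • x ∈ K.PB a Lb r ι.1 ι.2.1 ι.2.2.1 ∧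
    (wordAct val (botW a ι.1 (bq r ι.2.2.1 ι.2.2.2)))⁻¹ • x ∈
      K.pathSet ι.2.1 (botW a ι.1 (bq r ι.2.2.1 ι.2.2.2)) p ∧
    x ∈ K.E (some s) p q}

lemma coreE_eq_iUnion (s : β) (p q : P) :
    K.coreE a Lb r m s p q = ⋃ ι : CoreIdx β P m r, coreA K a Lb r ι s p q := by
  ext x
  rw [mem_coreE_iff]
  simp only [Set.mem_iUnion, coreA, Set.mem_setOf_eq, Prod.exists]

variable (hmp : ∀ g : Γ, MeasurePreserving (fun x : X => g • x) μ μ)

include hmp hact hdeg in
lemma measureReal_coreA (ι : CoreIdx β P m r) (s : β) (p q : P) :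
    μ.real (coreA K a Lb r ι s p q) =
      if a ι.1 (bq r ι.2.2.1 ι.2.2.2) = s then
        μ.real (coreT K a Lb r ι.1 ι.2.1 ι.2.2.1 ι.2.2.2 p q) else 0 := by
  classical
  split_ifs with h
  · have : coreA K a Lb r ι s p q =
        (fun x => (wordAct val (botW a ι.1 (bq r ι.2.2.1 ι.2.2.2)))⁻¹ • x) ⁻¹'
          coreT K a Lb r ι.1 ι.2.1 ι.2.2.1 ι.2.2.2 p q := by
      ext x
      subst h
      simp only [coreA, coreT, Set.mem_setOf_eq, Set.mem_preimage, Set.mem_inter_iff, smul_inv_smul,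
        true_and, and_assoc]
    rw [this, measureReal_def, measureReal_def,
      (hmp _).measure_preimage (measurableSet_coreT hact hdeg _ _ _ _ _ _).nullMeasurableSet]
  · have : coreA K a Lb r ι s p q = ∅ := by
      ext x
      simp [coreA, h]
    rw [this]
    simp

lemma mem_coreA_coreStep {ι : CoreIdx β P m r} {s : β} {p q : P} {x : X}
    (h : x ∈ coreA K a Lb r ι s p q) :
    CoreStep K a Lb r m ι.1 ι.2.1 ((wordAct val (botW a ι.1 (bq r ι.2.2.1 ι.2.2.2)))⁻¹ • x)
      ι.2.2.1 ι.2.2.2 (x, p) (val (some s) • x, q) := by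
  obtain ⟨h1, h2, h3, h4⟩ := h
  subst h1
  refine ⟨ι.2.2.1.2, ι.2.2.2.2, h2, ?_, by simpa using h4⟩
  exact K.isPath_iff_mem_pathSet.2 ⟨by simp, h3⟩

variable (hpair : ∀ i i' p p', p + 1 < Lb → p' + 1 < Lb → a i p = a i' p' →
      a i (p + 1) = a i' (p' + 1) → i = i' ∧ p = p')

include hK hrel hpair hb in
lemma coreA_disjoint (s : β) (p q : P) :
    Pairwise (Function.onFun Disjoint fun ι : CoreIdx β P m r => coreA K a Lb r ι s p q) := by
  intro ι ι' hne
  rw [Function.onFun, Set.disjoint_left]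
  intro x hx hx'
  apply hne
  have h1 := mem_coreA_coreStep hx
  have h2 := mem_coreA_coreStep hx'
  have h3 : a ι.1 (bq r ι.2.2.1 ι.2.2.2) = a ι'.1 (bq r ι'.2.2.1 ι'.2.2.2) := hx.1.trans hx'.1.symm
  obtain ⟨e1, e2, _, e4, e5⟩ := h1.unique' hK hrel hpair hb h2 h3
  obtain ⟨i, c, j, k⟩ := ι
  obtain ⟨i', c', j', k'⟩ := ι'
  simp only at e1 e2 e4 e5
  subst e1 e2
  have := Fin.ext e4
  have := Fin.ext e5
  simp_all

include hmp hact hdeg hK hrel hpair hb in
/-- The mass of the core edges of a letter between two sheets. -/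
lemma measureReal_coreE (s : β) (p q : P) :
    μ.real (K.coreE a Lb r m s p q) = ∑ ι : CoreIdx β P m r,
      if a ι.1 (bq r ι.2.2.1 ι.2.2.2) = s then
        μ.real (coreT K a Lb r ι.1 ι.2.1 ι.2.2.1 ι.2.2.2 p q) else 0 := by
  rw [coreE_eq_iUnion, measureReal_iUnion_fintype (coreA_disjoint hK hrel hb hpair s p q)]
  · exact Finset.sum_congr rfl fun ι _ => measureReal_coreA μ hact hdeg hmp ι s p q
  · intro ι
    refine ms_and (MeasurableSet.const _) ?_
    refine ms_and (hact _ (measurableSet_PB hact hdeg _ _ _)) ?_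
    exact ms_and (hact _ (K.measurableSet_pathSet hact _ _ _)) (K.measE _ _ _)

include hmp hact hdeg hK hrel hpair hb in
/-- **The total mass of core edges.** -/
theorem sum_coreRE :
    ∑ s, ∑ p, ∑ q, μ.real (K.coreRE a Lb r m s p q) = r * patternMass μ K a Lb r m := by
  classical
  rw [Fintype.sum_option]
  have h0 : ∑ p, ∑ q, μ.real (K.coreRE a Lb r m none p q) = 0 := by
    simp [coreRE]
  rw [h0, zero_add]
  have h1 : ∀ (s : β) (p q : P), μ.real (K.coreRE a Lb r m (some s) p q) = ∑ ι : CoreIdx β P m r,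
      if a ι.1 (bq r ι.2.2.1 ι.2.2.2) = s then
        μ.real (coreT K a Lb r ι.1 ι.2.1 ι.2.2.1 ι.2.2.2 p q) else 0 := fun s p q =>
    measureReal_coreE μ hK hrel hact hdeg hb hmp hpair s p q
  simp_rw [h1]
  -- exchange the sums
  have h2 : ∑ s : β, ∑ p : P, ∑ q : P, ∑ ι : CoreIdx β P m r,
      (if a ι.1 (bq r ι.2.2.1 ι.2.2.2) = s then
        μ.real (coreT K a Lb r ι.1 ι.2.1 ι.2.2.1 ι.2.2.2 p q) else 0) =
      ∑ ι : CoreIdx β P m r, ∑ p : P, ∑ q : P, ∑ s : β,
      (if a ι.1 (bq r ι.2.2.1 ι.2.2.2) = s then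
        μ.real (coreT K a Lb r ι.1 ι.2.1 ι.2.2.1 ι.2.2.2 p q) else 0) := by
    calc _ = ∑ p : P, ∑ s : β, ∑ q : P, ∑ ι : CoreIdx β P m r,
      (if a ι.1 (bq r ι.2.2.1 ι.2.2.2) = s then
        μ.real (coreT K a Lb r ι.1 ι.2.1 ι.2.2.1 ι.2.2.2 p q) else 0) := Finset.sum_comm
      _ = ∑ p : P, ∑ q : P, ∑ s : β, ∑ ι : CoreIdx β P m r,
      (if a ι.1 (bq r ι.2.2.1 ι.2.2.2) = s then
        μ.real (coreT K a Lb r ι.1 ι.2.1 ι.2.2.1 ι.2.2.2 p q) else 0) :=
        Finset.sum_congr rfl fun _ _ => Finset.sum_comm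
      _ = ∑ p : P, ∑ q : P, ∑ ι : CoreIdx β P m r, ∑ s : β,
      (if a ι.1 (bq r ι.2.2.1 ι.2.2.2) = s then
        μ.real (coreT K a Lb r ι.1 ι.2.1 ι.2.2.1 ι.2.2.2 p q) else 0) :=
        Finset.sum_congr rfl fun _ _ => Finset.sum_congr rfl fun _ _ => Finset.sum_comm
      _ = ∑ p : P, ∑ ι : CoreIdx β P m r, ∑ q : P, ∑ s : β,
      (if a ι.1 (bq r ι.2.2.1 ι.2.2.2) = s then
        μ.real (coreT K a Lb r ι.1 ι.2.1 ι.2.2.1 ι.2.2.2 p q) else 0) :=
        Finset.sum_congr rfl fun _ _ => Finset.sum_comm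
      _ = _ := Finset.sum_comm
  rw [h2]
  have h3 : ∀ ι : CoreIdx β P m r, ∑ p : P, ∑ q : P, ∑ s : β,
      (if a ι.1 (bq r ι.2.2.1 ι.2.2.2) = s then
        μ.real (coreT K a Lb r ι.1 ι.2.1 ι.2.2.1 ι.2.2.2 p q) else 0) =
      μ.real (K.PB a Lb r ι.1 ι.2.1 ι.2.2.1) := by
    intro ι
    simp only [Finset.sum_ite_eq, Finset.mem_univ, if_true]
    exact sum_coreT μ hK hrel hact hdeg hb ι.2.2.1.2 (le_of_lt ι.2.2.2.2)
  simp_rw [h3]
  unfold patternMass
  simp only [Fintype.sum_prod_type, Finset.sum_const, Finset.card_univ, Fintype.card_fin,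
    nsmul_eq_mul, Finset.mul_sum]

include hmp hact hdeg hK hrel hb in
/-- The total mass of interior vertices of cores. -/
theorem sum_coreV_le (hr : 1 ≤ r) :
    ∑ p, μ.real (K.coreV a Lb r m p) ≤ ((r : ℝ) - 1) * patternMass μ K a Lb r m := by
  classical
  have h1 : ∀ p, μ.real (K.coreV a Lb r m p) ≤ ∑ ι : CoreIdx β P m r,
      if 0 < (ι.2.2.2 : ℕ) then
        μ.real (K.PB a Lb r ι.1 ι.2.1 ι.2.2.1 ∩ K.pathSet ι.2.1 (botW a ι.1 (bq r ι.2.2.1 ι.2.2.2)) p)
      else 0 := by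
    intro p
    have hU : K.coreV a Lb r m p ⊆ ⋃ ι : CoreIdx β P m r,
        {x | 0 < (ι.2.2.2 : ℕ) ∧
          (wordAct val (botW a ι.1 (bq r ι.2.2.1 ι.2.2.2)))⁻¹ • x ∈ K.PB a Lb r ι.1 ι.2.1 ι.2.2.1 ∧
          (wordAct val (botW a ι.1 (bq r ι.2.2.1 ι.2.2.2)))⁻¹ • x ∈
            K.pathSet ι.2.1 (botW a ι.1 (bq r ι.2.2.1 ι.2.2.2)) p} := by
      intro x hx
      rw [mem_coreV_iff] at hx
      obtain ⟨i, c, j, k, h⟩ := hx
      exact Set.mem_iUnion.2 ⟨(i, c, j, k), h⟩
    refine (measureReal_mono hU).trans ((measureReal_iUnion_fintype_le _).trans ?_)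
    refine Finset.sum_le_sum fun ι _ => ?_
    split_ifs with h
    · have : {x | 0 < (ι.2.2.2 : ℕ) ∧
          (wordAct val (botW a ι.1 (bq r ι.2.2.1 ι.2.2.2)))⁻¹ • x ∈ K.PB a Lb r ι.1 ι.2.1 ι.2.2.1 ∧
          (wordAct val (botW a ι.1 (bq r ι.2.2.1 ι.2.2.2)))⁻¹ • x ∈
            K.pathSet ι.2.1 (botW a ι.1 (bq r ι.2.2.1 ι.2.2.2)) p} =
          (fun x => (wordAct val (botW a ι.1 (bq r ι.2.2.1 ι.2.2.2)))⁻¹ • x) ⁻¹'
          (K.PB a Lb r ι.1 ι.2.1 ι.2.2.1 ∩ K.pathSet ι.2.1 (botW a ι.1 (bq r ι.2.2.1 ι.2.2.2)) p) := by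
        ext x
        simp [h]
      rw [this, measureReal_def, measureReal_def, (hmp _).measure_preimage
        ((measurableSet_PB hact hdeg _ _ _).inter
          (K.measurableSet_pathSet hact _ _ _)).nullMeasurableSet]
    · have : {x | 0 < (ι.2.2.2 : ℕ) ∧
          (wordAct val (botW a ι.1 (bq r ι.2.2.1 ι.2.2.2)))⁻¹ • x ∈ K.PB a Lb r ι.1 ι.2.1 ι.2.2.1 ∧
          (wordAct val (botW a ι.1 (bq r ι.2.2.1 ι.2.2.2)))⁻¹ • x ∈
            K.pathSet ι.2.1 (botW a ι.1 (bq r ι.2.2.1 ι.2.2.2)) p} = ∅ := by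
        ext x
        simp [h]
      rw [this]
      simp
  refine (Finset.sum_le_sum fun p _ => h1 p).trans ?_
  rw [Finset.sum_comm]
  have h3 : ∀ ι : CoreIdx β P m r, ∑ p, (if 0 < (ι.2.2.2 : ℕ) then
        μ.real (K.PB a Lb r ι.1 ι.2.1 ι.2.2.1 ∩ K.pathSet ι.2.1 (botW a ι.1 (bq r ι.2.2.1 ι.2.2.2)) p)
      else 0) = if 0 < (ι.2.2.2 : ℕ) then μ.real (K.PB a Lb r ι.1 ι.2.1 ι.2.2.1) else 0 := by
    intro ι
    split_ifs with h
    · refine sum_sheet μ hK hrel hact (measurableSet_PB hact hdeg _ _ _) (fun u hu => hu.1.1) ?_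
      exact le_trans (Nat.le_succ _) (bq_lt hb ι.2.2.1.2 (le_of_lt ι.2.2.2.2))
    · simp
  simp_rw [h3]
  have h4 : ∀ r : ℕ, 1 ≤ r → ∑ k : Fin r, (if 0 < (k : ℕ) then (1 : ℝ) else 0) = (r : ℝ) - 1 := by
    intro r hr
    obtain ⟨r', rfl⟩ : ∃ r', r = r' + 1 := ⟨r - 1, by omega⟩
    rw [Fin.sum_univ_succ]
    simp
  unfold patternMass
  simp only [Fintype.sum_prod_type, Finset.mul_sum]
  refine Finset.sum_le_sum fun i _ => Finset.sum_le_sum fun c _ => Finset.sum_le_sum fun j _ => ?_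
  have h5 : ∑ k : Fin r, (if 0 < (k : ℕ) then μ.real (K.PB a Lb r i c j) else 0) =
      (∑ k : Fin r, (if 0 < (k : ℕ) then (1 : ℝ) else 0)) * μ.real (K.PB a Lb r i c j) := by
    rw [Finset.sum_mul]
    refine Finset.sum_congr rfl fun k _ => ?_
    split_ifs <;> simp
  rw [h5, h4 r hr]

/-! ### The competitor -/

include hmp hK hrel hpair hb in
theorem massE_removeCores :
    (removeCores (a := a) (Lb := Lb) (r := r) (m := m) hK hrel hb hact hdeg).massE μ =
      K.massE μ - r * patternMass μ K a Lb r m := by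
  rw [removeCores, massE_sub μ coreRE_sub, sum_coreRE μ hK hrel hact hdeg hb hmp hpair]

include hmp hK hrel hb in
theorem massV_removeCores (hr : 1 ≤ r) :
    K.massV μ - ((r : ℝ) - 1) * patternMass μ K a Lb r m ≤
      (removeCores (a := a) (Lb := Lb) (r := r) (m := m) hK hrel hb hact hdeg).massV μ := by
  rw [removeCores, massV_sub μ coreV_sub]
  have := sum_coreV_le μ hK hrel hact hdeg hb hmp hr
  linarith

include hmp hK hrel hpair hb in
theorem cellMass_removeCores :
    richMass μ K a Lb r m ≤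
      (removeCores (a := a) (Lb := Lb) (r := r) (m := m) hK hrel hb hact hdeg).cellMass a Lb μ := by
  unfold cellMass richMass
  refine Finset.sum_le_sum fun i _ => Finset.sum_le_sum fun c _ => ?_
  exact measureReal_mono (rich_survive hK hrel hpair hb hact hdeg)

include hmp hK hrel hpair hb in
/-- `Pi` does not increase. -/
theorem pi_removeCores (hr : 1 ≤ r) :
    (removeCores (a := a) (Lb := Lb) (r := r) (m := m) hK hrel hb hact hdeg).excess μ -
      (removeCores (a := a) (Lb := Lb) (r := r) (m := m) hK hrel hb hact hdeg).cellMass a Lb μ ≤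
      K.excess μ - K.cellMass a Lb μ := by
  have h1 := massE_removeCores μ hK hrel hact hdeg hb hmp hpair
  have h2 := massV_removeCores μ hK hrel hact hdeg hb hmp hr
  have h3 := cellMass_removeCores μ hK hrel hact hdeg hb hmp hpair
  have h4 := cellMass_split (r := r) (m := m) μ hact hdeg (K := K) (a := a) (Lb := Lb)
  unfold excess
  rw [h1, h4]
  linarith

end Core

end MGraph

end Crest.Agent.NoFixedPrice
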