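import Mathlib

/-!
# Measured finite-sheet labelled graphs (row 191, S0291, data structure of M5-M7)

`MGraph val P X`: `L` a type of positive letters with values `val : L → Γ` in a group acting on `X`,
`P` a finite type of sheets. The vertex `(x, p)` is present iff `x ∈ V p`; the edge
`(x, p) -s-> (val s • x, q)` is present iff `x ∈ E s p q`.

Contents: signed letters, adjacency, paths by word, endpoints, masses `massV`, `massE`, `excess`,
half-edge degree, the degree formula `∫ ∑ (deg - 2) = 2 * excess`, the branch bounds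
`∫ ∑_{deg ≥ 3} deg ≤ 3 (2 excess + leaf weight)`, measurability of path sets.
-/

set_option autoImplicit false
set_option linter.unusedSectionVars false
set_option linter.deprecated false

namespace Crest.Agent.NoFixedPrice

open MeasureTheory Finset

variable {Γ L : Type*} [Group Γ]

/-- The group value of a signed letter. -/
def sval (val : L → Γ) (ℓ : L × Bool) : Γ := if ℓ.2 then val ℓ.1 else (val ℓ.1)⁻¹

@[simp] lemma sval_true (val : L → Γ) (s : L) : sval val (s, true) = val s := rfl
@[simp] lemma sval_false (val : L → Γ) (s : L) : sval val (s, false) = (val s)⁻¹ := rfl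

/-- The opposite signed letter. -/
def sinv (ℓ : L × Bool) : L × Bool := (ℓ.1, !ℓ.2)

@[simp] lemma sinv_sinv (ℓ : L × Bool) : sinv (sinv ℓ) = ℓ := by
  cases ℓ with | mk s b => cases b <;> rfl

lemma sval_sinv (val : L → Γ) (ℓ : L × Bool) : sval val (sinv ℓ) = (sval val ℓ)⁻¹ := by
  cases ℓ with | mk s b => cases b <;> simp [sinv, sval]

/-- The group element moving the start of a path reading `w` to its end: the first letter of `w`
acts first. -/
def wordAct (val : L → Γ) : List (L × Bool) → Γ
  | [] => 1
  | ℓ :: w => wordAct val w * sval val ℓ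

@[simp] lemma wordAct_nil (val : L → Γ) : wordAct val [] = 1 := rfl
@[simp] lemma wordAct_cons (val : L → Γ) (ℓ : L × Bool) (w : List (L × Bool)) :
    wordAct val (ℓ :: w) = wordAct val w * sval val ℓ := rfl

lemma wordAct_append (val : L → Γ) (u w : List (L × Bool)) :
    wordAct val (u ++ w) = wordAct val w * wordAct val u := by
  induction u with
  | nil => simp
  | cons ℓ u ih => simp [ih, mul_assoc]

/-- The reversed word with all signs flipped (same as `FreeGroup.invRev`). -/
def rinv (w : List (L × Bool)) : List (L × Bool) := (w.map sinv).reverse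

@[simp] lemma rinv_nil : rinv ([] : List (L × Bool)) = [] := rfl
lemma rinv_cons (ℓ : L × Bool) (w : List (L × Bool)) : rinv (ℓ :: w) = rinv w ++ [sinv ℓ] := by
  simp [rinv]

lemma wordAct_rinv (val : L → Γ) (w : List (L × Bool)) :
    wordAct val (rinv w) = (wordAct val w)⁻¹ := by
  induction w with
  | nil => simp
  | cons ℓ w ih => simp [rinv_cons, wordAct_append, ih, sval_sinv]

/-- A measured finite-sheet labelled graph. -/
structure MGraph (val : L → Γ) (P X : Type*) [MulAction Γ X] [MeasurableSpace X] where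
  /-- the vertex `(x, p)` is present iff `x ∈ V p` -/
  V : P → Set X
  /-- the edge `(x, p) -s-> (val s • x, q)` is present iff `x ∈ E s p q` -/
  E : L → P → P → Set X
  measV : ∀ p, MeasurableSet (V p)
  measE : ∀ s p q, MeasurableSet (E s p q)
  src : ∀ s p q x, x ∈ E s p q → x ∈ V p
  tgt : ∀ s p q x, x ∈ E s p q → val s • x ∈ V q

namespace MGraph

variable {val : L → Γ} {P X : Type*} [MulAction Γ X] [MeasurableSpace X] (K : MGraph val P X)

/-- One step of the graph along a signed letter. -/
def Adj (ℓ : L × Bool) (v v' : X × P) : Prop :=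
  if ℓ.2 then v.1 ∈ K.E ℓ.1 v.2 v'.2 ∧ v'.1 = val ℓ.1 • v.1
  else v'.1 ∈ K.E ℓ.1 v'.2 v.2 ∧ v.1 = val ℓ.1 • v'.1

@[simp] lemma adj_true (s : L) (v v' : X × P) :
    K.Adj (s, true) v v' ↔ v.1 ∈ K.E s v.2 v'.2 ∧ v'.1 = val s • v.1 := by simp [Adj]

@[simp] lemma adj_false (s : L) (v v' : X × P) :
    K.Adj (s, false) v v' ↔ v'.1 ∈ K.E s v'.2 v.2 ∧ v.1 = val s • v'.1 := by simp [Adj]

lemma Adj.symm {K : MGraph val P X} {ℓ : L × Bool} {v v' : X × P} (h : K.Adj ℓ v v') :
    K.Adj (sinv ℓ) v' v := by
  cases ℓ with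
  | mk s b => cases b <;> simpa [sinv] using h

lemma adj_sinv_iff {ℓ : L × Bool} {v v' : X × P} : K.Adj (sinv ℓ) v' v ↔ K.Adj ℓ v v' :=
  ⟨fun h => by simpa using h.symm, Adj.symm⟩

/-- The endpoint of a step is determined by the action. -/
lemma Adj.fst_eq {K : MGraph val P X} {ℓ : L × Bool} {v v' : X × P} (h : K.Adj ℓ v v') :
    v'.1 = sval val ℓ • v.1 := by
  cases ℓ with
  | mk s b =>
    cases b
    · have h' := (K.adj_false s v v').1 h
      simp [h'.2]
    · have h' := (K.adj_true s v v').1 h
      simp [h'.2]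

lemma Adj.mem_left {K : MGraph val P X} {ℓ : L × Bool} {v v' : X × P} (h : K.Adj ℓ v v') :
    v.1 ∈ K.V v.2 := by
  cases ℓ with
  | mk s b =>
    cases b
    · have h' := (K.adj_false s v v').1 h
      rw [h'.2]; exact K.tgt _ _ _ _ h'.1
    · have h' := (K.adj_true s v v').1 h
      exact K.src _ _ _ _ h'.1

lemma Adj.mem_right {K : MGraph val P X} {ℓ : L × Bool} {v v' : X × P} (h : K.Adj ℓ v v') :
    v'.1 ∈ K.V v'.2 := h.symm.mem_left

/-- Paths by word. -/
def IsPath : X × P → List (L × Bool) → X × P → Prop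
  | v, [], v' => v = v'
  | v, ℓ :: w, v' => ∃ u, K.Adj ℓ v u ∧ IsPath u w v'

@[simp] lemma isPath_nil (v v' : X × P) : K.IsPath v [] v' ↔ v = v' := Iff.rfl

@[simp] lemma isPath_cons (ℓ : L × Bool) (w : List (L × Bool)) (v v' : X × P) :
    K.IsPath v (ℓ :: w) v' ↔ ∃ u, K.Adj ℓ v u ∧ K.IsPath u w v' := Iff.rfl

lemma isPath_append (u w : List (L × Bool)) (v v' : X × P) :
    K.IsPath v (u ++ w) v' ↔ ∃ m, K.IsPath v u m ∧ K.IsPath m w v' := by
  induction u generalizing v with
  | nil => simp
  | cons ℓ u ih =>
    simp only [List.cons_append, isPath_cons, ih]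
    constructor
    · rintro ⟨a, h1, m, h2, h3⟩; exact ⟨m, ⟨a, h1, h2⟩, h3⟩
    · rintro ⟨m, ⟨a, h1, h2⟩, h3⟩; exact ⟨a, h1, m, h2, h3⟩

lemma IsPath.append {K : MGraph val P X} {u w : List (L × Bool)} {a b c : X × P}
    (h1 : K.IsPath a u b) (h2 : K.IsPath b w c) : K.IsPath a (u ++ w) c :=
  (K.isPath_append u w a c).2 ⟨b, h1, h2⟩

lemma IsPath.rinv {K : MGraph val P X} {w : List (L × Bool)} {a b : X × P}
    (h : K.IsPath a w b) : K.IsPath b (rinv w) a := by
  induction w generalizing a with
  | nil => simpa using h.symm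
  | cons ℓ w ih =>
    obtain ⟨m, h1, h2⟩ := h
    rw [rinv_cons]
    exact (ih h2).append ⟨a, h1.symm, rfl⟩

/-- The endpoint of a path is determined by the action. -/
lemma IsPath.fst_eq {K : MGraph val P X} {w : List (L × Bool)} {a b : X × P}
    (h : K.IsPath a w b) : b.1 = wordAct val w • a.1 := by
  induction w generalizing a with
  | nil => simp [show a = b from h]
  | cons ℓ w ih =>
    obtain ⟨m, h1, h2⟩ := h
    rw [ih h2, h1.fst_eq, wordAct_cons, mul_smul]

/-- Connection by some path. -/
def Conn (v v' : X × P) : Prop := ∃ w, K.IsPath v w v'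

lemma Conn.refl (v : X × P) : K.Conn v v := ⟨[], rfl⟩

lemma Conn.symm {K : MGraph val P X} {a b : X × P} (h : K.Conn a b) : K.Conn b a := by
  obtain ⟨w, hw⟩ := h; exact ⟨_, hw.rinv⟩

lemma Conn.trans {K : MGraph val P X} {a b c : X × P} (h : K.Conn a b) (h' : K.Conn b c) :
    K.Conn a c := by
  obtain ⟨w, hw⟩ := h; obtain ⟨w', hw'⟩ := h'; exact ⟨_, hw.append hw'⟩

lemma Adj.conn {K : MGraph val P X} {ℓ : L × Bool} {a b : X × P} (h : K.Adj ℓ a b) : K.Conn a b :=
  ⟨[ℓ], b, h, rfl⟩

/-- Two edges with the same signed letter at one vertex coincide. -/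
def Folded : Prop := ∀ ℓ v v₁ v₂, K.Adj ℓ v v₁ → K.Adj ℓ v v₂ → v₁ = v₂

/-- In a folded graph a word lifts in at most one way from a given start. -/
lemma Folded.path_unique {K : MGraph val P X} (hK : K.Folded) {w : List (L × Bool)} {a b c : X × P}
    (h1 : K.IsPath a w b) (h2 : K.IsPath a w c) : b = c := by
  induction w generalizing a with
  | nil => exact h1.symm.trans h2
  | cons ℓ w ih =>
    obtain ⟨m, h3, h4⟩ := h1
    obtain ⟨m', h5, h6⟩ := h2
    have := hK _ _ _ _ h3 h5
    subst this
    exact ih h4 h6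

section Meas

variable [Fintype P] [DecidableEq P]

/-- The set of `x` with a step from `(x, p)` along `ℓ` to the sheet `q`. -/
def half (ℓ : L × Bool) (p q : P) : Set X := {x | K.Adj ℓ (x, p) (sval val ℓ • x, q)}

lemma half_true (s : L) (p q : P) : K.half (s, true) p q = K.E s p q := by
  ext x; simp [half]

lemma half_false (s : L) (p q : P) :
    K.half (s, false) p q = (fun x => (val s)⁻¹ • x) ⁻¹' K.E s q p := by
  ext x; simp [half]

lemma mem_half_iff {ℓ : L × Bool} {p q : P} {x : X} {v' : X × P} (hv : v' = (sval val ℓ • x, q)) :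
    x ∈ K.half ℓ p q ↔ K.Adj ℓ (x, p) v' := by
  subst hv; rfl

lemma measurableSet_half (hact : ∀ g : Γ, Measurable fun x : X => g • x) (ℓ : L × Bool) (p q : P) :
    MeasurableSet (K.half ℓ p q) := by
  cases ℓ with
  | mk s b =>
    cases b
    · rw [half_false]; exact hact _ (K.measE s q p)
    · rw [half_true]; exact K.measE s p q

/-- The set of starting points of a path with given word and sheets. -/
def pathSet (p : P) (w : List (L × Bool)) (q : P) : Set X :=
  {x | K.IsPath (x, p) w (wordAct val w • x, q)}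

lemma isPath_iff_mem_pathSet {p q : P} {w : List (L × Bool)} {x y : X} :
    K.IsPath (x, p) w (y, q) ↔ y = wordAct val w • x ∧ x ∈ K.pathSet p w q := by
  constructor
  · intro h
    have := h.fst_eq
    simp only at this
    subst this
    exact ⟨rfl, h⟩
  · rintro ⟨rfl, h⟩; exact h

lemma measurableSet_pathSet
    (hact : ∀ g : Γ, Measurable fun x : X => g • x) (p : P) (w : List (L × Bool)) (q : P) :
    MeasurableSet (K.pathSet p w q) := by
  classical
  induction w generalizing p with
  | nil =>
    by_cases h : p = q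
    · subst h
      have : K.pathSet p [] p = Set.univ := by ext x; simp [pathSet]
      rw [this]; exact MeasurableSet.univ
    · have : K.pathSet p [] q = ∅ := by ext x; simp [pathSet, h]
      rw [this]; exact MeasurableSet.empty
  | cons ℓ w ih =>
    have : K.pathSet p (ℓ :: w) q =
        ⋃ r, K.half ℓ p r ∩ (fun x => sval val ℓ • x) ⁻¹' K.pathSet r w q := by
      ext x
      simp only [pathSet, Set.mem_setOf_eq, isPath_cons, Set.mem_iUnion, Set.mem_inter_iff,
        Set.mem_preimage, half]
      constructor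
      · rintro ⟨⟨y, r⟩, h1, h2⟩
        have h3 := h1.fst_eq
        simp only at h3
        subst h3
        refine ⟨r, h1, ?_⟩
        simpa [wordAct_cons, mul_smul] using h2
      · rintro ⟨r, h1, h2⟩
        refine ⟨(sval val ℓ • x, r), h1, ?_⟩
        simpa [wordAct_cons, mul_smul] using h2
    rw [this]
    exact MeasurableSet.iUnion fun r =>
      (K.measurableSet_half hact ℓ p r).inter (hact _ (ih r))

end Meas

section Mass

variable [Fintype P] [DecidableEq P] [Fintype L] [DecidableEq L] (μ : Measure X) [IsFiniteMeasure μ]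

/-- Total vertex mass. -/
noncomputable def massV : ℝ := ∑ p, μ.real (K.V p)

/-- Total edge mass. -/
noncomputable def massE : ℝ := ∑ s, ∑ p, ∑ q, μ.real (K.E s p q)

/-- The excess `E - V`. -/
noncomputable def excess : ℝ := K.massE μ - K.massV μ

lemma massV_nonneg : 0 ≤ K.massV μ := Finset.sum_nonneg fun _ _ => measureReal_nonneg

lemma massE_nonneg : 0 ≤ K.massE μ :=
  Finset.sum_nonneg fun _ _ => Finset.sum_nonneg fun _ _ => Finset.sum_nonneg fun _ _ =>
    measureReal_nonneg

/-- The half-edge degree of the vertex `(x, p)`: the number of pairs (signed letter, far sheet)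
carrying a step out of `(x, p)`. -/
noncomputable def deg (x : X) (p : P) : ℕ := by
  classical
  exact #{a : (L × Bool) × P | x ∈ K.half a.1 p a.2}

lemma deg_eq_sum (x : X) (p : P) :
    (K.deg x p : ℝ) = ∑ a : (L × Bool) × P, Set.indicator (K.half a.1 p a.2) (fun _ => (1 : ℝ)) x := by
  classical
  unfold deg
  rw [Finset.card_filter, Nat.cast_sum]
  refine Finset.sum_congr rfl fun a _ => ?_
  by_cases h : x ∈ K.half a.1 p a.2 <;> simp [h]

lemma deg_eq_zero_of_not_mem {x : X} {p : P} (h : x ∉ K.V p) : K.deg x p = 0 := by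
  classical
  unfold deg
  rw [Finset.card_eq_zero, Finset.filter_eq_empty_iff]
  intro a _ ha
  exact h (Adj.mem_left ha)

variable (hmp : ∀ g : Γ, MeasurePreserving (fun x : X => g • x) μ μ)
include hmp

lemma measureReal_half (ℓ : L × Bool) (p q : P) :
    μ.real (K.half ℓ p q) =
      if ℓ.2 then μ.real (K.E ℓ.1 p q) else μ.real (K.E ℓ.1 q p) := by
  cases ℓ with
  | mk s b =>
    cases b
    · simp only [Bool.false_eq_true, if_false]
      rw [half_false, measureReal_def, measureReal_def, (hmp _).measure_preimage (K.measE s q p).nullMeasurableSet]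
    · simp only [if_true]
      rw [half_true]

lemma integrable_deg (p : P) : Integrable (fun x => (K.deg x p : ℝ)) μ := by
  have hact : ∀ g : Γ, Measurable fun x : X => g • x := fun g => (hmp g).measurable
  simp_rw [deg_eq_sum]
  refine integrable_finset_sum _ fun a _ => ?_
  exact (integrable_const (1 : ℝ)).indicator (K.measurableSet_half hact _ _ _)

lemma measurable_deg (p : P) : Measurable (fun x => (K.deg x p : ℝ)) := by
  have hact : ∀ g : Γ, Measurable fun x : X => g • x := fun g => (hmp g).measurable
  simp_rw [deg_eq_sum]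
  refine Finset.measurable_sum _ fun a _ => ?_
  exact measurable_const.indicator (K.measurableSet_half hact _ _ _)

/-- The degree formula: total degree is twice the edge mass. -/
theorem integral_deg : ∑ p, ∫ x, (K.deg x p : ℝ) ∂μ = 2 * K.massE μ := by
  have hact : ∀ g : Γ, Measurable fun x : X => g • x := fun g => (hmp g).measurable
  have h1 : ∀ p, ∫ x, (K.deg x p : ℝ) ∂μ =
      ∑ a : (L × Bool) × P, μ.real (K.half a.1 p a.2) := by
    intro p
    simp_rw [deg_eq_sum]
    rw [integral_finset_sum _ fun a _ =>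
      (integrable_const (1 : ℝ)).indicator (K.measurableSet_half hact _ _ _)]
    refine Finset.sum_congr rfl fun a _ => ?_
    rw [integral_indicator (K.measurableSet_half hact _ _ _)]
    simp [measureReal_def]
  simp_rw [h1]
  simp_rw [K.measureReal_half μ hmp]
  -- split the sum over signed letters
  have h2 : ∀ p, ∑ a : (L × Bool) × P,
      (if a.1.2 then μ.real (K.E a.1.1 p a.2) else μ.real (K.E a.1.1 a.2 p)) =
      ∑ s, ∑ q, (μ.real (K.E s p q) + μ.real (K.E s q p)) := by
    intro p
    rw [Fintype.sum_prod_type, Fintype.sum_prod_type]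
    refine Finset.sum_congr rfl fun s _ => ?_
    simp only [Fintype.sum_bool, if_true, Bool.false_eq_true, if_false]
    rw [Finset.sum_add_distrib]
  simp_rw [h2]
  unfold massE
  simp_rw [Finset.sum_add_distrib]
  have h3 : ∑ p, ∑ s, ∑ q, μ.real (K.E s q p) = ∑ p, ∑ s, ∑ q, μ.real (K.E s p q) := by
    rw [Finset.sum_comm]
    conv_rhs => rw [Finset.sum_comm]
    refine Finset.sum_congr rfl fun s _ => ?_
    rw [Finset.sum_comm]
  rw [h3, Finset.sum_comm, two_mul]

/-- The leaf weight of a vertex: `2 - deg` (truncated) on vertices that are present. -/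
noncomputable def leafW (x : X) (p : P) : ℝ := by
  classical
  exact if x ∈ K.V p then ((2 - K.deg x p : ℕ) : ℝ) else 0

omit hmp in
lemma leafW_nonneg (x : X) (p : P) : 0 ≤ K.leafW x p := by
  unfold leafW; split_ifs <;> simp

/-- The degree minus twice the indicator of the vertex. -/
noncomputable def defect (x : X) (p : P) : ℝ :=
  (K.deg x p : ℝ) - 2 * Set.indicator (K.V p) (fun _ => (1 : ℝ)) x

theorem integral_defect : ∑ p, ∫ x, K.defect x p ∂μ = 2 * K.excess μ := by
  have h : ∀ p, ∫ x, K.defect x p ∂μ = ∫ x, (K.deg x p : ℝ) ∂μ - 2 * μ.real (K.V p) := by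
    intro p
    unfold defect
    rw [integral_sub (K.integrable_deg μ hmp p)
      (((integrable_const (1 : ℝ)).indicator (K.measV p)).const_mul 2), integral_const_mul,
      integral_indicator (K.measV p)]
    simp [measureReal_def]
  simp_rw [h]
  rw [Finset.sum_sub_distrib, K.integral_deg μ hmp, ← Finset.mul_sum]
  unfold excess massV
  ring

omit hmp in
/-- Pointwise: the degree of a branch vertex is at most `3 (defect + leaf weight)`. -/
lemma branch_deg_le (x : X) (p : P) :
    (if 3 ≤ K.deg x p then (K.deg x p : ℝ) else 0) ≤ 3 * (K.defect x p + K.leafW x p) := by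
  classical
  unfold defect leafW
  by_cases hx : x ∈ K.V p
  · simp only [hx, if_true, Set.indicator_of_mem]
    have : K.deg x p = 0 ∨ K.deg x p = 1 ∨ K.deg x p = 2 ∨ 3 ≤ K.deg x p := by omega
    rcases this with h | h | h | h
    · simp [h]
    · simp [h]; norm_num
    · simp [h]
    · have h2 : (2 - K.deg x p : ℕ) = 0 := by omega
      have h3 : (3 : ℝ) ≤ K.deg x p := by exact_mod_cast h
      simp only [h, if_true, h2]
      push_cast
      nlinarith
  · simp [hx, K.deg_eq_zero_of_not_mem hx]

omit hmp in
/-- Pointwise: a branch vertex counts at most `defect + leaf weight`. -/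
lemma branch_one_le (x : X) (p : P) :
    (if 3 ≤ K.deg x p then (1 : ℝ) else 0) ≤ K.defect x p + K.leafW x p := by
  classical
  unfold defect leafW
  by_cases hx : x ∈ K.V p
  · simp only [hx, if_true, Set.indicator_of_mem]
    have : K.deg x p = 0 ∨ K.deg x p = 1 ∨ K.deg x p = 2 ∨ 3 ≤ K.deg x p := by omega
    rcases this with h | h | h | h
    · simp [h]
    · simp [h]; norm_num
    · simp [h]
    · have h2 : (2 - K.deg x p : ℕ) = 0 := by omega
      have h3 : (3 : ℝ) ≤ K.deg x p := by exact_mod_cast h
      simp only [h, if_true, h2]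
      push_cast
      linarith
  · simp [hx, K.deg_eq_zero_of_not_mem hx]

lemma integrable_defect (p : P) : Integrable (fun x => K.defect x p) μ :=
  (K.integrable_deg μ hmp p).sub (((integrable_const (1 : ℝ)).indicator (K.measV p)).const_mul 2)

lemma measurable_leafW (p : P) : Measurable (fun x => K.leafW x p) := by
  classical
  have hact := K.measurable_deg μ hmp p
  have hd : Measurable (fun x => K.deg x p) := by
    have : (fun x => K.deg x p) = (fun r : ℝ => Nat.floor r) ∘ (fun x => (K.deg x p : ℝ)) := by
      ext x; simp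
    rw [this]
    exact Nat.measurable_floor.comp hact
  unfold leafW
  refine Measurable.ite (K.measV p) ?_ measurable_const
  exact (measurable_from_top (f := fun n : ℕ => ((2 - n : ℕ) : ℝ))).comp hd

lemma integrable_leafW (p : P) : Integrable (fun x => K.leafW x p) μ := by
  refine Integrable.mono' (integrable_const (2 : ℝ)) (K.measurable_leafW μ hmp p).aestronglyMeasurable
    (Filter.Eventually.of_forall fun x => ?_)
  unfold leafW
  split_ifs
  · rw [Real.norm_of_nonneg (by positivity)]
    have : (2 - K.deg x p : ℕ) ≤ 2 := by omega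
    exact_mod_cast this
  · simp

/-- Total leaf weight. -/
noncomputable def leafMass (K : MGraph val P X) (μ : Measure X) : ℝ := ∑ p, ∫ x, K.leafW x p ∂μ

/-- The total degree of branch vertices is at most `3 (2 excess + leaf mass)`. -/
theorem integral_branch_deg_le :
    ∑ p, ∫ x, (if 3 ≤ K.deg x p then (K.deg x p : ℝ) else 0) ∂μ ≤
      3 * (2 * K.excess μ + K.leafMass μ) := by
  classical
  have hdm : ∀ p, Measurable (fun x => K.deg x p) := fun p => by
    have : (fun x => K.deg x p) = (fun r : ℝ => Nat.floor r) ∘ (fun x => (K.deg x p : ℝ)) := by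
      ext x; simp
    rw [this]
    exact Nat.measurable_floor.comp (K.measurable_deg μ hmp p)
  have h1 : ∀ p, ∫ x, (if 3 ≤ K.deg x p then (K.deg x p : ℝ) else 0) ∂μ ≤
      3 * (∫ x, K.defect x p ∂μ + ∫ x, K.leafW x p ∂μ) := by
    intro p
    rw [← integral_add (K.integrable_defect μ hmp p) (K.integrable_leafW μ hmp p),
      ← integral_const_mul]
    refine integral_mono ?_ (((K.integrable_defect μ hmp p).add
      (K.integrable_leafW μ hmp p)).const_mul 3) (fun x => K.branch_deg_le x p)
    have hm : Measurable (fun x => if 3 ≤ K.deg x p then (K.deg x p : ℝ) else 0) :=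
      (measurable_from_top (f := fun n : ℕ => if 3 ≤ n then (n : ℝ) else 0)).comp (hdm p)
    refine Integrable.mono' (K.integrable_deg μ hmp p) hm.aestronglyMeasurable
      (Filter.Eventually.of_forall fun x => ?_)
    split_ifs <;> simp
  calc _ ≤ ∑ p, 3 * (∫ x, K.defect x p ∂μ + ∫ x, K.leafW x p ∂μ) := Finset.sum_le_sum fun p _ => h1 p
    _ = _ := by
      rw [← Finset.mul_sum, Finset.sum_add_distrib, K.integral_defect μ hmp]
      rfl

/-- The number of branch vertices is at most `2 excess + leaf mass`. -/
theorem integral_branch_one_le :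
    ∑ p, ∫ x, (if 3 ≤ K.deg x p then (1 : ℝ) else 0) ∂μ ≤ 2 * K.excess μ + K.leafMass μ := by
  classical
  have hdm : ∀ p, Measurable (fun x => K.deg x p) := fun p => by
    have : (fun x => K.deg x p) = (fun r : ℝ => Nat.floor r) ∘ (fun x => (K.deg x p : ℝ)) := by
      ext x; simp
    rw [this]
    exact Nat.measurable_floor.comp (K.measurable_deg μ hmp p)
  have h1 : ∀ p, ∫ x, (if 3 ≤ K.deg x p then (1 : ℝ) else 0) ∂μ ≤
      ∫ x, K.defect x p ∂μ + ∫ x, K.leafW x p ∂μ := by
    intro p
    rw [← integral_add (K.integrable_defect μ hmp p) (K.integrable_leafW μ hmp p)]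
    refine integral_mono ?_ ((K.integrable_defect μ hmp p).add
      (K.integrable_leafW μ hmp p)) (fun x => K.branch_one_le x p)
    have hm : Measurable (fun x => if 3 ≤ K.deg x p then (1 : ℝ) else 0) :=
      (measurable_from_top (f := fun n : ℕ => if 3 ≤ n then (1 : ℝ) else 0)).comp (hdm p)
    refine Integrable.mono' (integrable_const (1 : ℝ)) hm.aestronglyMeasurable
      (Filter.Eventually.of_forall fun x => ?_)
    split_ifs <;> simp
  calc _ ≤ ∑ p, (∫ x, K.defect x p ∂μ + ∫ x, K.leafW x p ∂μ) := Finset.sum_le_sum fun p _ => h1 p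
    _ = _ := by
      rw [Finset.sum_add_distrib, K.integral_defect μ hmp]
      rfl

end Mass

end MGraph

end Crest.Agent.NoFixedPrice
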