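import Crest.Agent.Lib.NoFixedPrice.FinalDrop
import Crest.Agent.Lib.NoFixedPrice.Cx

/-!
# Row 191: `FinalDrop` on measured graphs

The adapter from `MGraph` (`Cx.lean`, paths read first letter first) to `LG` (`FinalDrop.lean`, words
read right to left): `L := Option β`, `val none = tt`, `val (some b) = iota (of b)`.
-/

set_option autoImplicit false

namespace Crest.Agent.NoFixedPrice.FinalDrop

open FreeGroup List MeasureTheory
open Crest.Agent.Lib.NoFixedPrice.Arc
open Crest.Agent.NoFixedPrice (Good Gam iota tt block MGraph sval sinv wordAct rinv)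

variable {β : Type} [DecidableEq β] {w : β → List β} (hw : Good w)

/-- The values of the letters. -/
noncomputable def gval : Option β → Gam hw
  | none => tt hw
  | some b => iota hw (of b)

theorem sval_gval (l : HLet β) : sval (gval hw) l = letVal (iota hw) (tt hw) l := by
  obtain ⟨o, b⟩ := l
  cases o <;> cases b <;> rfl

theorem wordAct_reverse (π : List (HLet β)) :
    wordAct (gval hw) π.reverse = evalW (iota hw) (tt hw) π := by
  induction π with
  | nil => simp
  | cons l π ih =>
    rw [List.reverse_cons, Crest.Agent.NoFixedPrice.wordAct_append, ih, evalW_cons]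
    simp [sval_gval]

variable {P X : Type*} [MulAction (Gam hw) X] [MeasurableSpace X]

/-- A folded measured graph as a labelled graph on `X × P`. -/
def ofFolded (K : MGraph (gval hw) P X) (hK : K.Folded) : LG β (X × P) where
  adj l a b := K.Adj l a b
  symm h := MGraph.Adj.symm h
  det h h' := hK _ _ _ _ h h'

@[simp] theorem ofFolded_adj (K : MGraph (gval hw) P X) (hK : K.Folded) (l : HLet β) (a b : X × P) :
    (ofFolded hw K hK).adj l a b ↔ K.Adj l a b := Iff.rfl

theorem rd_ofFolded (K : MGraph (gval hw) P X) (hK : K.Folded) (v v' : X × P) (π : List (HLet β)) :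
    (ofFolded hw K hK).Rd v π v' ↔ K.IsPath v π.reverse v' := by
  induction π generalizing v' with
  | nil => simp
  | cons l π ih =>
    rw [LG.rd_cons, List.reverse_cons, MGraph.isPath_append]
    constructor
    · rintro ⟨z, h1, h2⟩
      exact ⟨z, (ih z).1 h1, v', h2, rfl⟩
    · rintro ⟨z, h1, z', h2, h3⟩
      obtain rfl : z' = v' := h3
      exact ⟨z, (ih z).2 h1, h2⟩

theorem over_ofFolded (K : MGraph (gval hw) P X) (hK : K.Folded) :
    (ofFolded hw K hK).Over (iota hw) (tt hw) (Prod.fst : X × P → X) := by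
  intro l a b h
  have := MGraph.Adj.fst_eq (K := K) h
  rwa [sval_gval] at this

/-- The closing property in terms of `MGraph`. -/
def ClosesCx (w : β → List β) {Q : Type*} (K : MGraph (gval hw) P X) (K' : MGraph (gval hw) Q X)
    (q : X × P → X × Q) : Prop :=
  ∀ A C, ArcPair w A C → ∀ a b, K.IsPath a A.reverse b → K'.IsPath (q a) C.reverse (q b)

omit [MeasurableSpace X] in
/-- The complementary word has the same value.  -/
theorem ArcPair.evalW_eq (hb : ∀ y : β × Bool, iota hw (FreeGroup.mk (block w y)) =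
      (tt hw)⁻¹ * iota hw (FreeGroup.mk [y]) * tt hw)
    {A C : List (HLet β)} (h : ArcPair w A C) :
    evalW (iota hw) (tt hw) A = evalW (iota hw) (tt hw) C := by
  have hinv : ∀ u : List (β × Bool), iota hw (FreeGroup.mk (invRev u)) =
      (iota hw (FreeGroup.mk u))⁻¹ := by
    intro u
    rw [← FreeGroup.inv_mk, _root_.map_inv]
  have hsplit : ∀ a m s : List (β × Bool), iota hw (FreeGroup.mk (a ++ m ++ s)) =
      iota hw (FreeGroup.mk a) * iota hw (FreeGroup.mk m) * iota hw (FreeGroup.mk s) := by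
    intro a m s
    rw [← FreeGroup.mul_mk, ← FreeGroup.mul_mk, _root_.map_mul, _root_.map_mul]
  rcases h with ⟨y, a, u, s, h1, -, rfl, rfl⟩ | ⟨y, a, m, s, h1, -, rfl, rfl⟩
  · have h2 := hb y
    rw [h1, hsplit] at h2
    rw [evalW_embW, evalW_append, evalW_embW, evalW_cons, evalW_cons, evalW_cons, evalW_embW,
      hinv, hinv, letVal_emb]
    have e1 : letVal (iota hw) (tt hw) (tI : HLet β) = (tt hw)⁻¹ := rfl
    have e2 : letVal (iota hw) (tt hw) (tL : HLet β) = tt hw := rfl
    rw [e1, e2]
    have : iota hw (FreeGroup.mk u) = (iota hw (FreeGroup.mk a))⁻¹ *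
        ((tt hw)⁻¹ * iota hw (FreeGroup.mk [y]) * tt hw) * (iota hw (FreeGroup.mk s))⁻¹ := by
      rw [← h2]
      group
    rw [this]
    group
  · have h2 := hb y
    rw [h1, hsplit] at h2
    rw [evalW_embW, evalW_append, evalW_embW, evalW_cons, evalW_cons, evalW_cons, evalW_embW,
      hinv, hinv, letVal_emb]
    have e1 : letVal (iota hw) (tt hw) (tI : HLet β) = (tt hw)⁻¹ := rfl
    have e2 : letVal (iota hw) (tt hw) (tL : HLet β) = tt hw := rfl
    rw [e1, e2]
    have : (tt hw)⁻¹ * iota hw (FreeGroup.mk [y]) * tt hw = iota hw (FreeGroup.mk a) *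
        iota hw (FreeGroup.mk m) * iota hw (FreeGroup.mk s) := h2.symm
    calc _ = (iota hw (FreeGroup.mk a))⁻¹ * ((tt hw)⁻¹ * iota hw (FreeGroup.mk [y]) * tt hw) *
          (iota hw (FreeGroup.mk s))⁻¹ * evalW (iota hw) (tt hw) [] := by
            simp only [evalW_nil]
            group
      _ = _ := by
            rw [this]
            simp only [evalW_nil]
            group

omit [MeasurableSpace X] in
theorem block_relation (y : β × Bool) : iota hw (FreeGroup.mk (block w y)) =
    (tt hw)⁻¹ * iota hw (FreeGroup.mk [y]) * tt hw := by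
  have h := Crest.Agent.NoFixedPrice.tt_conj hw (FreeGroup.mk [y])
  rw [h, Crest.Agent.Lib.NoFixedPrice.Arc.block_mk]

/-- A sequence of folded measured graphs with stage maps. -/
structure StagesCx (w : β → List β) (hw : Good w) (Q : ℕ → Type*) (X : Type*)
    [MulAction (Gam hw) X] [MeasurableSpace X] where
  K : ∀ n, MGraph (gval hw) (Q n) X
  folded : ∀ n, (K n).Folded
  q : ∀ n, X × Q n → X × Q (n + 1)
  b : ∀ n, Q n
  hom : ∀ n l v v', (K n).Adj l v v' → (K (n + 1)).Adj l (q n v) (q n v')
  closes : ∀ n, ClosesCx hw w (K n) (K (n + 1)) (q n)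
  q_base : ∀ n y, q n (y, b n) = (y, b (n + 1))

/-- `y` sees a non-`t` edge at its base vertex at stage `n`. -/
def StagesCx.Bad {Q : ℕ → Type*} (S : StagesCx w hw Q X) (n : ℕ) : Set X :=
  {y | ∃ (l : HLet β) (v' : X × Q n), l.1 ≠ none ∧ (S.K n).Adj l (y, S.b n) v'}

/-- The underlying `Stages`. -/
def StagesCx.toStages {Q : ℕ → Type*} (S : StagesCx w hw Q X) :
    Stages w (fun n => X × Q n) X where
  K n := ofFolded hw (S.K n) (S.folded n)
  q := S.q
  base n y := (y, S.b n)
  hom n _ _ _ h := S.hom n _ _ _ h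
  closes n A C hAC a b hr := by
    rw [rd_ofFolded] at hr ⊢
    exact S.closes n A C hAC a b hr
  q_base := S.q_base

/-- **The final contradiction on measured graphs.** -/
theorem final_contradiction_cx {Q : ℕ → Type*} (μ : Measure X) [IsProbabilityMeasure μ]
    (S : StagesCx w hw Q X) (hp : PairUnique w) {L : ℕ}
    (hlen : ∀ a, (w a).length = L) (hL : 8 ≤ L)
    (x : β × Bool) (hx : iota hw (FreeGroup.mk [x]) ≠ 1)
    (hfree : ∀ᵐ y ∂μ, ∀ g : Gam hw, g • y = y → g = 1)
    (hconn : ∀ᵐ y ∂μ, (S.K 0).Conn (y, S.b 0) (iota hw (FreeGroup.mk [x]) • y, S.b 0))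
    {c : ENNReal} (hc : c < 1) (hB : ∀ n, μ (S.Bad hw n) ≤ c) : False := by
  refine final_contradiction hw μ (S.toStages hw) hp hlen hL (fun _ => Prod.fst)
    (fun n => over_ofFolded hw (S.K n) (S.folded n)) (fun _ _ => rfl) x hx hfree ?_ hc hB
  filter_upwards [hconn] with y hy
  obtain ⟨π, hπ⟩ := hy
  refine ⟨π.reverse, ?_⟩
  show (ofFolded hw (S.K 0) (S.folded 0)).Rd _ _ _
  rw [rd_ofFolded, List.reverse_reverse]
  exact hπ

end Crest.Agent.NoFixedPrice.FinalDrop
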