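import Mathlib
import Crest.Prelude.Def_Cost

/-!
# Design independent start of the lower bound for S0291 (row 191)

* `small_complete_section`: a free pmp action of `t` on a standard Borel space has `t`-complete
  sections of arbitrarily small measure.
* `truncate_graphing`: a generating graphing is, up to small sets `B s`, already generating through
  finitely many of its pieces: for finitely many group elements `s`, off `B s` the point `x` is
  joined to `s • x` by steps of the first `N` pieces.
-/

set_option autoImplicit false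

namespace Crest.Agent.NoFixedPrice

open MeasureTheory Crest.Dynamics

section CompleteSection

variable {Γ X : Type*} [Group Γ] [MulAction Γ X] [MeasurableSpace X] [StandardBorelSpace X]

/-- A free pmp action of `t` has `t`-complete sections of arbitrarily small measure. -/
theorem small_complete_section (μ : Measure X) [IsProbabilityMeasure μ]
    (hm : ∀ g : Γ, MeasurePreserving (fun x : X => g • x) μ μ) (t : Γ)
    (hfree : ∀ k : ℤ, k ≠ 0 → μ {x : X | t ^ k • x = x} = 0)
    (δ : ENNReal) (hδ : 0 < δ) :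
    ∃ A : Set X, MeasurableSet A ∧ μ A < δ ∧ ∀ x, ∃ k : ℤ, t ^ k • x ∈ A := by
  classical
  obtain ⟨f, hf⟩ := exists_measurableEmbedding_real X
  -- a bounded injective measurable function
  set φ : X → ℝ := fun x => Real.arctan (f x) with hφdef
  have hφm : Measurable φ := Real.measurable_arctan.comp hf.measurable
  have hφinj : Function.Injective φ := Real.arctan_injective.comp hf.injective
  have hφbd : ∀ x, -(Real.pi / 2) < φ x := fun x => Real.neg_pi_div_two_lt_arctan _
  have hact : ∀ k : ℤ, Measurable fun x : X => (t ^ k) • x := fun k => (hm (t ^ k)).measurable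
  -- the sets `A n`
  set A : ℕ → Set X := fun n => ⋂ k : ℤ, {x | φ x < φ (t ^ k • x) + 1 / ((n : ℝ) + 1)} with hAdef
  have hAm : ∀ n, MeasurableSet (A n) := by
    intro n
    refine MeasurableSet.iInter fun k => ?_
    exact measurableSet_lt hφm (((hφm.comp (hact k))).add_const _)
  have hAanti : Antitone A := by
    intro n m hnm x hx
    simp only [hAdef, Set.mem_iInter, Set.mem_ofPred_eq] at hx ⊢
    intro k
    have h1 := hx k
    have h2 : (1 : ℝ) / ((m : ℝ) + 1) ≤ 1 / ((n : ℝ) + 1) := by
      apply one_div_le_one_div_of_le (by positivity)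
      have : (n : ℝ) ≤ m := by exact_mod_cast hnm
      linarith
    linarith
  -- complete sections
  have hcomplete : ∀ n x, ∃ k : ℤ, t ^ k • x ∈ A n := by
    intro n x
    -- the infimum of `φ` along the orbit
    have hbdd : BddBelow (Set.range fun k : ℤ => φ (t ^ k • x)) :=
      ⟨-(Real.pi / 2), by rintro _ ⟨k, rfl⟩; exact (hφbd _).le⟩
    set m := ⨅ k : ℤ, φ (t ^ k • x) with hm'
    have hpos : (0 : ℝ) < 1 / ((n : ℝ) + 1) := by positivity
    obtain ⟨k, hk⟩ := exists_lt_of_ciInf_lt (show m < m + 1 / ((n : ℝ) + 1) by linarith)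
    refine ⟨k, ?_⟩
    simp only [hAdef, Set.mem_iInter, Set.mem_ofPred_eq]
    intro j
    have h3 : m ≤ φ (t ^ j • (t ^ k • x)) := by
      have : t ^ j • (t ^ k • x) = t ^ (j + k) • x := by rw [smul_smul, zpow_add]
      rw [this]
      exact ciInf_le hbdd (j + k)
    linarith
  -- the intersection is null
  set W : Set X := ⋂ n, A n with hWdef
  have hWm : MeasurableSet W := MeasurableSet.iInter hAm
  have hWle : ∀ x ∈ W, ∀ k : ℤ, φ x ≤ φ (t ^ k • x) := by
    intro x hx k
    apply le_of_forall_pos_lt_add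
    intro ε hε
    obtain ⟨n, hn⟩ := exists_nat_one_div_lt hε
    have h1 : x ∈ A n := Set.mem_iInter.mp hx n
    simp only [hAdef, Set.mem_iInter, Set.mem_ofPred_eq] at h1
    have := h1 k
    linarith
  set N : Set X := ⋃ k : {k : ℤ // k ≠ 0}, {x : X | t ^ (k : ℤ) • x = x} with hNdef
  have hN0 : μ N = 0 := by
    rw [hNdef, measure_iUnion_null_iff]
    exact fun k => hfree k.1 k.2
  have hWnull : μ W = 0 := by
    -- translates of `W \ N` are disjoint
    have hNm : MeasurableSet N := by
      refine MeasurableSet.iUnion fun k => ?_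
      let _ := upgradeStandardBorel X
      exact measurableSet_eq_fun (hact k.1) measurable_id
    set W' : Set X := W \ N with hW'def
    have hW'm : MeasurableSet W' := hWm.diff hNm
    set S : ℕ → Set X := fun j => (fun x : X => t ^ (j : ℤ) • x) ⁻¹' W' with hSdef
    have hSm : ∀ j, MeasurableSet (S j) := fun j => hact j hW'm
    have hSμ : ∀ j, μ (S j) = μ W' := fun j => (hm (t ^ (j : ℤ))).measure_preimage hW'm.nullMeasurableSet
    have hdisj : Pairwise (Function.onFun Disjoint S) := by
      intro i j hij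
      rw [Function.onFun, Set.disjoint_left]
      intro x hxi hxj
      -- `y = t^i x`, `t^(j-i) y = t^j x`, both in `W'`
      have hxi' : t ^ (i : ℤ) • x ∈ W' := hxi
      have hxj' : t ^ (j : ℤ) • x ∈ W' := hxj
      set y := t ^ (i : ℤ) • x with hy
      have hyj : t ^ ((j : ℤ) - (i : ℤ)) • y = t ^ (j : ℤ) • x := by
        rw [hy, smul_smul, ← zpow_add]; congr 2; ring
      have h1 : φ y ≤ φ (t ^ ((j : ℤ) - (i : ℤ)) • y) := hWle y hxi'.1 _
      have h2 : φ (t ^ ((j : ℤ) - (i : ℤ)) • y) ≤ φ y := by
        have hz : t ^ ((j : ℤ) - (i : ℤ)) • y ∈ W := by rw [hyj]; exact hxj'.1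
        have h3 := hWle _ hz ((i : ℤ) - (j : ℤ))
        have h5 : t ^ ((i : ℤ) - (j : ℤ)) • (t ^ ((j : ℤ) - (i : ℤ)) • y) = y := by
          rw [smul_smul, ← zpow_add]
          have h6 : (i : ℤ) - j + ((j : ℤ) - i) = 0 := by ring
          rw [h6, zpow_zero, one_smul]
        rwa [h5] at h3
      have hyfix : t ^ ((j : ℤ) - (i : ℤ)) • y = y := hφinj (le_antisymm h2 h1)
      have hne : (j : ℤ) - (i : ℤ) ≠ 0 := by
        intro h
        apply hij
        have : (j : ℤ) = i := by linarith
        exact_mod_cast this.symm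
      exact hxi'.2 (Set.mem_iUnion.mpr ⟨⟨_, hne⟩, hyfix⟩)
    have hsum : ∑' _j : ℕ, μ W' ≤ 1 := by
      have h4 : μ (⋃ j, S j) = ∑' j, μ (S j) := measure_iUnion hdisj hSm
      simp only [hSμ] at h4
      rw [← h4]
      exact prob_le_one
    have hW'0 : μ W' = 0 := by
      by_contra h0
      rw [ENNReal.tsum_const_eq_top_of_ne_zero h0] at hsum
      exact absurd hsum (by simp)
    have hWsub : W ⊆ W' ∪ N := by
      intro x hx
      by_cases hxN : x ∈ N
      · exact Or.inr hxN
      · exact Or.inl ⟨hx, hxN⟩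
    exact measure_mono_null hWsub (measure_union_null hW'0 hN0)
  have htend := tendsto_measure_iInter_atTop (μ := μ) (s := A)
    (fun n => (hAm n).nullMeasurableSet) hAanti ⟨0, measure_ne_top μ _⟩
  rw [← hWdef, hWnull] at htend
  obtain ⟨n, hn⟩ := ((tendsto_order.1 htend).2 δ hδ).exists
  exact ⟨A n, hAm n, hn, hcomplete n⟩

end CompleteSection

section Truncate

variable {Γ X : Type*} [Group Γ] [MulAction Γ X]

/-- The first `N` pieces of a graphing (the others replaced by empty pieces). -/
def truncG (Φ : ℕ → Γ × Set X) (N : ℕ) : ℕ → Γ × Set X := fun i =>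
  if i < N then Φ i else (1, ∅)

/-- The group element of a list of signed steps. -/
def gphStepVal (Φ : ℕ → Γ × Set X) : List (ℕ × Bool) → Γ
  | [] => 1
  | (i, true) :: l => gphStepVal Φ l * (Φ i).1
  | (i, false) :: l => gphStepVal Φ l * (Φ i).1⁻¹

/-- A list of signed steps is valid at `x`. -/
def StepValid (Φ : ℕ → Γ × Set X) : List (ℕ × Bool) → X → Prop
  | [], _ => True
  | (i, true) :: l, x => x ∈ (Φ i).2 ∧ StepValid Φ l ((Φ i).1 • x)
  | (i, false) :: l, x => (Φ i).1⁻¹ • x ∈ (Φ i).2 ∧ StepValid Φ l ((Φ i).1⁻¹ • x)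

lemma gphStepVal_append (Φ : ℕ → Γ × Set X) (l m : List (ℕ × Bool)) :
    gphStepVal Φ (l ++ m) = gphStepVal Φ m * gphStepVal Φ l := by
  induction l with
  | nil => simp [gphStepVal]
  | cons a l ih =>
    obtain ⟨i, b⟩ := a
    cases b <;> simp [gphStepVal, ih, mul_assoc]

lemma stepValid_append (Φ : ℕ → Γ × Set X) (l m : List (ℕ × Bool)) (x : X) :
    StepValid Φ (l ++ m) x ↔ StepValid Φ l x ∧ StepValid Φ m (gphStepVal Φ l • x) := by
  induction l generalizing x with
  | nil => simp [StepValid, gphStepVal]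
  | cons a l ih =>
    obtain ⟨i, b⟩ := a
    cases b <;> simp [StepValid, gphStepVal, ih, mul_smul, and_assoc]

/-- Sign reversal of a list of steps. -/
def stepRev : List (ℕ × Bool) → List (ℕ × Bool)
  | [] => []
  | (i, b) :: l => stepRev l ++ [(i, !b)]

lemma gphStepVal_rev (Φ : ℕ → Γ × Set X) (l : List (ℕ × Bool)) :
    gphStepVal Φ (stepRev l) = (gphStepVal Φ l)⁻¹ := by
  induction l with
  | nil => simp [stepRev, gphStepVal]
  | cons a l ih =>
    obtain ⟨i, b⟩ := a
    cases b <;> simp [stepRev, gphStepVal, gphStepVal_append, ih]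

lemma stepValid_rev (Φ : ℕ → Γ × Set X) (l : List (ℕ × Bool)) (x : X)
    (h : StepValid Φ l x) : StepValid Φ (stepRev l) (gphStepVal Φ l • x) := by
  induction l generalizing x with
  | nil => simpa [stepRev, StepValid, gphStepVal] using h
  | cons a l ih =>
    obtain ⟨i, b⟩ := a
    cases b with
    | true =>
      obtain ⟨h1, h2⟩ := h
      have h3 := ih _ h2
      simp only [stepRev, stepValid_append, Bool.not_true, gphStepVal, mul_smul]
      refine ⟨h3, ?_⟩
      simp only [StepValid, and_true, gphStepVal_rev]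
      simpa [← mul_smul] using h1
    | false =>
      obtain ⟨h1, h2⟩ := h
      have h3 := ih _ h2
      simp only [stepRev, stepValid_append, Bool.not_false, gphStepVal, mul_smul]
      refine ⟨h3, ?_⟩
      simp only [StepValid, and_true, gphStepVal_rev]
      simpa [← mul_smul] using h1

/-- Chains of steps are given by lists. -/
lemma exists_list_of_eqvGen (Φ : ℕ → Γ × Set X) {x y : X}
    (h : Relation.EqvGen (GraphingStep Φ) x y) :
    ∃ l : List (ℕ × Bool), StepValid Φ l x ∧ y = gphStepVal Φ l • x := by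
  induction h with
  | rel x y hxy =>
    obtain ⟨i, hi, rfl⟩ := hxy
    exact ⟨[(i, true)], ⟨hi, trivial⟩, by simp [gphStepVal]⟩
  | refl x => exact ⟨[], trivial, by simp [gphStepVal]⟩
  | symm x y _ ih =>
    obtain ⟨l, hl, rfl⟩ := ih
    refine ⟨stepRev l, stepValid_rev Φ l x hl, ?_⟩
    rw [gphStepVal_rev, inv_smul_smul]
  | trans x y z _ _ ih1 ih2 =>
    obtain ⟨l, hl, rfl⟩ := ih1
    obtain ⟨m, hm, rfl⟩ := ih2
    refine ⟨l ++ m, (stepValid_append Φ l m x).2 ⟨hl, hm⟩, ?_⟩
    rw [gphStepVal_append, mul_smul]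

/-- A valid list with indices below `N` gives a chain in the truncated graphing. -/
lemma eqvGen_trunc_of_list (Φ : ℕ → Γ × Set X) (N : ℕ) (l : List (ℕ × Bool)) (x : X)
    (hN : ∀ a ∈ l, a.1 < N) (h : StepValid Φ l x) :
    Relation.EqvGen (GraphingStep (truncG Φ N)) x (gphStepVal Φ l • x) := by
  induction l generalizing x with
  | nil => simpa [gphStepVal] using Relation.EqvGen.refl x
  | cons a l ih =>
    obtain ⟨i, b⟩ := a
    have hi : i < N := hN (i, b) (by simp)
    have hN' : ∀ a ∈ l, a.1 < N := fun a ha => hN a (by simp [ha])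
    cases b with
    | true =>
      obtain ⟨h1, h2⟩ := h
      have h3 := ih _ hN' h2
      have h4 : GraphingStep (truncG Φ N) x ((Φ i).1 • x) :=
        ⟨i, by simpa [truncG, hi] using h1, by simp [truncG, hi]⟩
      have h5 := Relation.EqvGen.trans _ _ _ (Relation.EqvGen.rel _ _ h4) h3
      simpa [gphStepVal, mul_smul] using h5
    | false =>
      obtain ⟨h1, h2⟩ := h
      have h3 := ih _ hN' h2
      have h4 : GraphingStep (truncG Φ N) ((Φ i).1⁻¹ • x) x :=
        ⟨i, by simpa [truncG, hi] using h1, by simp [truncG, hi]⟩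
      have h5 := Relation.EqvGen.trans _ _ _ (Relation.EqvGen.symm _ _ (Relation.EqvGen.rel _ _ h4)) h3
      simpa [gphStepVal, mul_smul] using h5

variable [MeasurableSpace X]

lemma measurableSet_stepValid (Φ : ℕ → Γ × Set X) (hΦ : ∀ i, MeasurableSet (Φ i).2)
    (hact : ∀ g : Γ, Measurable fun x : X => g • x) (l : List (ℕ × Bool)) :
    MeasurableSet {x | StepValid Φ l x} := by
  induction l with
  | nil => simp [StepValid]
  | cons a l ih =>
    obtain ⟨i, b⟩ := a
    cases b with
    | true =>
      exact (hΦ i).inter (hact _ ih)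
    | false =>
      exact (hact _ (hΦ i)).inter (hact _ ih)

/-- A generating graphing on a standard Borel space generates, up to small measurable sets, through
finitely many of its pieces. -/
theorem truncate_graphing [StandardBorelSpace X] (μ : Measure X) [IsProbabilityMeasure μ]
    (hact : ∀ g : Γ, Measurable fun x : X => g • x)
    (Φ : ℕ → Γ × Set X) (hΦ : Generates μ Φ) {ι : Type*} [Finite ι] (s : ι → Γ)
    (δ : ENNReal) (hδ : 0 < δ) :
    ∃ (N : ℕ) (B : ι → Set X), (∀ i, MeasurableSet (B i)) ∧ (∀ i, μ (B i) < δ) ∧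
      ∀ i x, x ∉ B i → Relation.EqvGen (GraphingStep (truncG Φ N)) x (s i • x) := by
  classical
  obtain ⟨hΦm, Z, hZ0, hZ⟩ := hΦ
  let _ := upgradeStandardBorel X
  -- the good sets
  let E : ι → ℕ → Set X := fun i N =>
    ⋃ l : {l : List (ℕ × Bool) // ∀ a ∈ l, a.1 < N},
      {x | StepValid Φ l.1 x} ∩ {x | gphStepVal Φ l.1 • x = s i • x}
  have hEm : ∀ i N, MeasurableSet (E i N) := by
    intro i N
    refine MeasurableSet.iUnion fun l => ?_
    exact (measurableSet_stepValid Φ hΦm hact l.1).inter
      (measurableSet_eq_fun (hact _) (hact _))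
  have hEmono : ∀ i, Monotone (E i) := by
    intro i N M hNM x hx
    obtain ⟨l, hl⟩ := Set.mem_iUnion.mp hx
    exact Set.mem_iUnion.mpr ⟨⟨l.1, fun a ha => lt_of_lt_of_le (l.2 a ha) hNM⟩, hl⟩
  have hEsound : ∀ i N x, x ∈ E i N → Relation.EqvGen (GraphingStep (truncG Φ N)) x (s i • x) := by
    intro i N x hx
    obtain ⟨l, hl1, hl2⟩ := Set.mem_iUnion.mp hx
    have := eqvGen_trunc_of_list Φ N l.1 x l.2 hl1
    rwa [show gphStepVal Φ l.1 • x = s i • x from hl2] at this
  have hEcover : ∀ i x, x ∉ Z → ∃ N, x ∈ E i N := by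
    intro i x hx
    obtain ⟨l, hl1, hl2⟩ := exists_list_of_eqvGen Φ (hZ x hx (s i))
    -- a bound for the indices
    let N := (l.map Prod.fst).foldr max 0 + 1
    have hN : ∀ a ∈ l, a.1 < N := by
      intro a ha
      have h0 : a.1 ∈ l.map Prod.fst := List.mem_map_of_mem ha
      have h1 : ∀ (L : List ℕ), ∀ b ∈ L, b ≤ L.foldr max 0 := by
        intro L
        induction L with
        | nil => simp
        | cons c L ih =>
          intro b hb
          rcases List.mem_cons.mp hb with rfl | hb
          · simp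
          · exact le_trans (ih b hb) (by simp)
      exact Nat.lt_succ_of_le (h1 _ _ h0)
    exact ⟨N, Set.mem_iUnion.mpr ⟨⟨l, hN⟩, hl1, hl2.symm⟩⟩
  -- measure of the complements tends to zero
  have hsmall : ∀ i, ∃ N, μ (E i N)ᶜ < δ := by
    intro i
    have hanti : Antitone fun N => (E i N)ᶜ := fun N M hNM => Set.compl_subset_compl.mpr (hEmono i hNM)
    have htend := tendsto_measure_iInter_atTop (μ := μ) (s := fun N => (E i N)ᶜ)
      (fun N => (hEm i N).compl.nullMeasurableSet) hanti ⟨0, measure_ne_top μ _⟩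
    have hnull : μ (⋂ N, (E i N)ᶜ) = 0 := by
      refine measure_mono_null ?_ hZ0
      intro x hx
      by_contra hxZ
      obtain ⟨N, hN⟩ := hEcover i x hxZ
      exact (Set.mem_iInter.mp hx N) hN
    rw [hnull] at htend
    exact ((tendsto_order.1 htend).2 δ hδ).exists
  choose N₀ hN₀ using hsmall
  cases nonempty_fintype ι
  let N := Finset.univ.sup N₀
  refine ⟨N, fun i => (E i N)ᶜ, fun i => (hEm i N).compl, fun i => ?_, fun i x hx => ?_⟩
  · refine lt_of_le_of_lt (measure_mono ?_) (hN₀ i)
    exact Set.compl_subset_compl.mpr (hEmono i (Finset.le_sup (Finset.mem_univ i)))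
  · exact hEsound i N x (by simpa using hx)

end Truncate

end Crest.Agent.NoFixedPrice
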