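import Crest.Agent.Lib.NoFixedPrice.FoldQuot
import Crest.Agent.Lib.NoFixedPrice.Start

/-!
# The first graph of the lower bound (row 191, S0291)

From a generating graphing `Φ` of the action of `Γ` on `X` to a raw finite-sheet graph `G` over `X`:

* sheet `b`: the base, carrying all the `t`-lines;
* sheet `c`: a copy of `X`;
* for each of the first `N` pieces `(g, A)` of `Φ`, a strand from `(x, c)` to `(g • x, c)`, `x ∈ A`,
  reading a word for `g`, through private interior sheets;
* for each letter `s`, a one-letter strand over a small set `B s`, on which the truncated graphing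
  fails to join `x` to `s • x`.

Then `E - V ≤ ∑ μ (A_i) - 1 + small`, and *every* point `(x, c)` is joined to `(s • x, c)`, for every
letter `s`.  `kstart` packages this with a small `t`-complete section `A` (the seeds).
-/

set_option autoImplicit false
set_option linter.unusedSectionVars false

namespace Crest.Agent.NoFixedPrice

open MeasureTheory Finset Crest.Dynamics

namespace KStart

variable {Γ L X J : Type*} [Group Γ] [MulAction Γ X] [MeasurableSpace X]

/-- Every group element is the value of a word, if the letters generate. -/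
lemma exists_word (val : L → Γ) (hgen : Subgroup.closure (Set.range val) = ⊤) (g : Γ) :
    ∃ w : List (L × Bool), wordAct val w = g := by
  have hg : g ∈ Subgroup.closure (Set.range val) := by rw [hgen]; trivial
  induction hg using Subgroup.closure_induction with
  | mem x hx =>
    obtain ⟨s, rfl⟩ := hx
    exact ⟨[(s, true)], by simp⟩
  | one => exact ⟨[], rfl⟩
  | mul x y _ _ hx hy =>
    obtain ⟨u, rfl⟩ := hx
    obtain ⟨v, rfl⟩ := hy
    exact ⟨v ++ u, by rw [wordAct_append]⟩
  | inv x _ hx =>
    obtain ⟨u, rfl⟩ := hx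
    exact ⟨rinv u, wordAct_rinv _ _⟩

variable (val : L → Γ) (w : J → List (L × Bool)) (A : J → Set X)

/-- The sheets: `none` is the base, `some none` the copy, the rest are interior sheets of strands. -/
abbrev Sh (w : J → List (L × Bool)) := Option (Option (Σ i : J, Fin ((w i).length - 1)))

/-- The sheet of the `p`-th vertex of the strand `i`. -/
def node (i : J) (p : ℕ) : Sh w :=
  if h : 0 < p ∧ p < (w i).length then some (some ⟨i, ⟨p - 1, by omega⟩⟩) else some none

/-- The group element leading to the `p`-th vertex of the strand `i`. -/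
def pre (i : J) (p : ℕ) : Γ := wordAct val ((w i).take p)

lemma pre_zero (i : J) : pre val w i 0 = 1 := by simp [pre]

lemma pre_length (i : J) : pre val w i (w i).length = wordAct val (w i) := by simp [pre]

lemma pre_succ (i : J) (p : ℕ) (hp : p < (w i).length) :
    pre val w i (p + 1) = sval val (w i)[p] * pre val w i p := by
  unfold pre
  rw [List.take_succ_eq_append_getElem hp, wordAct_append]
  simp

/-- The points of the `p`-th vertex of the strand `i`. -/
def strandV (i : J) (p : ℕ) : Set X := {y | (pre val w i p)⁻¹ • y ∈ A i}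

lemma measurableSet_strandV (hact : ∀ g : Γ, Measurable fun x : X => g • x)
    (hA : ∀ i, MeasurableSet (A i)) (i : J) (p : ℕ) : MeasurableSet (strandV val w A i p) :=
  hact _ (hA i)

lemma measure_strandV {μ : Measure X} (hmp : ∀ g : Γ, MeasurePreserving (fun x : X => g • x) μ μ)
    (hA : ∀ i, MeasurableSet (A i)) (i : J) (p : ℕ) : μ.real (strandV val w A i p) = μ.real (A i) := by
  rw [measureReal_def, measureReal_def]
  exact congrArg ENNReal.toReal ((hmp _).measure_preimage (hA i).nullMeasurableSet)

lemma smul_mem_strandV {i : J} {x : X} (hx : x ∈ A i) (p : ℕ) :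
    pre val w i p • x ∈ strandV val w A i p := by
  simp [strandV, hx]

lemma mem_strandV_iff {i : J} {p : ℕ} {y : X} :
    y ∈ strandV val w A i p ↔ ∃ x ∈ A i, y = pre val w i p • x := by
  constructor
  · intro h
    exact ⟨_, h, by simp⟩
  · rintro ⟨x, hx, rfl⟩
    exact smul_mem_strandV val w A hx p

/-- The letter and the two sheets of the `j`-th edge of the strand `i`. -/
def desc (d : Σ i : J, Fin (w i).length) : L × Sh w × Sh w :=
  let ℓ := (w d.1)[(d.2 : ℕ)]
  if ℓ.2 then (ℓ.1, node w d.1 d.2, node w d.1 (d.2 + 1))
  else (ℓ.1, node w d.1 (d.2 + 1), node w d.1 d.2)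

/-- The starting points of the `j`-th edge of the strand `i`. -/
def descS (d : Σ i : J, Fin (w i).length) : Set X :=
  if (w d.1)[(d.2 : ℕ)].2 then strandV val w A d.1 d.2 else strandV val w A d.1 (d.2 + 1)

lemma measure_descS {μ : Measure X} (hmp : ∀ g : Γ, MeasurePreserving (fun x : X => g • x) μ μ)
    (hA : ∀ i, MeasurableSet (A i)) (d : Σ i : J, Fin (w i).length) :
    μ.real (descS val w A d) = μ.real (A d.1) := by
  unfold descS
  split_ifs <;> exact measure_strandV val w A hmp hA _ _

lemma measurableSet_descS (hact : ∀ g : Γ, Measurable fun x : X => g • x)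
    (hA : ∀ i, MeasurableSet (A i)) (d : Σ i : J, Fin (w i).length) :
    MeasurableSet (descS val w A d) := by
  unfold descS
  split_ifs <;> exact measurableSet_strandV val w A hact hA _ _

/-- The vertex sets. -/
def vset : Sh w → Set X
  | none => Set.univ
  | some none => Set.univ
  | some (some d) => strandV val w A d.1 (d.2 + 1)

lemma smul_mem_vset_node {i : J} {x : X} (hx : x ∈ A i) (p : ℕ) :
    pre val w i p • x ∈ vset val w A (node w i p) := by
  unfold node
  split_ifs with h
  · simp only [vset]
    have : p - 1 + 1 = p := by omega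
    simp only [this]
    exact smul_mem_strandV val w A hx p
  · exact Set.mem_univ _

variable (tl : L)

/-- The raw graph. -/
def rawE (s : L) (p q : Sh w) : Set X :=
  {x | (s = tl ∧ p = none ∧ q = none) ∨
    ∃ d : Σ i : J, Fin (w i).length, desc w d = (s, p, q) ∧ x ∈ descS val w A d}

lemma desc_src {d : Σ i : J, Fin (w i).length} {s : L} {p q : Sh w} {x : X}
    (h : desc w d = (s, p, q)) (hx : x ∈ descS val w A d) : x ∈ vset val w A p := by
  obtain ⟨i, j⟩ := d
  unfold desc at h
  unfold descS at hx
  simp only at h hx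
  split_ifs at h hx with h1
  · simp only [Prod.mk.injEq] at h
    obtain ⟨-, rfl, -⟩ := h
    obtain ⟨x0, hx0, rfl⟩ := (mem_strandV_iff val w A).1 hx
    exact smul_mem_vset_node val w A hx0 _
  · simp only [Prod.mk.injEq] at h
    obtain ⟨-, rfl, -⟩ := h
    obtain ⟨x0, hx0, rfl⟩ := (mem_strandV_iff val w A).1 hx
    exact smul_mem_vset_node val w A hx0 _

lemma desc_tgt {d : Σ i : J, Fin (w i).length} {s : L} {p q : Sh w} {x : X}
    (h : desc w d = (s, p, q)) (hx : x ∈ descS val w A d) : val s • x ∈ vset val w A q := by
  obtain ⟨i, j⟩ := d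
  unfold desc at h
  unfold descS at hx
  simp only at h hx
  have hsucc := pre_succ val w i j j.2
  split_ifs at h hx with h1
  · simp only [Prod.mk.injEq] at h
    obtain ⟨rfl, -, rfl⟩ := h
    obtain ⟨x0, hx0, rfl⟩ := (mem_strandV_iff val w A).1 hx
    have e : sval val (w i)[(j : ℕ)] = val (w i)[(j : ℕ)].1 := by
      simp [sval, h1]
    rw [e] at hsucc
    rw [← mul_smul, ← hsucc]
    exact smul_mem_vset_node val w A hx0 _
  · simp only [Prod.mk.injEq] at h
    obtain ⟨rfl, -, rfl⟩ := h
    obtain ⟨x0, hx0, rfl⟩ := (mem_strandV_iff val w A).1 hx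
    have e : sval val (w i)[(j : ℕ)] = (val (w i)[(j : ℕ)].1)⁻¹ := by
      simp [sval, h1]
    rw [e] at hsucc
    rw [hsucc, ← mul_smul, ← mul_assoc, mul_inv_cancel, one_mul]
    exact smul_mem_vset_node val w A hx0 _

variable [Fintype J]

/-- The raw graph of the strands, with the `t`-lines on the base. -/
def rawGraph (hact : ∀ g : Γ, Measurable fun x : X => g • x) (hA : ∀ i, MeasurableSet (A i)) :
    MGraph val (Sh w) X where
  V := vset val w A
  E := rawE val w A tl
  measV p := by
    match p with
    | none => exact MeasurableSet.univ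
    | some none => exact MeasurableSet.univ
    | some (some d) => exact measurableSet_strandV val w A hact hA _ _
  measE s p q := by
    have : rawE val w A tl s p q = {_x | s = tl ∧ p = none ∧ q = none} ∪
        ⋃ d : Σ i : J, Fin (w i).length, {_x | desc w d = (s, p, q)} ∩ descS val w A d := by
      ext x
      simp [rawE]
    rw [this]
    exact (MeasurableSet.const _).union
      (MeasurableSet.iUnion fun d => (MeasurableSet.const _).inter (measurableSet_descS val w A hact hA d))
  src s p q x h := by
    rcases h with ⟨-, rfl, -⟩ | ⟨d, h1, h2⟩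
    · exact Set.mem_univ _
    · exact desc_src val w A h1 h2
  tgt s p q x h := by
    rcases h with ⟨-, -, rfl⟩ | ⟨d, h1, h2⟩
    · exact Set.mem_univ _
    · exact desc_tgt val w A h1 h2

variable (hact : ∀ g : Γ, Measurable fun x : X => g • x) (hA : ∀ i, MeasurableSet (A i))

/-- The strand is a path. -/
lemma strand_path {i : J} {x : X} (hx : x ∈ A i) (p : ℕ) (hp : p ≤ (w i).length) :
    (rawGraph val w A tl hact hA).IsPath (x, some none) ((w i).take p)
      (pre val w i p • x, node w i p) := by
  induction p with
  | zero =>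
    simp [pre_zero, node]
  | succ p ih =>
    have hp' : p < (w i).length := hp
    rw [List.take_succ_eq_append_getElem hp']
    refine (ih hp'.le).append ?_
    refine ⟨_, ?_, rfl⟩
    have hsucc := pre_succ val w i p hp'
    cases hl : (w i)[p] with
    | mk s b =>
      rw [hl] at hsucc
      cases b
      · -- negative letter
        rw [MGraph.adj_false]
        refine ⟨Or.inr ⟨⟨i, ⟨p, hp'⟩⟩, ?_, ?_⟩, ?_⟩
        · simp [desc, hl]
        · simp only [descS, hl]
          simpa using smul_mem_strandV val w A hx (p + 1)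
        · rw [hsucc, ← mul_smul, sval_false, ← mul_assoc, mul_inv_cancel, one_mul]
      · -- positive letter
        rw [MGraph.adj_true]
        refine ⟨Or.inr ⟨⟨i, ⟨p, hp'⟩⟩, ?_, ?_⟩, ?_⟩
        · simp [desc, hl]
        · simp only [descS, hl]
          simpa using smul_mem_strandV val w A hx p
        · rw [hsucc, ← mul_smul, sval_true]

/-- A strand joins `(x, copy)` to `(wordAct • x, copy)`. -/
lemma strand_conn {i : J} {x : X} (hx : x ∈ A i) :
    (rawGraph val w A tl hact hA).Conn (x, some none) (wordAct val (w i) • x, some none) := by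
  have := strand_path val w A tl hact hA hx (w i).length le_rfl
  rw [pre_length] at this
  have hn : node w i (w i).length = some none := by simp [node]
  rw [hn] at this
  exact ⟨_, this⟩

/-- Every vertex is joined to the copy or to the base. -/
lemma vertex_conn {p : Sh w} {y : X} (hp : p ≠ none) (h : y ∈ (rawGraph val w A tl hact hA).V p) :
    ∃ x, (rawGraph val w A tl hact hA).Conn (x, some none) (y, p) := by
  match p, hp, h with
  | some none, _, _ => exact ⟨y, MGraph.Conn.refl _ _⟩
  | some (some ⟨i, j⟩), _, h =>
    obtain ⟨x, hx, rfl⟩ := (mem_strandV_iff val w A).1 h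
    have hj := j.2
    have hlen : (j : ℕ) + 1 ≤ (w i).length := by omega
    have := strand_path val w A tl hact hA hx ((j : ℕ) + 1) hlen
    have hn : node w i ((j : ℕ) + 1) = some (some ⟨i, j⟩) := by
      have h1 : 0 < (j : ℕ) + 1 ∧ (j : ℕ) + 1 < (w i).length := by omega
      simp [node, h1]
    rw [hn] at this
    exact ⟨x, _, this⟩

section Mass

variable [DecidableEq J] [Fintype L] [DecidableEq L]
variable {μ : Measure X} [IsProbabilityMeasure μ]
  (hmp : ∀ g : Γ, MeasurePreserving (fun x : X => g • x) μ μ)

include hmp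

lemma massV_rawGraph :
    (rawGraph val w A tl hact hA).massV μ =
      2 + ∑ i, (((w i).length - 1 : ℕ) : ℝ) * μ.real (A i) := by
  unfold MGraph.massV
  rw [Fintype.sum_option, Fintype.sum_option, Fintype.sum_sigma]
  simp only [rawGraph, vset, probReal_univ]
  have : ∀ i, ∑ j : Fin ((w i).length - 1), μ.real (strandV val w A i ((j : ℕ) + 1)) =
      (((w i).length - 1 : ℕ) : ℝ) * μ.real (A i) := by
    intro i
    simp_rw [measure_strandV val w A hmp hA]
    simp
  simp_rw [this]
  ring

lemma massE_rawGraph_le :
    (rawGraph val w A tl hact hA).massE μ ≤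
      1 + ∑ i, ((w i).length : ℝ) * μ.real (A i) := by
  classical
  have h1 : ∀ s p q, μ.real ((rawGraph val w A tl hact hA).E s p q) ≤
      (if (s, p, q) = (tl, (none : Sh w), (none : Sh w)) then 1 else 0) +
        ∑ d : Σ i : J, Fin (w i).length, if desc w d = (s, p, q) then μ.real (A d.1) else 0 := by
    intro s p q
    have hsub : (rawGraph val w A tl hact hA).E s p q ⊆
        {_x | s = tl ∧ p = none ∧ q = none} ∪
        ⋃ d ∈ (Finset.univ : Finset (Σ i : J, Fin (w i).length)),
          {_x | desc w d = (s, p, q)} ∩ descS val w A d := by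
      rintro x (h | ⟨d, h1, h2⟩)
      · exact Or.inl h
      · exact Or.inr (Set.mem_biUnion (Finset.mem_univ d) ⟨h1, h2⟩)
    refine (measureReal_mono hsub).trans ((measureReal_union_le _ _).trans ?_)
    refine add_le_add ?_ ?_
    · by_cases hc : s = tl ∧ p = none ∧ q = none
      · obtain ⟨rfl, rfl, rfl⟩ := hc
        simp
      · have : (s, p, q) ≠ (tl, (none : Sh w), (none : Sh w)) := by
          intro h
          simp only [Prod.mk.injEq] at h
          exact hc h
        simp [hc, this]
    · refine (measureReal_biUnion_finset_le _ _).trans (Finset.sum_le_sum fun d _ => ?_)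
      by_cases hd : desc w d = (s, p, q)
      · simp only [hd, if_true]
        refine (measureReal_mono Set.inter_subset_right).trans ?_
        rw [measure_descS val w A hmp hA]
      · simp [hd]
  unfold MGraph.massE
  calc ∑ s, ∑ p, ∑ q, μ.real ((rawGraph val w A tl hact hA).E s p q)
      ≤ ∑ s, ∑ p, ∑ q, ((if (s, p, q) = (tl, (none : Sh w), (none : Sh w)) then (1 : ℝ) else 0) +
        ∑ d : Σ i : J, Fin (w i).length, if desc w d = (s, p, q) then μ.real (A d.1) else 0) :=
        Finset.sum_le_sum fun s _ => Finset.sum_le_sum fun p _ => Finset.sum_le_sum fun q _ => h1 s p q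
    _ = ∑ t : L × Sh w × Sh w, ((if t = (tl, (none : Sh w), (none : Sh w)) then (1 : ℝ) else 0) +
        ∑ d : Σ i : J, Fin (w i).length, if desc w d = t then μ.real (A d.1) else 0) := by
        rw [Fintype.sum_prod_type]
        refine Finset.sum_congr rfl fun s _ => ?_
        rw [Fintype.sum_prod_type]
    _ = 1 + ∑ i, ((w i).length : ℝ) * μ.real (A i) := by
        rw [Finset.sum_add_distrib, Finset.sum_comm (f := fun t d => if desc w d = t then μ.real (A d.1) else 0)]
        have e1 : (∑ t : L × Sh w × Sh w, if t = (tl, (none : Sh w), (none : Sh w)) then (1 : ℝ) else 0) = 1 := by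
          rw [Finset.sum_eq_single (tl, (none : Sh w), (none : Sh w))]
          · simp
          · intro t _ ht
            simp [ht]
          · intro h
            exact absurd (Finset.mem_univ _) h
        have e2 : ∀ d : Σ i : J, Fin (w i).length,
            (∑ t : L × Sh w × Sh w, if desc w d = t then μ.real (A d.1) else 0) = μ.real (A d.1) := by
          intro d
          rw [Finset.sum_eq_single (desc w d)]
          · simp
          · intro t _ ht
            simp [ht.symm]
          · intro h
            exact absurd (Finset.mem_univ _) h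
        rw [e1]
        simp_rw [e2]
        rw [Fintype.sum_sigma]
        simp

/-- The excess of the raw graph. -/
lemma excess_rawGraph_le :
    (rawGraph val w A tl hact hA).excess μ ≤ ∑ i, μ.real (A i) - 1 := by
  unfold MGraph.excess
  rw [massV_rawGraph val w A tl hact hA hmp]
  have h := massE_rawGraph_le val w A tl hact hA hmp
  have h2 : ∑ i, ((w i).length : ℝ) * μ.real (A i) -
      ∑ i, (((w i).length - 1 : ℕ) : ℝ) * μ.real (A i) ≤ ∑ i, μ.real (A i) := by
    rw [← Finset.sum_sub_distrib]
    refine Finset.sum_le_sum fun i _ => ?_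
    have h0 : 0 ≤ μ.real (A i) := measureReal_nonneg
    have h3 : ((w i).length : ℝ) - (((w i).length - 1 : ℕ) : ℝ) ≤ 1 := by
      have : (w i).length ≤ ((w i).length - 1) + 1 := by omega
      have h4 : ((w i).length : ℝ) ≤ (((w i).length - 1 : ℕ) : ℝ) + 1 := by exact_mod_cast this
      linarith
    nlinarith
  linarith

end Mass

end KStart

section Reindex

variable {Γ L X P Q : Type*} [Group Γ] [MulAction Γ X] [MeasurableSpace X] {val : L → Γ}

lemma isPath_reindex (K : MGraph val P X) (e : P ≃ Q) {w : List (L × Bool)} {v v' : X × P}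
    (h : K.IsPath v w v') : (K.reindex e).IsPath (v.1, e v.2) w (v'.1, e v'.2) := by
  induction w generalizing v with
  | nil =>
    have : v = v' := h
    subst this
    rfl
  | cons ℓ w ih =>
    obtain ⟨u, h1, h2⟩ := h
    refine ⟨(u.1, e u.2), ?_, ih h2⟩
    rw [MGraph.adj_reindex]
    simpa using h1

lemma conn_reindex (K : MGraph val P X) (e : P ≃ Q) {v v' : X × P}
    (h : K.Conn v v') : (K.reindex e).Conn (v.1, e v.2) (v'.1, e v'.2) := by
  obtain ⟨w, hw⟩ := h
  exact ⟨w, isPath_reindex K e hw⟩

end Reindex

section Main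

variable {Γ X L : Type*} [Group Γ] [MulAction Γ X] [MeasurableSpace X]
  [Fintype L] [DecidableEq L]

open KStart in
/-- **The first raw graph.** From a generating graphing of cost at most `c`: a raw finite-sheet
graph with a base sheet `b` carrying all the `t`-lines (and nothing else), a copy sheet `c'`, and a
small `t`-complete section `A` (seeds `(x, b) ∼ (x, c')`, `x ∈ A`), with `E - V + μ A ≤ c - 1 + δ`.
The points of the copy are joined along *every* letter, for *every* point, and every vertex off the
base is joined to the copy. -/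
theorem kstart [StandardBorelSpace X] (val : L → Γ) (hgen : Subgroup.closure (Set.range val) = ⊤)
    (μ : Measure X) [IsProbabilityMeasure μ]
    (hmp : ∀ g : Γ, MeasurePreserving (fun x : X => g • x) μ μ) (tl : L)
    (hfree : ∀ k : ℤ, k ≠ 0 → μ {x : X | (val tl) ^ k • x = x} = 0)
    (Φ : ℕ → Γ × Set X) (hΦ : Generates μ Φ) (c : ℝ) (hc0 : 0 ≤ c)
    (hc : graphingCost μ Φ ≤ ENNReal.ofReal c) (δ : ℝ) (hδ : 0 < δ) :
    ∃ (N : ℕ) (G : MGraph val (Fin N) X) (b c' : Fin N) (A : Set X),
      b ≠ c' ∧ MeasurableSet A ∧ G.V b = Set.univ ∧ G.V c' = Set.univ ∧ G.E tl b b = Set.univ ∧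
      (∀ s p q x, x ∈ G.E s p q → p = b ∨ q = b → s = tl ∧ p = b ∧ q = b) ∧
      G.excess μ + μ.real A ≤ c - 1 + δ ∧
      (∀ x, ∃ k : ℤ, (val tl) ^ k • x ∈ A) ∧
      (∀ x s, G.Conn (x, c') (val s • x, c')) ∧
      (∀ x p, x ∈ G.V p → p = b ∨ ∃ y, G.Conn (y, c') (x, p)) := by
  classical
  have hact : ∀ g : Γ, Measurable fun x : X => g • x := fun g => (hmp g).measurable
  -- the small sets
  set δ' : ℝ := δ / (2 * ((Fintype.card L : ℝ) + 1)) with hδ'
  have hcard : (0 : ℝ) < (Fintype.card L : ℝ) + 1 := by positivity
  have hδ'0 : 0 < δ' := by positivity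
  obtain ⟨N, B, hBm, hBs, hB⟩ := truncate_graphing μ hact Φ hΦ val (ENNReal.ofReal δ')
    (ENNReal.ofReal_pos.2 hδ'0)
  obtain ⟨A, hAm, hAs, hAc⟩ := small_complete_section μ hmp (val tl) hfree (ENNReal.ofReal (δ / 2))
    (ENNReal.ofReal_pos.2 (by positivity))
  -- the strands
  choose wd hwd using exists_word val hgen
  let J := Fin N ⊕ L
  let w : J → List (L × Bool) := Sum.elim (fun i => wd (Φ i).1) (fun s => [(s, true)])
  let S : J → Set X := Sum.elim (fun i => (Φ i).2) B
  have hS : ∀ j, MeasurableSet (S j) := by
    rintro (i | s)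
    · exact hΦ.1 i
    · exact hBm s
  let G0 := rawGraph val w S tl hact hS
  -- the copy is joined along every letter
  have hconn0 : ∀ x s, G0.Conn (x, some none) (val s • x, some none) := by
    intro x s
    by_cases hx : x ∈ B s
    · have := strand_conn val w S tl hact hS (i := Sum.inr s) hx
      simpa [w] using this
    · have h := hB s x hx
      have key : ∀ x y, Relation.EqvGen (GraphingStep (truncG Φ N)) x y →
          G0.Conn (x, some none) (y, some none) := by
        intro x y hxy
        induction hxy with
        | rel x y h =>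
          obtain ⟨i, h1, rfl⟩ := h
          by_cases hi : i < N
          · simp only [truncG, hi, if_true] at h1 ⊢
            have := strand_conn val w S tl hact hS (i := Sum.inl ⟨i, hi⟩) h1
            simpa [w, hwd] using this
          · simp [truncG, hi] at h1
        | refl x => exact MGraph.Conn.refl _ _
        | symm x y _ ih => exact ih.symm
        | trans x y z _ _ ih1 ih2 => exact ih1.trans ih2
      exact key _ _ h
  -- the masses
  have hex : G0.excess μ ≤ ∑ j, μ.real (S j) - 1 :=
    excess_rawGraph_le val w S tl hact hS hmp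
  have hsum : ∑ j, μ.real (S j) ≤ c + δ / 2 := by
    rw [Fintype.sum_sum_type]
    have h1 : ∑ i : Fin N, μ.real (Φ i).2 ≤ c := by
      have h2 : ∑ i : Fin N, μ (Φ i).2 ≤ ENNReal.ofReal c := by
        refine le_trans ?_ hc
        unfold graphingCost
        rw [Fin.sum_univ_eq_sum_range (fun i => μ (Φ i).2) N]
        exact ENNReal.sum_le_tsum _
      have h3 : (∑ i : Fin N, μ (Φ i).2).toReal ≤ c :=
        ENNReal.toReal_le_of_le_ofReal hc0 h2
      rwa [ENNReal.toReal_sum (fun _ _ => measure_ne_top _ _)] at h3
    have h4 : ∑ s : L, μ.real (B s) ≤ δ / 2 := by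
      have h5 : ∀ s, μ.real (B s) ≤ δ' := fun s =>
        ENNReal.toReal_le_of_le_ofReal hδ'0.le (hBs s).le
      calc ∑ s : L, μ.real (B s) ≤ ∑ _s : L, δ' := Finset.sum_le_sum fun s _ => h5 s
        _ = (Fintype.card L : ℝ) * δ' := by simp
        _ ≤ δ / 2 := by
          rw [hδ', show δ / 2 = ((Fintype.card L : ℝ) + 1) * (δ / (2 * ((Fintype.card L : ℝ) + 1))) by
            field_simp]
          exact mul_le_mul_of_nonneg_right (by linarith) (by positivity)
    simpa [S] using add_le_add h1 h4
  have hAr : μ.real A ≤ δ / 2 := ENNReal.toReal_le_of_le_ofReal (by positivity) hAs.le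
  -- reindex
  let e := Fintype.equivFin (Sh w)
  refine ⟨Fintype.card (Sh w), G0.reindex e, e none, e (some none), A, ?_, hAm, ?_, ?_, ?_, ?_, ?_,
    hAc, ?_, ?_⟩
  · intro h
    simpa using e.injective h
  · show G0.V (e.symm (e none)) = Set.univ
    rw [e.symm_apply_apply]
    rfl
  · show G0.V (e.symm (e (some none))) = Set.univ
    rw [e.symm_apply_apply]
    rfl
  · show G0.E tl (e.symm (e none)) (e.symm (e none)) = Set.univ
    rw [e.symm_apply_apply]
    ext x
    simp [G0, rawGraph, rawE]
  · intro s p q x hx hpq
    have hnode : ∀ (i : J) (r : ℕ), node w i r ≠ none := by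
      intro i r
      unfold node
      split_ifs <;> simp
    have hx' : x ∈ rawE val w S tl s (e.symm p) (e.symm q) := hx
    rcases hx' with ⟨h1, h2, h3⟩ | ⟨⟨i, j⟩, h1, -⟩
    · refine ⟨h1, ?_, ?_⟩
      · rw [← e.apply_symm_apply p, h2]
      · rw [← e.apply_symm_apply q, h3]
    · exfalso
      have hp' : e.symm p = none ∨ e.symm q = none := by
        rcases hpq with rfl | rfl
        · left; simp
        · right; simp
      unfold desc at h1
      simp only at h1
      split_ifs at h1
      · simp only [Prod.mk.injEq] at h1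
        obtain ⟨-, h2, h3⟩ := h1
        rcases hp' with h4 | h4
        · exact hnode i _ (h2.trans h4)
        · exact hnode i _ (h3.trans h4)
      · simp only [Prod.mk.injEq] at h1
        obtain ⟨-, h2, h3⟩ := h1
        rcases hp' with h4 | h4
        · exact hnode i _ (h2.trans h4)
        · exact hnode i _ (h3.trans h4)
  · have h1 : (G0.reindex e).excess μ = G0.excess μ := by
      unfold MGraph.excess
      rw [MGraph.massE_reindex, MGraph.massV_reindex]
    rw [h1]
    linarith
  · intro x s
    exact conn_reindex G0 e (hconn0 x s)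
  · intro x p hx
    by_cases hp : e.symm p = none
    · left
      rw [← e.apply_symm_apply p, hp]
    · right
      obtain ⟨y, hy⟩ := vertex_conn val w S tl hact hS hp hx
      refine ⟨y, ?_⟩
      have := conn_reindex G0 e hy
      simpa using this


/-- The seeds of `kstart`: the base and the copy are glued over the section `A`. -/
def startSeed {N : ℕ} (b c' : Fin N) (A : Set X) : X → Fin N → Fin N → Prop :=
  fun x p q => x ∈ A ∧ p = b ∧ q = c'

lemma measurableSet_startSeed {N : ℕ} (b c' : Fin N) {A : Set X} (hA : MeasurableSet A)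
    (p q : Fin N) : MeasurableSet {x | startSeed b c' A x p q} := by
  have : {x | startSeed b c' A x p q} = A ∩ {_x | p = b ∧ q = c'} := by
    ext x; exact Iff.rfl
  rw [this]
  exact hA.inter (MeasurableSet.const _)

/-- Connection properties of the fold of the graph of `kstart`: all base points of an orbit are
joined, every vertex is joined to the base. -/
theorem kstart_fold {val : L → Γ} {N : ℕ} (G : MGraph val (Fin N) X) (b c' : Fin N) (A : Set X)
    (hact : ∀ g : Γ, Measurable fun x : X => g • x) (hAm : MeasurableSet A) (tl : L)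
    (hb : G.E tl b b = Set.univ)
    (hAc : ∀ x, ∃ k : ℤ, (val tl) ^ k • x ∈ A)
    (hcopy : ∀ x s, G.Conn (x, c') (val s • x, c'))
    (hgen : Subgroup.closure (Set.range val) = ⊤)
    (hvert : ∀ x p, x ∈ G.V p → p = b ∨ ∃ y, G.Conn (y, c') (x, p)) :
    let ρ := G.foldRel hact (startSeed b c' A) (measurableSet_startSeed b c' hAm)
    let K := G.fold hact (startSeed b c' A) (measurableSet_startSeed b c' hAm)
    K.Folded ∧
    (∀ x, K.Adj (tl, true) (MGraph.qv ρ (x, b)) (MGraph.qv ρ (val tl • x, b))) ∧
    (∀ x (g : Γ), K.Conn (MGraph.qv ρ (x, b)) (MGraph.qv ρ (g • x, b))) ∧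
    (∀ x p, x ∈ K.V p → ∃ y, K.Conn (MGraph.qv ρ (y, b)) (x, p)) := by
  intro ρ K
  have hF : K.Folded := G.folded_fold hact _ _
  -- the t-line in G
  have ht : ∀ x, G.Adj (tl, true) (x, b) (val tl • x, b) := by
    intro x
    rw [MGraph.adj_true]
    refine ⟨?_, rfl⟩
    show x ∈ G.E tl b b
    rw [hb]; trivial
  have htc : ∀ x, G.Conn (x, b) (val tl • x, b) := fun x => (ht x).conn
  have htn : ∀ (n : ℕ) x, G.Conn (x, b) ((val tl) ^ n • x, b) := by
    intro n
    induction n with
    | zero => intro x; simpa using MGraph.Conn.refl G (x, b)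
    | succ n ih =>
      intro x
      rw [pow_succ', mul_smul]
      exact (ih x).trans (htc _)
  have htk : ∀ (k : ℤ) x, G.Conn (x, b) ((val tl) ^ k • x, b) := by
    intro k x
    obtain ⟨n, rfl | rfl⟩ := k.eq_nat_or_neg
    · simpa using htn n x
    · have := htn n ((val tl) ^ (-(n : ℤ)) • x)
      have e : (val tl) ^ n • (val tl) ^ (-(n : ℤ)) • x = x := by
        rw [← mul_smul, ← zpow_natCast, ← zpow_add]
        simp
      rw [e] at this
      exact this.symm
  -- the copy along every group element
  have hcw : ∀ (w : List (L × Bool)) x, G.Conn (x, c') (wordAct val w • x, c') := by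
    intro w
    induction w with
    | nil => intro x; simpa using MGraph.Conn.refl G (x, c')
    | cons ℓ w ih =>
      intro x
      rw [wordAct_cons, mul_smul]
      refine MGraph.Conn.trans ?_ (ih _)
      obtain ⟨s, sg⟩ := ℓ
      cases sg
      · have := hcopy ((val s)⁻¹ • x) s
        simp only [smul_inv_smul] at this
        exact this.symm
      · exact hcopy x s
  have hcg : ∀ (g : Γ) x, G.Conn (x, c') (g • x, c') := by
    intro g x
    obtain ⟨w, rfl⟩ := KStart.exists_word val hgen g
    exact hcw w x
  -- in the fold, base and copy are joined over every point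
  have hbc : ∀ x, K.Conn (MGraph.qv ρ (x, b)) (MGraph.qv ρ (x, c')) := by
    intro x
    obtain ⟨k, hk⟩ := hAc x
    have h1 := (htk k x).qv ρ hact
    have h2 : MGraph.qv ρ ((val tl) ^ k • x, b) = MGraph.qv ρ ((val tl) ^ k • x, c') := by
      rw [MGraph.qv_eq_qv_iff]
      exact G.foldRel_seed hact _ _ ⟨hk, rfl, rfl⟩
    have h3 := (hcg ((val tl) ^ k) x).qv ρ hact
    rw [h2] at h1
    exact h1.trans h3.symm
  refine ⟨hF, fun x => (ht x).qv ρ hact, ?_, ?_⟩
  · intro x g
    exact (hbc x).trans (((hcg g x).qv ρ hact).trans (hbc _).symm)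
  · intro x p hx
    obtain ⟨p', rfl, hx'⟩ := hx
    rcases hvert x p' hx' with rfl | ⟨y, hy⟩
    · exact ⟨x, MGraph.Conn.refl _ _⟩
    · exact ⟨y, (hbc y).trans (hy.qv ρ hact)⟩

end Main

end Crest.Agent.NoFixedPrice
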