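import Crest.Agent.Lib.NoFixedPrice.KStartObj
import Crest.Agent.Lib.NoFixedPrice.Class

/-!
# `StartStmt` (row 191, S0291)

A generating graphing of cost less than `1 + 1/20000` of the Bernoulli action gives a member of the
class, at level `e = 1/10000`, with excess at most `e`.
-/

set_option autoImplicit false
set_option linter.unusedSectionVars false

namespace Crest.Agent.NoFixedPrice.MainLoop

open MeasureTheory Crest.Dynamics
open Crest.Agent.NoFixedPrice

variable (d : ℕ) [NeZero d]

/-- **The statement of `KStart`.** -/
theorem startStmt {κ : ℝ} (hκ : 1 / 10000 ≤ κ) : StartStmt d (1 / 10000) κ := by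
  intro Φ hΦ hlt
  have hc : graphingCost (muL d) Φ ≤ ENNReal.ofReal (1 + 1 / 20000) := by
    refine hlt.le.trans (le_of_eq ?_)
    rw [ENNReal.ofReal_add (by norm_num) (by norm_num), ENNReal.ofReal_one]
  obtain ⟨O, e, he, hl, hF, ht, -, hg, hv, hcert⟩ :=
    kstart_obj (latin_good d) (muL d) measurePreserving_bern_smul (t_zpow_free d) Φ hΦ
      (1 + 1 / 20000) (by norm_num) hc (1 / 20000) (by norm_num)
  have he' : e ≤ 1 / 10000 := by
    refine he.trans (le_of_eq ?_)
    norm_num
  have hrank : RankIneq (GamL d) (XL d) (muL d) :=
    rankIneq_of_free measurePreserving_bern_smul (bern_free_ae d)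
  refine ⟨O, ?_⟩
  exact
    { least := hl
      folded := hF
      tline := ht
      gen := hg
      vert := hv
      cert := (hcert _).mono (fun _ h => h) he'
      cap := by
        have := Cert.excess_le_of_true hrank (hcert (fun _ => True))
        unfold MGraph.excess
        linarith }

end Crest.Agent.NoFixedPrice.MainLoop
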