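import Crest.Agent.Lib.NoFixedPrice.Cx
import Crest.Agent.Lib.NoFixedPrice.FinalDrop

/-!
# Row 191: the main loop

`Obj`: a measured finite-sheet graph over `X` with letters `Option β` (`none` is the stable letter)
and a base sheet.  `Arrow`: a label preserving map over `X` fixing the base sheet.

* `batch`: if every graph satisfying `Good` can be closed along one family of arcs keeping `Good`
  (`StepHyp`), then every `Good` graph has a `Good` image in which all its long arcs are closed.
* `main_loop`: then the sets of points seeing a non-`t` edge at their base vertex exhaust the space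
  (FinalDrop), so their measure cannot be bounded away from `1` on `Good`.
-/

set_option autoImplicit false
set_option linter.unusedSectionVars false

namespace Crest.Agent.NoFixedPrice.MainLoop

open MeasureTheory FreeGroup
open Crest.Agent.Lib.NoFixedPrice.Arc
open Crest.Agent.NoFixedPrice (Good Gam iota tt block MGraph sval sinv wordAct)
open Crest.Agent.NoFixedPrice.FinalDrop

variable {β : Type} [DecidableEq β] {w : β → List β} (hw : Good w)

/-- The values of the positive letters. -/
noncomputable def lval : Option β → Gam hw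
  | none => tt hw
  | some a => iota hw (FreeGroup.of a)

lemma sval_lval (ℓ : HLet β) : sval (lval hw) ℓ = letVal (iota hw) (tt hw) ℓ := by
  rcases ℓ with ⟨_ | a, _ | _⟩ <;> rfl

lemma wordAct_reverse (π : List (HLet β)) :
    wordAct (lval hw) π.reverse = evalW (iota hw) (tt hw) π := by
  induction π with
  | nil => rfl
  | cons l π ih =>
    rw [List.reverse_cons, Crest.Agent.NoFixedPrice.wordAct_append, ih]
    simp [sval_lval]

variable (X : Type) [MeasurableSpace X] [MulAction (Gam hw) X]

/-- A measured graph with its sheets and a base sheet. -/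
structure Obj where
  P : Type
  [instF : Fintype P]
  [instL : LinearOrder P]
  K : MGraph (lval hw) P X
  b : P

attribute [instance] Obj.instF Obj.instL

variable {X}

/-- A label preserving map over `X` fixing the base sheet. -/
structure Arrow (O O' : Obj hw X) where
  r : X → O.P → O'.P
  meas : ∀ p q, MeasurableSet {x | r x p = q}
  hom : ∀ (ℓ : HLet β) (v v' : X × O.P), O.K.Adj ℓ v v' → O'.K.Adj ℓ (v.1, r v.1 v.2) (v'.1, r v'.1 v'.2)
  base : ∀ x, r x O.b = O'.b

namespace Arrow

variable {hw}

/-- The identity arrow. -/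
def id (O : Obj hw X) : Arrow hw O O where
  r _ p := p
  meas p q := by
    by_cases h : p = q <;> simp [h]
  hom _ _ _ h := h
  base _ := rfl

/-- Composition of arrows. -/
def comp {O O' O'' : Obj hw X} (g : Arrow hw O' O'') (f : Arrow hw O O') : Arrow hw O O'' where
  r x p := g.r x (f.r x p)
  meas p q := by
    have : {x | g.r x (f.r x p) = q} = ⋃ m, {x | f.r x p = m} ∩ {x | g.r x m = q} := by
      ext x; simp
    rw [this]
    exact MeasurableSet.iUnion fun m => (f.meas p m).inter (g.meas m q)
  hom ℓ v v' h := g.hom ℓ (v.1, f.r v.1 v.2) (v'.1, f.r v'.1 v'.2) (f.hom ℓ v v' h)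
  base x := by rw [f.base, g.base]

lemma isPath {O O' : Obj hw X} (f : Arrow hw O O') {u : List (HLet β)} {v v' : X × O.P}
    (h : O.K.IsPath v u v') : O'.K.IsPath (v.1, f.r v.1 v.2) u (v'.1, f.r v'.1 v'.2) := by
  induction u generalizing v with
  | nil =>
    have : v = v' := h
    subst this
    exact rfl
  | cons ℓ u ih =>
    obtain ⟨m, h1, h2⟩ := h
    exact ⟨_, f.hom ℓ _ _ h1, ih h2⟩

end Arrow

/-- The closing of one arc in the target of an arrow. -/
def ClosedAt {O O' : Obj hw X} (f : Arrow hw O O') (A C : List (HLet β)) (a b : O.P) : Prop :=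
  ∀ x, O.K.IsPath (x, a) A.reverse (evalW (iota hw) (tt hw) A • x, b) →
    O'.K.IsPath (x, f.r x a) C.reverse
      (evalW (iota hw) (tt hw) A • x, f.r (evalW (iota hw) (tt hw) A • x) b)

/-- One closing step, on the family of arcs over `U` from the sheets `α u` to the sheets `γ u`. -/
def StepHyp (GoodO : Obj hw X → Prop) : Prop :=
  ∀ O : Obj hw X, GoodO O → ∀ (U : Set X) (α γ : X → O.P) (A C : List (HLet β)),
    MeasurableSet U → (∀ p, MeasurableSet {x | α x = p}) → (∀ p, MeasurableSet {x | γ x = p}) →
    ArcPair w A C →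
    (∀ u ∈ U, O.K.IsPath (u, α u) A.reverse (evalW (iota hw) (tt hw) A • u, γ u)) →
    ∃ (O' : Obj hw X) (f : Arrow hw O O'), GoodO O' ∧
      ∀ u ∈ U, O'.K.IsPath (u, f.r u (α u)) C.reverse
        (evalW (iota hw) (tt hw) A • u, f.r (evalW (iota hw) (tt hw) A • u) (γ u))

/-- Arc pairs are finitely many. -/
theorem arcPair_finite [Fintype β] : {z : List (HLet β) × List (HLet β) | ArcPair w z.1 z.2}.Finite := by
  classical
  -- the splittings of a list
  have hsplit : ∀ l : List (β × Bool),
      {t : List (β × Bool) × List (β × Bool) × List (β × Bool) | l = t.1 ++ t.2.1 ++ t.2.2}.Finite := by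
    intro l
    refine Set.Finite.subset ((Set.finite_range fun n : Fin (l.length + 1) => l.take n).prod
      ((Set.finite_range fun n : Fin (l.length + 1) × Fin (l.length + 1) =>
        (l.drop n.1).take n.2).prod (Set.finite_range fun n : Fin (l.length + 1) => l.drop n))) ?_
    rintro ⟨a, u, s⟩ h
    simp only [Set.mem_ofPred_eq] at h
    subst h
    refine ⟨⟨⟨a.length, by simp⟩, by simp⟩, ⟨⟨⟨a.length, by simp⟩, ⟨u.length, by simp; omega⟩⟩, by simp⟩,
      ⟨⟨a.length + u.length, by simp⟩, by simp⟩⟩
  have hall : {t : (β × Bool) × List (β × Bool) × List (β × Bool) × List (β × Bool) |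
      block w t.1 = t.2.1 ++ t.2.2.1 ++ t.2.2.2}.Finite := by
    have : {t : (β × Bool) × List (β × Bool) × List (β × Bool) × List (β × Bool) |
        block w t.1 = t.2.1 ++ t.2.2.1 ++ t.2.2.2} =
        ⋃ y : β × Bool, (fun t => (y, t)) ''
          {t : List (β × Bool) × List (β × Bool) × List (β × Bool) |
            block w y = t.1 ++ t.2.1 ++ t.2.2} := by
      ext ⟨y, a, u, s⟩
      simp
    rw [this]
    exact Set.finite_iUnion fun y => (hsplit (block w y)).image _
  let F₁ : (β × Bool) × List (β × Bool) × List (β × Bool) × List (β × Bool) →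
      List (HLet β) × List (HLet β) := fun t =>
    (embW t.2.2.1, embW (invRev t.2.1) ++ tI :: emb t.1 :: tL :: embW (invRev t.2.2.2))
  let F₂ : (β × Bool) × List (β × Bool) × List (β × Bool) × List (β × Bool) →
      List (HLet β) × List (HLet β) := fun t =>
    (embW (invRev t.2.1) ++ tI :: emb t.1 :: tL :: embW (invRev t.2.2.2), embW t.2.2.1)
  refine Set.Finite.subset ((hall.image F₁).union (hall.image F₂)) ?_
  rintro ⟨A, C⟩ (⟨y, a, u, s, h1, _, rfl, rfl⟩ | ⟨y, a, m, s, h1, _, rfl, rfl⟩)
  · exact Or.inl ⟨(y, a, u, s), h1, rfl⟩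
  · exact Or.inr ⟨(y, a, m, s), h1, rfl⟩

/-- The measurability of the action is part of the setting. -/
theorem batch [Fintype β] (hact : ∀ g : Gam hw, Measurable fun x : X => g • x)
    {GoodO : Obj hw X → Prop} (hS : StepHyp hw (w := w) GoodO) (O : Obj hw X) (hO : GoodO O) :
    ∃ (O' : Obj hw X) (f : Arrow hw O O'), GoodO O' ∧
      ∀ A C, ArcPair w A C → ∀ a b, ClosedAt hw f A C a b := by
  classical
  -- the finite list of all tuples
  let T : Finset (List (HLet β) × List (HLet β)) := (arcPair_finite (w := w)).toFinset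
  have key : ∀ l : List ((List (HLet β) × List (HLet β)) × O.P × O.P),
      (∀ t ∈ l, ArcPair w t.1.1 t.1.2) →
      ∃ (O' : Obj hw X) (f : Arrow hw O O'), GoodO O' ∧
        ∀ t ∈ l, ClosedAt hw f t.1.1 t.1.2 t.2.1 t.2.2 := by
    intro l
    induction l with
    | nil => exact fun _ => ⟨O, Arrow.id O, hO, by simp⟩
    | cons t l ih =>
      intro hl
      obtain ⟨O₁, f, hO₁, hf⟩ := ih fun t ht => hl t (List.mem_cons_of_mem _ ht)
      obtain ⟨⟨A, C⟩, a, b⟩ := t
      have hAC : ArcPair w A C := hl _ List.mem_cons_self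
      set g := evalW (iota hw) (tt hw) A with hg
      have hgw : wordAct (lval hw) A.reverse = g := wordAct_reverse hw A
      let U : Set X := O.K.pathSet a A.reverse b
      have hU : MeasurableSet U := O.K.measurableSet_pathSet hact a A.reverse b
      obtain ⟨O₂, f₂, hO₂, hf₂⟩ := hS O₁ hO₁ U (fun u => f.r u a) (fun u => f.r (g • u) b) A C hU
        (fun p => f.meas a p) (fun p => hact g (f.meas b p)) hAC (by
          intro u hu
          have h1 : O.K.IsPath (u, a) A.reverse (g • u, b) := by
            have := hu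
            simp only [U, MGraph.pathSet, Set.mem_ofPred_eq, hgw] at this
            exact this
          exact f.isPath h1)
      refine ⟨O₂, f₂.comp f, hO₂, ?_⟩
      intro t ht
      rcases List.mem_cons.1 ht with rfl | ht
      · intro x hx
        have hxU : x ∈ U := by
          simp only [U, MGraph.pathSet, Set.mem_ofPred_eq, hgw]
          exact hx
        exact hf₂ x hxU
      · intro x hx
        exact f₂.isPath (hf t ht x hx)
  obtain ⟨O', f, hO', hf⟩ := key (T.toList ×ˢ (Finset.univ.toList ×ˢ Finset.univ.toList)) (by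
    intro t ht
    have h1 := (List.mem_product.1 ht).1
    have h2 : t.1 ∈ T := by simpa using h1
    simpa [T] using h2)
  refine ⟨O', f, hO', fun A C hAC a b => ?_⟩
  refine hf ((A, C), a, b) ?_
  refine List.mem_product.2 ⟨?_, List.mem_product.2 ⟨by simp, by simp⟩⟩
  simpa [T] using hAC

/-- The labelled graph of a folded object. -/
def toLG (O : Obj hw X) (hf : O.K.Folded) : LG β (X × O.P) where
  adj l a b := O.K.Adj l a b
  symm h := h.symm
  det h h' := hf _ _ _ _ h h'

lemma rd_iff (O : Obj hw X) (hf : O.K.Folded) {v v' : X × O.P} {π : List (HLet β)} :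
    (toLG hw O hf).Rd v π v' ↔ O.K.IsPath v π.reverse v' := by
  induction π generalizing v' with
  | nil => simp
  | cons l π ih =>
    rw [LG.rd_cons, List.reverse_cons, O.K.isPath_append]
    constructor
    · rintro ⟨z, h1, h2⟩
      exact ⟨z, ih.1 h1, v', h2, rfl⟩
    · rintro ⟨z, h1, m, h2, h3⟩
      have : m = v' := h3
      subst this
      exact ⟨z, ih.2 h1, h2⟩

/-- The point over a vertex is compatible with the labels. -/
lemma over_fst (O : Obj hw X) (hf : O.K.Folded) :
    (toLG hw O hf).Over (iota hw) (tt hw) (Prod.fst : X × O.P → X) := by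
  intro l a b h
  have h1 : b.1 = sval (lval hw) l • a.1 := MGraph.Adj.fst_eq h
  rw [h1, sval_lval]

/-- The points seeing a non-`t` edge at their base vertex. -/
def BadSet (O : Obj hw X) : Set X :=
  {y | ∃ (l : HLet β) (b : X × O.P), l.1 ≠ none ∧ O.K.Adj l (y, O.b) b}

/-- **The main loop.** -/
theorem main_loop [Fintype β] (μ : Measure X) [IsProbabilityMeasure μ]
    (hact : ∀ g : Gam hw, Measurable fun x : X => g • x)
    (hp : PairUnique w) {L : ℕ} (hlen : ∀ a, (w a).length = L) (hL : 8 ≤ L)
    {GoodO : Obj hw X → Prop} (hS : StepHyp hw (w := w) GoodO)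
    (hfold : ∀ O, GoodO O → O.K.Folded)
    (O₀ : Obj hw X) (hO₀ : GoodO O₀)
    (x : β × Bool) (hx : iota hw (FreeGroup.mk [x]) ≠ 1)
    (hfree : ∀ᵐ y ∂μ, ∀ g : Gam hw, g • y = y → g = 1)
    (hconn : ∀ᵐ y ∂μ, O₀.K.Conn (y, O₀.b) (iota hw (FreeGroup.mk [x]) • y, O₀.b))
    {c : ENNReal} (hc : c < 1) (hB : ∀ O, GoodO O → μ (BadSet hw O) ≤ c) : False := by
  classical
  -- the sequence
  let St := {O : Obj hw X // GoodO O}
  have hbatch := fun O : St => batch hw hact hS O.1 O.2
  let nxt : St → St := fun O => ⟨(hbatch O).choose, (hbatch O).choose_spec.choose_spec.1⟩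
  let arr : ∀ O : St, Arrow hw O.1 (nxt O).1 := fun O => (hbatch O).choose_spec.choose
  have harr : ∀ (O : St) A C, ArcPair w A C → ∀ a b, ClosedAt hw (arr O) A C a b :=
    fun O => (hbatch O).choose_spec.choose_spec.2
  let seq : ℕ → St := fun n => Nat.rec ⟨O₀, hO₀⟩ (fun _ O => nxt O) n
  have hseq : ∀ n, seq (n + 1) = nxt (seq n) := fun n => rfl
  let W : ℕ → Type := fun n => X × (seq n).1.P
  let S : Stages w W X :=
    { K := fun n => toLG hw (seq n).1 (hfold _ (seq n).2)
      q := fun n v => (v.1, (arr (seq n)).r v.1 v.2)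
      base := fun n y => (y, (seq n).1.b)
      hom := fun n {l a b} h => (arr (seq n)).hom l a b h
      closes := by
        intro n A C hAC a b hr
        have h1 := (rd_iff hw _ _).1 hr
        have h2 : b.1 = evalW (iota hw) (tt hw) A • a.1 := by
          rw [h1.fst_eq, wordAct_reverse]
        obtain ⟨x₁, p⟩ := a
        obtain ⟨y₁, p'⟩ := b
        simp only at h2
        subst h2
        exact (rd_iff hw _ _).2 (harr (seq n) A C hAC p p' x₁ h1)
      q_base := fun n y => by
        show (y, (arr (seq n)).r y (seq n).1.b) = (y, (seq (n + 1)).1.b)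
        rw [(arr (seq n)).base] }
  refine final_contradiction hw μ S hp hlen hL (fun n => Prod.fst) (fun n => over_fst hw _ _)
    (fun n y => rfl) x hx hfree ?_ hc ?_
  · filter_upwards [hconn] with y hy
    obtain ⟨u, hu⟩ := hy
    refine ⟨u.reverse, (rd_iff hw _ _).2 ?_⟩
    rw [List.reverse_reverse]
    exact hu
  · intro n
    exact hB _ (seq n).2

end Crest.Agent.NoFixedPrice.MainLoop
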