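import Crest.Agent.Lib.NoFixedPrice.KStart
import Crest.Agent.Lib.NoFixedPrice.Cert
import Crest.Agent.Lib.NoFixedPrice.MainLoop

/-!
# The first member of the class (row 191, S0291)

`kstart_obj`: from a generating graphing of cost at most `c`, an object `O` of `MainLoop`: folded,
with the base sheet least among the sheets, all `t`-lines on the base sheet, all base points of an
orbit joined, every vertex joined to the base, certified at a level `e ≤ c - 1 + δ` (under any
constraint, so in particular under `ZCells`).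

`Cert.fold_present`: the fold of a certified graph with seeds, for seeds between present vertices.
-/

set_option autoImplicit false
set_option linter.unusedSectionVars false

namespace Crest.Agent.NoFixedPrice

open MeasureTheory Finset Crest.Dynamics

section FoldCert

variable {Γ : Type*} [Group Γ] {L P X : Type} [MulAction Γ X] [MeasurableSpace X] {val : L → Γ}
  [Fintype L] [Fintype P] [LinearOrder P] [Countable L]

/-- The fold closure is inside the inductive fold relation of `Cert`. -/
lemma foldRel_imp_foldRel (K : MGraph val P X) (hact : ∀ g : Γ, Measurable fun x : X => g • x)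
    (S : P → P → Set X) (hseed : ∀ p q, MeasurableSet {x | x ∈ S p q}) {x : X} {p q : P}
    (h : ((K.foldRel hact (fun x p q => x ∈ S p q) hseed).rel x).r p q) :
    FoldRel K S (x, p) (x, q) := by
  let T : X → Setoid P := fun x =>
    { r := fun p q => FoldRel K S (x, p) (x, q)
      iseqv := ⟨fun _ => FoldRel.refl _, FoldRel.symm, FoldRel.trans⟩ }
  refine K.foldRel_le hact _ hseed T (fun x p q hs => FoldRel.seed hs) ?_ h
  rintro ⟨s, sg⟩ x y p p' q q' h1 h2 h3
  cases sg
  · have h1' := (K.adj_false s _ _).1 h1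
    have h2' := (K.adj_false s _ _).1 h2
    simp only at h1' h2'
    obtain ⟨h4, rfl⟩ := h1'
    exact FoldRel.bwd h4 h2'.1 h3
  · have h1' := (K.adj_true s _ _).1 h1
    have h2' := (K.adj_true s _ _).1 h2
    simp only at h1' h2'
    obtain ⟨h4, rfl⟩ := h1'
    exact FoldRel.fwd h4 h2'.1 h3

/-- In the fold closure of seeds between present vertices, two different related sheets are both
present. -/
lemma foldRel_present (K : MGraph val P X) (hact : ∀ g : Γ, Measurable fun x : X => g • x)
    (seed : X → P → P → Prop) (hseed : ∀ p q, MeasurableSet {x | seed x p q})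
    (hpres : ∀ x p q, seed x p q → x ∈ K.V p ∧ x ∈ K.V q) {x : X} {p q : P}
    (h : ((K.foldRel hact seed hseed).rel x).r p q) (hne : p ≠ q) : x ∈ K.V p ∧ x ∈ K.V q := by
  let T : X → Setoid P := fun x =>
    { r := fun p q => p = q ∨ (x ∈ K.V p ∧ x ∈ K.V q)
      iseqv :=
        { refl := fun _ => Or.inl rfl
          symm := by
            rintro a b (rfl | ⟨h1, h2⟩)
            · exact Or.inl rfl
            · exact Or.inr ⟨h2, h1⟩
          trans := by
            rintro a b c (rfl | ⟨h1, h2⟩) (rfl | ⟨h3, h4⟩)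
            · exact Or.inl rfl
            · exact Or.inr ⟨h3, h4⟩
            · exact Or.inr ⟨h1, h2⟩
            · exact Or.inr ⟨h1, h4⟩ } }
  have := K.foldRel_le hact seed hseed T (fun x p q hs => Or.inr (hpres x p q hs)) (by
    intro ℓ x y p p' q q' h1 h2 _
    exact Or.inr ⟨h1.mem_right, h2.mem_right⟩) h
  rcases this with h' | h'
  · exact absurd h' hne
  · exact h'

/-- **Fold of a certified graph with seeds.** -/
theorem Cert.fold_present {K : MGraph val P X} {S : P → P → Set X}
    {Z : (EI L P → X → ℝ) → Prop} {Z' : (EI L P → X → ℝ) → Prop} {μ : Measure X} {e : ℝ}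
    (h : Cert K S Z μ e) (hact : ∀ g : Γ, Measurable fun x : X => g • x)
    (hseed : ∀ p q, MeasurableSet {x | x ∈ S p q})
    (hpres : ∀ p q x, x ∈ S p q → x ∈ K.V p ∧ x ∈ K.V q)
    (hZ : ∀ ψ, Z' ψ → Z (pullE K (fun p x =>
      (K.foldRel hact (fun x p q => x ∈ S p q) hseed).rep x p) ψ)) :
    Cert (K.fold hact (fun x p q => x ∈ S p q) hseed) (noSeed P X) Z' μ e := by
  set ρ := K.foldRel hact (fun x p q => x ∈ S p q) hseed with hρ
  refine Cert.quotient (ρ := fun p x => ρ.rep x p) (rep := id) h
    (K.folded_fold hact _ hseed) hact ?_ ?_ ?_ ?_ ?_ ?_ ?_ ?_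
  · intro p p'
    exact ρ.measurableSet_rep_eq p p'
  · intro p x hx
    exact K.mem_quot_V_of_mem ρ hact hx
  · intro s p q x hx
    exact ⟨p, q, rfl, rfl, hx⟩
  · rintro s p' q' x ⟨p, q, rfl, rfl, hx⟩
    exact ⟨p, q, hx, rfl, rfl⟩
  · rintro p' x ⟨p, rfl, hx⟩
    refine ⟨?_, ρ.rep_rep x p⟩
    by_cases he : ρ.rep x p = p
    · rw [he]; exact hx
    · exact (foldRel_present K hact _ hseed (fun x p q hs => hpres p q x hs)
        (ρ.rep_rel x p) (Ne.symm he)).2
  · intro p p' x hx
    exact (ρ.rep_eq_iff).2 (K.foldRel_seed hact _ hseed hx)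
  · intro p p₂ x _ _ he
    exact foldRel_imp_foldRel K hact S hseed ((ρ.rep_eq_iff).1 he)
  · intro ψ _ hz
    exact hZ ψ hz

end FoldCert

section Obj

open MainLoop

variable {β : Type} [DecidableEq β] [Fintype β] {w : β → List β} (hw : Good w)
  {X : Type} [MeasurableSpace X] [MulAction (Gam hw) X]

/-- The letters of `lval` generate. -/
lemma closure_range_lval : Subgroup.closure (Set.range (lval hw)) = ⊤ := by
  rw [eq_top_iff, ← gam_closure hw]
  apply Subgroup.closure_mono
  rintro x (⟨a, rfl⟩ | hx)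
  · exact ⟨some a, rfl⟩
  · rw [Set.mem_singleton_iff] at hx
    exact ⟨none, hx.symm⟩

/-- **The first member of the class.** -/
theorem kstart_obj [StandardBorelSpace X] (μ : Measure X) [IsProbabilityMeasure μ]
    (hmp : ∀ g : Gam hw, MeasurePreserving (fun x : X => g • x) μ μ)
    (hfree : ∀ k : ℤ, k ≠ 0 → μ {x : X | (tt hw) ^ k • x = x} = 0)
    (Φ : ℕ → Gam hw × Set X) (hΦ : Generates μ Φ) (c : ℝ) (hc0 : 0 ≤ c)
    (hc : graphingCost μ Φ ≤ ENNReal.ofReal c) (δ : ℝ) (hδ : 0 < δ) :
    ∃ (O : Obj hw X) (e : ℝ), e ≤ c - 1 + δ ∧ (∀ p, O.b ≤ p) ∧ O.K.Folded ∧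
      (∀ x, x ∈ O.K.E none O.b O.b) ∧ (∀ x, x ∈ O.K.V O.b) ∧
      (∀ x (g : Gam hw), O.K.Conn (x, O.b) (g • x, O.b)) ∧
      (∀ x p, x ∈ O.K.V p → ∃ y, O.K.Conn (y, O.b) (x, p)) ∧
      ∀ Z : (EI (Option β) O.P → X → ℝ) → Prop, Cert O.K (noSeed O.P X) Z μ e := by
  classical
  have hact : ∀ g : Gam hw, Measurable fun x : X => g • x := fun g => (hmp g).measurable
  obtain ⟨N, G₀, b₀, c₀, A, hbc, hAm, hVb, hVc, hEb, -, hex, hAc, hcopy, hvert⟩ :=
    kstart (lval hw) (closure_range_lval hw) μ hmp none hfree Φ hΦ c hc0 hc δ hδ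
  -- move the base to the least sheet
  have hN : 0 < N := b₀.pos
  let z : Fin N := ⟨0, hN⟩
  let e₀ : Fin N ≃ Fin N := Equiv.swap b₀ z
  let G := G₀.reindex e₀
  let b : Fin N := e₀ b₀
  let c' : Fin N := e₀ c₀
  have hbz : b = z := Equiv.swap_apply_left _ _
  have hbl : ∀ p : Fin N, b ≤ p := by
    intro p
    rw [hbz]
    exact Nat.zero_le _
  have hVb' : G.V b = Set.univ := by
    show G₀.V (e₀.symm (e₀ b₀)) = Set.univ
    rw [e₀.symm_apply_apply]; exact hVb
  have hVc' : G.V c' = Set.univ := by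
    show G₀.V (e₀.symm (e₀ c₀)) = Set.univ
    rw [e₀.symm_apply_apply]; exact hVc
  have hEb' : G.E none b b = Set.univ := by
    show G₀.E none (e₀.symm (e₀ b₀)) (e₀.symm (e₀ b₀)) = Set.univ
    rw [e₀.symm_apply_apply]; exact hEb
  have hex' : G.excess μ + μ.real A ≤ c - 1 + δ := by
    have h1 : G.excess μ = G₀.excess μ := by
      unfold MGraph.excess
      rw [MGraph.massE_reindex, MGraph.massV_reindex]
    rw [h1]; exact hex
  have hcopy' : ∀ x s, G.Conn (x, c') (lval hw s • x, c') := fun x s =>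
    conn_reindex G₀ e₀ (hcopy x s)
  have hvert' : ∀ x p, x ∈ G.V p → p = b ∨ ∃ y, G.Conn (y, c') (x, p) := by
    intro x p hx
    rcases hvert x (e₀.symm p) hx with h | ⟨y, hy⟩
    · left
      show p = e₀ b₀
      rw [← h, e₀.apply_symm_apply]
    · right
      refine ⟨y, ?_⟩
      have := conn_reindex G₀ e₀ hy
      simpa using this
  have hAc' : ∀ x, ∃ k : ℤ, (lval hw none) ^ k • x ∈ A := hAc
  -- the seeds
  let S : Fin N → Fin N → Set X := fun p q => {x | startSeed b c' A x p q}
  have hS : ∀ p q, MeasurableSet {x | x ∈ S p q} := fun p q => measurableSet_startSeed b c' hAm p q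
  have hS' : ∀ p q, MeasurableSet (S p q) := hS
  have hpres : ∀ p q x, x ∈ S p q → x ∈ G.V p ∧ x ∈ G.V q := by
    rintro p q x ⟨-, rfl, rfl⟩
    rw [hVb', hVc']
    exact ⟨trivial, trivial⟩
  have hsum : ∑ p, ∑ q, μ.real (S p q) = μ.real A := by
    rw [Finset.sum_eq_single b, Finset.sum_eq_single c']
    · congr 1
      ext x
      simp [S, startSeed]
    · intro q _ hq
      have : S b q = ∅ := by
        ext x
        simp [S, startSeed, hq]
      simp [this]
    · intro h; exact absurd (Finset.mem_univ _) h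
    · intro p _ hp
      refine Finset.sum_eq_zero fun q _ => ?_
      have : S p q = ∅ := by
        ext x
        simp [S, startSeed, hp]
      simp [this]
    · intro h; exact absurd (Finset.mem_univ _) h
  -- the fold
  have hfd := kstart_fold G b c' A hact hAm none hEb' hAc' hcopy' (closure_range_lval hw) hvert'
  simp only at hfd
  obtain ⟨hF, ht, hgen, hconn⟩ := hfd
  set ρ := G.foldRel hact (startSeed b c' A) (measurableSet_startSeed b c' hAm) with hρ
  set K := G.fold hact (startSeed b c' A) (measurableSet_startSeed b c' hAm) with hK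
  have hrep : ∀ x, ρ.rep x b = b := by
    intro x
    exact le_antisymm (ρ.rep_le ((ρ.rel x).iseqv.refl b)) (hbl _)
  have hqv : ∀ x, MGraph.qv ρ (x, b) = (x, b) := by
    intro x
    simp [MGraph.qv, hrep]
  refine ⟨⟨Fin N, K, b⟩, G.excess μ + μ.real A, hex', hbl, hF, ?_, ?_, ?_, ?_, ?_⟩
  · intro x
    have := ht x
    rw [hqv, hqv, MGraph.adj_true] at this
    exact this.1
  · intro x
    exact ⟨b, hrep x, by rw [hVb']; trivial⟩
  · intro x g
    have := hgen x g
    rwa [hqv, hqv] at this
  · intro x p hx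
    obtain ⟨y, hy⟩ := hconn x p hx
    rw [hqv] at hy
    exact ⟨y, hy⟩
  · intro Z
    have h0 := Cert.start G S hS' μ (fun _ => True)
    have h1 : G.massE μ + ∑ p, ∑ q, μ.real (S p q) - G.massV μ = G.excess μ + μ.real A := by
      rw [hsum]; unfold MGraph.excess; ring
    rw [h1] at h0
    exact Cert.fold_present h0 hact hS hpres (fun _ _ => trivial)

end Obj

end Crest.Agent.NoFixedPrice
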