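import Crest.Agent.Lib.NoFixedPrice.Cells
import Crest.Agent.Lib.NoFixedPrice.MainLoop

/-!
# Row 191: the concrete relators

`aL d i p`: the `p`-th letter of the bottom of the `i`-th relator, first acting first: the reversed
Latin word.  `aL_inj`, `aL_pair`: the hypotheses of the rich bound.  `wordAct_rel`: the relator
`rel (aL d) d i` is trivial in `Gam (latin_good d)`.
-/

set_option autoImplicit false
set_option linter.unusedSectionVars false

namespace Crest.Agent.NoFixedPrice

open FreeGroup
open Crest.Agent.Lib.NoFixedPrice.Arc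
open Crest.Agent.NoFixedPrice.MainLoop

variable (d : ℕ)

/-- The `p`-th letter of the bottom of the `i`-th relator (first acting first). -/
def aL (i : ZMod d) (p : ℕ) : ZMod d := latinLetter i (d - 1 - p)

variable {d}

theorem aL_inj (i : ZMod d) (p : ℕ) (hp : p < d) (q : ℕ) (hq : q < d) (h : aL d i p = aL d i q) :
    p = q := by
  have := latinLetter_inj i (by omega) (by omega) h
  omega

theorem aL_pair (hd : 2 ∣ d) (i i' : ZMod d) (p p' : ℕ) (hp : p + 1 < d) (hp' : p' + 1 < d)
    (h0 : aL d i p = aL d i' p') (h1 : aL d i (p + 1) = aL d i' (p' + 1)) : i = i' ∧ p = p' := by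
  have e1 : d - 1 - p = (d - 1 - (p + 1)) + 1 := by omega
  have e2 : d - 1 - p' = (d - 1 - (p' + 1)) + 1 := by omega
  unfold aL at h0 h1
  rw [e1, e2] at h0
  obtain ⟨h2, h3⟩ := latin_pair_unique hd (p := d - 1 - (p + 1)) (q := d - 1 - (p' + 1))
    (by omega) (by omega) h1 h0
  exact ⟨h2, by omega⟩

variable [NeZero d]

theorem botW_aL (i : ZMod d) :
    botW (aL d) i d = (embW (Crest.Agent.NoFixedPrice.pos (latin d i))).reverse := by
  apply List.ext_getElem
  · simp [Crest.Agent.NoFixedPrice.pos]
  · intro p h1 h2
    have hp : p < d := by simpa using h1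
    simp only [botW, List.getElem_map, List.getElem_range]
    rw [List.getElem_reverse]
    simp [Crest.Agent.NoFixedPrice.pos, latin, embW, emb, aL, List.getElem_map]

/-- The relator is trivial in the group. -/
theorem wordAct_rel (i : ZMod d) :
    wordAct (lval (latin_good d)) (rel (aL d) d i) = 1 := by
  have hw := latin_good d
  unfold rel
  rw [wordAct_append, botW_aL, wordAct_reverse, evalW_embW, ← phi_of, ← tt_conj]
  simp only [wordAct_cons, wordAct_nil, sval_true, sval_false, one_mul, lval]
  group

end Crest.Agent.NoFixedPrice
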