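import Crest.Agent.Lib.NoFixedPrice.MainStep
import Crest.Agent.Lib.NoFixedPrice.Assemble

set_option autoImplicit false
set_option linter.unusedSectionVars false

namespace Crest.Agent.NoFixedPrice.MainLoop

open MeasureTheory FreeGroup
open Crest.Agent.Lib.NoFixedPrice.Arc
open Crest.Agent.NoFixedPrice
open Crest.Agent.NoFixedPrice.FinalDrop

variable (d : ℕ) [NeZero d]

/-- The Bernoulli action of `Gam (latin_good d)` is essentially free, in the form needed. -/
lemma bern_free_ae :
    ∀ᵐ y ∂(bernMu (Gam (latin_good d))), ∀ g : Gam (latin_good d), g • y = y → g = 1 := by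
  have : ∀ g : Gam (latin_good d), ∀ᵐ y ∂(bernMu (Gam (latin_good d))), g • y = y → g = 1 := by
    intro g
    by_cases hg : g = 1
    · exact Filter.Eventually.of_forall fun _ _ => hg
    · have h := bern_essentially_free g hg
      have h2 : ∀ᵐ y ∂(bernMu (Gam (latin_good d))), y ∉ {x | g • x = x} := by
        rw [ae_iff]
        simpa using h
      filter_upwards [h2] with y hy hy2
      exact absurd hy2 hy
  exact ae_all_iff.2 this

lemma iota_letter_ne_one (x : ZMod d × Bool) : iota (latin_good d) (FreeGroup.mk [x]) ≠ 1 := by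
  intro h
  have h1 : FreeGroup.mk [x] = (1 : FreeGroup (ZMod d)) := by
    apply iota_injective (latin_good d)
    rw [h, _root_.map_one]
  have h2 := congrArg FreeGroup.toWord h1
  rw [FreeGroup.toWord_one, FreeGroup.toWord_mk] at h2
  simp [FreeGroup.reduce] at h2

lemma lval_closure :
    Subgroup.closure (Set.range (lval (latin_good d))) = ⊤ := by
  rw [eq_top_iff, ← gam_closure (latin_good d)]
  apply (Subgroup.closure_le _).2
  rintro x (⟨a, rfl⟩ | hx)
  · exact Subgroup.subset_closure ⟨some a, rfl⟩
  · rw [Set.mem_singleton_iff] at hx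
    subst hx
    exact Subgroup.subset_closure ⟨none, rfl⟩

/-- Nontrivial powers of `t` act essentially freely. -/
lemma t_zpow_free (k : ℤ) (hk : k ≠ 0) :
    bernMu (Gam (latin_good d)) {x | (lval (latin_good d) none) ^ k • x = x} = 0 := by
  refine bern_essentially_free _ ?_
  intro h
  have h2 := congrArg (height (latin_good d)) h
  simp only [lval, map_zpow, height_tt, _root_.map_one] at h2
  rw [← ofAdd_zsmul] at h2
  have h3 : k • (1 : ℤ) = 0 := by simpa using h2
  simp at h3
  exact hk h3

end Crest.Agent.NoFixedPrice.MainLoop
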