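import Crest.Agent.Lib.NoFixedPrice.MainLoop

/-!
# Row 191: from the modules to the contradiction

`contradiction_of_modules`: abstractly in a class of graphs with a length account:
near minimal element, `GoodO` := in the class, accounted against the near minimal element, small;
the step hypothesis of `MainLoop` follows from the stage (stays in the class, keeps the account) and
from the bound (in the class + accounted against a near minimal element ⇒ small).

`measureReal_badSet_le`: the points seeing a non-`t` edge at their base vertex are branch vertices.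
-/

set_option autoImplicit false
set_option linter.unusedSectionVars false

namespace Crest.Agent.NoFixedPrice.MainLoop

open MeasureTheory FreeGroup
open Crest.Agent.Lib.NoFixedPrice.Arc
open Crest.Agent.NoFixedPrice (Good Gam iota tt block MGraph sval sinv wordAct)
open Crest.Agent.NoFixedPrice.FinalDrop

/-- A near minimal element. -/
lemma exists_near_min {T : Type*} (S : Set T) (hS : S.Nonempty) (f : T → ℝ) (hf : ∀ x ∈ S, 0 ≤ f x)
    {η : ℝ} (hη : 0 < η) : ∃ x ∈ S, ∀ y ∈ S, f x ≤ f y + η := by
  have hne : (f '' S).Nonempty := hS.image f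
  have hbd : BddBelow (f '' S) := ⟨0, by rintro _ ⟨x, hx, rfl⟩; exact hf x hx⟩
  obtain ⟨_, ⟨x, hx, rfl⟩, hlt⟩ := exists_lt_of_csInf_lt hne (lt_add_of_pos_right (sInf (f '' S)) hη)
  refine ⟨x, hx, fun y hy => ?_⟩
  have := csInf_le hbd (Set.mem_image_of_mem f hy)
  linarith

variable {β : Type} [DecidableEq β] [Fintype β] {w : β → List β} (hw : Good w)
  {X : Type} [MeasurableSpace X] [MulAction (Gam hw) X]

section Bad

variable (μ : Measure X) [IsProbabilityMeasure μ]
  (hmp : ∀ g : Gam hw, MeasurePreserving (fun x : X => g • x) μ μ)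

include hmp in
/-- The points seeing a non-`t` edge at their base vertex have a base vertex of degree at least
three, when the base sheet carries all the `t`-lines. -/
theorem measureReal_badSet_le (O : Obj hw X) (hbase : ∀ x, x ∈ O.K.E none O.b O.b) :
    μ (BadSet hw O) ≤ ENNReal.ofReal (2 * O.K.excess μ + O.K.leafMass μ) := by
  classical
  have hact : ∀ g : Gam hw, Measurable fun x : X => g • x := fun g => (hmp g).measurable
  -- the degree is measurable
  have hdm : Measurable (fun x => O.K.deg x O.b) := by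
    have : (fun x => O.K.deg x O.b) =
        (fun r : ℝ => Nat.floor r) ∘ (fun x => (O.K.deg x O.b : ℝ)) := by
      ext x; simp
    rw [this]
    exact Nat.measurable_floor.comp (O.K.measurable_deg μ hmp O.b)
  set S : Set X := {x | 3 ≤ O.K.deg x O.b} with hS
  have hSm : MeasurableSet S := hdm (measurableSet_Ici (a := 3))
  -- bad points are branch points
  have hsub : BadSet hw O ⊆ S := by
    rintro y ⟨l, v', hl, hadj⟩
    have h1 : y ∈ O.K.half (none, true) O.b O.b := by
      rw [MGraph.half_true]; exact hbase y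
    have h2 : y ∈ O.K.half (none, false) O.b O.b := by
      rw [MGraph.half_false]
      exact hbase _
    have h3 : y ∈ O.K.half l O.b v'.2 := by
      have e : v' = (sval (lval hw) l • y, v'.2) := Prod.ext (MGraph.Adj.fst_eq hadj) rfl
      rw [e] at hadj
      exact hadj
    have hs : ({((none, true), O.b), ((none, false), O.b), (l, v'.2)} :
        Finset ((Option β × Bool) × O.P)) ⊆
        Finset.univ.filter fun a : (Option β × Bool) × O.P => y ∈ O.K.half a.1 O.b a.2 := by
      intro z hz
      simp only [Finset.mem_insert, Finset.mem_singleton] at hz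
      rcases hz with rfl | rfl | rfl <;> simp [h1, h2, h3]
    have hc := Finset.card_le_card hs
    have h4 : ({((none, true), O.b), ((none, false), O.b), (l, v'.2)} :
        Finset ((Option β × Bool) × O.P)).card = 3 := by
      rw [Finset.card_eq_three]
      refine ⟨_, _, _, ?_, ?_, ?_, rfl⟩
      · simp
      · rintro h
        exact hl (congrArg (fun z : (Option β × Bool) × O.P => z.1.1) h).symm
      · rintro h
        exact hl (congrArg (fun z : (Option β × Bool) × O.P => z.1.1) h).symm
    rw [h4] at hc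
    show 3 ≤ O.K.deg y O.b
    unfold MGraph.deg
    convert hc
  -- the integral
  have h2 := O.K.integral_branch_one_le μ hmp
  have h3 : ∫ x, (if 3 ≤ O.K.deg x O.b then (1 : ℝ) else 0) ∂μ = μ.real S := by
    have : (fun x => if 3 ≤ O.K.deg x O.b then (1 : ℝ) else 0) =
        S.indicator fun _ => (1 : ℝ) := by
      ext x
      simp [hS, Set.indicator_apply]
    rw [this, integral_indicator hSm]
    simp [measureReal_def]
  have h4 : μ.real S ≤ ∑ p, ∫ x, (if 3 ≤ O.K.deg x p then (1 : ℝ) else 0) ∂μ := by
    rw [← h3]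
    exact Finset.single_le_sum (f := fun p => ∫ x, (if 3 ≤ O.K.deg x p then (1 : ℝ) else 0) ∂μ)
      (fun p _ => integral_nonneg fun x => by split_ifs <;> norm_num) (Finset.mem_univ O.b)
  have h5 : μ.real S ≤ 2 * O.K.excess μ + O.K.leafMass μ := h4.trans h2
  calc μ (BadSet hw O) ≤ μ S := measure_mono hsub
    _ = ENNReal.ofReal (μ.real S) := (ofReal_measureReal (measure_ne_top _ _)).symm
    _ ≤ _ := ENNReal.ofReal_le_ofReal h5

end Bad

variable (μ : Measure X) [IsProbabilityMeasure μ]

/-- **From the modules to the contradiction.** -/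
theorem contradiction_of_modules
    (hmp : ∀ g : Gam hw, MeasurePreserving (fun x : X => g • x) μ μ)
    (hp : PairUnique w) {L : ℕ} (hlen : ∀ a, (w a).length = L) (hL : 8 ≤ L)
    (x : β × Bool) (hx : iota hw (FreeGroup.mk [x]) ≠ 1)
    (hfree : ∀ᵐ y ∂μ, ∀ g : Gam hw, g • y = y → g = 1)
    -- the class
    (InClass : Obj hw X → Prop)
    {T : Type} (Acct : Obj hw X → T → Prop) (start : Obj hw X → T)
    (hne : ∃ O, InClass O)
    (hfold : ∀ O, InClass O → O.K.Folded)
    (hbase : ∀ O, InClass O → ∀ x, x ∈ O.K.E none O.b O.b)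
    (hgen : ∀ O, InClass O → ∀ᵐ y ∂μ, O.K.Conn (y, O.b) (iota hw (FreeGroup.mk [x]) • y, O.b))
    (hacct : ∀ O, Acct O (start O))
    -- the constants
    {η c : ℝ} (hη : 0 < η) (hc : c < 1)
    -- the bound
    (Small : Obj hw X → Prop)
    (hbad : ∀ O, Small O → 2 * O.K.excess μ + O.K.leafMass μ ≤ c)
    (hbound : ∀ K₀, InClass K₀ → (∀ O, InClass O → K₀.K.massE μ ≤ O.K.massE μ + η) →
      ∀ O, InClass O → Acct O (start K₀) → Small O)
    -- the stage
    (hstage : ∀ O, InClass O → Small O → ∀ M, Acct O M →
      ∀ (U : Set X) (α γ : X → O.P) (A C : List (HLet β)),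
      MeasurableSet U → (∀ p, MeasurableSet {x | α x = p}) → (∀ p, MeasurableSet {x | γ x = p}) →
      ArcPair w A C →
      (∀ u ∈ U, O.K.IsPath (u, α u) A.reverse (evalW (iota hw) (tt hw) A • u, γ u)) →
      ∃ (O' : Obj hw X) (f : Arrow hw O O'), InClass O' ∧ Acct O' M ∧
        ∀ u ∈ U, O'.K.IsPath (u, f.r u (α u)) C.reverse
          (evalW (iota hw) (tt hw) A • u, f.r (evalW (iota hw) (tt hw) A • u) (γ u))) :
    False := by
  classical
  have hact : ∀ g : Gam hw, Measurable fun x : X => g • x := fun g => (hmp g).measurable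
  obtain ⟨K₀, hK₀, hmin⟩ := exists_near_min {O | InClass O} hne (fun O => O.K.massE μ)
    (fun O _ => O.K.massE_nonneg μ) hη
  set M := start K₀ with hM
  let GoodO : Obj hw X → Prop := fun O => InClass O ∧ Acct O M ∧ Small O
  have hS : StepHyp hw (w := w) GoodO := by
    rintro O ⟨h1, h2, h3⟩ U α γ A C hU hα hγ hAC harc
    obtain ⟨O', f, h4, h5, h6⟩ := hstage O h1 h3 M h2 U α γ A C hU hα hγ hAC harc
    exact ⟨O', f, ⟨h4, h5, hbound K₀ hK₀ hmin O' h4 h5⟩, h6⟩
  have hK₀good : GoodO K₀ := ⟨hK₀, hacct K₀, hbound K₀ hK₀ hmin K₀ hK₀ (hacct K₀)⟩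
  have hc' : ENNReal.ofReal c < 1 := by
    rw [← ENNReal.ofReal_one]
    rcases lt_or_ge c 0 with h | h
    · rw [ENNReal.ofReal_of_nonpos h.le]
      simp
    · exact (ENNReal.ofReal_lt_ofReal_iff one_pos).2 hc
  refine main_loop hw μ hact hp hlen hL hS (fun O hO => hfold O hO.1) K₀ hK₀good x hx hfree
    (hgen K₀ hK₀) hc' ?_
  rintro O ⟨h1, _, h3⟩
  exact (measureReal_badSet_le hw μ hmp O (hbase O h1)).trans
    (ENNReal.ofReal_le_ofReal (hbad O h3))

end Crest.Agent.NoFixedPrice.MainLoop
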