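import Crest.Agent.Lib.NoFixedPrice.Stage
import Crest.Agent.Lib.NoFixedPrice.LeafMono
import Crest.Agent.Lib.NoFixedPrice.CertClose

/-!
# Row 191: one stage, part 2 (helper46)

The closed lifts created by a stage, and the inputs of `Acc.step`.

* `OnPath e x v R`: walking from `v` along `R` passes through the edge `e` at the point `x`.
* `exists_pos_of_onPath`: an edge on a closed lift is at some position of the relator.
* `good_of_seg`: the positions of a segment lifted from `K` are images of edges of `K`.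
-/

set_option autoImplicit false
set_option linter.unusedSectionVars false

namespace Crest.Agent.NoFixedPrice

open MeasureTheory

namespace MGraph

attribute [local instance] Classical.propDecidable

section OnPath

variable {Γ L : Type*} [Group Γ] {val : L → Γ} {P X : Type*} [MulAction Γ X] [MeasurableSpace X]

/-- The edge type of a step. -/
def oEdge (ℓ : L × Bool) (p q : P) : L × P × P := if ℓ.2 then (ℓ.1, p, q) else (ℓ.1, q, p)

/-- The point carrying the edge of a step. -/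
def oPt (ℓ : L × Bool) (x y : X) : X := if ℓ.2 then x else y

lemma oEdge_sinv (ℓ : L × Bool) (p q : P) : oEdge (sinv ℓ) q p = oEdge ℓ p q := by
  rcases ℓ with ⟨s, _ | _⟩ <;> rfl

lemma oPt_sinv (ℓ : L × Bool) (x y : X) : oPt (sinv ℓ) y x = oPt ℓ x y := by
  rcases ℓ with ⟨s, _ | _⟩ <;> rfl

variable (K : MGraph val P X)

/-- Walking from `v` along the word passes through the edge `e` at the point `x`. -/
def OnPath (e : L × P × P) (x : X) : X × P → List (L × Bool) → Prop
  | _, [] => False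
  | v, ℓ :: R => ∃ b, K.Adj ℓ v b ∧ ((oEdge ℓ v.2 b.2 = e ∧ oPt ℓ v.1 b.1 = x) ∨ OnPath e x b R)

variable {K}
variable {e : L × P × P} {x : X}

lemma OnPath.of_decomp {R₁ R₂ : List (L × Bool)} {ℓ : L × Bool} {v a b : X × P}
    (h1 : K.IsPath v R₁ a) (h2 : K.Adj ℓ a b) :
    K.OnPath (oEdge ℓ a.2 b.2) (oPt ℓ a.1 b.1) v (R₁ ++ ℓ :: R₂) := by
  induction R₁ generalizing v with
  | nil =>
    have : v = a := h1
    subst this
    exact ⟨b, h2, Or.inl ⟨rfl, rfl⟩⟩
  | cons ℓ' R ih =>
    obtain ⟨m, h3, h4⟩ := h1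
    exact ⟨m, h3, Or.inr (ih h4)⟩

lemma OnPath.exists_decomp {R : List (L × Bool)} {v : X × P} (h : K.OnPath e x v R) :
    ∃ R₁ ℓ R₂ a b, R = R₁ ++ ℓ :: R₂ ∧ K.IsPath v R₁ a ∧ K.Adj ℓ a b ∧ oEdge ℓ a.2 b.2 = e ∧
      oPt ℓ a.1 b.1 = x := by
  induction R generalizing v with
  | nil => exact h.elim
  | cons ℓ R ih =>
    obtain ⟨b, h1, ⟨h2, h3⟩ | h2⟩ := h
    · exact ⟨[], ℓ, R, v, b, rfl, rfl, h1, h2, h3⟩
    · obtain ⟨R₁, ℓ', R₂, a', b', h3, h4, h5, h6, h7⟩ := ih h2
      exact ⟨ℓ :: R₁, ℓ', R₂, a', b', by simp [h3], ⟨b, h1, h4⟩, h5, h6, h7⟩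

lemma OnPath.append_left {R Q : List (L × Bool)} {v : X × P} (h : K.OnPath e x v R) :
    K.OnPath e x v (R ++ Q) := by
  induction R generalizing v with
  | nil => exact h.elim
  | cons ℓ R ih =>
    obtain ⟨b, h1, h2⟩ := h
    exact ⟨b, h1, h2.imp id ih⟩

lemma OnPath.append_right {R Q : List (L × Bool)} {v v' : X × P} (hp : K.IsPath v R v')
    (h : K.OnPath e x v' Q) : K.OnPath e x v (R ++ Q) := by
  induction R generalizing v with
  | nil =>
    have : v = v' := hp
    subst this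
    exact h
  | cons ℓ R ih =>
    obtain ⟨m, h1, h2⟩ := hp
    exact ⟨m, h1, Or.inr (ih h2)⟩

lemma OnPath.append_cases (hF : K.Folded) {R Q : List (L × Bool)} {v v' : X × P}
    (hp : K.IsPath v R v') (h : K.OnPath e x v (R ++ Q)) :
    K.OnPath e x v R ∨ K.OnPath e x v' Q := by
  induction R generalizing v with
  | nil =>
    have : v = v' := hp
    subst this
    exact Or.inr h
  | cons ℓ R ih =>
    obtain ⟨m, h1, h2⟩ := hp
    obtain ⟨b, h3, h4⟩ := h
    have := hF _ _ _ _ h1 h3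
    subst this
    rcases h4 with h4 | h4
    · exact Or.inl ⟨m, h1, Or.inl h4⟩
    · rcases ih h2 h4 with h5 | h5
      · exact Or.inl ⟨m, h1, Or.inr h5⟩
      · exact Or.inr h5

lemma OnPath.rinv (hF : K.Folded) {R : List (L × Bool)} {v v' : X × P}
    (hp : K.IsPath v R v') (h : K.OnPath e x v R) : K.OnPath e x v' (rinv R) := by
  induction R generalizing v with
  | nil => exact h.elim
  | cons ℓ R ih =>
    obtain ⟨m, h1, h2⟩ := hp
    obtain ⟨b, h3, h4⟩ := h
    have := hF _ _ _ _ h1 h3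
    subst this
    rw [rinv_cons]
    rcases h4 with ⟨h4, h5⟩ | h4
    · refine OnPath.append_right h2.rinv ⟨v, h1.symm, Or.inl ⟨?_, ?_⟩⟩
      · rw [oEdge_sinv]; exact h4
      · rw [oPt_sinv]; exact h5
    · exact OnPath.append_left (ih h2 h4)

/-- An edge on a closed walk is on every rotation. -/
lemma OnPath.rotate (hF : K.Folded) {R S : List (L × Bool)} {v v' : X × P}
    (h1 : K.IsPath v R v') (h2 : K.IsPath v' S v) (h : K.OnPath e x v (R ++ S)) :
    K.OnPath e x v' (S ++ R) := by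
  rcases OnPath.append_cases hF h1 h with h3 | h3
  · exact OnPath.append_right h2 h3
  · exact OnPath.append_left h3

end OnPath

section Pos

variable {Γ L : Type*} [Group Γ] {val : L → Γ} {P P' X I : Type*} [MulAction Γ X] [MeasurableSpace X]
variable {n : ℕ} {r : I → List (L × Bool)} (hlen : ∀ i, (r i).length = n)
  [Fintype P'] [DecidableEq P'] {K' : MGraph val P' X}

/-- The position of a decomposition of a relator. -/
lemma pos_of_decomp (hF' : K'.Folded) {i : I} {c : P'} {z : X} {R₁ R₂ : List (L × Bool)}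
    {ℓ : L × Bool} {a b : X × P'} (hr : r i = R₁ ++ ℓ :: R₂) (h1 : K'.IsPath (z, c) R₁ a)
    (h2 : K'.Adj ℓ a b) (m : Fin n) (hm : m.1 = R₁.length) :
    lett r hlen i m = ℓ ∧ (posW (val := val) r hlen i m) • z = oPt ℓ a.1 b.1 ∧
      incW r hlen K' (i, c) m z = oEdge ℓ a.2 b.2 := by
  have ht : (r i).take m.1 = R₁ := by rw [hr, hm]; simp
  have ht' : (r i).take (m.1 + 1) = R₁ ++ [ℓ] := by
    rw [hr, hm, List.take_succ_eq_append_getElem (by simp)]
    simp
  have hl : lett r hlen i m = ℓ := by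
    unfold lett
    simp only [hr, hm]
    simp
  have e1 : a.1 = wordAct val R₁ • z := h1.fst_eq
  have hm1 : z ∈ K'.pathSet c R₁ a.2 := by
    show K'.IsPath _ _ _
    rw [← e1]
    exact h1
  have h3 : K'.IsPath (z, c) (R₁ ++ [ℓ]) b := h1.append ⟨b, h2, rfl⟩
  have e2 : b.1 = wordAct val (R₁ ++ [ℓ]) • z := h3.fst_eq
  have hm2 : z ∈ K'.pathSet c (R₁ ++ [ℓ]) b.2 := by
    show K'.IsPath _ _ _
    rw [← e2]
    exact h3
  have s1 := sheetAt_eq hF' hm1
  have s2 := sheetAt_eq hF' hm2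
  refine ⟨hl, ?_, ?_⟩
  · obtain ⟨s, b'⟩ := ℓ
    unfold posW
    rw [hl, ht, ht']
    cases b'
    · simpa [oPt] using e2.symm
    · simpa [oPt] using e1.symm
  · obtain ⟨s, b'⟩ := ℓ
    unfold incW
    simp only [hl, ht, ht', s1, s2]
    cases b' <;> simp [oEdge]

/-- An edge on a closed lift is at some position. -/
lemma exists_pos_of_onPath (hF' : K'.Folded) {i : I} {c : P'} {z : X} {e : L × P' × P'} {x : X}
    (h : K'.OnPath e x (z, c) (r i)) :
    ∃ m : Fin n, (posW (val := val) r hlen i m) • z = x ∧ incW r hlen K' (i, c) m z = e := by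
  obtain ⟨R₁, ℓ, R₂, a, b, hr, h1, h2, h3, h4⟩ := h.exists_decomp
  have hn : R₁.length < n := by
    rw [← hlen i, hr]
    simp
  obtain ⟨-, h5, h6⟩ := pos_of_decomp hlen hF' hr h1 h2 ⟨R₁.length, hn⟩ rfl
  exact ⟨⟨R₁.length, hn⟩, h5.trans h4, h6.trans h3⟩

end Pos

section Good

variable {Γ L : Type*} [Group Γ] {val : L → Γ} {P P' X I : Type*} [MulAction Γ X] [MeasurableSpace X]
variable {n : ℕ} {r : I → List (L × Bool)} (hlen : ∀ i, (r i).length = n)
  [Fintype P'] [DecidableEq P'] {K : MGraph val P X} {K' : MGraph val P' X} {rep : X → P → P'}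

/-- The edge of a step is an edge. -/
lemma Adj.mem_oEdge {ℓ : L × Bool} {a b : X × P} (h : K.Adj ℓ a b) :
    oPt ℓ a.1 b.1 ∈ K.E (oEdge ℓ a.2 b.2).1 (oEdge ℓ a.2 b.2).2.1 (oEdge ℓ a.2 b.2).2.2 := by
  obtain ⟨s, b'⟩ := ℓ
  cases b'
  · exact ((K.adj_false s a b).1 h).1
  · exact ((K.adj_true s a b).1 h).1

/-- The map on edge types on the edge of a step. -/
lemma qEdge_oEdge {ℓ : L × Bool} {a b : X × P} (h : K.Adj ℓ a b) (rep : X → P → P') :
    qEdge rep val (oEdge ℓ a.2 b.2) (oPt ℓ a.1 b.1) =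
      oEdge ℓ (rep a.1 a.2) (rep b.1 b.2) := by
  obtain ⟨s, b'⟩ := ℓ
  cases b'
  · have h2 := ((K.adj_false s a b).1 h).2
    simp [oEdge, oPt, qEdge, h2]
  · have h2 := ((K.adj_true s a b).1 h).2
    simp [oEdge, oPt, qEdge, h2]

/-- The positions of a segment lifted from `K` come from `K`. -/
lemma good_of_seg (hF' : K'.Folded) (hrep : Mor K K' rep) {i : I} {c : P'} {z : X}
    {P₀ Q P₁ : List (L × Bool)} (hr : r i = P₀ ++ Q ++ P₁) {a b : X × P}
    (h0 : K'.IsPath (z, c) P₀ (a.1, rep a.1 a.2)) (hQ : K.IsPath a Q b) (m : Fin n)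
    (hm : P₀.length ≤ m.1) (hm' : m.1 < P₀.length + Q.length) :
    ∃ e : L × P × P, (posW (val := val) r hlen i m) • z ∈ K.E e.1 e.2.1 e.2.2 ∧
      qEdge rep val e ((posW (val := val) r hlen i m) • z) = incW r hlen K' (i, c) m z := by
  obtain ⟨j, hj⟩ := Nat.exists_eq_add_of_le hm
  have hjQ : j < Q.length := by omega
  have hQd : Q = Q.take j ++ Q[j] :: Q.drop (j + 1) := by
    rw [← List.drop_eq_getElem_cons hjQ, List.take_append_drop]
  set ℓ := Q[j] with hℓ
  have hQ' := hQ
  rw [hQd] at hQ'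
  obtain ⟨a₁, h1, h2⟩ := (K.isPath_append _ _ _ _).1 hQ'
  obtain ⟨b₁, h3, -⟩ := h2
  have h4 : K'.IsPath (z, c) (P₀ ++ Q.take j) (a₁.1, rep a₁.1 a₁.2) :=
    h0.append (hrep.path h1)
  have h5 : K'.Adj ℓ (a₁.1, rep a₁.1 a₁.2) (b₁.1, rep b₁.1 b₁.2) := hrep.adj h3
  have hr' : r i = (P₀ ++ Q.take j) ++ ℓ :: (Q.drop (j + 1) ++ P₁) := by
    rw [hr]
    conv_lhs => rw [hQd]
    simp [List.append_assoc]
  have hlenj : (P₀ ++ Q.take j).length = m.1 := by
    simp
    omega
  obtain ⟨-, h6, h7⟩ := pos_of_decomp hlen hF' hr' h4 h5 m hlenj.symm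
  refine ⟨oEdge ℓ a₁.2 b₁.2, ?_, ?_⟩
  · rw [h6]
    exact Adj.mem_oEdge h3
  · rw [h6, h7]
    exact qEdge_oEdge h3 rep

end Good

section StepGen

variable {Γ L : Type*} [Group Γ] {val : L → Γ} {P P' X I : Type*} [MulAction Γ X] [MeasurableSpace X]
variable {n : ℕ} {r : I → List (L × Bool)} (hlen : ∀ i, (r i).length = n)
  [Fintype P] [DecidableEq P] [Fintype P'] [DecidableEq P'] [Fintype L] [DecidableEq L] [Fintype I]
  {K : MGraph val P X} {K' : MGraph val P' X} {rep : X → P → P'} {μ : Measure X}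

omit [Fintype P] [DecidableEq P] [Fintype L] [DecidableEq L] [Fintype I] in
lemma measurableSet_sheetAt_var (hK' : K'.Folded) (hact : ∀ g : Γ, Measurable fun x : X => g • x)
    {f : X → P'} (hf : ∀ p', MeasurableSet {u | f u = p'}) (R : List (L × Bool)) (q : P') :
    MeasurableSet {u | K'.sheetAt (f u) R u = q} := by
  have : {u | K'.sheetAt (f u) R u = q} =
      ⋃ p₀, {u | f u = p₀} ∩ {u | K'.sheetAt p₀ R u = q} := by
    ext u
    simp
  rw [this]
  exact MeasurableSet.iUnion fun p₀ => (hf p₀).inter (measurableSet_sheetAt hK' hact p₀ R q)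

/-- **One stage of the account**, with the new closed lifts parametrised by a translate of `U`:
the lift over `u ∈ U` starts at `wordAct R • u`, on the sheet reached from `(u, f u)` reading `R`. -/
theorem acc_step_of_cycle [IsFiniteMeasure μ] {g j : ℕ} {M : ℝ} (hK : K.Folded) (hK' : K'.Folded)
    (hact : ∀ γ : Γ, Measurable fun x : X => γ • x) (hrep : Mor K K' rep) {i₀ : I} {U : Set X}
    (hU : MeasurableSet U) {f : X → P'} (hf : ∀ p', MeasurableSet {u | f u = p'})
    {R : List (L × Bool)}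
    (hcyc : ∀ u ∈ U, K'.IsPath (wordAct val R • u, K'.sheetAt (f u) R u) (r i₀)
      (wordAct val R • u, K'.sheetAt (f u) R u))
    (hgap : ∀ u ∈ U, (Finset.univ.filter fun m : Fin n =>
      ¬ ∃ e : L × P × P, (posW (val := val) r hlen i₀ m) • (wordAct val R • u) ∈ K.E e.1 e.2.1 e.2.2 ∧
        qEdge rep val e ((posW (val := val) r hlen i₀ m) • (wordAct val R • u)) =
          incW r hlen K' (i₀, K'.sheetAt (f u) R u) m (wordAct val R • u)).card ≤ g)
    (hnew : ∀ (e' : L × P' × P') x, x ∈ K'.E e'.1 e'.2.1 e'.2.2 →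
      (¬ ∃ e : L × P × P, x ∈ K.E e.1 e.2.1 e.2.2 ∧ qEdge rep val e x = e') →
      ∃ u ∈ U, K'.OnPath e' x (wordAct val R • u, K'.sheetAt (f u) R u) (r i₀))
    (h : Acc r hlen K μ g j M) : Acc r hlen K' μ g (j + 1) M := by
  set h₀ := wordAct val R with hh₀
  let Z : Set X := (fun z => h₀⁻¹ • z) ⁻¹' U
  let wz : X → P' := fun z => K'.sheetAt (f (h₀⁻¹ • z)) R (h₀⁻¹ • z)
  have hZ : MeasurableSet Z := hact _ hU
  have hwz : ∀ p', MeasurableSet {z | wz z = p'} := fun p' =>
    hact h₀⁻¹ (measurableSet_sheetAt_var hK' hact hf R p')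
  have hZmem : ∀ z ∈ Z, ∃ u ∈ U, z = h₀ • u ∧ wz z = K'.sheetAt (f u) R u := by
    intro z hz
    refine ⟨h₀⁻¹ • z, hz, by simp, rfl⟩
  have hZmem' : ∀ u ∈ U, h₀ • u ∈ Z ∧ wz (h₀ • u) = K'.sheetAt (f u) R u := by
    intro u hu
    refine ⟨by simpa [Z] using hu, ?_⟩
    simp [wz]
  refine Acc.step (rep := rep) (i₀ := i₀) (U := Z) (w := wz) hK hK' hact hrep hZ hwz ?_ ?_ ?_ h
  · intro z hz
    obtain ⟨u, hu, rfl, he⟩ := hZmem z hz
    rw [he]
    exact hcyc u hu
  · intro z hz
    obtain ⟨u, hu, rfl, he⟩ := hZmem z hz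
    rw [he]
    exact hgap u hu
  · intro e' x hx hno
    obtain ⟨u, hu, hon⟩ := hnew e' x hx hno
    obtain ⟨hz, he⟩ := hZmem' u hu
    obtain ⟨m, h1, h2⟩ := exists_pos_of_onPath hlen hK' hon
    exact ⟨h₀ • u, hz, m, h1, by rw [he]; exact h2⟩

end StepGen

section Count

/-- Counting the bad positions outside a window. -/
lemma card_filter_le_of_window {n a l : ℕ} {Pr : Fin n → Prop} [DecidablePred Pr]
    (h : ∀ m : Fin n, Pr m → a ≤ m.1 ∧ m.1 < a + l) :
    (Finset.univ.filter Pr).card ≤ l := by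
  classical
  have : (Finset.univ.filter Pr).card ≤ (Finset.range l).card := by
    refine Finset.card_le_card_of_injOn (fun m => m.1 - a) ?_ ?_
    · intro m hm
      have := h m (Finset.mem_filter.1 (Finset.mem_coe.1 hm)).2
      simp only [Finset.coe_range, Set.mem_Iio]
      omega
    · intro m hm m' hm' he
      have h1 := h m (Finset.mem_filter.1 (Finset.mem_coe.1 hm)).2
      have h2 := h m' (Finset.mem_filter.1 (Finset.mem_coe.1 hm')).2
      simp only at he
      exact Fin.ext (by omega)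
  simpa using this

/-- Counting the bad positions in the complement of a window. -/
lemma card_filter_le_of_not_window {n a l : ℕ} (hn : a + l ≤ n) {Pr : Fin n → Prop}
    [DecidablePred Pr] (h : ∀ m : Fin n, Pr m → ¬ (a ≤ m.1 ∧ m.1 < a + l)) :
    (Finset.univ.filter Pr).card ≤ n - l := by
  classical
  have : (Finset.univ.filter Pr).card ≤ (Finset.range (n - l)).card := by
    refine Finset.card_le_card_of_injOn (fun m => if m.1 < a then m.1 else m.1 - l) ?_ ?_
    · intro m hm
      have h1 := h m (Finset.mem_filter.1 (Finset.mem_coe.1 hm)).2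
      have h2 := m.2
      simp only [Finset.coe_range, Set.mem_Iio]
      split_ifs <;> omega
    · intro m hm m' hm' he
      have h1 := h m (Finset.mem_filter.1 (Finset.mem_coe.1 hm)).2
      have h2 := h m' (Finset.mem_filter.1 (Finset.mem_coe.1 hm')).2
      simp only at he
      apply Fin.ext
      split_ifs at he <;> omega
  simpa using this

end Count

section Strand

variable {Γ : Type*} [Group Γ] {L P X : Type} {val : L → Γ} [MulAction Γ X] [MeasurableSpace X]
  [Fintype P] [LinearOrder P] [Countable L] (K : MGraph val P X)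
  (hact : ∀ g : Γ, Measurable fun x : X => g • x)
  (W : List (L × Bool)) (D : Set X) (hD : MeasurableSet D) (α γ : X → P)
  (hα : ∀ p, MeasurableSet {x | α x = p}) (hγ : ∀ p, MeasurableSet {x | γ x = p})

/-- The vertex of the strand over `u`, at position `k`, in the folded graph. -/
noncomputable def sv (u : X) (k : ℕ) : X × (P ⊕ₗ Fin (W.length + 1)) :=
  (preG val W k • u, (K.rhoS hact W D hD α γ hα hγ).rep (preG val W k • u) (frN P W k))

lemma sv_zero {u : X} (hu : u ∈ D) :
    K.sv hact W D hD α γ hα hγ u 0 = (u, K.repS hact W D hD α γ hα hγ u (α u)) := by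
  have h := K.repF_zero hact W D hD α γ hα hγ hu
  unfold sv
  simp only [preG_zero, one_smul]
  rw [frN_eq P W (Nat.succ_pos _)]
  exact congrArg (Prod.mk u) h

lemma sv_last {u : X} (hu : u ∈ D) :
    K.sv hact W D hD α γ hα hγ u W.length =
      (wordAct val W • u, K.repS hact W D hD α γ hα hγ (wordAct val W • u) (γ u)) := by
  have h := K.repF_last hact W D hD α γ hα hγ hu
  unfold sv
  simp only [preG_length]
  rw [frN_eq P W (Nat.lt_succ_self _)]
  exact congrArg (Prod.mk _) h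

/-- A step of the strand in the folded graph. -/
lemma sv_adj {u : X} (hu : u ∈ D) {k : ℕ} {ℓ : L × Bool} (hk : W[k]? = some ℓ) :
    (K.foldS hact W D hD α γ hα hγ).Adj ℓ (K.sv hact W D hD α γ hα hγ u k)
      (K.sv hact W D hD α γ hα hγ u (k + 1)) := by
  have hlt : k < W.length := (List.getElem?_eq_some_iff.1 hk).1
  have h := Adj.qv (K.rhoS hact W D hD α γ hα hγ) hact (K.adj_fr hact W D hD hu hk)
  unfold sv
  rw [frN_eq P W (by omega), frN_eq P W (by omega : k + 1 < W.length + 1)]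
  exact h

/-- The strand in the folded graph. -/
lemma sv_path {u : X} (hu : u ∈ D) (k m : ℕ) (hk : k + m ≤ W.length) :
    (K.foldS hact W D hD α γ hα hγ).IsPath (K.sv hact W D hD α γ hα hγ u k) ((W.drop k).take m)
      (K.sv hact W D hD α γ hα hγ u (k + m)) := by
  have h := IsPath.qv (K.rhoS hact W D hD α γ hα hγ) hact (K.isPath_fr_sub hact W D hD hu k m hk)
  unfold sv
  rw [frN_eq P W (by omega), frN_eq P W (by omega : k + m < W.length + 1)]
  exact h

/-- Every step of the strand is on the strand. -/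
lemma onPath_strand {u : X} (hu : u ∈ D) {j : ℕ} {ℓ : L × Bool} (hj : W[j]? = some ℓ) :
    (K.foldS hact W D hD α γ hα hγ).OnPath
      (oEdge ℓ (K.sv hact W D hD α γ hα hγ u j).2 (K.sv hact W D hD α γ hα hγ u (j + 1)).2)
      (oPt ℓ (K.sv hact W D hD α γ hα hγ u j).1 (K.sv hact W D hD α γ hα hγ u (j + 1)).1)
      (u, K.repS hact W D hD α γ hα hγ u (α u)) W := by
  have hlt : j < W.length := (List.getElem?_eq_some_iff.1 hj).1
  have h1 := K.sv_path hact W D hD α γ hα hγ hu 0 j (by omega)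
  simp only [List.drop_zero, zero_add] at h1
  rw [K.sv_zero hact W D hD α γ hα hγ hu] at h1
  have h2 := K.sv_adj hact W D hD α γ hα hγ hu hj
  have hW : W = W.take j ++ ℓ :: W.drop (j + 1) := by
    have e : W[j] = ℓ := (List.getElem?_eq_some_iff.1 hj).2
    rw [← e, ← List.drop_eq_getElem_cons hlt, List.take_append_drop]
  conv_rhs => rw [hW]
  exact OnPath.of_decomp h1 h2

/-- The edges of the folded graph are images of edges of `K`, or on the strand. -/
theorem foldS_edge_cases {e' : L × (P ⊕ₗ Fin (W.length + 1)) × (P ⊕ₗ Fin (W.length + 1))} {x : X}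
    (hx : x ∈ (K.foldS hact W D hD α γ hα hγ).E e'.1 e'.2.1 e'.2.2) :
    (∃ e : L × P × P, x ∈ K.E e.1 e.2.1 e.2.2 ∧
      qEdge (K.repS hact W D hD α γ hα hγ) val e x = e') ∨
    ∃ u ∈ D, (K.foldS hact W D hD α γ hα hγ).OnPath e' x
      (u, K.repS hact W D hD α γ hα hγ u (α u)) W := by
  classical
  obtain ⟨s, a', b'⟩ := e'
  obtain ⟨a₀, b₀, h1, h2, h3⟩ := hx
  simp only at h1 h2 h3
  replace h1 : (K.rhoS hact W D hD α γ hα hγ).rep x a₀ = a' := h1
  replace h2 : (K.rhoS hact W D hD α γ hα hγ).rep (val s • x) b₀ = b' := h2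
  rcases sheet_cases W a₀ with ⟨p, rfl⟩ | ⟨k, rfl⟩ <;> rcases sheet_cases W b₀ with ⟨q, rfl⟩ | ⟨k', rfl⟩
  · refine Or.inl ⟨(s, p, q), h3, ?_⟩
    simp only [qEdge]
    rw [show K.repS hact W D hD α γ hα hγ x p = a' from h1,
      show K.repS hact W D hD α γ hα hγ (val s • x) q = b' from h2]
  · exact absurd h3 (by simp)
  · exact absurd h3 (by simp)
  · right
    by_cases hs : stStep W s k k'
    · rw [K.addStrand_E_fr hact W D hD s k k' hs] at h3
      have hu : (preG val W k)⁻¹ • x ∈ D := h3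
      set u := (preG val W k)⁻¹ • x with hudef
      have hxu : x = preG val W k • u := by rw [hudef, smul_inv_smul]
      refine ⟨u, hu, ?_⟩
      rcases hs with ⟨e1, e2⟩ | ⟨e1, e2⟩
      · have e3 := preG_succ (val := val) e2
        rw [sval_true] at e3
        have e4 : preG val W (k + 1) • u = val s • x := by
          rw [e3, mul_smul, ← hxu]
        have := K.onPath_strand hact W D hD α γ hα hγ hu e2
        convert this using 1
        · simp only [oEdge, sv, if_true]
          rw [frN_val, ← hxu, e4, ← e1, frN_val, h1, h2]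
        · simp only [oPt, sv, if_true]
          exact hxu
      · have e3 := preG_succ (val := val) e2
        rw [sval_false] at e3
        have e5 : preG val W k = preG val W (k' + 1) := by rw [e1]
        have e6 : preG val W k' = val s * preG val W (k' + 1) := by
          rw [e3, mul_inv_cancel_left]
        have e7 : preG val W (k' : ℕ) • u = val s • x := by
          rw [e6, mul_smul, ← e5, ← hxu]
        have e8 : preG val W ((k' : ℕ) + 1) • u = x := by rw [← e5, ← hxu]
        have := K.onPath_strand hact W D hD α γ hα hγ hu e2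
        convert this using 1
        · simp only [oEdge, sv, Bool.false_eq_true, if_false]
          rw [e8, e7, ← e1, frN_val, frN_val, h1, h2]
        · simp only [oPt, sv, Bool.false_eq_true, if_false]
          exact e8.symm
    · rw [K.addStrand_E_fr' hact W D hD s k k' hs] at h3
      exact h3.elim

/-- The vertices of the folded graph are images of vertices of `K`, or on the strand. -/
theorem foldS_vertex_cases {p' : P ⊕ₗ Fin (W.length + 1)} {x : X}
    (hx : x ∈ (K.foldS hact W D hD α γ hα hγ).V p') :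
    (∃ p, x ∈ K.V p ∧ K.repS hact W D hD α γ hα hγ x p = p') ∨
    ∃ u ∈ D, ∃ k, k ≤ W.length ∧ (x, p') = K.sv hact W D hD α γ hα hγ u k := by
  obtain ⟨a₀, h1, h2⟩ := hx
  replace h1 : (K.rhoS hact W D hD α γ hα hγ).rep x a₀ = p' := h1
  rcases sheet_cases W a₀ with ⟨p, rfl⟩ | ⟨k, rfl⟩
  · exact Or.inl ⟨p, h2, h1⟩
  · right
    have hu : (preG val W k)⁻¹ • x ∈ D := h2
    refine ⟨_, hu, k, by have := k.2; omega, ?_⟩
    unfold sv
    rw [smul_inv_smul, frN_val, h1]

end Strand

section Types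

variable {Γ L : Type*} [Group Γ] {val : L → Γ} {P P' X I : Type*} [MulAction Γ X] [MeasurableSpace X]
variable {n : ℕ} {r : I → List (L × Bool)} (hlen : ∀ i, (r i).length = n)
  [Fintype P] [DecidableEq P] [Fintype P'] [DecidableEq P'] [Fintype L] [DecidableEq L] [Fintype I]
  {K : MGraph val P X} {K' : MGraph val P' X} {rep : X → P → P'} {μ : Measure X}

omit [Fintype P] [DecidableEq P] [Fintype L] [DecidableEq L] [Fintype I] in
lemma path_eq_sheetAt (hK' : K'.Folded) {u : X} {q : P'} {R : List (L × Bool)} {v : X × P'}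
    (h : K'.IsPath (u, q) R v) : v = (wordAct val R • u, K'.sheetAt q R u) := by
  have e : v.1 = wordAct val R • u := h.fst_eq
  have hm : u ∈ K'.pathSet q R v.2 := by
    show K'.IsPath _ _ _
    rw [← e]
    exact h
  have := sheetAt_eq hK' hm
  exact Prod.ext e this.symm

/-- The bad positions when the middle segment is lifted from `K`. -/
lemma gap_I (hK' : K'.Folded) (hrep : Mor K K' rep) {i : I} {c : P'} {z : X}
    {B₁ B₂ B₃ : List (L × Bool)} (hr : r i = B₁ ++ B₂ ++ B₃) {y₀ y₁ : X × P}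
    (hQ : K.IsPath y₀ B₂ y₁) (h0 : K'.IsPath (z, c) B₁ (y₀.1, rep y₀.1 y₀.2)) :
    (Finset.univ.filter fun m : Fin n =>
      ¬ ∃ e : L × P × P, (posW (val := val) r hlen i m) • z ∈ K.E e.1 e.2.1 e.2.2 ∧
        qEdge rep val e ((posW (val := val) r hlen i m) • z) = incW r hlen K' (i, c) m z).card ≤
      B₁.length + B₃.length := by
  have hn : n = B₁.length + B₂.length + B₃.length := by
    rw [← hlen i, hr]
    simp only [List.length_append]
  have := card_filter_le_of_not_window (n := n) (a := B₁.length) (l := B₂.length) (by omega)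
    (Pr := fun m : Fin n =>
      ¬ ∃ e : L × P × P, (posW (val := val) r hlen i m) • z ∈ K.E e.1 e.2.1 e.2.2 ∧
        qEdge rep val e ((posW (val := val) r hlen i m) • z) = incW r hlen K' (i, c) m z)
    (fun m hm hw => hm (good_of_seg hlen hK' hrep hr h0 hQ m hw.1 hw.2))
  omega

/-- The bad positions when the two outer segments are lifted from `K`. -/
lemma gap_II (hK' : K'.Folded) (hrep : Mor K K' rep) {i : I} {c : P'} {z : X}
    {B₁ B₂ B₃ : List (L × Bool)} (hr : r i = B₁ ++ B₂ ++ B₃) {y₀ y₁ a₂ : X × P}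
    (hB₁ : K.IsPath a₂ B₁ y₀) (hB₃ : K.IsPath y₁ B₃ a₂) (h0 : (z, c) = (a₂.1, rep a₂.1 a₂.2))
    (h1 : K'.IsPath (z, c) (B₁ ++ B₂) (y₁.1, rep y₁.1 y₁.2)) :
    (Finset.univ.filter fun m : Fin n =>
      ¬ ∃ e : L × P × P, (posW (val := val) r hlen i m) • z ∈ K.E e.1 e.2.1 e.2.2 ∧
        qEdge rep val e ((posW (val := val) r hlen i m) • z) = incW r hlen K' (i, c) m z).card ≤
      B₂.length := by
  refine card_filter_le_of_window (a := B₁.length) ?_
  intro m hm
  have hn : n = B₁.length + B₂.length + B₃.length := by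
    rw [← hlen i, hr]
    simp only [List.length_append]
  have hm2 := m.2
  by_contra hw
  apply hm
  by_cases h2 : m.1 < B₁.length
  · have hr' : r i = [] ++ B₁ ++ (B₂ ++ B₃) := by rw [hr]; simp
    refine good_of_seg hlen hK' hrep hr' (a := a₂) (b := y₀) (P₀ := []) (Q := B₁) (P₁ := B₂ ++ B₃) ?_
      hB₁ m (by simp) (by simpa using h2)
    exact h0
  · have hr' : r i = (B₁ ++ B₂) ++ B₃ ++ [] := by rw [hr]; simp
    refine good_of_seg hlen hK' hrep hr' (a := y₁) (b := a₂) h1 hB₃ m ?_ ?_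
    · simp only [List.length_append]
      omega
    · simp only [List.length_append]
      omega

/-- **The account**, when the middle segment of the new closed lift is lifted from `K`. -/
theorem acc_I [IsFiniteMeasure μ] {g j : ℕ} {M : ℝ} (hK : K.Folded) (hK' : K'.Folded)
    (hact : ∀ γ : Γ, Measurable fun x : X => γ • x) (hrep : Mor K K' rep) {i₀ : I} {U : Set X}
    (hU : MeasurableSet U) {f : X → P'} (hf : ∀ p', MeasurableSet {u | f u = p'})
    {R B₁ B₂ B₃ : List (L × Bool)} (hr : r i₀ = B₁ ++ B₂ ++ B₃) (y₀ y₁ : X → X × P)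
    (hv : ∀ u ∈ U, ∃ v, K'.IsPath (u, f u) R v ∧ K'.IsPath v B₁ ((y₀ u).1, rep (y₀ u).1 (y₀ u).2) ∧
      K'.IsPath ((y₁ u).1, rep (y₁ u).1 (y₁ u).2) B₃ v)
    (harc : ∀ u ∈ U, K.IsPath (y₀ u) B₂ (y₁ u))
    (hcount : B₁.length + B₃.length ≤ g)
    (hnew : ∀ (e' : L × P' × P') x, x ∈ K'.E e'.1 e'.2.1 e'.2.2 →
      (¬ ∃ e : L × P × P, x ∈ K.E e.1 e.2.1 e.2.2 ∧ qEdge rep val e x = e') →
      ∃ u ∈ U, K'.OnPath e' x ((y₁ u).1, rep (y₁ u).1 (y₁ u).2) (B₃ ++ B₁))
    (h : Acc r hlen K μ g j M) : Acc r hlen K' μ g (j + 1) M := by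
  have hvv : ∀ u ∈ U, K'.IsPath (wordAct val R • u, K'.sheetAt (f u) R u) B₁
      ((y₀ u).1, rep (y₀ u).1 (y₀ u).2) ∧ K'.IsPath ((y₁ u).1, rep (y₁ u).1 (y₁ u).2) B₃
      (wordAct val R • u, K'.sheetAt (f u) R u) := by
    intro u hu
    obtain ⟨v, h1, h2, h3⟩ := hv u hu
    rw [path_eq_sheetAt hK' h1] at h2 h3
    exact ⟨h2, h3⟩
  refine acc_step_of_cycle hlen (i₀ := i₀) (R := R) hK hK' hact hrep hU hf ?_ ?_ ?_ h
  · intro u hu
    obtain ⟨h2, h3⟩ := hvv u hu
    rw [hr]
    exact (h2.append (hrep.path (harc u hu))).append h3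
  · intro u hu
    obtain ⟨h2, -⟩ := hvv u hu
    exact (gap_I hlen hK' hrep hr (harc u hu) h2).trans hcount
  · intro e' x hx hno
    obtain ⟨u, hu, hon⟩ := hnew e' x hx hno
    refine ⟨u, hu, ?_⟩
    obtain ⟨h2, h3⟩ := hvv u hu
    rw [hr]
    rcases OnPath.append_cases hK' h3 hon with h4 | h4
    · exact OnPath.append_right (h2.append (hrep.path (harc u hu))) h4
    · rw [List.append_assoc]
      exact OnPath.append_left h4

/-- **The account**, when the two outer segments of the new closed lift are lifted from `K`. -/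
theorem acc_II [IsFiniteMeasure μ] {g j : ℕ} {M : ℝ} (hK : K.Folded) (hK' : K'.Folded)
    (hact : ∀ γ : Γ, Measurable fun x : X => γ • x) (hrep : Mor K K' rep) {i₀ : I} {U : Set X}
    (hU : MeasurableSet U) {f : X → P'} (hf : ∀ p', MeasurableSet {u | f u = p'})
    {R B₁ B₂ B₃ : List (L × Bool)} (hr : r i₀ = B₁ ++ B₂ ++ B₃) (y₀ y₁ : X → X × P)
    (hv : ∀ u ∈ U, ∃ a₂ : X × P, K'.IsPath (u, f u) R (a₂.1, rep a₂.1 a₂.2) ∧ K.IsPath a₂ B₁ (y₀ u) ∧
      K.IsPath (y₁ u) B₃ a₂)
    (hst : ∀ u ∈ U, K'.IsPath ((y₀ u).1, rep (y₀ u).1 (y₀ u).2) B₂ ((y₁ u).1, rep (y₁ u).1 (y₁ u).2))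
    (hcount : B₂.length ≤ g)
    (hnew : ∀ (e' : L × P' × P') x, x ∈ K'.E e'.1 e'.2.1 e'.2.2 →
      (¬ ∃ e : L × P × P, x ∈ K.E e.1 e.2.1 e.2.2 ∧ qEdge rep val e x = e') →
      ∃ u ∈ U, K'.OnPath e' x ((y₀ u).1, rep (y₀ u).1 (y₀ u).2) B₂)
    (h : Acc r hlen K μ g j M) : Acc r hlen K' μ g (j + 1) M := by
  have hvv : ∀ u ∈ U, ∃ a₂ : X × P, (wordAct val R • u, K'.sheetAt (f u) R u) =
      (a₂.1, rep a₂.1 a₂.2) ∧ K.IsPath a₂ B₁ (y₀ u) ∧ K.IsPath (y₁ u) B₃ a₂ := by
    intro u hu
    obtain ⟨a₂, h1, h2, h3⟩ := hv u hu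
    exact ⟨a₂, (path_eq_sheetAt hK' h1).symm, h2, h3⟩
  have hvv' : ∀ u ∈ U, ∃ a₂ : X × P, (wordAct val R • u, K'.sheetAt (f u) R u) =
      (a₂.1, rep a₂.1 a₂.2) ∧ K.IsPath a₂ B₁ (y₀ u) ∧ K.IsPath (y₁ u) B₃ a₂ ∧
      K'.IsPath (wordAct val R • u, K'.sheetAt (f u) R u) (B₁ ++ B₂)
        ((y₁ u).1, rep (y₁ u).1 (y₁ u).2) := by
    intro u hu
    obtain ⟨a₂, h1, h2, h3⟩ := hvv u hu
    refine ⟨a₂, h1, h2, h3, ?_⟩
    rw [h1]
    exact (hrep.path h2).append (hst u hu)
  refine acc_step_of_cycle hlen (i₀ := i₀) (R := R) hK hK' hact hrep hU hf ?_ ?_ ?_ h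
  · intro u hu
    obtain ⟨a₂, h1, h2, h3, h4⟩ := hvv' u hu
    rw [hr]
    refine h4.append ?_
    rw [h1]
    exact hrep.path h3
  · intro u hu
    obtain ⟨a₂, h1, h2, h3, h4⟩ := hvv' u hu
    exact (gap_II hlen hK' hrep hr h2 h3 h1 h4).trans hcount
  · intro e' x hx hno
    obtain ⟨u, hu, hon⟩ := hnew e' x hx hno
    refine ⟨u, hu, ?_⟩
    obtain ⟨a₂, h1, h2, -, -⟩ := hvv' u hu
    rw [hr, List.append_assoc, h1]
    refine OnPath.append_right (hrep.path h2) ?_
    exact OnPath.append_left hon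

end Types

section ArcCases

open Crest.Agent.Lib.NoFixedPrice.Arc FreeGroup
open Crest.Agent.NoFixedPrice.FinalDrop

variable {β : Type}

lemma rinv_rinv_aux {M : Type} (w : List (M × Bool)) : rinv (rinv w) = w := rinv_rinv' w

/-- The relator, cut at an arc pair. -/
theorem arcPair_cases {a : β → ℕ → β} {Lb : ℕ} {w : β → List β}
    (hbot : ∀ i, botW a i Lb = (embW (Crest.Agent.NoFixedPrice.pos (w i))).reverse)
    {A C : List (HLet β)} (h : ArcPair w A C) :
    ∃ i B₁ B₂ B₃, rel a Lb i = B₁ ++ B₂ ++ B₃ ∧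
      ((A.reverse = B₂ ∧ C.reverse = rinv (B₃ ++ B₁) ∧ (B₃ ++ B₁).length ≤ 5) ∨
       (C.reverse = B₂ ∧ A.reverse = rinv (B₃ ++ B₁) ∧ B₂.length ≤ 2) ∨
       (C.reverse = B₃ ++ B₁ ∧ A.reverse = rinv B₂ ∧ (B₃ ++ B₁).length ≤ 5) ∨
       (A.reverse = B₃ ++ B₁ ∧ C.reverse = rinv B₂ ∧ B₂.length ≤ 2)) := by
  -- the positive relator
  have hpos : ∀ (i : β) (X M S : List (β × Bool)), Crest.Agent.NoFixedPrice.pos (w i) = X ++ M ++ S →
      rel a Lb i = (embW S).reverse ++ (embW M).reverse ++ ((embW X).reverse ++ [tL, emb (i, false), tI]) := by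
    intro i X M S hs
    unfold rel
    rw [hbot, hs]
    simp [embW, tL, tI, emb]
  -- the negative relator
  have hneg : ∀ (i : β) (X M S : List (β × Bool)), Crest.Agent.NoFixedPrice.neg (w i) = X ++ M ++ S →
      rel a Lb i = rinv (embW X).reverse ++ rinv (embW M).reverse ++
        (rinv (embW S).reverse ++ [tL, emb (i, false), tI]) := by
    intro i X M S hs
    have h3 : Crest.Agent.NoFixedPrice.pos (w i) = invRev S ++ invRev M ++ invRev X := by
      have h4 : Crest.Agent.NoFixedPrice.pos (w i) = invRev (X ++ M ++ S) := by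
        rw [← hs, Crest.Agent.NoFixedPrice.invRev_neg]
      rw [h4]
      simp [invRev_append, List.append_assoc]
    rw [hpos i _ _ _ h3]
    simp only [embW_invRev_reverse, List.append_assoc]
  rcases h with ⟨⟨i, b⟩, X, M, S, hs, hl, rfl, rfl⟩ | ⟨⟨i, b⟩, X, M, S, hs, hl, rfl, rfl⟩
  · cases b
    · have hs' : Crest.Agent.NoFixedPrice.neg (w i) = X ++ M ++ S := by
        simpa [Crest.Agent.NoFixedPrice.block] using hs
      refine ⟨i, _, _, _, hneg i X M S hs', Or.inr (Or.inr (Or.inl ⟨?_, ?_, ?_⟩))⟩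
      · rw [reverse_D]
        simp [emb]
      · rw [rinv_rinv']
      · simp [List.length_append, rinv]
        omega
    · have hs' : Crest.Agent.NoFixedPrice.pos (w i) = X ++ M ++ S := by
        simpa [Crest.Agent.NoFixedPrice.block] using hs
      refine ⟨i, _, _, _, hpos i X M S hs', Or.inl ⟨rfl, ?_, ?_⟩⟩
      · rw [reverse_D, rinv_append', rinv_append', rinv_T]
        simp
      · simp [List.length_append]
        omega
  · cases b
    · have hs' : Crest.Agent.NoFixedPrice.neg (w i) = X ++ M ++ S := by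
        simpa [Crest.Agent.NoFixedPrice.block] using hs
      refine ⟨i, _, _, _, hneg i X M S hs', Or.inr (Or.inr (Or.inr ⟨?_, ?_, ?_⟩))⟩
      · rw [reverse_D]
        simp [emb]
      · rw [rinv_rinv']
      · simpa [rinv] using hl
    · have hs' : Crest.Agent.NoFixedPrice.pos (w i) = X ++ M ++ S := by
        simpa [Crest.Agent.NoFixedPrice.block] using hs
      refine ⟨i, _, _, _, hpos i X M S hs', Or.inr (Or.inl ⟨rfl, ?_, ?_⟩)⟩
      · rw [reverse_D, rinv_append', rinv_append', rinv_T]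
        simp
      · simpa using hl

/-- Two consecutive letters do not cancel. -/
def NoCancel {M : Type} (a b : M × Bool) : Prop := b ≠ sinv a

lemma chain_uni {M : Type} {l : List (M × Bool)} {b : Bool} (h : ∀ x ∈ l, x.2 = b) :
    List.IsChain NoCancel l := by
  induction l with
  | nil => exact List.isChain_nil
  | cons x xs ih =>
    cases xs with
    | nil => exact List.isChain_singleton x
    | cons y ys =>
      rw [List.isChain_cons_cons]
      refine ⟨?_, ih fun z hz => h z (List.mem_cons_of_mem _ hz)⟩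
      intro he
      have h1 := h x (by simp)
      have h2 := h y (by simp)
      rw [he] at h2
      simp [sinv] at h2
      rw [h1] at h2
      simp at h2

lemma block_sign {w : β → List β} {y : β × Bool} {x : β × Bool}
    (h : x ∈ Crest.Agent.NoFixedPrice.block w y) : x.2 = y.2 := by
  obtain ⟨i, b⟩ := y
  cases b
  · simp only [Crest.Agent.NoFixedPrice.block, Bool.false_eq_true, if_false,
      Crest.Agent.NoFixedPrice.neg, List.mem_map] at h
    obtain ⟨c, _, rfl⟩ := h
    rfl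
  · simp only [Crest.Agent.NoFixedPrice.block, if_true, Crest.Agent.NoFixedPrice.pos,
      List.mem_map] at h
    obtain ⟨c, _, rfl⟩ := h
    rfl

/-- The complementary word does not cancel. -/
theorem arcPair_noCancel {w : β → List β} {A C : List (HLet β)} (h : ArcPair w A C) :
    List.IsChain NoCancel C.reverse := by
  have hsub : ∀ {y : β × Bool} {X M S : List (β × Bool)}, Crest.Agent.NoFixedPrice.block w y = X ++ M ++ S →
      (∀ x ∈ X, x.2 = y.2) ∧ (∀ x ∈ M, x.2 = y.2) ∧ (∀ x ∈ S, x.2 = y.2) := by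
    intro y X M S hs
    refine ⟨fun x hx => block_sign (w := w) (by rw [hs]; simp [hx]), fun x hx => block_sign (w := w) (by rw [hs]; simp [hx]),
      fun x hx => block_sign (w := w) (by rw [hs]; simp [hx])⟩
  rcases h with ⟨y, X, M, S, hs, -, -, rfl⟩ | ⟨y, X, M, S, hs, -, -, rfl⟩
  · obtain ⟨h1, -, h3⟩ := hsub hs
    rw [reverse_D]
    have hu : ∀ Y : List (β × Bool), (∀ x ∈ Y, x.2 = y.2) →
        (∀ x ∈ rinv (embW Y).reverse, x.1 ≠ none ∧ x.2 = !y.2) := by
      intro Y hY x hx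
      simp only [rinv, List.map_reverse, List.reverse_reverse, List.mem_map] at hx
      obtain ⟨z, ⟨t, ht, rfl⟩, rfl⟩ := hx
      simp [sinv, emb, hY t ht]
    have hc1 := chain_uni (b := !y.2) fun x hx => (hu S h3 x hx).2
    have hc2 := chain_uni (b := !y.2) fun x hx => (hu X h1 x hx).2
    rw [List.isChain_append]
    refine ⟨hc1, ?_, ?_⟩
    · rw [List.isChain_append]
      refine ⟨?_, hc2, ?_⟩
      · simp only [List.isChain_cons_cons, List.isChain_singleton, and_true]
        refine ⟨?_, ?_⟩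
        · simp [NoCancel, tL, emb, sinv]
        · simp [NoCancel, tI, emb, sinv]
      · intro x hx z hz
        simp only [List.getLast?_cons_cons, List.getLast?_singleton, Option.mem_def,
          Option.some.injEq] at hx
        subst hx
        have hz' := List.mem_of_mem_head? hz
        have := (hu X h1 z hz').1
        intro he
        exact this (by rw [he]; rfl)
    · intro x hx z hz
      have hx' := List.mem_of_mem_getLast? hx
      simp only [List.cons_append, List.head?_cons, Option.mem_def, Option.some.injEq] at hz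
      subst hz
      have := (hu S h3 x hx').1
      intro he
      apply this
      have : (sinv x).1 = x.1 := rfl
      rw [← this, ← he]
      rfl
  · obtain ⟨-, h2, -⟩ := hsub hs
    refine chain_uni (b := y.2) ?_
    intro x hx
    simp only [List.mem_reverse, List.mem_map] at hx
    obtain ⟨t, ht, rfl⟩ := hx
    exact h2 t ht

end ArcCases

section AccFoldS

open Crest.Agent.Lib.NoFixedPrice.Arc FreeGroup
open Crest.Agent.NoFixedPrice.FinalDrop

variable {Γ : Type*} [Group Γ] {β P X : Type} [Fintype β] {val : Option β → Γ} [MulAction Γ X]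
  [MeasurableSpace X] [Fintype P] [LinearOrder P] (K : MGraph val P X)
  (hact : ∀ g : Γ, Measurable fun x : X => g • x)
  (W : List (Option β × Bool)) (D : Set X) (hD : MeasurableSet D) (α γ : X → P)
  (hα : ∀ p, MeasurableSet {x | α x = p}) (hγ : ∀ p, MeasurableSet {x | γ x = p})
  {a : β → ℕ → β} {Lb : ℕ} {w : β → List β}

lemma measurable_repS_comp (p' : P ⊕ₗ Fin (W.length + 1)) :
    MeasurableSet {u | K.repS hact W D hD α γ hα hγ u (α u) = p'} := by
  have : {u | K.repS hact W D hD α γ hα hγ u (α u) = p'} =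
      ⋃ p, {x | α x = p} ∩ {u | K.repS hact W D hD α γ hα hγ u p = p'} := by
    ext u
    simp
  rw [this]
  exact MeasurableSet.iUnion fun p => (hα p).inter ((K.mor_repS hact W D hD α γ hα hγ).meas p p')

/-- **The account through a stage.** -/
theorem acc_foldS {n : ℕ} (hlen : ∀ i, (rel a Lb i).length = n) {μ : Measure X} [IsFiniteMeasure μ]
    [DecidableEq (Option β)] [DecidableEq P] [Fintype (Option β)]
    [DecidableEq (P ⊕ₗ Fin (W.length + 1))]
    {A C : List (HLet β)} {g j : ℕ} {M : ℝ} (hK : K.Folded)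
    (hbot : ∀ i, botW a i Lb = (embW (Crest.Agent.NoFixedPrice.pos (w i))).reverse)
    (hAC : ArcPair w A C) (hW : C.reverse = W)
    (harc : ∀ u ∈ D, K.IsPath (u, α u) A.reverse (wordAct val W • u, γ u)) (hg : 5 ≤ g)
    (h : Acc (rel a Lb) hlen K μ g j M) :
    Acc (rel a Lb) hlen (K.foldS hact W D hD α γ hα hγ) μ g (j + 1) M := by
  have hF' := K.folded_foldS hact W D hD α γ hα hγ
  have hrep := K.mor_repS hact W D hD α γ hα hγ
  have hf := K.measurable_repS_comp hact W D hD α γ hα hγ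
  have hst : ∀ u ∈ D, _ := fun u hu => K.foldS_isPath hact W D hD α γ hα hγ hu
  have hnew : ∀ (e' : Option β × (P ⊕ₗ Fin (W.length + 1)) × (P ⊕ₗ Fin (W.length + 1))) x,
      x ∈ (K.foldS hact W D hD α γ hα hγ).E e'.1 e'.2.1 e'.2.2 →
      (¬ ∃ e : Option β × P × P, x ∈ K.E e.1 e.2.1 e.2.2 ∧
        qEdge (K.repS hact W D hD α γ hα hγ) val e x = e') →
      ∃ u ∈ D, (K.foldS hact W D hD α γ hα hγ).OnPath e' x
        (u, K.repS hact W D hD α γ hα hγ u (α u)) W := by
    intro e' x hx hno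
    rcases K.foldS_edge_cases hact W D hD α γ hα hγ hx with h1 | h1
    · exact absurd h1 hno
    · exact h1
  obtain ⟨i, B₁, B₂, B₃, hr, hc⟩ := arcPair_cases hbot hAC
  rcases hc with ⟨h1, h2, h3⟩ | ⟨h1, h2, h3⟩ | ⟨h1, h2, h3⟩ | ⟨h1, h2, h3⟩
  · -- positive, the arc is the long side
    rw [hW] at h2
    subst h2
    rw [h1] at harc
    refine acc_I hlen (i₀ := i) (R := B₂ ++ B₃) hK hF' hact hrep hD hf hr (fun u => (u, α u))
      (fun u => (wordAct val (rinv (B₃ ++ B₁)) • u, γ u)) ?_ harc ?_ ?_ h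
    · intro u hu
      have h4 := (hst u hu).rinv
      rw [rinv_rinv'] at h4
      obtain ⟨v, h5, h6⟩ := (MGraph.isPath_append _ _ _ _ _).1 h4
      exact ⟨v, (hrep.path (harc u hu)).append h5, h6, h5⟩
    · simp only [List.length_append] at h3
      omega
    · intro e' x hx hno
      obtain ⟨u, hu, hon⟩ := hnew e' x hx hno
      refine ⟨u, hu, ?_⟩
      have h4 := OnPath.rinv hF' (hst u hu) hon
      rw [rinv_rinv'] at h4
      exact h4
  · -- positive, the strand is the short side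
    rw [hW] at h1
    subst h1
    rw [h2] at harc
    refine acc_II hlen (i₀ := i) (R := W ++ B₃) hK hF' hact hrep hD hf hr (fun u => (u, α u))
      (fun u => (wordAct val W • u, γ u)) ?_ hst (by omega) hnew h
    intro u hu
    have h4 := (harc u hu).rinv
    rw [rinv_rinv'] at h4
    obtain ⟨a₂, h5, h6⟩ := (K.isPath_append _ _ _ _).1 h4
    exact ⟨a₂, (hst u hu).append (hrep.path h5), h6, h5⟩
  · -- negative, the arc is the long side
    rw [hW] at h1
    subst h1
    rw [h2] at harc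
    refine acc_I hlen (i₀ := i) (R := B₃) hK hF' hact hrep hD hf hr
      (fun u => (wordAct val (B₃ ++ B₁) • u, γ u)) (fun u => (u, α u)) ?_ ?_ ?_ hnew h
    · intro u hu
      obtain ⟨v, h5, h6⟩ := (MGraph.isPath_append _ _ _ _ _).1 (hst u hu)
      exact ⟨v, h5, h6, h5⟩
    · intro u hu
      have h4 := (harc u hu).rinv
      rw [rinv_rinv'] at h4
      exact h4
    · simp only [List.length_append] at h3
      omega
  · -- negative, the strand is the short side
    rw [hW] at h2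
    subst h2
    rw [h1] at harc
    refine acc_II hlen (i₀ := i) (R := B₃) hK hF' hact hrep hD hf hr
      (fun u => (wordAct val (rinv B₂) • u, γ u)) (fun u => (u, α u)) ?_ ?_ (by omega) ?_ h
    · intro u hu
      obtain ⟨a₂, h5, h6⟩ := (K.isPath_append _ _ _ _).1 (harc u hu)
      exact ⟨a₂, hrep.path h5, h6, h5⟩
    · intro u hu
      have h4 := (hst u hu).rinv
      rw [rinv_rinv'] at h4
      exact h4
    · intro e' x hx hno
      obtain ⟨u, hu, hon⟩ := hnew e' x hx hno
      refine ⟨u, hu, ?_⟩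
      have h4 := OnPath.rinv hF' (hst u hu) hon
      rw [rinv_rinv'] at h4
      exact h4

end AccFoldS

section Base

variable {Γ : Type*} [Group Γ] {L P X : Type} {val : L → Γ} [MulAction Γ X] [MeasurableSpace X]
  [Fintype P] [LinearOrder P] [Countable L] (K : MGraph val P X)
  (hact : ∀ g : Γ, Measurable fun x : X => g • x)
  (W : List (L × Bool)) (D : Set X) (hD : MeasurableSet D) (α γ : X → P)
  (hα : ∀ p, MeasurableSet {x | α x = p}) (hγ : ∀ p, MeasurableSet {x | γ x = p})

omit [Fintype P] [Countable L] in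
/-- The old sheet `b`, least among the old sheets, is least. -/
lemma inS_least {b : P} (hb : ∀ p, b ≤ p) (a : P ⊕ₗ Fin (W.length + 1)) : inS W b ≤ a := by
  rcases sheet_cases W a with ⟨p, rfl⟩ | ⟨k, rfl⟩
  · exact Sum.Lex.inl_le_inl_iff.2 (hb p)
  · exact Sum.Lex.inl_le_inr _ _

/-- The least sheet is its own representative. -/
lemma repS_base {b : P} (hb : ∀ p, b ≤ p) (x : X) :
    K.repS hact W D hD α γ hα hγ x b = inS W b :=
  le_antisymm ((K.rhoS hact W D hD α γ hα hγ).rep_le ((((K.rhoS hact W D hD α γ hα hγ).rel x).iseqv).refl _))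
    (inS_least W hb _)

/-- The `t`-lines on the base. -/
lemma tline_foldS {s : L} {b : P} (hb : ∀ p, b ≤ p) (ht : ∀ x, x ∈ K.E s b b) (x : X) :
    x ∈ (K.foldS hact W D hD α γ hα hγ).E s (inS W b) (inS W b) := by
  have h := (K.mor_repS hact W D hD α γ hα hγ).edge s b b x (ht x)
  rwa [K.repS_base hact W D hD α γ hα hγ hb, K.repS_base hact W D hD α γ hα hγ hb] at h

/-- Connection to the base in the folded graph. -/
lemma conn_base_foldS {b : P} (hb : ∀ p, b ≤ p) {x y : X} {p : P} (h : K.Conn (y, b) (x, p)) :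
    (K.foldS hact W D hD α γ hα hγ).Conn (y, inS W b) (x, K.repS hact W D hD α γ hα hγ x p) := by
  obtain ⟨w, hw⟩ := h
  have h2 := (K.mor_repS hact W D hD α γ hα hγ).path hw
  simp only [K.repS_base hact W D hD α γ hα hγ hb] at h2
  exact ⟨w, h2⟩

/-- Every vertex of the folded graph is connected to the base. -/
theorem vert_foldS {b : P} (hb : ∀ p, b ≤ p)
    (hv : ∀ x p, x ∈ K.V p → ∃ y, K.Conn (y, b) (x, p))
    (hsv : ∀ u ∈ D, u ∈ K.V (α u)) {x : X} {p' : P ⊕ₗ Fin (W.length + 1)}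
    (hx : x ∈ (K.foldS hact W D hD α γ hα hγ).V p') :
    ∃ y, (K.foldS hact W D hD α γ hα hγ).Conn (y, inS W b) (x, p') := by
  rcases K.foldS_vertex_cases hact W D hD α γ hα hγ hx with ⟨p, h1, rfl⟩ | ⟨u, hu, k, hk, he⟩
  · obtain ⟨y, hy⟩ := hv x p h1
    exact ⟨y, K.conn_base_foldS hact W D hD α γ hα hγ hb hy⟩
  · obtain ⟨y, hy⟩ := hv u (α u) (hsv u hu)
    refine ⟨y, (K.conn_base_foldS hact W D hD α γ hα hγ hb hy).trans ?_⟩
    rw [he]
    have h1 := K.sv_path hact W D hD α γ hα hγ hu 0 k (by omega)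
    rw [K.sv_zero hact W D hD α γ hα hγ hu, zero_add] at h1
    exact ⟨_, h1⟩

end Base

section Leaf

variable {Γ : Type*} [Group Γ] {L P X : Type} {val : L → Γ} [MulAction Γ X] [MeasurableSpace X]
  [Fintype P] [LinearOrder P] [Fintype L] [DecidableEq L] (K : MGraph val P X)
  (hact : ∀ g : Γ, Measurable fun x : X => g • x)
  (W : List (L × Bool)) (D : Set X) (hD : MeasurableSet D) (α γ : X → P)
  (hα : ∀ p, MeasurableSet {x | α x = p}) (hγ : ∀ p, MeasurableSet {x | γ x = p})

omit [LinearOrder P] [Fintype L] [DecidableEq L] in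
lemma two_le_deg' [Fintype L] [DecidableEq P] {K : MGraph val P X} {x : X} {p : P}
    {ℓ₁ ℓ₂ : L × Bool} {v₁ v₂ : X × P}
    (h₁ : K.Adj ℓ₁ (x, p) v₁) (h₂ : K.Adj ℓ₂ (x, p) v₂) (hne : ℓ₁ ≠ ℓ₂) : 2 ≤ K.deg x p := by
  classical
  have e₁ : v₁ = (sval val ℓ₁ • x, v₁.2) := Prod.ext h₁.fst_eq rfl
  have e₂ : v₂ = (sval val ℓ₂ • x, v₂.2) := Prod.ext h₂.fst_eq rfl
  have h₁' : x ∈ K.half ℓ₁ p v₁.2 := by
    show K.Adj _ _ _
    rw [← e₁]
    exact h₁
  have h₂' : x ∈ K.half ℓ₂ p v₂.2 := by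
    show K.Adj _ _ _
    rw [← e₂]
    exact h₂
  have hs : ({(ℓ₁, v₁.2), (ℓ₂, v₂.2)} : Finset ((L × Bool) × P)) ⊆
      Finset.univ.filter fun a : (L × Bool) × P => x ∈ K.half a.1 p a.2 := by
    intro y hy
    simp only [Finset.mem_insert, Finset.mem_singleton] at hy
    rcases hy with rfl | rfl <;> simp [h₁', h₂']
  have hc := Finset.card_le_card hs
  have h3 : ({(ℓ₁, v₁.2), (ℓ₂, v₂.2)} : Finset ((L × Bool) × P)).card = 2 := by
    rw [Finset.card_pair]
    simp [hne]
  unfold deg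
  rw [h3] at hc
  convert hc

/-- **Leaves do not increase along a stage.** -/
theorem leafMass_foldS {μ : Measure X} [IsFiniteMeasure μ]
    (hmp : ∀ g : Γ, MeasurePreserving (fun x : X => g • x) μ μ) (hK : K.Folded)
    (hsv : ∀ u ∈ D, u ∈ K.V (α u) ∧ wordAct val W • u ∈ K.V (γ u))
    (hred : List.IsChain NoCancel W) :
    (K.foldS hact W D hD α γ hα hγ).leafMass μ ≤ K.leafMass μ := by
  classical
  refine leafMass_le_of_mor hmp hK (K.mor_repS hact W D hD α γ hα hγ) ?_
  intro x p' hx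
  rcases K.foldS_vertex_cases hact W D hD α γ hα hγ hx with h1 | ⟨u, hu, k, hk, he⟩
  · exact Or.inl h1
  · by_cases h0 : k = 0
    · subst h0
      rw [K.sv_zero hact W D hD α γ hα hγ hu] at he
      obtain ⟨rfl, rfl⟩ := Prod.mk.inj he
      exact Or.inl ⟨α x, (hsv x hu).1, rfl⟩
    · by_cases h2 : k = W.length
      · subst h2
        rw [K.sv_last hact W D hD α γ hα hγ hu] at he
        obtain ⟨rfl, rfl⟩ := Prod.mk.inj he
        exact Or.inl ⟨γ u, (hsv u hu).2, rfl⟩
      · right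
        obtain ⟨j, rfl⟩ : ∃ j, k = j + 1 := ⟨k - 1, by omega⟩
        have hj1 : j < W.length := by omega
        have hj2 : j + 1 < W.length := by omega
        have h3 := K.sv_adj hact W D hD α γ hα hγ hu (k := j) (ℓ := W[j])
          (List.getElem?_eq_getElem hj1)
        have h4 := K.sv_adj hact W D hD α γ hα hγ hu (k := j + 1) (ℓ := W[j + 1])
          (List.getElem?_eq_getElem hj2)
        rw [← he] at h3 h4
        have h5 := List.isChain_iff_getElem.1 hred j hj2
        exact two_le_deg' h4 h3.symm h5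

end Leaf

section Excess

lemma measureReal_stV_aux {Γ X : Type*} [Group Γ] [MulAction Γ X] [MeasurableSpace X] (μ : Measure X)
    (hmp : ∀ g : Γ, MeasurePreserving (fun x : X => g • x) μ μ) {D : Set X} (hD : MeasurableSet D)
    (g : Γ) : μ.real ((fun x => g⁻¹ • x) ⁻¹' D) = μ.real D := by
  rw [measureReal_def, measureReal_def, (hmp _).measure_preimage hD.nullMeasurableSet]

variable {Γ : Type*} [Group Γ] {L P X : Type} {val : L → Γ} [MulAction Γ X] [MeasurableSpace X]
  [Fintype P] [LinearOrder P] [Fintype L] (K : MGraph val P X)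
  (hact : ∀ g : Γ, Measurable fun x : X => g • x)
  (W : List (L × Bool)) (D : Set X) (hD : MeasurableSet D) (α γ : X → P)
  (hα : ∀ p, MeasurableSet {x | α x = p}) (hγ : ∀ p, MeasurableSet {x | γ x = p})

omit [Fintype L] in
lemma seed_mass_aux {Q : Type} [Fintype Q] {μ : Measure X} [IsFiniteMeasure μ] (f : X → Q × Q)
    (hf : ∀ z, MeasurableSet {x | f x = z}) (S : Set X) (hS : MeasurableSet S) :
    ∑ a, ∑ b, μ.real ({x | f x = (a, b)} ∩ S) = μ.real S := by
  classical
  rw [← Fintype.sum_prod_type' (f := fun a b => μ.real ({x | f x = (a, b)} ∩ S))]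
  exact sum_measureReal_fiber μ f hf S hS

omit [LinearOrder P] [Fintype L] in
lemma level_aux {Q : Type} {P' : Type} [Finite P'] (h : P' → Q) (b₀ : Q) (δ : X → P')
    (hδ : ∀ p, MeasurableSet {x | δ x = p}) (z : Q × Q) :
    MeasurableSet {x | (h (δ x), b₀) = z} := by
  have : {x | (h (δ x), b₀) = z} = ⋃ p, {x | δ x = p} ∩ {_x | (h p, b₀) = z} := by
    ext x
    simp
  rw [this]
  refine MeasurableSet.iUnion fun p => (hδ p).inter (MeasurableSet.const _)

include hact hD hα hγ in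
/-- The mass of the seeds. -/
lemma sum_seed_le {μ : Measure X} [IsFiniteMeasure μ]
    (hmp : ∀ g : Γ, MeasurePreserving (fun x : X => g • x) μ μ) :
    ∑ a, ∑ b, μ.real (seedSets (seedS (val := val) W D α γ) a b) ≤ 2 * μ.real D := by
  classical
  set g := wordAct val W with hg
  let f₁ : X → (P ⊕ₗ Fin (W.length + 1)) × (P ⊕ₗ Fin (W.length + 1)) :=
    fun x => (inS W (α x), fr P W 0)
  let f₂ : X → (P ⊕ₗ Fin (W.length + 1)) × (P ⊕ₗ Fin (W.length + 1)) :=
    fun x => (inS W (γ (g⁻¹ • x)), fr P W (Fin.last _))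
  have hf₁ : ∀ z, MeasurableSet {x | f₁ x = z} := level_aux (inS W) (fr P W 0) α hα
  have hf₂ : ∀ z, MeasurableSet {x | f₂ x = z} := fun z =>
    hact g⁻¹ (level_aux (inS W) (fr P W (Fin.last _)) γ hγ z)
  have hD₂ : MeasurableSet ((fun x => g⁻¹ • x) ⁻¹' D) := hact _ hD
  have h1 : ∑ a, ∑ b, μ.real ({x | f₁ x = (a, b)} ∩ D) = μ.real D :=
    seed_mass_aux f₁ hf₁ D hD
  have h2 : ∑ a, ∑ b, μ.real ({x | f₂ x = (a, b)} ∩ ((fun x => g⁻¹ • x) ⁻¹' D)) = μ.real D := by
    rw [seed_mass_aux f₂ hf₂ _ hD₂]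
    exact measureReal_stV_aux μ hmp hD g
  have hsub : ∀ a b, μ.real (seedSets (seedS (val := val) W D α γ) a b) ≤
      μ.real ({x | f₁ x = (a, b)} ∩ D) +
        μ.real ({x | f₂ x = (a, b)} ∩ ((fun x => g⁻¹ • x) ⁻¹' D)) := by
    intro a b
    refine (measureReal_mono ?_).trans (measureReal_union_le _ _)
    rintro x (⟨h3, rfl, rfl⟩ | ⟨h3, rfl, rfl⟩)
    · exact Or.inl ⟨rfl, h3⟩
    · exact Or.inr ⟨rfl, h3⟩
  calc ∑ a, ∑ b, μ.real (seedSets (seedS (val := val) W D α γ) a b)
      ≤ ∑ a, ∑ b, (μ.real ({x | f₁ x = (a, b)} ∩ D) +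
          μ.real ({x | f₂ x = (a, b)} ∩ ((fun x => g⁻¹ • x) ⁻¹' D))) :=
        Finset.sum_le_sum fun a _ => Finset.sum_le_sum fun b _ => hsub a b
    _ = 2 * μ.real D := by
        simp only [Finset.sum_add_distrib]
        rw [h1, h2]
        ring

/-- The excess grows by at most the mass of the strand. -/
theorem excess_foldS_le {μ : Measure X} [IsFiniteMeasure μ]
    (hmp : ∀ g : Γ, MeasurePreserving (fun x : X => g • x) μ μ) (hrank : RankIneq Γ X μ)
    (hsv : ∀ u ∈ D, u ∈ K.V (α u) ∧ wordAct val W • u ∈ K.V (γ u)) :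
    (K.foldS hact W D hD α γ hα hγ).excess μ ≤ K.excess μ + μ.real D := by
  classical
  have hseed := measurable_seedS (val := val) hact W D hD α γ hα hγ
  have h0 := Cert.start (K.addStrand hact W D hD) (seedSets (seedS (val := val) W D α γ)) hseed μ
    (fun _ => True)
  have h1 : Cert (K.foldS hact W D hD α γ hα hγ) (noSeed (P ⊕ₗ Fin (W.length + 1)) X) (fun _ => True)
      μ _ := Cert.fold (K.addStrand hact W D hD) hact (seedS (val := val) W D α γ) hseed h0 ?_
        (fun _ _ _ => trivial)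
  · have h2 := Cert.excess_le_of_true hrank h1
    have h3 := K.massE_addStrand_le hact W D μ hmp hD
    have h4 := K.massV_addStrand hact W D μ hmp hD
    have h5 := sum_seed_le (val := val) hact W D hD α γ hα hγ hmp (μ := μ)
    unfold excess
    rw [h4] at h2
    nlinarith
  · rintro x p q (⟨h2, rfl, rfl⟩ | ⟨h2, rfl, rfl⟩)
    · refine ⟨(hsv x h2).1, ?_⟩
      show x ∈ stV val W D _
      simpa [mem_stV] using h2
    · have h3 := (hsv _ h2).2
      rw [smul_inv_smul] at h3
      refine ⟨h3, ?_⟩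
      show x ∈ stV val W D _
      simpa [mem_stV, preG_length] using h2

end Excess

end MGraph

end Crest.Agent.NoFixedPrice
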