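import Crest.Agent.Lib.NoFixedPrice.Stage2
import Crest.Agent.Lib.NoFixedPrice.Class
import Crest.Agent.Lib.NoFixedPrice.FinalCx

/-!
# Row 191: `StageStmt` (helper46)

The object after a stage: sheets `P ⊕ₗ Fin (|C| + 1)`, graph `foldS`, the base on the old sheet.
-/

set_option autoImplicit false
set_option linter.unusedSectionVars false

namespace Crest.Agent.NoFixedPrice.MainLoop

open MeasureTheory FreeGroup Crest.Dynamics
open Crest.Agent.Lib.NoFixedPrice.Arc
open Crest.Agent.NoFixedPrice
open Crest.Agent.NoFixedPrice.FinalDrop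
open Crest.Agent.NoFixedPrice.MGraph

/-- The rank inequality for the Bernoulli action. -/
lemma rankIneq_bern (d : ℕ) [NeZero d] : RankIneq (GamL d) (XL d) (muL d) :=
  rankIneq_of_free measurePreserving_bern_smul (bern_free_ae d)

variable {d : ℕ} [NeZero d]

/-- A nonempty path starts at a vertex. -/
lemma isPath_mem_left {Γ L P X : Type*} [Group Γ] [MulAction Γ X] [MeasurableSpace X] {val : L → Γ}
    {K : MGraph val P X} {w : List (L × Bool)} {v v' : X × P} (hw : w ≠ [])
    (h : K.IsPath v w v') : v.1 ∈ K.V v.2 := by
  cases w with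
  | nil => exact absurd rfl hw
  | cons ℓ w =>
    obtain ⟨m, h1, -⟩ := h
    exact h1.mem_left

/-- **One stage.** -/
theorem stageStmt (hd : 8 ≤ d) {e κ s c : ℝ} {g : ℕ} (hκ : s + 1 ≤ κ) (hg : 5 ≤ g) :
    StageStmt d e κ s c g := by
  classical
  intro O hO hS t ht U α γ A C hU hα hγ hAC harc
  have hmp : ∀ g : GamL d, MeasurePreserving (fun x : XL d => g • x) (muL d) (muL d) :=
    measurePreserving_bern_smul
  have hact : ∀ g : GamL d, Measurable fun x : XL d => g • x := fun g => (hmp g).measurable
  have hevalC : evalW (iota (latin_good d)) (tt (latin_good d)) A =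
      evalW (iota (latin_good d)) (tt (latin_good d)) C :=
    ArcPair.evalW_eq (latin_good d) (block_relation (latin_good d)) hAC
  have hgW : wordAct (lval (latin_good d)) C.reverse =
      evalW (iota (latin_good d)) (tt (latin_good d)) A := by
    rw [wordAct_reverse, hevalC]
  have harc' : ∀ u ∈ U, O.K.IsPath (u, α u) A.reverse
      (wordAct (lval (latin_good d)) C.reverse • u, γ u) := by
    intro u hu
    rw [hgW]
    exact harc u hu
  have hAne : A.reverse ≠ [] := by
    intro h0
    have h1 := ArcPair.length_lt (fun a => length_latin a) hd hAC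
    have h2 : A = [] := by simpa using h0
    rw [h2] at h1
    simp at h1
  have hsv : ∀ u ∈ U, u ∈ O.K.V (α u) ∧ wordAct (lval (latin_good d)) C.reverse • u ∈ O.K.V (γ u) := by
    intro u hu
    have h1 := harc' u hu
    refine ⟨isPath_mem_left hAne h1, isPath_mem_left (w := rinv A.reverse) ?_ h1.rinv⟩
    intro h0
    apply hAne
    have : (rinv A.reverse).length = 0 := by rw [h0]; rfl
    simp only [rinv, List.length_reverse, List.length_map] at this
    exact List.length_eq_zero_iff.1 (by simpa using this)
  have hF := hO.folded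
  have hF' := O.K.folded_foldS hact C.reverse U hU α γ hα hγ
  have hrep := O.K.mor_repS hact C.reverse U hU α γ hα hγ
  let O' : ObjL d :=
    { P := O.P ⊕ₗ Fin (C.reverse.length + 1)
      K := O.K.foldS hact C.reverse U hU α γ hα hγ
      b := inS C.reverse O.b }
  let f : Arrow (latin_good d) O O' :=
    { r := O.K.repS hact C.reverse U hU α γ hα hγ
      meas := hrep.meas
      hom := fun ℓ v v' h => hrep.adj h
      base := fun x => O.K.repS_base hact C.reverse U hU α γ hα hγ hO.least x }
  refine ⟨O', f, ?_, ?_, ?_⟩
  · refine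
      { least := inS_least C.reverse hO.least
        folded := hF'
        tline := O.K.tline_foldS hact C.reverse U hU α γ hα hγ hO.least hO.tline
        gen := ?_
        vert := ?_
        cert := ?_
        cap := ?_ }
    · intro x g'
      have h := O.K.conn_base_foldS hact C.reverse U hU α γ hα hγ hO.least (hO.gen x g')
      rw [O.K.repS_base hact C.reverse U hU α γ hα hγ hO.least] at h
      exact h
    · intro x p' hx
      exact O.K.vert_foldS hact C.reverse U hU α γ hα hγ hO.least hO.vert
        (fun u hu => (hsv u hu).1) hx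
    · exact Cert.foldS O.K hact C.reverse U hU α γ hα hγ hO.cert hF (fun i => botW_aL i)
        (fun i => wordAct_rel i) hAC rfl harc' hsv
    · have h1 := O.K.excess_foldS_le hact C.reverse U hU α γ hα hγ hmp (rankIneq_bern d) hsv
      have h2 : (muL d).real U ≤ 1 := measureReal_le_one
      have h3 := hS.excess_le
      show (O.K.foldS hact C.reverse U hU α γ hα hγ).excess (muL d) ≤ κ
      linarith
  · obtain ⟨⟨j, hj⟩, hl⟩ := ht
    refine ⟨⟨j + 1, ?_⟩, ?_⟩
    · exact O.K.acc_foldS hact C.reverse U hU α γ hα hγ (relL_len d) hF (fun i => botW_aL i) hAC rfl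
        harc' hg hj
    · have h1 := O.K.leafMass_foldS hact C.reverse U hU α γ hα hγ hmp hF hsv (arcPair_noCancel hAC)
      exact h1.trans hl
  · intro u hu
    have h1 := O.K.foldS_isPath hact C.reverse U hU α γ hα hγ hu
    rw [hgW] at h1
    exact h1

end Crest.Agent.NoFixedPrice.MainLoop
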