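import Mathlib

/-!
# Tree bilinear form bound (row 191, S0291; spectral input of the no-fixed-price proof).

Pure combinatorics, no measure.  Words `a i : ℕ → α` (positions `p < L`) in positive letters,
with each letter at most once per word and each ordered pair of consecutive letters occurring
at most once among all words.  `pre a i p` is the left-multiplied prefix:
`pre a i 0 = 1`, `pre a i (p+1) = of (a i p) * pre a i p`.

For a set `Ω` with an action of the free group and an equivariant coordinate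
`coord : Ω → FreeGroup α` the bilinear form
`∑ i, ∑ p < L, ∑ ω ∈ T, A i ω * B (a i p) (pre a i p • ω)`
is bounded by `(√(2 d) + √L) ‖A‖₂ ‖B‖₂`.
-/

set_option autoImplicit false

namespace Crest.Agent.NoFixedPrice

open FreeGroup Finset

set_option linter.unusedSectionVars false

variable {α ι Ω : Type*} [DecidableEq α]

/-- Left-multiplied prefix of the `i`-th word. -/
def pre (a : ι → ℕ → α) (i : ι) : ℕ → FreeGroup α
  | 0 => 1
  | p + 1 => of (a i p) * pre a i p

@[simp] lemma pre_zero (a : ι → ℕ → α) (i : ι) : pre a i 0 = 1 := rfl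
lemma pre_succ (a : ι → ℕ → α) (i : ι) (p : ℕ) : pre a i (p + 1) = of (a i p) * pre a i p := rfl

/-- Left multiplication by a positive letter on reduced words. -/
lemma toWord_of_mul (c : α) (v : FreeGroup α) :
    (of c * v).toWord =
      match v.toWord with
      | [] => [(c, true)]
      | hd :: tl => if c = hd.1 ∧ true = !hd.2 then tl else (c, true) :: hd :: tl := by
  rw [toWord_mul, toWord_of]
  show reduce ((c, true) :: v.toWord) = _
  rw [reduce.cons, reduce_toWord]
  cases v.toWord <;> rfl

/-- The step by letter `c` at `v` falls if the reduced word of `v` starts with `c⁻¹`. -/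
def Falls (c : α) (v : FreeGroup α) : Prop := v.toWord.head? = some (c, false)

instance (c : α) (v : FreeGroup α) : Decidable (Falls c v) := by
  unfold Falls; infer_instance

lemma toWord_of_mul_of_not_falls {c : α} {v : FreeGroup α} (h : ¬ Falls c v) :
    (of c * v).toWord = (c, true) :: v.toWord := by
  rw [toWord_of_mul]
  cases hv : v.toWord with
  | nil => simp
  | cons hd tl =>
    obtain ⟨x, b⟩ := hd
    simp only [Falls, hv, List.head?_cons, Option.some.injEq, Prod.mk.injEq, not_and] at h
    by_cases hx : c = x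
    · subst hx
      have hb : b = true := by
        cases b
        · exact absurd rfl (h rfl)
        · rfl
      subst hb
      simp
    · simp [hx]

lemma toWord_of_mul_of_falls {c : α} {v : FreeGroup α} (h : Falls c v) :
    (of c * v).toWord = v.toWord.tail := by
  rw [toWord_of_mul]
  cases hv : v.toWord with
  | nil => simp [Falls, hv] at h
  | cons hd tl =>
    simp only [Falls, hv, List.head?_cons, Option.some.injEq] at h
    subst h
    simp

/-- After a rising step the next step rises as well. -/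
lemma not_falls_of_not_falls {c e : α} {v : FreeGroup α} (h : ¬ Falls c v) :
    ¬ Falls e (of c * v) := by
  simp [Falls, toWord_of_mul_of_not_falls h]

section Word

variable (a : ι → ℕ → α) (i : ι) (v₀ : FreeGroup α)

/-- The position on the geodesic of the cell based at `v₀`. -/
def vert (p : ℕ) : FreeGroup α := pre a i p * v₀

lemma vert_succ (p : ℕ) : vert a i v₀ (p + 1) = of (a i p) * vert a i v₀ p := by
  simp [vert, pre_succ, mul_assoc]

/-- Step `p` falls. -/
def StepFalls (p : ℕ) : Prop := Falls (a i p) (vert a i v₀ p)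

instance (p : ℕ) : Decidable (StepFalls a i v₀ p) := by unfold StepFalls; infer_instance

lemma rises_mono {p q : ℕ} (hpq : p ≤ q) (h : ¬ StepFalls a i v₀ p) : ¬ StepFalls a i v₀ q := by
  induction q, hpq using Nat.le_induction with
  | base => exact h
  | succ q _ ih =>
    unfold StepFalls at ih ⊢
    rw [vert_succ]
    exact not_falls_of_not_falls ih

/-- Near steps: first rising or last falling step. -/
def Near (L p : ℕ) : Prop :=
  (¬ StepFalls a i v₀ p ∧ (p = 0 ∨ StepFalls a i v₀ (p - 1))) ∨
  (StepFalls a i v₀ p ∧ (p + 1 = L ∨ ¬ StepFalls a i v₀ (p + 1)))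

instance (L p : ℕ) : Decidable (Near a i v₀ L p) := by unfold Near; infer_instance

lemma card_near_le (L : ℕ) :
    ((range L).filter (fun p => Near a i v₀ L p)).card ≤ 2 := by
  classical
  have hsplit : (range L).filter (fun p => Near a i v₀ L p) ⊆
      (range L).filter (fun p => ¬ StepFalls a i v₀ p ∧ (p = 0 ∨ StepFalls a i v₀ (p - 1))) ∪
      (range L).filter (fun p => StepFalls a i v₀ p ∧ (p + 1 = L ∨ ¬ StepFalls a i v₀ (p + 1))) := by
    intro p hp
    rw [mem_filter] at hp
    rw [mem_union, mem_filter, mem_filter]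
    have h2 : Near a i v₀ L p := hp.2
    unfold Near at h2
    rcases h2 with h | h
    · exact Or.inl ⟨hp.1, h⟩
    · exact Or.inr ⟨hp.1, h⟩
  refine (card_le_card hsplit).trans ((card_union_le _ _).trans ?_)
  have h1 : ((range L).filter
      (fun p => ¬ StepFalls a i v₀ p ∧ (p = 0 ∨ StepFalls a i v₀ (p - 1)))).card ≤ 1 := by
    rw [card_le_one]
    intro p hp q hq
    simp only [mem_filter] at hp hq
    by_contra hne
    wlog hlt : p < q generalizing p q
    · exact this q p hq hp (Ne.symm hne) (lt_of_le_of_ne (not_lt.mp hlt) (Ne.symm hne))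
    rcases hq.2.2 with h0 | h
    · omega
    · exact rises_mono a i v₀ (by omega : p ≤ q - 1) hp.2.1 h
  have h2 : ((range L).filter
      (fun p => StepFalls a i v₀ p ∧ (p + 1 = L ∨ ¬ StepFalls a i v₀ (p + 1)))).card ≤ 1 := by
    rw [card_le_one]
    intro p hp q hq
    simp only [mem_filter, mem_range] at hp hq
    by_contra hne
    wlog hlt : p < q generalizing p q
    · exact this q p hq hp (Ne.symm hne) (lt_of_le_of_ne (not_lt.mp hlt) (Ne.symm hne))
    rcases hp.2.2 with h0 | h
    · omega
    · exact rises_mono a i v₀ (by omega : p + 1 ≤ q) h hq.2.1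
  omega

end Word

section Main

variable [Fintype ι] [Fintype α] [DecidableEq ι] [DecidableEq Ω]
variable [MulAction (FreeGroup α) Ω]

/-- Cauchy–Schwarz over a finset in the form used below. -/
lemma abs_sum_mul_le_of_le {S : Type*} (s : Finset S) (f g : S → ℝ) {X Y : ℝ}
    (hX : ∑ x ∈ s, f x ^ 2 ≤ X) (hY : ∑ x ∈ s, g x ^ 2 ≤ Y) :
    |∑ x ∈ s, f x * g x| ≤ Real.sqrt X * Real.sqrt Y := by
  have h := Real.sum_mul_le_sqrt_mul_sqrt s (fun x => |f x|) (fun x => |g x|)
  simp only [sq_abs] at h
  calc |∑ x ∈ s, f x * g x| ≤ ∑ x ∈ s, |f x * g x| := abs_sum_le_sum_abs _ _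
    _ = ∑ x ∈ s, |f x| * |g x| := by simp [abs_mul]
    _ ≤ Real.sqrt (∑ x ∈ s, f x ^ 2) * Real.sqrt (∑ x ∈ s, g x ^ 2) := h
    _ ≤ Real.sqrt X * Real.sqrt Y :=
        mul_le_mul (Real.sqrt_le_sqrt hX) (Real.sqrt_le_sqrt hY) (Real.sqrt_nonneg _)
          (Real.sqrt_nonneg _)

/-- A sum of nonnegative values along a map injective on `s`, of a function vanishing off `u`. -/
lemma sum_comp_le_of_injOn {S U : Type*} [DecidableEq U] (s : Finset S) (u : Finset U)
    (φ : S → U) (hφ : Set.InjOn φ s) (h : U → ℝ) (h0 : ∀ y, 0 ≤ h y) (hu : ∀ y, y ∉ u → h y = 0) :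
    ∑ x ∈ s, h (φ x) ≤ ∑ y ∈ u, h y := by
  classical
  have : ∑ x ∈ s, h (φ x) = ∑ y ∈ s.image φ, h y := (sum_image hφ).symm
  rw [this]
  calc ∑ y ∈ s.image φ, h y = ∑ y ∈ (s.image φ).filter (· ∈ u), h y := by
        rw [sum_filter]
        refine sum_congr rfl (fun y _ => ?_)
        by_cases hy : y ∈ u
        · simp [hy]
        · simp [hy, hu y hy]
    _ ≤ ∑ y ∈ u, h y := by
        refine sum_le_sum_of_subset_of_nonneg ?_ (fun y _ _ => h0 y)
        intro y hy
        exact (mem_filter.mp hy).2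

/-- **The tree bilinear bound.** -/
theorem tree_form_bound
    (L : ℕ) (a : ι → ℕ → α)
    (hinj : ∀ i, ∀ p < L, ∀ q < L, a i p = a i q → p = q)
    (hpair : ∀ i i' p p', p + 1 < L → p' + 1 < L → a i p = a i' p' →
      a i (p + 1) = a i' (p' + 1) → i = i' ∧ p = p')
    (coord : Ω → FreeGroup α) (hcoord : ∀ (g : FreeGroup α) (ω : Ω), coord (g • ω) = g * coord ω)
    (T T' : Finset Ω) (A : ι → Ω → ℝ) (B : α → Ω → ℝ)
    (hB : ∀ j z, z ∉ T' → B j z = 0) :
    |∑ i, ∑ p ∈ range L, ∑ ω ∈ T, A i ω * B (a i p) (pre a i p • ω)| ≤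
      (Real.sqrt (2 * Fintype.card ι) + Real.sqrt L) *
        (Real.sqrt (∑ i, ∑ ω ∈ T, A i ω ^ 2) * Real.sqrt (∑ j, ∑ z ∈ T', B j z ^ 2)) := by
  classical
  set NA : ℝ := ∑ i, ∑ ω ∈ T, A i ω ^ 2 with hNA
  set NB : ℝ := ∑ j, ∑ z ∈ T', B j z ^ 2 with hNB
  have hNA0 : 0 ≤ NA := sum_nonneg fun _ _ => sum_nonneg fun _ _ => sq_nonneg _
  have hNB0 : 0 ≤ NB := sum_nonneg fun _ _ => sum_nonneg fun _ _ => sq_nonneg _
  -- index set
  let S : Finset (ι × ℕ × Ω) := univ ×ˢ (range L ×ˢ T)
  let f : ι × ℕ × Ω → ℝ := fun x => A x.1 x.2.2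
  let g : ι × ℕ × Ω → ℝ := fun x => B (a x.1 x.2.1) (pre a x.1 x.2.1 • x.2.2)
  let near : ι × ℕ × Ω → Prop := fun x => Near a x.1 (coord x.2.2) L x.2.1
  have hsum : ∑ i, ∑ p ∈ range L, ∑ ω ∈ T, A i ω * B (a i p) (pre a i p • ω) =
      ∑ x ∈ S, f x * g x := by
    simp only [S, f, g, sum_product]
  rw [hsum]
  -- the map to edges
  let φ : ι × ℕ × Ω → α × Ω := fun x => (a x.1 x.2.1, pre a x.1 x.2.1 • x.2.2)
  let hB2 : α × Ω → ℝ := fun y => B y.1 y.2 ^ 2
  have hB2_sum : ∑ y ∈ (univ : Finset α) ×ˢ T', hB2 y = NB := by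
    simp only [sum_product, hB2, hNB]
  have hB2_zero : ∀ y, y ∉ (univ : Finset α) ×ˢ T' → hB2 y = 0 := by
    rintro ⟨j, z⟩ hy
    have : z ∉ T' := by simpa using hy
    simp [hB2, hB j z this]
  have hB2_nonneg : ∀ y, 0 ≤ hB2 y := fun y => sq_nonneg _
  have hgφ : ∀ x, g x ^ 2 = hB2 (φ x) := fun x => rfl
  -- (1) all of g, per word
  have hg_all : ∑ x ∈ S, g x ^ 2 ≤ Fintype.card ι * NB := by
    have : ∑ x ∈ S, g x ^ 2 = ∑ i, ∑ x ∈ range L ×ˢ T, hB2 (φ (i, x)) := by
      simp only [S, sum_product, hgφ]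
    rw [this]
    calc ∑ i, ∑ x ∈ range L ×ˢ T, hB2 (φ (i, x)) ≤ ∑ _i : ι, NB := by
          refine sum_le_sum (fun i _ => ?_)
          rw [← hB2_sum]
          refine sum_comp_le_of_injOn (range L ×ˢ T) ((univ : Finset α) ×ˢ T')
            (fun x => φ (i, x)) ?_ hB2 hB2_nonneg hB2_zero
          rintro ⟨p, ω⟩ hx ⟨q, ω'⟩ hy hxy
          simp only [coe_product, Set.mem_prod, mem_coe, mem_range] at hx hy
          simp only [φ, Prod.mk.injEq] at hxy
          have hpq : p = q := hinj i p hx.1 q hy.1 hxy.1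
          subst hpq
          have : ω = ω' := smul_left_cancel _ hxy.2
          rw [this]
      _ = Fintype.card ι * NB := by simp
  -- (2) all of f
  have hf_all : ∑ x ∈ S, f x ^ 2 = L * NA := by
    simp only [S, f, sum_product, sum_const, card_range, nsmul_eq_mul, hNA, mul_sum]
  -- (3) near part of f
  have hf_near : ∑ x ∈ S.filter near, f x ^ 2 ≤ 2 * NA := by
    have : ∑ x ∈ S.filter near, f x ^ 2 =
        ∑ i, ∑ ω ∈ T, ((range L).filter (fun p => Near a i (coord ω) L p)).card * A i ω ^ 2 := by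
      rw [sum_filter]
      simp only [S, sum_product, f, near]
      refine sum_congr rfl fun i _ => ?_
      rw [sum_comm]
      refine sum_congr rfl fun ω _ => ?_
      rw [← sum_filter, sum_const, nsmul_eq_mul]
    rw [this, hNA, mul_sum]
    refine sum_le_sum fun i _ => ?_
    rw [mul_sum]
    refine sum_le_sum fun ω _ => ?_
    refine mul_le_mul_of_nonneg_right ?_ (sq_nonneg _)
    exact_mod_cast card_near_le a i (coord ω) L
  -- (4) non-near part of g: injective to edges
  have hinj_far : Set.InjOn φ (S.filter (fun x => ¬ near x) : Finset _) := by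
    rintro ⟨i, p, ω⟩ hx ⟨i', p', ω'⟩ hy hxy
    simp only [coe_filter, Set.mem_ofPred_eq, S, mem_product, mem_univ, true_and, mem_range,
      near] at hx hy
    obtain ⟨⟨hp, hω⟩, hn⟩ := hx
    obtain ⟨⟨hp', hω'⟩, hn'⟩ := hy
    simp only [φ, Prod.mk.injEq] at hxy
    obtain ⟨hlet, hz⟩ := hxy
    have hvert : vert a i (coord ω) p = vert a i' (coord ω') p' := by
      have := congrArg coord hz
      simpa [hcoord, vert] using this
    -- classify
    have key : i = i' ∧ p = p' := by
      by_cases hfall : StepFalls a i (coord ω) p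
      · -- falling
        have hfall' : StepFalls a i' (coord ω') p' := by
          unfold StepFalls at hfall ⊢
          rw [← hvert, ← hlet]; exact hfall
        simp only [Near, not_or, not_and, not_not] at hn hn'
        have h1 := hn.2 hfall
        have h2 := hn'.2 hfall'
        have hw : vert a i (coord ω) (p + 1) = vert a i' (coord ω') (p' + 1) := by
          rw [vert_succ, vert_succ, hvert, hlet]
        have hfn := h1.2
        have hfn' := h2.2
        unfold StepFalls at hfn hfn'
        rw [← hw] at hfn'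
        have : a i (p + 1) = a i' (p' + 1) := by
          unfold Falls at hfn hfn'
          rw [hfn] at hfn'
          simpa using hfn'
        exact hpair i i' p p' (by omega) (by omega) hlet this
      · -- rising
        have hrise' : ¬ StepFalls a i' (coord ω') p' := by
          unfold StepFalls at hfall ⊢
          rw [← hvert, ← hlet]; exact hfall
        simp only [Near, not_or, not_and, not_not] at hn hn'
        have h1 := hn.1 hfall
        have h2 := hn'.1 hrise'
        obtain ⟨q, rfl⟩ : ∃ q, p = q + 1 := ⟨p - 1, by omega⟩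
        obtain ⟨q', rfl⟩ : ∃ q', p' = q' + 1 := ⟨p' - 1, by omega⟩
        simp only [Nat.add_sub_cancel] at h1 h2
        have hv1 : (vert a i (coord ω) (q + 1)).toWord.head? = some (a i q, true) := by
          rw [vert_succ, toWord_of_mul_of_not_falls h1.2]; rfl
        have hv2 : (vert a i' (coord ω') (q' + 1)).toWord.head? = some (a i' q', true) := by
          rw [vert_succ, toWord_of_mul_of_not_falls h2.2]; rfl
        rw [hvert, hv2] at hv1
        have hq : a i q = a i' q' := by simpa using hv1.symm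
        obtain ⟨h3, h4⟩ := hpair i i' q q' hp hp' hq hlet
        exact ⟨h3, by omega⟩
    obtain ⟨rfl, rfl⟩ := key
    have : ω = ω' := smul_left_cancel _ hz
    rw [this]
  have hg_far : ∑ x ∈ S.filter (fun x => ¬ near x), g x ^ 2 ≤ NB := by
    rw [← hB2_sum]
    exact sum_comp_le_of_injOn _ _ φ hinj_far hB2 hB2_nonneg hB2_zero
  -- combine
  have hsplit : ∑ x ∈ S, f x * g x =
      ∑ x ∈ S.filter near, f x * g x + ∑ x ∈ S.filter (fun x => ¬ near x), f x * g x :=
    (sum_filter_add_sum_filter_not S near _).symm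
  have hnear_bd : |∑ x ∈ S.filter near, f x * g x| ≤
      Real.sqrt (2 * NA) * Real.sqrt (Fintype.card ι * NB) := by
    refine abs_sum_mul_le_of_le _ f g hf_near ?_
    refine le_trans (sum_le_sum_of_subset_of_nonneg (filter_subset _ _) ?_) hg_all
    exact fun _ _ _ => sq_nonneg _
  have hfar_bd : |∑ x ∈ S.filter (fun x => ¬ near x), f x * g x| ≤
      Real.sqrt (L * NA) * Real.sqrt NB := by
    refine abs_sum_mul_le_of_le _ f g ?_ hg_far
    rw [← hf_all]
    refine sum_le_sum_of_subset_of_nonneg (filter_subset _ _) ?_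
    exact fun _ _ _ => sq_nonneg _
  have hd0 : (0 : ℝ) ≤ Fintype.card ι := by positivity
  have hL0 : (0 : ℝ) ≤ L := by positivity
  have e1 : Real.sqrt (2 * NA) * Real.sqrt (Fintype.card ι * NB) =
      Real.sqrt (2 * Fintype.card ι) * (Real.sqrt NA * Real.sqrt NB) := by
    rw [Real.sqrt_mul (by norm_num : (0:ℝ) ≤ 2), Real.sqrt_mul hd0,
      Real.sqrt_mul (by norm_num : (0:ℝ) ≤ 2)]
    ring
  have e2 : Real.sqrt (L * NA) * Real.sqrt NB = Real.sqrt L * (Real.sqrt NA * Real.sqrt NB) := by
    rw [Real.sqrt_mul hL0]; ring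
  rw [hsplit]
  calc |∑ x ∈ S.filter near, f x * g x + ∑ x ∈ S.filter (fun x => ¬ near x), f x * g x|
      ≤ |∑ x ∈ S.filter near, f x * g x| + |∑ x ∈ S.filter (fun x => ¬ near x), f x * g x| :=
        abs_add_le _ _
    _ ≤ Real.sqrt (2 * NA) * Real.sqrt (Fintype.card ι * NB) + Real.sqrt (L * NA) * Real.sqrt NB :=
        add_le_add hnear_bd hfar_bd
    _ = _ := by rw [e1, e2]; ring

end Main

end Crest.Agent.NoFixedPrice
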