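import Mathlib
import Crest.Prelude.Def_Cost
import Crest.Agent.Lib.NoFixedPrice.Bernoulli

/-!
# M1: the action with cost close to one (row 191, S0291).

Abstract statement.  `Γ` has a homomorphism `e` to `ℤ`, a stable letter `t` with `e t = 1`, and
letters `x i` in the kernel of `e`, generating together, and with `t⁻¹ (x i) t ∈ ⟨x⟩`.
Let `Γ` act on `ZMod M' × X`, where `X` is any free pmp action, by
`g (j, u) = (j + e g, g u)`.  The graphing `t` everywhere plus `x i` on the fibre `j = 0` generates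
(everywhere), and costs `1 + d / M'`.
-/

set_option autoImplicit false
set_option warn.classDefReducibility false

namespace Crest.Agent.NoFixedPrice

open MeasureTheory Measure Crest.Dynamics

section

variable {Γ : Type} [Group Γ]

/-- The cyclic factor with its discrete σ-algebra, remembering `e` so that the action is an
instance. -/
def Cy (M' : ℕ) (_e : Γ →* Multiplicative ℤ) : Type := ZMod M'

variable (M' : ℕ) (e : Γ →* Multiplicative ℤ)

instance : AddCommGroup (Cy M' e) := inferInstanceAs (AddCommGroup (ZMod M'))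
instance : MeasurableSpace (Cy M' e) := ⊤
instance : DiscreteMeasurableSpace (Cy M' e) := ⟨fun _ => trivial⟩
noncomputable instance [NeZero M'] : Fintype (Cy M' e) := inferInstanceAs (Fintype (ZMod M'))
instance [NeZero M'] : StandardBorelSpace (Cy M' e) := inferInstance

/-- The uniform probability measure on `Cy M'`. -/
noncomputable def cyUnif : Measure (Cy M' e) := (M' : ENNReal)⁻¹ • Measure.count

lemma cy_card [NeZero M'] : Fintype.card (Cy M' e) = M' := ZMod.card M'

instance [NeZero M'] : IsProbabilityMeasure (cyUnif M' e) := ⟨by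
  classical
  have h0 : (M' : ENNReal) ≠ 0 := by simpa using NeZero.ne M'
  have h1 : (M' : ENNReal) ≠ ⊤ := ENNReal.natCast_ne_top M'
  have : Measure.count (Set.univ : Set (Cy M' e)) = (M' : ENNReal) := by
    rw [← Finset.coe_univ, Measure.count_apply_finset, Finset.card_univ, cy_card]
  simp [cyUnif, this, ENNReal.inv_mul_cancel h0 h1]⟩

lemma cyUnif_singleton [NeZero M'] (j : Cy M' e) : cyUnif M' e {j} = (M' : ENNReal)⁻¹ := by
  simp [cyUnif]

lemma cyUnif_translate [NeZero M'] (a : Cy M' e) :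
    MeasurePreserving (fun j : Cy M' e => a + j) (cyUnif M' e) (cyUnif M' e) := by
  classical
  refine ⟨measurable_of_countable _, ?_⟩
  ext s _
  rw [Measure.map_apply (measurable_of_countable _) (DiscreteMeasurableSpace.forall_measurableSet s)]
  simp only [cyUnif, Measure.smul_apply, smul_eq_mul]
  congr 1
  have hs : (fun j : Cy M' e => a + j) ⁻¹' s = ((Equiv.addLeft a).symm '' s) := by
    ext j
    simp
  rw [hs]
  exact Measure.count_injective_image (Equiv.injective _) s

/-- The `Cy` coordinate of an element of `Γ`. -/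
def eCy (g : Γ) : Cy M' e :=
  (((Multiplicative.toAdd (e g) : ℤ) : ZMod M') : ZMod M')

lemma eCy_one : eCy M' e 1 = 0 := by
  show (((Multiplicative.toAdd (e 1) : ℤ) : ZMod M') : ZMod M') = (0 : ZMod M')
  simp

lemma eCy_mul (g h : Γ) : eCy M' e (g * h) = eCy M' e g + eCy M' e h := by
  show (((Multiplicative.toAdd (e (g * h)) : ℤ) : ZMod M') : ZMod M') =
    ((Multiplicative.toAdd (e g) : ℤ) : ZMod M') + ((Multiplicative.toAdd (e h) : ℤ) : ZMod M')
  simp

instance : MulAction Γ (Cy M' e) where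
  smul g j := eCy M' e g + j
  one_smul y := by
    show eCy M' e 1 + y = y
    rw [eCy_one, zero_add]
  mul_smul g h y := by
    show eCy M' e (g * h) + y = eCy M' e g + (eCy M' e h + y)
    rw [eCy_mul, add_assoc]

lemma cysmul_def (g : Γ) (j : Cy M' e) : g • j = eCy M' e g + j := rfl

variable {X : Type}

variable {M' e}

theorem y_isFree [NeZero M'] [MeasurableSpace X] (μ : Measure X) [IsProbabilityMeasure μ]
    [MulAction Γ X] (hfree : IsFreePMPAction Γ X μ) :
    IsFreePMPAction Γ (Cy M' e × X) ((cyUnif M' e).prod μ) := by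
  constructor
  · intro g
    exact (cyUnif_translate M' e (eCy M' e g)).prod (hfree.1 g)
  · intro g hg
    have hsub : {y : Cy M' e × X | g • y = y} ⊆ (Set.univ : Set (Cy M' e)) ×ˢ {u : X | g • u = u} := by
      intro y hy
      refine ⟨trivial, ?_⟩
      exact congrArg Prod.snd hy
    refine measure_mono_null hsub ?_
    rw [Measure.prod_prod, hfree.2 g hg, mul_zero]

/-- The generating graphing. -/
def yGraphing {d : ℕ} (t : Γ) (x : Fin d → Γ) : ℕ → Γ × Set (Cy M' e × X)
  | 0 => (t, Set.univ)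
  | (i + 1) => if h : i < d then (x ⟨i, h⟩, ({0} : Set (Cy M' e)) ×ˢ (Set.univ : Set X)) else (1, ∅)

lemma yGraphing_measurable [MeasurableSpace X] {d : ℕ} (t : Γ) (x : Fin d → Γ) (n : ℕ) :
    MeasurableSet ((yGraphing (M' := M') (e := e) (X := X) t x n).2) := by
  cases n with
  | zero => exact MeasurableSet.univ
  | succ i =>
    by_cases h : i < d
    · simp only [yGraphing, h, dif_pos]
      exact (DiscreteMeasurableSpace.forall_measurableSet _).prod MeasurableSet.univ
    · simp [yGraphing, h]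

lemma yGraphing_cost [NeZero M'] [MeasurableSpace X] (μ : Measure X) [IsProbabilityMeasure μ] {d : ℕ}
    (t : Γ) (x : Fin d → Γ) :
    graphingCost ((cyUnif M' e).prod μ) (yGraphing (M' := M') (e := e) (X := X) t x) = 1 + d / M' := by
  classical
  unfold graphingCost
  have hzero : ∀ n ∉ Finset.range (d + 1),
      ((cyUnif M' e).prod μ) (yGraphing (M' := M') (e := e) (X := X) t x n).2 = 0 := by
    intro n hn
    cases n with
    | zero => simp at hn
    | succ i =>
      have : ¬ i < d := by simpa using hn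
      simp [yGraphing, this]
  rw [tsum_eq_sum hzero, Finset.sum_range_succ']
  have hfib : ∀ i ∈ Finset.range d,
      ((cyUnif M' e).prod μ) (yGraphing (M' := M') (e := e) (X := X) t x (i + 1)).2 = (M' : ENNReal)⁻¹ := by
    intro i hi
    have hi' : i < d := Finset.mem_range.mp hi
    simp only [yGraphing, hi', dif_pos]
    rw [Measure.prod_prod, cyUnif_singleton, measure_univ, mul_one]
  rw [Finset.sum_congr rfl hfib]
  simp only [Finset.sum_const, Finset.card_range, nsmul_eq_mul]
  have h1 : ((cyUnif M' e).prod μ) (yGraphing (M' := M') (e := e) (X := X) t x 0).2 = 1 := by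
    simp [yGraphing]
  rw [h1, add_comm, div_eq_mul_inv]

section generation

variable {d : ℕ} {t : Γ} {x : Fin d → Γ} [MulAction Γ X]

local notation "Rel" => Relation.EqvGen (GraphingStep (yGraphing (M' := M') (e := e) (X := X) t x))

lemma rel_t (y : Cy M' e × X) : Rel y (t • y) :=
  Relation.EqvGen.rel _ _ ⟨0, trivial, rfl⟩

lemma rel_x_fibre (i : Fin d) (y : Cy M' e × X) (hy : y.1 = 0) : Rel y (x i • y) := by
  refine Relation.EqvGen.rel _ _ ⟨i.1 + 1, ?_, ?_⟩
  · simp only [yGraphing, i.2, dif_pos]; exact ⟨hy, trivial⟩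
  · simp [yGraphing, i.2]

lemma rel_inv {g : Γ} (h : ∀ y : Cy M' e × X, Rel y (g • y)) (y : Cy M' e × X) : Rel y (g⁻¹ • y) := by
  have := h (g⁻¹ • y)
  rw [smul_inv_smul] at this
  exact Relation.EqvGen.symm _ _ this

lemma rel_mul {g h : Γ} (hg : ∀ y : Cy M' e × X, Rel y (g • y)) (hh : ∀ y : Cy M' e × X, Rel y (h • y))
    (y : Cy M' e × X) : Rel y ((g * h) • y) := by
  rw [mul_smul]
  exact Relation.EqvGen.trans _ _ _ (hh y) (hg _)

lemma rel_one (y : Cy M' e × X) : Rel y ((1 : Γ) • y) := by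
  rw [one_smul]; exact Relation.EqvGen.refl _

lemma rel_pow_t (k : ℕ) (y : Cy M' e × X) : Rel y ((t ^ k) • y) := by
  induction k generalizing y with
  | zero => rw [pow_zero]; exact rel_one y
  | succ k ih =>
    rw [pow_succ]
    exact rel_mul (g := t ^ k) (h := t) ih rel_t y

lemma eCy_eq_zero {g : Γ} (hg : e g = 1) : eCy M' e g = 0 := by
  show (((Multiplicative.toAdd (e g) : ℤ) : ZMod M') : ZMod M') = (0 : ZMod M')
  rw [hg]
  simp

lemma rel_inner (hex : ∀ i, e (x i) = 1) {h : Γ} (hh : h ∈ Subgroup.closure (Set.range x)) :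
    e h = 1 ∧ ∀ y : Cy M' e × X, y.1 = 0 → Rel y (h • y) := by
  induction hh using Subgroup.closure_induction with
  | mem a ha =>
    obtain ⟨i, rfl⟩ := ha
    exact ⟨hex i, fun y hy => rel_x_fibre i y hy⟩
  | one => exact ⟨map_one e, fun y _ => rel_one y⟩
  | mul a b _ _ iha ihb =>
    refine ⟨by rw [map_mul, iha.1, ihb.1, one_mul], fun y hy => ?_⟩
    rw [mul_smul]
    refine Relation.EqvGen.trans _ _ _ (ihb.2 y hy) (iha.2 _ ?_)
    show eCy M' e b + y.1 = 0
    rw [hy, add_zero, eCy_eq_zero ihb.1]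
  | inv a _ iha =>
    refine ⟨by rw [map_inv, iha.1, inv_one], fun y hy => ?_⟩
    have hea : e a⁻¹ = 1 := by rw [map_inv, iha.1, inv_one]
    have h1 : ((a⁻¹ • y).1 : Cy M' e) = 0 := by
      show eCy M' e a⁻¹ + y.1 = 0
      rw [hy, add_zero, eCy_eq_zero hea]
    have := iha.2 (a⁻¹ • y) h1
    rw [smul_inv_smul] at this
    exact Relation.EqvGen.symm _ _ this

/-- Conjugation by powers of `t⁻¹` preserves the subgroup generated by the letters. -/
lemma conj_pow_mem (hconj : ∀ i, t⁻¹ * x i * t ∈ Subgroup.closure (Set.range x)) (k : ℕ) (i : Fin d) :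
    (t ^ k)⁻¹ * x i * t ^ k ∈ Subgroup.closure (Set.range x) := by
  have hH : ∀ h ∈ Subgroup.closure (Set.range x), t⁻¹ * h * t ∈ Subgroup.closure (Set.range x) := by
    intro h hh
    induction hh using Subgroup.closure_induction with
    | mem a ha => obtain ⟨i, rfl⟩ := ha; exact hconj i
    | one => simp
    | mul a b _ _ iha ihb =>
      have : t⁻¹ * (a * b) * t = (t⁻¹ * a * t) * (t⁻¹ * b * t) := by group
      rw [this]
      exact Subgroup.mul_mem _ iha ihb
    | inv a _ iha =>
      have : t⁻¹ * a⁻¹ * t = (t⁻¹ * a * t)⁻¹ := by group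
      rw [this]
      exact Subgroup.inv_mem _ iha
  induction k with
  | zero =>
    have : x i ∈ Subgroup.closure (Set.range x) := Subgroup.subset_closure ⟨i, rfl⟩
    simpa using this
  | succ k ih =>
    have : (t ^ (k + 1))⁻¹ * x i * t ^ (k + 1) = t⁻¹ * ((t ^ k)⁻¹ * x i * t ^ k) * t := by
      rw [pow_succ]; group
    rw [this]
    exact hH _ ih

/-- Every point of the fibre of `j` goes down to the fibre `0` by a suitable power of `t⁻¹`. -/
lemma exists_pow_down [NeZero M'] (het : e t = Multiplicative.ofAdd 1) (j : Cy M' e) :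
    ∃ k : ℕ, ∀ y : Cy M' e × X, y.1 = j → ((t ^ k)⁻¹ • y).1 = (0 : Cy M' e) := by
  refine ⟨(show ZMod M' from j).val, fun y hy => ?_⟩
  show eCy M' e (t ^ (show ZMod M' from j).val)⁻¹ + y.1 = 0
  rw [hy]
  show (((Multiplicative.toAdd (e (t ^ (show ZMod M' from j).val)⁻¹) : ℤ) : ZMod M') : ZMod M') +
    (show ZMod M' from j) = (0 : ZMod M')
  rw [map_inv, map_pow, het, ← ofAdd_nsmul, ← ofAdd_neg]
  simp

lemma rel_x [NeZero M'] (het : e t = Multiplicative.ofAdd 1) (hex : ∀ i, e (x i) = 1)
    (hconj : ∀ i, t⁻¹ * x i * t ∈ Subgroup.closure (Set.range x)) (i : Fin d) (y : Cy M' e × X) :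
    Rel y (x i • y) := by
  obtain ⟨k, hk⟩ := exists_pow_down (X := X) het y.1
  have hdown := hk y rfl
  set z := (t ^ k)⁻¹ • y with hz
  have hyz : y = t ^ k • z := by rw [hz, smul_inv_smul]
  have hmem := conj_pow_mem hconj k i
  have h1 : Rel z (((t ^ k)⁻¹ * x i * t ^ k) • z) := (rel_inner hex hmem).2 z hdown
  have h2 : x i • y = t ^ k • (((t ^ k)⁻¹ * x i * t ^ k) • z) := by
    have : t ^ k * ((t ^ k)⁻¹ * x i * t ^ k) = x i * t ^ k := by group
    rw [← mul_smul, this, mul_smul, ← hyz]
  have h3 : Rel z y := by rw [hyz]; exact rel_pow_t k z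
  have h4 : Rel (((t ^ k)⁻¹ * x i * t ^ k) • z) (x i • y) := by rw [h2]; exact rel_pow_t k _
  exact Relation.EqvGen.trans _ _ _ (Relation.EqvGen.symm _ _ h3)
    (Relation.EqvGen.trans _ _ _ h1 h4)

theorem yGraphing_generates [NeZero M'] [MeasurableSpace X] (μ : Measure X)
    (het : e t = Multiplicative.ofAdd 1) (hex : ∀ i, e (x i) = 1)
    (hgen : Subgroup.closure (insert t (Set.range x)) = ⊤)
    (hconj : ∀ i, t⁻¹ * x i * t ∈ Subgroup.closure (Set.range x)) :
    Generates (Γ := Γ) ((cyUnif M' e).prod μ) (yGraphing (M' := M') (e := e) (X := X) t x) := by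
  refine ⟨yGraphing_measurable t x, ∅, measure_empty, fun y _ g => ?_⟩
  have hg : g ∈ Subgroup.closure (insert t (Set.range x)) := by rw [hgen]; trivial
  clear * - hg het hex hconj
  revert y
  induction hg using Subgroup.closure_induction with
  | mem a ha =>
    intro y
    rcases ha with rfl | ⟨i, rfl⟩
    · exact rel_t y
    · exact rel_x het hex hconj i y
  | one => exact rel_one
  | mul a b _ _ iha ihb => exact rel_mul iha ihb
  | inv a _ iha => exact rel_inv iha

end generation

/-- **M1.**  The abstract upper bound. -/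
theorem Y_cost_bound_of_free {d : ℕ} {X : Type} [MeasurableSpace X] [StandardBorelSpace X]
    (μ : Measure X) [IsProbabilityMeasure μ] [MulAction Γ X] (hfree : IsFreePMPAction Γ X μ)
    (e : Γ →* Multiplicative ℤ) (t : Γ) (x : Fin d → Γ)
    (het : e t = Multiplicative.ofAdd 1) (hex : ∀ i, e (x i) = 1)
    (hgen : Subgroup.closure (insert t (Set.range x)) = ⊤)
    (hconj : ∀ i, t⁻¹ * x i * t ∈ Subgroup.closure (Set.range x))
    (M' : ℕ) (hM' : 0 < M') :
    ∃ (Y : Type) (_ : MeasurableSpace Y) (_ : StandardBorelSpace Y) (ν : Measure Y)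
      (_ : IsProbabilityMeasure ν) (_ : MulAction Γ Y),
      IsFreePMPAction Γ Y ν ∧ actionCost Γ Y ν ≤ 1 + (d : ENNReal) / (M' : ENNReal) := by
  have : NeZero M' := ⟨hM'.ne'⟩
  refine ⟨Cy M' e × X, inferInstance, inferInstance, (cyUnif M' e).prod μ, inferInstance, inferInstance,
    y_isFree μ hfree, ?_⟩
  refine sInf_le ⟨yGraphing (M' := M') (e := e) (X := X) t x, ?_, ?_⟩
  · exact yGraphing_generates μ het hex hgen hconj
  · exact yGraphing_cost μ t x

/-- **M1, Bernoulli version.** -/
theorem Y_cost_bound [Countable Γ] [Infinite Γ] {d : ℕ}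
    (e : Γ →* Multiplicative ℤ) (t : Γ) (x : Fin d → Γ)
    (het : e t = Multiplicative.ofAdd 1) (hex : ∀ i, e (x i) = 1)
    (hgen : Subgroup.closure (insert t (Set.range x)) = ⊤)
    (hconj : ∀ i, t⁻¹ * x i * t ∈ Subgroup.closure (Set.range x))
    (M' : ℕ) (hM' : 0 < M') :
    ∃ (Y : Type) (_ : MeasurableSpace Y) (_ : StandardBorelSpace Y) (ν : Measure Y)
      (_ : IsProbabilityMeasure ν) (_ : MulAction Γ Y),
      IsFreePMPAction Γ Y ν ∧ actionCost Γ Y ν ≤ 1 + (d : ENNReal) / (M' : ENNReal) :=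
  Y_cost_bound_of_free (bernMu Γ)
    ⟨measurePreserving_bern_smul, bern_essentially_free⟩ e t x het hex hgen hconj M' hM'

/-- **M1 in the final form of the statement**: for every `M > 100` a free pmp action of cost at most
`1 + 99 / M` (any number `d ≥ 1` of letters: take `M' = d * M`). -/
theorem Y_final [Countable Γ] [Infinite Γ] {d : ℕ} (hd : 0 < d)
    (e : Γ →* Multiplicative ℤ) (t : Γ) (x : Fin d → Γ)
    (het : e t = Multiplicative.ofAdd 1) (hex : ∀ i, e (x i) = 1)
    (hgen : Subgroup.closure (insert t (Set.range x)) = ⊤)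
    (hconj : ∀ i, t⁻¹ * x i * t ∈ Subgroup.closure (Set.range x)) :
    ∀ M : ℕ, 100 < M →
      ∃ (Y : Type) (_ : MeasurableSpace Y) (_ : StandardBorelSpace Y) (ν : Measure Y)
        (_ : IsProbabilityMeasure ν) (_ : MulAction Γ Y),
        IsFreePMPAction Γ Y ν ∧ actionCost Γ Y ν ≤ 1 + 99 / (M : ENNReal) := by
  intro M hM
  obtain ⟨Y, i1, i2, ν, i3, i4, hfree, hcost⟩ :=
    Y_cost_bound e t x het hex hgen hconj (d * M) (Nat.mul_pos hd (by omega))
  refine ⟨Y, i1, i2, ν, i3, i4, hfree, hcost.trans ?_⟩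
  refine add_le_add_right ?_ 1
  have hd0 : (d : ENNReal) ≠ 0 := by exact_mod_cast hd.ne'
  have hdt : (d : ENNReal) ≠ ⊤ := ENNReal.natCast_ne_top d
  have hM0 : (M : ENNReal) ≠ 0 := by exact_mod_cast (by omega : M ≠ 0)
  rw [Nat.cast_mul, ENNReal.div_eq_inv_mul, ENNReal.mul_inv (Or.inl hd0) (Or.inl hdt)]
  calc (d : ENNReal)⁻¹ * (M : ENNReal)⁻¹ * d = ((d : ENNReal)⁻¹ * (d : ENNReal)) * (M : ENNReal)⁻¹ := by ring
    _ = 1 / M := by rw [ENNReal.inv_mul_cancel hd0 hdt, one_mul, one_div]
    _ ≤ 99 / M := by gcongr; norm_num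

end

end Crest.Agent.NoFixedPrice
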